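import Mathlib.LinearAlgebra.Pi
import Mathlib.Algebra.Ring.Pi
import Vale.Agent.P263.S.Core

/-!
# P263, block E: hand-rolled simplicial sets and their function cochains

`SS` : simplicial sets, `SS.Map` : simplicial maps, `SS.prod`, `SS.sum`, and
`SS.F R X : CosMod R`, the cosimplicial module of `R`-valued functions on the simplices of `X`.
-/

namespace Vale.Agent.P263.E

open Vale.Agent.P263.S

/-- Simplicial sets, hand-rolled. -/
structure SS where
  /-- the simplices -/
  obj : ℕ → Type
  /-- the action of the monotone maps `[p] → [q]` -/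
  map : ∀ {p q : ℕ}, Op p q → obj q → obj p
  map_id : ∀ {p : ℕ} (x : obj p), map (OrderHom.id : Op p p) x = x
  map_comp : ∀ {p q r : ℕ} (f : Op q r) (g : Op p q) (x : obj r),
    map (f.comp g) x = map g (map f x)

namespace SS

/-- Simplicial maps. -/
structure Map (X Y : SS) where
  /-- the components -/
  app : ∀ {p : ℕ}, X.obj p → Y.obj p
  nat : ∀ {p q : ℕ} (f : Op p q) (x : X.obj q), app (X.map f x) = Y.map f (app x)

namespace Map

@[ext] theorem ext {X Y : SS} {f g : Map X Y} (h : ∀ (p : ℕ) (x : X.obj p), f.app x = g.app x) :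
    f = g := by
  cases f; cases g
  congr
  funext p x
  exact h p x

/-- the identity -/
def id (X : SS) : Map X X := ⟨fun x => x, fun _ _ => rfl⟩

/-- the composite `g ∘ f` -/
def comp {X Y W : SS} (g : Map Y W) (f : Map X Y) : Map X W :=
  ⟨fun x => g.app (f.app x), fun a x => by rw [f.nat, g.nat]⟩

@[simp] theorem id_app {X : SS} {p : ℕ} (x : X.obj p) : (id X).app x = x := rfl

@[simp] theorem comp_app {X Y W : SS} (g : Map Y W) (f : Map X Y) {p : ℕ} (x : X.obj p) :
    (g.comp f).app x = g.app (f.app x) := rfl

/-- levelwise injective simplicial maps -/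
def Inj {X Y : SS} (f : Map X Y) : Prop := ∀ p, Function.Injective (f.app (p := p))

end Map

/-- the product -/
def prod (X Y : SS) : SS where
  obj p := X.obj p × Y.obj p
  map f x := (X.map f x.1, Y.map f x.2)
  map_id x := by rw [X.map_id, Y.map_id]
  map_comp f g x := by rw [X.map_comp, Y.map_comp]

/-- first projection -/
def fst (X Y : SS) : Map (X.prod Y) X := ⟨fun x => x.1, fun _ _ => rfl⟩

/-- second projection -/
def snd (X Y : SS) : Map (X.prod Y) Y := ⟨fun x => x.2, fun _ _ => rfl⟩

/-- the map into a product -/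
def pair {W X Y : SS} (f : Map W X) (g : Map W Y) : Map W (X.prod Y) :=
  ⟨fun x => (f.app x, g.app x), fun a x => by rw [f.nat, g.nat]; rfl⟩

@[simp] theorem fst_app {X Y : SS} {p : ℕ} (x : (X.prod Y).obj p) : (fst X Y).app x = x.1 := rfl

@[simp] theorem snd_app {X Y : SS} {p : ℕ} (x : (X.prod Y).obj p) : (snd X Y).app x = x.2 := rfl

@[simp] theorem pair_app {W X Y : SS} (f : Map W X) (g : Map W Y) {p : ℕ} (x : W.obj p) :
    (pair f g).app x = (f.app x, g.app x) := rfl

@[simp] theorem prod_map {X Y : SS} {p q : ℕ} (f : Op p q) (x : (X.prod Y).obj q) :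
    (X.prod Y).map f x = (X.map f x.1, Y.map f x.2) := rfl

/-- the disjoint union -/
def sum (X Y : SS) : SS where
  obj p := X.obj p ⊕ Y.obj p
  map f := Sum.map (X.map f) (Y.map f)
  map_id x := by cases x <;> simp [X.map_id, Y.map_id]
  map_comp f g x := by cases x <;> simp [X.map_comp, Y.map_comp]

/-- left inclusion -/
def inl (X Y : SS) : Map X (X.sum Y) := ⟨fun x => Sum.inl x, fun _ _ => rfl⟩

/-- right inclusion -/
def inr (X Y : SS) : Map Y (X.sum Y) := ⟨fun x => Sum.inr x, fun _ _ => rfl⟩

/-- the map out of a disjoint union -/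
def copair {X Y W : SS} (f : Map X W) (g : Map Y W) : Map (X.sum Y) W :=
  ⟨fun x => Sum.elim f.app g.app x, fun a x => by
    cases x with
    | inl x => exact f.nat a x
    | inr x => exact g.nat a x⟩

@[simp] theorem copair_inl {X Y W : SS} (f : Map X W) (g : Map Y W) {p : ℕ} (x : X.obj p) :
    (copair f g).app ((inl X Y).app x) = f.app x := rfl

@[simp] theorem copair_inr {X Y W : SS} (f : Map X W) (g : Map Y W) {p : ℕ} (x : Y.obj p) :
    (copair f g).app ((inr X Y).app x) = g.app x := rfl

/-- the one-point simplicial set -/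
def pt : SS where
  obj _ := Unit
  map _ x := x
  map_id _ := rfl
  map_comp _ _ _ := rfl

/-- the map to the point -/
def toPt (X : SS) : Map X pt := ⟨fun _ => (), fun _ _ => rfl⟩

variable (R : Type) [CommRing R]

/-- The cosimplicial module of `R`-valued functions on the simplices of `X`. -/
def F (X : SS) : CosMod R where
  obj p := X.obj p → R
  map f :=
    { toFun := fun c x => c (X.map f x)
      map_add' := fun _ _ => rfl
      map_smul' := fun _ _ => rfl }
  map_id := by
    intro p
    ext c x
    exact congrArg c (X.map_id x)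
  map_comp f g := by
    ext c x
    exact congrArg c (X.map_comp f g x)

variable {R}

@[simp] theorem F_map {X : SS} {p q : ℕ} (f : Op p q) (c : (F R X).obj p) (x : X.obj q) :
    (F R X).map f c x = c (X.map f x) := rfl

/-- explicit formula for the coboundary -/
theorem F_d {X : SS} {p : ℕ} (c : (F R X).obj p) (x : X.obj (p + 1)) :
    (F R X).d p c x = ∑ i ∈ Finset.range (p + 2), sn i (c (X.map (dl p i) x)) := by
  rw [CosMod.d_apply]
  show (∑ i ∈ Finset.range (p + 2), sn i ((F R X).map (dl p i) c) : X.obj (p + 1) → R) x = _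
  rw [Finset.sum_apply]
  rfl

/-- pull-back of functions -/
def Map.pull {X Y : SS} (f : Map X Y) : Hom (F R Y) (F R X) where
  app p :=
    { toFun := fun c x => c (f.app x)
      map_add' := fun _ _ => rfl
      map_smul' := fun _ _ => rfl }
  nat g c := by
    funext x
    exact (congrArg c (f.nat g x)).symm

@[simp] theorem Map.pull_app {X Y : SS} (f : Map X Y) {p : ℕ} (c : (F R Y).obj p) (x : X.obj p) :
    (f.pull (R := R)).app p c x = c (f.app x) := rfl

theorem Map.pull_comp {X Y W : SS} (g : Map Y W) (f : Map X Y) :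
    (g.comp f).pull (R := R) = (f.pull).comp g.pull := rfl

theorem Map.pull_id (X : SS) : (Map.id X).pull (R := R) = Hom.id _ := rfl

/-- pull-back along a levelwise injective map is levelwise onto -/
theorem Map.Inj.pull_surjective {X Y : SS} {f : Map X Y} (hf : f.Inj) (p : ℕ) :
    Function.Surjective ((f.pull (R := R)).app p) := by
  classical
  intro c
  refine ⟨fun y => if h : ∃ x, f.app x = y then c h.choose else 0, ?_⟩
  funext x
  have h : ∃ x', f.app x' = f.app x := ⟨x, rfl⟩
  show (if h : ∃ x', f.app x' = f.app x then c h.choose else 0) = c x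
  rw [dif_pos h]
  exact congrArg c (hf p h.choose_spec)

/-- the levelwise product of functions -/
def mul {X : SS} {p : ℕ} (a b : (F R X).obj p) : (F R X).obj p := fun x => a x * b x

@[simp] theorem mul_apply {X : SS} {p : ℕ} (a b : (F R X).obj p) (x : X.obj p) :
    mul a b x = a x * b x := rfl

theorem map_mul {X : SS} {p q : ℕ} (f : Op p q) (a b : (F R X).obj p) :
    (F R X).map f (mul a b) = mul ((F R X).map f a) ((F R X).map f b) := rfl

theorem pull_mul {X Y : SS} (f : Map X Y) {p : ℕ} (a b : (F R Y).obj p) :
    (f.pull).app p (mul a b) = mul ((f.pull).app p a) ((f.pull).app p b) := rfl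

end SS

end Vale.Agent.P263.E
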