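import Vale.Agent.P263.E.CovTwo

/-!
# P263, block E: the classifying map of the unordered pairs

`Y : Cov B`, `cl : Y.tot → Z'`, `D : Y.PLab` an equivariant labelling of the ordered pairs of vertices.
`Y.cl2 D cl : (Y.ksub 2).tot → D2 Z'` is `{y, y'} ↦ [labels, cl y, cl y']`, and the square

  F (D2 Z')   →   F (W)
     |              |
  hG (F (Z' × Z')) → hG (F W~)

commutes in cohomology (`mapH_cl2`; on cochains after `kap`, `kap_cl2`).
-/

noncomputable section

namespace Vale.Agent.P263.E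

open Vale.Agent.P263.S SS Finset

theorem C2_inv (g : C2) : g⁻¹ = g := by revert g; decide

/-- an action on functions is determined by the action on the space -/
theorem Lab.acts_unique {R : Type} [CommRing R] {G : Type} [Group G] {X : SS} {D : Lab G X}
    {a b : Act G (SS.F R X)} (ha : D.Acts a) (hb : D.Acts b) (p : ℕ) (g : G)
    (f : (SS.F R X).obj p) : a.act p g f = b.act p g f := by
  funext x
  obtain ⟨y, rfl⟩ : ∃ y, (D.t g).app y = x := ⟨_, D.t_inv g x⟩
  rw [ha, hb]

namespace Cov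

variable {B : SS} (Y : Cov B) {R : Type} [CommRing R] {Z' : SS}

/-- An equivariant labelling of the ordered pairs of vertices. -/
structure PLab where
  /-- the label -/
  c : (Y.nc C2).tot.obj 0 → C2
  c_swap : ∀ x, c (Y.swap.app x) = tau * c x

/-- the labelling in the form of 14's `Lab` -/
def PLab.toLab {Y : Cov B} (D : Y.PLab) : Lab C2 (Y.nc C2).tot where
  t := Y.ncAct
  t_inv g p x := by
    refine Y.nc_ext rfl fun t => ?_
    rw [ncAct_val, ncAct_val, inv_mul_cancel_left]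
  c := D.c
  c_t g x := by
    rcases C2_cases g with rfl | rfl
    · rw [ncAct_one, one_mul]
    · rw [ncAct_tau, D.c_swap]

@[simp] theorem PLab.toLab_t {Y : Cov B} (D : Y.PLab) (g : C2) : D.toLab.t g = Y.ncAct g := rfl

@[simp] theorem PLab.toLab_c {Y : Cov B} (D : Y.PLab) (x : (Y.nc C2).tot.obj 0) :
    D.toLab.c x = D.c x := rfl

/-- there is a labelling -/
theorem exists_pLab : Nonempty Y.PLab :=
  ⟨⟨Y.lab2.c, fun x => Y.lab2.c_t tau x⟩⟩

/-- the labels of the vertices of an ordered pair -/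
def PLab.lab {Y : Cov B} (D : Y.PLab) {p : ℕ} (x : (Y.nc C2).tot.obj p) : Fin (p + 1) → C2 :=
  D.toLab.lab x

theorem PLab.lab_apply {Y : Cov B} (D : Y.PLab) {p : ℕ} (x : (Y.nc C2).tot.obj p)
    (i : Fin (p + 1)) : D.lab x i = D.c ((Y.nc C2).tot.map (vx p i) x) := rfl

theorem PLab.lab_map {Y : Cov B} (D : Y.PLab) {p q : ℕ} (θ : Op p q)
    (x : (Y.nc C2).tot.obj q) : D.lab ((Y.nc C2).tot.map θ x) = D.lab x ∘ θ :=
  D.toLab.lab_map θ x

theorem PLab.lab_swap {Y : Cov B} (D : Y.PLab) {p : ℕ} (x : (Y.nc C2).tot.obj p) :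
    D.lab (Y.swap.app x) = fun i => tau * D.lab x i :=
  D.toLab.lab_t tau x

/-- the two members of an ordered pair, mapped to `Z'` -/
def clP (cl : SS.Map Y.tot Z') : SS.Map (Y.nc C2).tot (Z'.prod Z') :=
  ⟨fun x => (cl.app (Y.p1 x), cl.app (Y.p2 x)), fun θ x =>
    Prod.ext (cl.nat θ (Y.p1 x)) (cl.nat θ (Y.p2 x))⟩

@[simp] theorem clP_app (cl : SS.Map Y.tot Z') {p : ℕ} (x : (Y.nc C2).tot.obj p) :
    (Y.clP cl).app x = (cl.app (Y.p1 x), cl.app (Y.p2 x)) := rfl

/-- the classifying map of an ordered pair -/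
def clT (D : Y.PLab) (cl : SS.Map Y.tot Z') {p : ℕ} (x : (Y.nc C2).tot.obj p) :
    (SS.D2 Z').obj p := D2.mk (D.lab x) (cl.app (Y.p1 x)) (cl.app (Y.p2 x))

theorem clT_swap (D : Y.PLab) (cl : SS.Map Y.tot Z') {p : ℕ} (x : (Y.nc C2).tot.obj p) :
    Y.clT D cl (Y.swap.app x) = Y.clT D cl x := by
  unfold clT
  rw [D.lab_swap]
  exact D2.mk_swap _ _ _

theorem clT_map (D : Y.PLab) (cl : SS.Map Y.tot Z') {p q : ℕ} (θ : Op p q)
    (x : (Y.nc C2).tot.obj q) :
    Y.clT D cl ((Y.nc C2).tot.map θ x) = (SS.D2 Z').map θ (Y.clT D cl x) := by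
  unfold clT
  rw [D2.map_mk, D.lab_map]
  congr 1
  · exact cl.nat θ _
  · exact cl.nat θ _

theorem clT_eq (D : Y.PLab) (cl : SS.Map Y.tot Z') {p : ℕ} {x x' : (Y.nc C2).tot.obj p}
    (h : Y.toSub.app x = Y.toSub.app x') : Y.clT D cl x = Y.clT D cl x' := by
  rcases Y.toSub_eq_iff.1 h with rfl | rfl
  · rfl
  · exact Y.clT_swap D cl x'

/-- the classifying map of the unordered pairs -/
def cl2 (D : Y.PLab) (cl : SS.Map Y.tot Z') : SS.Map (Y.ksub 2).tot (SS.D2 Z') :=
  ⟨fun w => Y.clT D cl (Y.toSub_surj w).choose, fun θ w => by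
    obtain ⟨x, rfl⟩ := Y.toSub_surj w
    rw [← Y.clT_map]
    refine Y.clT_eq D cl ?_
    rw [(Y.toSub_surj _).choose_spec, Y.toSub.nat, (Y.toSub_surj _).choose_spec]⟩

/-- the classifying map of the unordered pair `{y, y'}` is `[labels, cl y, cl y']` -/
theorem cl2_toSub (D : Y.PLab) (cl : SS.Map Y.tot Z') {p : ℕ} (x : (Y.nc C2).tot.obj p) :
    (Y.cl2 D cl).app (Y.toSub.app x) = D2.mk (D.lab x) (cl.app (Y.p1 x)) (cl.app (Y.p2 x)) :=
  Y.clT_eq D cl (Y.toSub_surj (Y.toSub.app x)).choose_spec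

theorem cl2_comp {Z'' : SS} (D : Y.PLab) (cl : SS.Map Y.tot Z') (f : SS.Map Z' Z'') :
    Y.cl2 D (f.comp cl) = f.D2.comp (Y.cl2 D cl) := by
  apply SS.Map.ext
  intro p w
  obtain ⟨x, rfl⟩ := Y.toSub_surj w
  refine (Y.cl2_toSub D (f.comp cl) x).trans ?_
  exact (congrArg f.D2.app (Y.cl2_toSub D cl x)).symm

section act

variable {D : Y.PLab} {a : Act C2 (F R (Y.nc C2).tot)} (ha : D.toLab.Acts a)

include ha in
theorem acts_swap {p : ℕ} (f : (F R (Y.nc C2).tot).obj p) (x : (Y.nc C2).tot.obj p) :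
    a.act p tau f (Y.swap.app x) = f x := ha p tau f x

include ha in
theorem acts_tau {p : ℕ} (f : (F R (Y.nc C2).tot).obj p) (x : (Y.nc C2).tot.obj p) :
    a.act p tau f x = f (Y.swap.app x) := by
  have h := ha p tau f (Y.swap.app x)
  rw [PLab.toLab_t, ncAct_tau, swap_swap] at h
  exact h

include ha in
/-- the map to `Z' × Z'` is equivariant -/
theorem clP_equivariant (cl : SS.Map Y.tot Z') (p : ℕ) (g : C2)
    (f : (F R (Z'.prod Z')).obj p) :
    ((Y.clP cl).pull).app p ((swapF R Z').act p g f) = a.act p g (((Y.clP cl).pull).app p f) := by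
  rcases C2_cases g with rfl | rfl
  · rw [map_one, map_one]
    rfl
  · funext x
    rw [Y.acts_tau ha, Map.pull_app, Map.pull_app, swapF_tau]
    rfl

/-- the map on homotopy fixed points induced by `W~ → Z' × Z'` -/
def clH (cl : SS.Map Y.tot Z') : Hom (hG (swapF R Z')) (hG a) :=
  hG.mapHom (swapF R Z') a ((Y.clP cl).pull) (Y.clP_equivariant ha cl)

@[simp] theorem clH_fn (cl : SS.Map Y.tot Z') {p : ℕ} (f : (hG (swapF R Z')).obj p)
    (s : Fin (p + 1) → C2) (x : (Y.nc C2).tot.obj p) :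
    hG.fn ((Y.clH ha cl).app p f) s x = hG.fn f s (cl.app (Y.p1 x), cl.app (Y.p2 x)) := rfl

include ha in
/-- a function on the unordered pairs gives an invariant function on the ordered pairs -/
theorem toSub_pull_mem_inv {p : ℕ} (f : (F R (Y.ksub 2).tot).obj p) :
    (Y.toSub.pull).app p f ∈ a.invSub p := by
  intro g
  rcases C2_cases g with rfl | rfl
  · rw [map_one]
    rfl
  · funext x
    rw [Y.acts_tau ha, Map.pull_app, Map.pull_app, toSub_swap]

/-- functions on the unordered pairs as invariant functions on the ordered pairs -/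
def toInv : Hom (F R (Y.ksub 2).tot) a.inv where
  app p :=
    { toFun := fun f => ⟨(Y.toSub.pull).app p f, Y.toSub_pull_mem_inv ha f⟩
      map_add' := fun f g => Subtype.ext (map_add _ f g)
      map_smul' := fun r f => Subtype.ext (map_smul _ r f) }
  nat θ f := Subtype.ext ((Y.toSub.pull).nat θ f)

@[simp] theorem toInv_coe {p : ℕ} (f : (F R (Y.ksub 2).tot).obj p) :
    ((Y.toInv ha).app p f).1 = (Y.toSub.pull).app p f := rfl

theorem toInv_bijective (p : ℕ) : Function.Bijective ((Y.toInv ha).app p) := by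
  constructor
  · intro f f' h
    exact Y.toSub_pull_injective p (congrArg Subtype.val h)
  · intro f
    obtain ⟨g, hg⟩ := Y.exists_pull_eq f.1 fun x => by
      have h : a.act p tau f.1 = f.1 := f.2 tau
      exact (Y.acts_tau ha f.1 x).symm.trans (congrFun h x)
    exact ⟨g, Subtype.ext hg⟩

/-- functions on the unordered pairs as constant functions in `hG` -/
def toHF : Hom (F R (Y.ksub 2).tot) (hG a) := (Lab.iota a).comp (Y.toInv ha)

@[simp] theorem toHF_fn {p : ℕ} (f : (F R (Y.ksub 2).tot).obj p) (s : Fin (p + 1) → C2)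
    (x : (Y.nc C2).tot.obj p) : hG.fn ((Y.toHF ha).app p f) s x = f (Y.toSub.app x) := rfl

/-- the inverse of `toInv` -/
def ofInv : Hom a.inv (F R (Y.ksub 2).tot) where
  app p := (LinearEquiv.ofBijective ((Y.toInv ha).app p) (Y.toInv_bijective ha p)).symm.toLinearMap
  nat {p q} θ f := by
    refine (Y.toInv_bijective ha q).1 ?_
    have h1 : ∀ (k : ℕ) (g : a.inv.obj k), (Y.toInv ha).app k
        ((LinearEquiv.ofBijective ((Y.toInv ha).app k) (Y.toInv_bijective ha k)).symm g) = g :=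
      fun k g => (LinearEquiv.ofBijective ((Y.toInv ha).app k)
        (Y.toInv_bijective ha k)).apply_symm_apply g
    refine (h1 q _).trans ?_
    rw [(Y.toInv ha).nat]
    exact congrArg _ (h1 p f).symm

theorem toInv_ofInv {p : ℕ} (f : a.inv.obj p) : (Y.toInv ha).app p ((Y.ofInv ha).app p f) = f :=
  (LinearEquiv.ofBijective ((Y.toInv ha).app p) (Y.toInv_bijective ha p)).apply_symm_apply f

theorem ofInv_toInv {p : ℕ} (f : (F R (Y.ksub 2).tot).obj p) :
    (Y.ofInv ha).app p ((Y.toInv ha).app p f) = f :=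
  (LinearEquiv.ofBijective ((Y.toInv ha).app p) (Y.toInv_bijective ha p)).symm_apply_apply f

include ha in
theorem mapH_toInv_bijective (p : ℕ) : Function.Bijective ((Y.toInv ha).mapH p) := by
  refine Function.bijective_iff_has_inverse.2 ⟨(Y.ofInv ha).mapH p, fun x => ?_, fun x => ?_⟩
  · rw [← Hom.mapH_comp]
    have h : (Y.ofInv ha).comp (Y.toInv ha) = Hom.id _ := Hom.ext fun q f => Y.ofInv_toInv ha f
    rw [h, Hom.mapH_id]
  · rw [← Hom.mapH_comp]
    have h : (Y.toInv ha).comp (Y.ofInv ha) = Hom.id _ := Hom.ext fun q f => Y.toInv_ofInv ha f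
    rw [h, Hom.mapH_id]

/-- `H (F W) = H (hG (F W~))` -/
theorem mapH_toHF_bijective (p : ℕ) : Function.Bijective ((Y.toHF ha).mapH p) := by
  have h : ((Y.toHF ha).mapH p : (F R (Y.ksub 2).tot).H p → (hG a).H p) =
      (Lab.iota a).mapH p ∘ (Y.toInv ha).mapH p := by
    funext x
    exact Hom.mapH_comp _ _ _ _
  rw [h]
  exact (Lab.mapH_iota_bijective ha p).comp (Y.mapH_toInv_bijective ha p)

/-- the square of the classifying map, on cochains, evaluated at the labels -/
theorem kap_cl2 (cl : SS.Map Y.tot Z') {p : ℕ} (c : (F R (SS.D2 Z')).obj p) :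
    (Lab.kap ha).app p ((Y.clH ha cl).app p ((toHG Z').app p c)) =
      (Y.toInv ha).app p ((Y.cl2 D cl).pull.app p c) := by
  apply Subtype.ext
  funext x
  exact (congrArg c (Y.cl2_toSub D cl x)).symm

/-- **the square of the classifying map** -/
theorem mapH_cl2 (cl : SS.Map Y.tot Z') (p : ℕ) (c : (F R (SS.D2 Z')).H p) :
    (Y.toHF ha).mapH p (((Y.cl2 D cl).pull).mapH p c) =
      (Y.clH ha cl).mapH p ((toHG Z').mapH p c) := by
  have h : (Lab.kap ha).comp ((Y.clH ha cl).comp (toHG Z')) =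
      (Y.toInv ha).comp ((Y.cl2 D cl).pull) := Hom.ext fun q f => Y.kap_cl2 ha cl f
  have h1 : (Lab.kap ha).mapH p ((Y.clH ha cl).mapH p ((toHG Z').mapH p c)) =
      (Y.toInv ha).mapH p (((Y.cl2 D cl).pull).mapH p c) := by
    rw [← Hom.mapH_comp, ← Hom.mapH_comp, ← Hom.mapH_comp, ← h]
    rfl
  rw [toHF, Hom.mapH_comp, ← h1, Lab.mapH_iota_kap]

end act

/-- the swap action on the functions on the ordered pairs -/
def swapAct (R : Type) [CommRing R] : Act C2 (F R (Y.nc C2).tot) :=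
  Act.ofInvol (Y.swap.pull) (fun p f => by
    funext x
    exact congrArg f (Y.swap_swap x))

theorem swapAct_acts (D : Y.PLab) : D.toLab.Acts (Y.swapAct R) := by
  intro p g f x
  rcases C2_cases g with rfl | rfl
  · rw [map_one, PLab.toLab_t, ncAct_one]
    rfl
  · rw [PLab.toLab_t, ncAct_tau]
    change ((if Multiplicative.toAdd tau = 0 then LinearMap.id else (Y.swap.pull).app p :
      (F R (Y.nc C2).tot).obj p →ₗ[R] (F R (Y.nc C2).tot).obj p)) f (Y.swap.app x) = f x
    rw [if_neg (by decide)]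
    exact congrArg f (Y.swap_swap x)

end Cov

end Vale.Agent.P263.E
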