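import Vale.Agent.P263.E.SqAlg

/-!
# P263, block E6 (helper512): LZ_1, graded form on the `Setup` of block E4

`LZ S` : the classes `z` of the unordered pairs, `J z` in the cohomology of `KK`, the class `uW` of
the double covering, `D z = ∂ tr z` and the formula `(★)` : `u (J z) + J (uW z) = i (infl (D z))`.

`LZ.main` : if `J z` and `Pt x` have the same image in `H_(Z/2)(F_2^(W~))`, then
`Sq^(q + l + 1) x = D (uW^l z)` for every `l`.
-/

namespace Vale.Agent.P263.E

universe v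

namespace Setup

variable {dbl : ℕ → ℕ}

/-- The input of LZ_1. -/
structure LZ (S : Setup.{v} dbl) where
  /-- `H^n(F_2^W)` -/
  Wd : ℕ → Type v
  [grp : ∀ n, AddCommGroup (Wd n)]
  /-- `z ↦ (0, 0, z)` -/
  J : ∀ n, Wd n →+ S.KK.H n
  /-- multiplication by the class of the double covering -/
  uW : ∀ n, Wd n →+ Wd (n + 1)
  /-- `∂ ∘ tr` -/
  D : ∀ n, Wd n →+ S.E (n + 1)
  /-- the constants in `H_(Z/2)(K) = E[u]` -/
  infl : ∀ n, S.E n →+ S.K.H n
  cf_infl : ∀ n e, S.fr.cf n n (infl n e) = e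
  cf_infl_ne : ∀ n j e, j ≠ n → S.fr.cf n j (infl n e) = 0
  star : ∀ n g, S.KK.u n (J n g) + J (n + 1) (uW n g) = S.i.f (n + 1) (infl (n + 1) (D n g))

attribute [instance] LZ.grp

namespace LZ

variable {S : Setup.{v} dbl} (Z : S.LZ)

/-- multiplication by the `l`-th power of the class of the double covering -/
def upow : ∀ l n : ℕ, Z.Wd n →+ Z.Wd (n + l)
  | 0, _ => AddMonoidHom.id _
  | (l+1), n => (Z.uW (n + l)).comp (upow l n)

@[simp] lemma upow_zero (n : ℕ) (z : Z.Wd n) : Z.upow 0 n z = z := rfl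

lemma upow_succ (l n : ℕ) (z : Z.Wd n) : Z.upow (l + 1) n z = Z.uW (n + l) (Z.upow l n z) := rfl

/-- `Σ_(l<T) u^(T-1-l) ∂ tr (uW^l z)` -/
def tail (n : ℕ) (z : Z.Wd n) : ∀ T : ℕ, S.K.H (n + T)
  | 0 => 0
  | (T+1) => S.K.u (n + T) (tail n z T) + Z.infl (n + T + 1) (Z.D (n + T) (Z.upow T n z))

lemma two {A : Type*} [AddCommGroup A] [Module (ZMod 2) A] (x : A) : x + x = 0 := by
  rw [← two_smul (ZMod 2) x, show (2 : ZMod 2) = 0 from rfl, zero_smul]

lemma eq_of_add {A : Type*} [AddCommGroup A] [Module (ZMod 2) A] {x y w : A} (h : x + y = w) :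
    x = w + y := by rw [← h, add_assoc, two, add_zero]

lemma upow_J (n : ℕ) (z : Z.Wd n) (T : ℕ) :
    S.KK.upow T n (Z.J n z) = S.i.f (n + T) (Z.tail n z T) + Z.J (n + T) (Z.upow T n z) := by
  induction T with
  | zero =>
    show Z.J n z = S.i.f n 0 + Z.J n z
    rw [map_zero, zero_add]
  | succ T ih =>
    have h2 := eq_of_add (Z.star (n + T) (Z.upow T n z))
    have h3 : S.i.f (n + T + 1) (S.K.u (n + T) (Z.tail n z T)) =
      S.KK.u (n + T) (S.i.f (n + T) (Z.tail n z T)) := S.i.comm _ _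
    calc S.KK.upow (T + 1) n (Z.J n z)
        = S.KK.u (n + T) (S.i.f (n + T) (Z.tail n z T) + Z.J (n + T) (Z.upow T n z)) := by
          rw [GU.upow_succ, ih]
      _ = S.i.f (n + T + 1) (S.K.u (n + T) (Z.tail n z T)) +
          (S.i.f (n + T + 1) (Z.infl (n + T + 1) (Z.D (n + T) (Z.upow T n z))) +
            Z.J (n + T + 1) (Z.uW (n + T) (Z.upow T n z))) := by rw [map_add, h2, h3]
      _ = S.i.f (n + T + 1) (S.K.u (n + T) (Z.tail n z T) +
            Z.infl (n + T + 1) (Z.D (n + T) (Z.upow T n z))) +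
            Z.J (n + T + 1) (Z.uW (n + T) (Z.upow T n z)) := by
          rw [map_add]
          exact (add_assoc _ _ _).symm

lemma cf_tail (n : ℕ) (z : Z.Wd n) (T l : ℕ) (h : l < T) :
    S.fr.cf (n + T) (n + l + 1) (Z.tail n z T) = Z.D (n + l) (Z.upow l n z) := by
  induction T with
  | zero => omega
  | succ T ih =>
    show S.fr.cf (n + T + 1) (n + l + 1)
      (S.K.u (n + T) (Z.tail n z T) + Z.infl (n + T + 1) (Z.D (n + T) (Z.upow T n z))) = _
    rw [map_add, S.fr.cf_u]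
    rcases Nat.lt_or_ge l T with hl | hl
    · rw [ih hl, Z.cf_infl_ne _ _ _ (by omega), add_zero]
    · obtain rfl : l = T := by omega
      rw [S.fr.cf_gt _ _ _ (by omega), zero_add, Z.cf_infl]

/-- **LZ_1.** -/
theorem main {q : ℕ} {x : S.E q} {z : Z.Wd (dbl q)}
    (hz : S.r.f _ (Z.J _ z) = S.r.f _ (S.Pt q x)) (hn : ∃ T, Z.upow T _ z = 0) (l : ℕ) :
    S.Sq q (dbl q + l + 1) x = Z.D (dbl q + l) (Z.upow l _ z) := by
  obtain ⟨T0, hT0⟩ := hn
  have hT' : ∀ k, Z.upow (T0 + k) _ z = 0 := by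
    intro k
    induction k with
    | zero => exact hT0
    | succ k ih =>
      have h1 := Z.upow_succ (T0 + k) (dbl q) z
      rw [ih, map_zero] at h1
      exact h1
  obtain ⟨T, hT, hlT⟩ : ∃ T, Z.upow T _ z = 0 ∧ l < T := ⟨T0 + (l + 1), hT' _, by omega⟩
  obtain ⟨y', hy'⟩ := S.exact_KK _ (S.Pt q x - Z.J _ z) (by rw [map_sub, hz, sub_self])
  have h1 : S.Pt q x = S.i.f _ y' + Z.J _ z := by rw [hy', sub_add_cancel]
  have h2 : S.Good q x T (S.K.upow T _ y' + Z.tail _ z T) := by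
    unfold Good
    rw [h1, map_add, map_add, GU.Hom.upow, Z.upow_J, hT, map_zero, add_zero]
  rw [S.Sq_spec h2, map_add, S.fr.cf_upow, S.fr.cf_gt _ _ _ (by omega), zero_add,
    Z.cf_tail _ _ _ _ hlT]

end LZ

end Setup

end Vale.Agent.P263.E
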