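import Vale.Agent.P263.E.CovExt
import Vale.Agent.P263.S.Defs
import Vale.Agent.P263.S.Ker

/-!
# P263, block E2: the modules `K`, `KT T` and their exact sequences (helper727)

Input `Dat R Y` : a finite covering `Y → B`, cosimplicial algebras `I`, `Z`, multiplicative maps
`r : I → F(B)`, `rho : Z → F(Y)`, `r` levelwise onto (helper370: `rho` need not be onto).

* `D.K = {(z, w) | r z = tr (rho w)}`, `D.s1 : 0 → K → I × Z → F(B) → 0`;
* `D.KT T = {(z, w, G) | G a function on Y^T, G on constant tuples is rho w, r z = tr G}`,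
  components `zc`, `wc`, `gc`, constructors `mkT`, `mk'`, extensionality `extT`, `ext'`;
* `D.s2 T : 0 → K → KT T → F(nc T) → 0`, `D.s3 T : 0 → KT T → (I × Z) × F(nc T) → F(B) → 0`.
-/

namespace Vale.Agent.P263.E

open Vale.Agent.P263.S SS

variable {R : Type} [CommRing R] {B : SS}

/-- Commutative associative levelwise products (no unit). -/
structure Alg (A : CosMod R) where
  /-- the product -/
  mul : Bil A A A
  comm : ∀ (p : ℕ) (x y : A.obj p), mul.app p x y = mul.app p y x
  assoc : ∀ (p : ℕ) (x y z : A.obj p),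
    mul.app p (mul.app p x y) z = mul.app p x (mul.app p y z)

/-- The input of block `[E]`: a finite covering `Y → B`, cosimplicial algebras `I`, `Z` and
multiplicative maps `r : I → F(B)`, `rho : Z → F(Y)`, `r` levelwise onto. -/
structure Dat (R : Type) [CommRing R] {B : SS} (Y : Cov B) where
  /-- the first algebra -/
  I : CosMod R
  /-- the second algebra -/
  Z : CosMod R
  /-- the product of `I` -/
  aI : Alg I
  /-- the product of `Z` -/
  aZ : Alg Z
  /-- the map to the functions on the base -/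
  r : Hom I (F R B)
  /-- the map to the functions on the covering -/
  rho : Hom Z (F R Y.tot)
  r_mul : ∀ (p : ℕ) (x y : I.obj p), r.app p (aI.mul.app p x y) = mul (r.app p x) (r.app p y)
  rho_mul : ∀ (p : ℕ) (x y : Z.obj p),
    rho.app p (aZ.mul.app p x y) = mul (rho.app p x) (rho.app p y)
  r_onto : ∀ p, Function.Surjective (r.app p)

namespace Dat

variable {Y : Cov B} (D : Dat R Y)

/-- `(z, w) ↦ r z - tr (rho w)` -/
noncomputable def kap : Hom (D.I.prod D.Z) (F R B) :=
  D.r.comp (Hom.fst _ _) - (Y.tr.comp D.rho).comp (Hom.snd _ _)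

theorem kap_app (p : ℕ) (x : (D.I.prod D.Z).obj p) :
    D.kap.app p x = D.r.app p x.1 - Y.tr.app p (D.rho.app p x.2) := rfl

theorem kap_surjective (p : ℕ) : Function.Surjective (D.kap.app p) := by
  intro f
  obtain ⟨z, hz⟩ := D.r_onto p f
  refine ⟨(z, 0), ?_⟩
  show D.r.app p z - Y.tr.app p (D.rho.app p 0) = f
  rw [hz, map_zero, map_zero, sub_zero]

/-- the cofibre `K = {(z, w) | r z = tr (rho w)}` -/
noncomputable def K : CosMod R := D.kap.ker

/-- `(s1)`: `0 → K → I × Z → F(B) → 0` -/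
noncomputable def s1 : SES D.K (D.I.prod D.Z) (F R B) := D.kap.kerSES D.kap_surjective

/-- the component in `I` of an element of `K` -/
noncomputable def kz : Hom D.K D.I := (Hom.fst _ _).comp D.kap.kerI

/-- the component in `Z` of an element of `K` -/
noncomputable def kw : Hom D.K D.Z := (Hom.snd _ _).comp D.kap.kerI

theorem r_kz {p : ℕ} (x : D.K.obj p) :
    D.r.app p (D.kz.app p x) = Y.tr.app p (D.rho.app p (D.kw.app p x)) := sub_eq_zero.1 x.2

/-- elements of `K` -/
def mkK {p : ℕ} (z : D.I.obj p) (w : D.Z.obj p)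
    (h : D.r.app p z = Y.tr.app p (D.rho.app p w)) : D.K.obj p := ⟨(z, w), sub_eq_zero.2 h⟩

@[simp] theorem kz_mkK {p : ℕ} (z : D.I.obj p) (w : D.Z.obj p) (h) :
    D.kz.app p (D.mkK z w h) = z := rfl

@[simp] theorem kw_mkK {p : ℕ} (z : D.I.obj p) (w : D.Z.obj p) (h) :
    D.kw.app p (D.mkK z w h) = w := rfl

theorem extK {p : ℕ} {x y : D.K.obj p} (h1 : D.kz.app p x = D.kz.app p y)
    (h2 : D.kw.app p x = D.kw.app p y) : x = y :=
  Subtype.ext (Prod.ext h1 h2)

variable (T : Type) [Fintype T] [DecidableEq T]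

/-- `KT T = {(z, w, G) | G on constant tuples is rho w, r z = sum of G over the fibres}` -/
noncomputable def KT : CosMod R :=
  sub (D.I.prod (D.Z.prod (F R (Y.pow T).tot)))
    (fun p =>
      { carrier := {x | (Y.diag T).pull.app p x.2.2 = D.rho.app p x.2.1 ∧
          D.r.app p x.1 = (Y.pow T).tr.app p x.2.2}
        add_mem' := by
          rintro x y ⟨h1, h2⟩ ⟨h3, h4⟩
          refine ⟨?_, ?_⟩
          · show (Y.diag T).pull.app p (x.2.2 + y.2.2) = D.rho.app p (x.2.1 + y.2.1)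
            rw [map_add, map_add, h1, h3]
          · show D.r.app p (x.1 + y.1) = (Y.pow T).tr.app p (x.2.2 + y.2.2)
            rw [map_add, map_add, h2, h4]
        zero_mem' := by
          refine ⟨?_, ?_⟩
          · show (Y.diag T).pull.app p 0 = D.rho.app p 0
            rw [map_zero, map_zero]
          · show D.r.app p 0 = (Y.pow T).tr.app p 0
            rw [map_zero, map_zero]
        smul_mem' := by
          rintro a x ⟨h1, h2⟩
          refine ⟨?_, ?_⟩
          · show (Y.diag T).pull.app p (a • x.2.2) = D.rho.app p (a • x.2.1)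
            rw [map_smul, map_smul, h1]
          · show D.r.app p (a • x.1) = (Y.pow T).tr.app p (a • x.2.2)
            rw [map_smul, map_smul, h2] })
    (by
      rintro p q φ x ⟨h1, h2⟩
      refine ⟨?_, ?_⟩
      · show (Y.diag T).pull.app q ((F R (Y.pow T).tot).map φ x.2.2) =
          D.rho.app q (D.Z.map φ x.2.1)
        rw [Hom.nat, Hom.nat, h1]
      · show D.r.app q (D.I.map φ x.1) = (Y.pow T).tr.app q ((F R (Y.pow T).tot).map φ x.2.2)
        rw [Hom.nat, Hom.nat, h2])

variable {T}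

/-- the component in `I` -/
def zc {p : ℕ} (x : (D.KT T).obj p) : D.I.obj p := x.1.1

/-- the component in `Z` -/
def wc {p : ℕ} (x : (D.KT T).obj p) : D.Z.obj p := x.1.2.1

/-- the function on the fibre power -/
def gc {p : ℕ} (x : (D.KT T).obj p) : (F R (Y.pow T).tot).obj p := x.1.2.2

theorem gc_diag {p : ℕ} (x : (D.KT T).obj p) :
    (Y.diag T).pull.app p (D.gc x) = D.rho.app p (D.wc x) := x.2.1

theorem tr_gc {p : ℕ} (x : (D.KT T).obj p) :
    D.r.app p (D.zc x) = (Y.pow T).tr.app p (D.gc x) := x.2.2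

/-- elements of `KT T` -/
def mkT {p : ℕ} (z : D.I.obj p) (w : D.Z.obj p) (G : (F R (Y.pow T).tot).obj p)
    (h1 : (Y.diag T).pull.app p G = D.rho.app p w)
    (h2 : D.r.app p z = (Y.pow T).tr.app p G) : (D.KT T).obj p := ⟨(z, w, G), h1, h2⟩

@[simp] theorem zc_mkT {p : ℕ} (z : D.I.obj p) (w : D.Z.obj p) (G : (F R (Y.pow T).tot).obj p)
    (h1 h2) : D.zc (D.mkT z w G h1 h2) = z := rfl

@[simp] theorem wc_mkT {p : ℕ} (z : D.I.obj p) (w : D.Z.obj p) (G : (F R (Y.pow T).tot).obj p)
    (h1 h2) : D.wc (D.mkT z w G h1 h2) = w := rfl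

@[simp] theorem gc_mkT {p : ℕ} (z : D.I.obj p) (w : D.Z.obj p) (G : (F R (Y.pow T).tot).obj p)
    (h1 h2) : D.gc (D.mkT z w G h1 h2) = G := rfl

theorem extT {p : ℕ} {x y : (D.KT T).obj p} (h1 : D.zc x = D.zc y) (h2 : D.wc x = D.wc y)
    (h3 : D.gc x = D.gc y) : x = y :=
  Subtype.ext (Prod.ext h1 (Prod.ext h2 h3))

@[simp] theorem zc_map {p q : ℕ} (φ : Op p q) (x : (D.KT T).obj p) :
    D.zc ((D.KT T).map φ x) = D.I.map φ (D.zc x) := rfl

@[simp] theorem wc_map {p q : ℕ} (φ : Op p q) (x : (D.KT T).obj p) :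
    D.wc ((D.KT T).map φ x) = D.Z.map φ (D.wc x) := rfl

@[simp] theorem gc_map {p q : ℕ} (φ : Op p q) (x : (D.KT T).obj p) :
    D.gc ((D.KT T).map φ x) = (F R (Y.pow T).tot).map φ (D.gc x) := rfl

variable (T)

/-- the restriction to the nonconstant tuples -/
noncomputable def pT : Hom (D.KT T) (F R (Y.nc T).tot) where
  app p :=
    { toFun := fun x => (Y.ncIncl T).pull.app p (D.gc x)
      map_add' := fun _ _ => rfl
      map_smul' := fun _ _ => rfl }
  nat _ _ := rfl

@[simp] theorem pT_app {p : ℕ} (x : (D.KT T).obj p) (y : (Y.nc T).tot.obj p) :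
    (D.pT T).app p x y = D.gc x y.1 := rfl

/-- `((z, w), g) ↦ r z - tr (rho w) - tr g` -/
noncomputable def kapT : Hom ((D.I.prod D.Z).prod (F R (Y.nc T).tot)) (F R B) :=
  D.kap.comp (Hom.fst _ _) - (Y.nc T).tr.comp (Hom.snd _ _)

theorem kapT_app (p : ℕ) (x : ((D.I.prod D.Z).prod (F R (Y.nc T).tot)).obj p) :
    (D.kapT T).app p x = D.r.app p x.1.1 - Y.tr.app p (D.rho.app p x.1.2) -
      (Y.nc T).tr.app p x.2 := rfl

variable [Nonempty T]

/-- the inclusion `i : K → KT T` -/
noncomputable def iT : Hom D.K (D.KT T) where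
  app p :=
    { toFun := fun x => D.mkT (D.kz.app p x) (D.kw.app p x)
        ((Y.dext T).app p (D.rho.app p (D.kw.app p x)))
        (Y.diag_dext T _)
        (by rw [Y.tr_dext]; exact D.r_kz x)
      map_add' := fun x y => D.extT rfl rfl (by
        show (Y.dext T).app p (D.rho.app p (x.1.2 + y.1.2)) = _
        rw [map_add, map_add]; rfl)
      map_smul' := fun a x => D.extT rfl rfl (by
        show (Y.dext T).app p (D.rho.app p (a • x.1.2)) = _
        rw [map_smul, map_smul]; rfl) }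
  nat φ x := D.extT rfl rfl (by
    show (Y.dext T).app _ (D.rho.app _ (D.Z.map φ x.1.2)) =
      (F R (Y.pow T).tot).map φ ((Y.dext T).app _ (D.rho.app _ x.1.2))
    rw [Hom.nat, Hom.nat])

@[simp] theorem zc_iT {p : ℕ} (x : D.K.obj p) : D.zc ((D.iT T).app p x) = D.kz.app p x := rfl

@[simp] theorem wc_iT {p : ℕ} (x : D.K.obj p) : D.wc ((D.iT T).app p x) = D.kw.app p x := rfl

@[simp] theorem gc_iT {p : ℕ} (x : D.K.obj p) :
    D.gc ((D.iT T).app p x) = (Y.dext T).app p (D.rho.app p (D.kw.app p x)) := rfl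

/-- the element with given components `z`, `w` and given function on the nonconstant tuples -/
noncomputable def mk' {p : ℕ} (z : D.I.obj p) (w : D.Z.obj p) (g : (F R (Y.nc T).tot).obj p)
    (h : D.r.app p z = Y.tr.app p (D.rho.app p w) + (Y.nc T).tr.app p g) : (D.KT T).obj p :=
  D.mkT z w ((Y.dext T).app p (D.rho.app p w) + (Y.ext0 T).app p g)
    (by rw [map_add, Y.diag_dext T, Y.diag_ext0 T, add_zero])
    (by rw [map_add, Y.tr_dext T, Y.tr_ext0 T, h])

@[simp] theorem zc_mk' {p : ℕ} (z : D.I.obj p) (w : D.Z.obj p) (g : (F R (Y.nc T).tot).obj p) (h) :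
    D.zc (D.mk' T z w g h) = z := rfl

@[simp] theorem wc_mk' {p : ℕ} (z : D.I.obj p) (w : D.Z.obj p) (g : (F R (Y.nc T).tot).obj p) (h) :
    D.wc (D.mk' T z w g h) = w := rfl

@[simp] theorem pT_mk' {p : ℕ} (z : D.I.obj p) (w : D.Z.obj p) (g : (F R (Y.nc T).tot).obj p) (h) :
    (D.pT T).app p (D.mk' T z w g h) = g := by
  show (Y.ncIncl T).pull.app p ((Y.dext T).app p (D.rho.app p w) + (Y.ext0 T).app p g) = g
  rw [map_add, Y.ncIncl_dext T, Y.ncIncl_ext0 T, zero_add]

theorem gc_eq {p : ℕ} (x : (D.KT T).obj p) :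
    D.gc x = (Y.dext T).app p (D.rho.app p (D.wc x)) + (Y.ext0 T).app p ((D.pT T).app p x) := by
  rw [← D.gc_diag x]
  exact (Y.dext_add_ext0 T (D.gc x)).symm

theorem ext' {p : ℕ} {x y : (D.KT T).obj p} (h1 : D.zc x = D.zc y) (h2 : D.wc x = D.wc y)
    (h3 : (D.pT T).app p x = (D.pT T).app p y) : x = y :=
  D.extT h1 h2 (by rw [D.gc_eq T x, D.gc_eq T y, h2, h3])

/-- the relation of `KT T` in terms of the function on the nonconstant tuples -/
theorem r_zc {p : ℕ} (x : (D.KT T).obj p) : D.r.app p (D.zc x) =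
    Y.tr.app p (D.rho.app p (D.wc x)) + (Y.nc T).tr.app p ((D.pT T).app p x) := by
  rw [D.tr_gc x, D.gc_eq T x, map_add, Y.tr_dext T, Y.tr_ext0 T]

/-- `(s2)`: `0 → K → KT T → F(nc T) → 0` -/
noncomputable def s2 : SES D.K (D.KT T) (F R (Y.nc T).tot) where
  i := D.iT T
  p := D.pT T
  inj n x y h := D.extK (congrArg (fun x => D.zc x) h) (congrArg (fun x => D.wc x) h)
  surj n g := by
    obtain ⟨z, hz⟩ := D.r_onto n ((Y.nc T).tr.app n g)
    refine ⟨D.mk' T z 0 g ?_, D.pT_mk' T _ _ _ _⟩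
    rw [hz, map_zero, map_zero, zero_add]
  pi n x := Y.ncIncl_dext T _
  ex n x hx := by
    have h := D.r_zc T x
    rw [hx, map_zero, add_zero] at h
    refine ⟨D.mkK (D.zc x) (D.wc x) h, ?_⟩
    refine D.extT rfl rfl ?_
    rw [D.gc_eq T x, hx, map_zero, add_zero]
    rfl

/-- `(s3)`: `0 → KT T → (I × Z) × F(nc T) → F(B) → 0` -/
noncomputable def s3 : SES (D.KT T) ((D.I.prod D.Z).prod (F R (Y.nc T).tot)) (F R B) where
  i :=
    { app := fun p =>
        { toFun := fun x => ((D.zc x, D.wc x), (D.pT T).app p x)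
          map_add' := fun _ _ => rfl
          map_smul' := fun _ _ => rfl }
      nat := fun _ _ => rfl }
  p := D.kapT T
  inj n x y h := D.ext' T (congrArg (fun x => x.1.1) h) (congrArg (fun x => x.1.2) h)
    (congrArg (fun x => x.2) h)
  surj n f := by
    obtain ⟨x, hx⟩ := D.kap_surjective n f
    refine ⟨(x, 0), ?_⟩
    show D.kap.app n x - (Y.nc T).tr.app n 0 = f
    rw [map_zero, sub_zero, hx]
  pi n x := by
    show D.r.app n (D.zc x) - Y.tr.app n (D.rho.app n (D.wc x)) -
      (Y.nc T).tr.app n ((D.pT T).app n x) = 0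
    rw [D.r_zc T x, add_sub_cancel_left, sub_self]
  ex n x hx := by
    have h : D.r.app n x.1.1 = Y.tr.app n (D.rho.app n x.1.2) + (Y.nc T).tr.app n x.2 := by
      rw [D.kapT_app, sub_sub, sub_eq_zero] at hx
      exact hx
    refine ⟨D.mk' T x.1.1 x.1.2 x.2 h, ?_⟩
    exact Prod.ext rfl (D.pT_mk' T _ _ _ h)

end Dat

end Vale.Agent.P263.E
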