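import Vale.Agent.P263.E.CovTwo

/-!
# P263, block E6: the class of the double covering (helper14)

* `Deg1 A B` : cochain operators of degree one, `Deg1.mapH`, `Deg1.pow`.
* `D : Lab C2 X` a labelled free involution, `a` the action on `F R X`, `2 = 0` in `R`.  `Lab.uW` is
  the operator `(uW f)(x) = [c(x_0) ≠ c(x_1)] f (d_0 x)` on the invariant cochains.  If `U` is
  the operator `(U f)(s) = [s_0 ≠ s_1] f (s_1, …; d_0 x)` on `hG a`, then `kap (U f) = uW (kap f)`
  (`kap_U`), hence `U (iota z) = iota (uW z)` in cohomology (`U_iota`).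
* `pi : X → W` the quotient: `pullInv : F R W → (F R X)^C2` is levelwise bijective, and `uWq` is the
  operator on `F R W`; `iotaW : F R W → hG a` is bijective in cohomology and
  `U (iotaW z) = iotaW (uWq z)`.
* `Y.lab2_isQuo`, `Y.lab2_acts` : the case of the ordered pairs in a covering.
-/

noncomputable section

namespace Vale.Agent.P263.E

open Vale.Agent.P263.S

variable {R : Type} [CommRing R]

/-- Cochain operators of degree one which commute with the coboundary. -/
structure Deg1 (A B : CosMod R) where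
  /-- the components -/
  app : ∀ p, A.obj p →ₗ[R] B.obj (p + 1)
  app_d : ∀ p x, B.d (p + 1) (app p x) = app (p + 1) (A.d p x)

namespace Deg1

variable {A B : CosMod R} (U : Deg1 A B)

theorem app_mem_Z {p : ℕ} {x : A.obj p} (hx : x ∈ A.Z p) : U.app p x ∈ B.Z (p + 1) := by
  rw [CosMod.mem_Z] at *
  rw [U.app_d, hx, map_zero]

theorem app_mem_Bd {p : ℕ} {x : A.obj p} (hx : x ∈ A.Bd p) : U.app p x ∈ B.Bd (p + 1) := by
  cases p with
  | zero =>
    rw [CosMod.mem_Bd_zero] at hx
    rw [hx, map_zero]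
    exact zero_mem _
  | succ p =>
    obtain ⟨y, rfl⟩ := hx
    exact ⟨U.app p y, U.app_d p y⟩

/-- the operator on cocycles -/
def mapZ (p : ℕ) : A.Z p →ₗ[R] B.Z (p + 1) := (U.app p).restrict fun _ hx => U.app_mem_Z hx

@[simp] theorem coe_mapZ (p : ℕ) (x : A.Z p) : (U.mapZ p x : B.obj (p + 1)) = U.app p x := rfl

/-- the operator on cohomology -/
def mapH (p : ℕ) : A.H p →ₗ[R] B.H (p + 1) :=
  Submodule.mapQ _ _ (U.mapZ p) fun _ hx => U.app_mem_Bd hx

@[simp] theorem mapH_cls (p : ℕ) (x : A.Z p) :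
    U.mapH p (A.cls p x) = B.cls (p + 1) (U.mapZ p x) := rfl

/-- the iterated operator on cohomology -/
def pow (U : Deg1 A A) : ∀ l n : ℕ, A.H n →ₗ[R] A.H (n + l)
  | 0, _ => LinearMap.id
  | l + 1, n => (U.mapH (n + l)).comp (pow U l n)

@[simp] theorem pow_zero (U : Deg1 A A) (n : ℕ) (x : A.H n) : U.pow 0 n x = x := rfl

theorem pow_succ (U : Deg1 A A) (l n : ℕ) (x : A.H n) :
    U.pow (l + 1) n x = U.mapH (n + l) (U.pow l n x) := rfl

/-- intertwining of the iterates -/
theorem pow_nat {U : Deg1 A A} {V : Deg1 B B} (f : Hom A B)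
    (h : ∀ n (x : A.H n), f.mapH (n + 1) (U.mapH n x) = V.mapH n (f.mapH n x)) (l n : ℕ)
    (x : A.H n) : f.mapH (n + l) (U.pow l n x) = V.pow l n (f.mapH n x) := by
  induction l with
  | zero => rfl
  | succ l ih =>
    rw [pow_succ, pow_succ, ← ih]
    exact h (n + l) _

end Deg1

namespace Lab

section quo

variable {G : Type} [Group G] {X : SS} (D : Lab G X) {W : SS} (π : SS.Map X W)

/-- `π : X → W` is the quotient by the action. -/
structure IsQuo : Prop where
  surj : ∀ {p : ℕ} (w : W.obj p), ∃ x : X.obj p, π.app x = w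
  inv : ∀ (g : G) {p : ℕ} (x : X.obj p), π.app ((D.t g).app x) = π.app x
  orb : ∀ {p : ℕ} (x y : X.obj p), π.app x = π.app y → ∃ g, (D.t g).app x = y

variable {D π} {a : Act G (SS.F R X)} (ha : D.Acts a) (hq : D.IsQuo π)

include ha in
theorem mem_invSub_iff {p : ℕ} (f : (SS.F R X).obj p) :
    f ∈ a.invSub p ↔ ∀ g x, f ((D.t g).app x) = f x := by
  constructor
  · intro h g x
    have h1 := ha p g f x
    rw [h g] at h1
    exact h1
  · intro h g
    funext x
    obtain ⟨y, rfl⟩ : ∃ y, (D.t g).app y = x := ⟨_, D.t_inv g x⟩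
    exact (ha p g f y).trans (h g y).symm

/-- the pull back of functions on the quotient is invariant -/
def pullInv : Hom (SS.F R W) a.inv where
  app p := ((π.pull (R := R)).app p).codRestrict (a.invSub p) fun f =>
    (mem_invSub_iff ha _).2 fun g x => congrArg f (hq.inv g x)
  nat θ f := Subtype.ext ((π.pull (R := R)).nat θ f)

theorem pullInv_coe {p : ℕ} (f : (SS.F R W).obj p) (x : X.obj p) :
    ((pullInv ha hq).app p f).1 x = f (π.app x) := rfl

theorem pullInv_bijective (p : ℕ) : Function.Bijective ((pullInv ha hq).app p) := by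
  constructor
  · intro f g h
    funext w
    obtain ⟨x, rfl⟩ := hq.surj w
    exact congrFun (congrArg Subtype.val h) x
  · intro f
    refine ⟨fun w => f.1 (hq.surj w).choose, Subtype.ext (funext fun x => ?_)⟩
    obtain ⟨g, hg⟩ := hq.orb _ _ (hq.surj (π.app x)).choose_spec
    have h1 := (mem_invSub_iff ha f.1).1 f.2 g (hq.surj (π.app x)).choose
    rw [hg] at h1
    exact h1.symm

end quo

section uW

/-- `[g ≠ h]` -/
def ne01 (R : Type) [CommRing R] (g h : C2) : R := if g = h then 0 else 1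

theorem ne01_self (g : C2) : ne01 R g g = 0 := if_pos rfl

theorem ne01_cocycle (h2 : (2 : R) = 0) (g h k : C2) :
    ne01 R h k + ne01 R g k = ne01 R g h := by
  have h3 : (1 : R) + 1 = 0 := by rw [one_add_one_eq_two, h2]
  unfold ne01
  rcases C2_cases g with rfl | rfl <;> rcases C2_cases h with rfl | rfl <;>
    rcases C2_cases k with rfl | rfl <;> simp [tau_ne_one, tau_ne_one.symm, h3]

theorem ne01_mul (g h k : C2) : ne01 R (g * h) (g * k) = ne01 R h k := by
  unfold ne01
  simp only [mul_right_inj]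

theorem neg_of_two (h2 : (2 : R) = 0) {M : Type*} [AddCommGroup M] [Module R M] (x : M) :
    -x = x := by
  have hr : x + x = 0 := by rw [← two_smul R, h2, zero_smul]
  exact neg_eq_of_add_eq_zero_left hr

theorem sn_of_two (h2 : (2 : R) = 0) {M : Type*} [AddCommGroup M] [Module R M] (n : ℕ) (x : M) :
    sn n x = x := by
  induction n with
  | zero => simp [sn]
  | succ n ih => rw [sn_succ, ih, neg_of_two h2]

theorem dl_zero_apply (p : ℕ) (i : Fin (p + 1)) : (dl p 0 i).1 = i.1 + 1 := by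
  rw [dl_val, if_neg (Nat.not_lt_zero _)]

theorem dl_succ_apply_zero (p i : ℕ) : dl p (i + 1) 0 = 0 := by
  apply Fin.ext
  rw [dl_val]
  simp

theorem dl_zero_apply_zero (p : ℕ) : dl p 0 0 = 1 := by
  apply Fin.ext
  rw [dl_val]
  simp

variable {X : SS} (D : Lab C2 X)

/-- the cochain `[c(x_0) ≠ c(x_1)]` -/
def eps {p : ℕ} (x : X.obj (p + 1)) : R := ne01 R (D.lab x 0) (D.lab x 1)

/-- the operator `(uW f)(x) = [c(x_0) ≠ c(x_1)] f (d_0 x)` on cochains -/
def uWf (p : ℕ) : (SS.F R X).obj p →ₗ[R] (SS.F R X).obj (p + 1) where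
  toFun f x := D.eps x * f (X.map (dl p 0) x)
  map_add' f g := funext fun x => mul_add _ _ _
  map_smul' r f := funext fun x => mul_left_comm _ _ _

theorem uWf_apply {p : ℕ} (f : (SS.F R X).obj p) (x : X.obj (p + 1)) :
    D.uWf p f x = D.eps x * f (X.map (dl p 0) x) := rfl

theorem uWf_d (h2 : (2 : R) = 0) {p : ℕ} (f : (SS.F R X).obj p) :
    (SS.F R X).d (p + 1) (D.uWf p f) = D.uWf (p + 1) ((SS.F R X).d p f) := by
  funext x
  rw [uWf_apply, SS.F_d, SS.F_d]
  simp only [sn_of_two (R := R) h2, uWf_apply]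
  rw [Finset.sum_range_succ' _ (p + 2), Finset.sum_range_succ' _ (p + 1),
    Finset.sum_range_succ' (fun i => f (X.map (dl p i) (X.map (dl (p + 1) 0) x))) (p + 1), mul_add,
    Finset.mul_sum]
  have e1 : ∀ i, X.map (dl p 0) (X.map (dl (p + 1) (i + 1)) x) =
      X.map (dl p i) (X.map (dl (p + 1) 0) x) := by
    intro i
    rw [← X.map_comp, ← X.map_comp, dl_dl (Nat.zero_le i)]
  have e2 : ∀ i, D.eps (R := R) (X.map (dl (p + 1) (i + 1 + 1)) x) = D.eps x := by
    intro i
    unfold eps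
    rw [D.lab_map]
    show ne01 R (D.lab x (dl (p + 1) (i + 1 + 1) 0)) (D.lab x (dl (p + 1) (i + 1 + 1) 1)) = _
    have h3 : dl (p + 1) (i + 1 + 1) 1 = 1 := by
      apply Fin.ext
      rw [dl_val, if_pos]
      · rfl
      · show 1 < i + 1 + 1
        omega
    rw [dl_succ_apply_zero, h3]
  have e3 : D.eps (R := R) (X.map (dl (p + 1) 0) x) = ne01 R (D.lab x 1) (D.lab x 2) := by
    unfold eps
    rw [D.lab_map]
    show ne01 R (D.lab x (dl (p + 1) 0 0)) (D.lab x (dl (p + 1) 0 1)) = _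
    have h3 : dl (p + 1) 0 1 = 2 := by
      apply Fin.ext
      rw [dl_zero_apply]
      rfl
    rw [dl_zero_apply_zero, h3]
  have e4 : D.eps (R := R) (X.map (dl (p + 1) (0 + 1)) x) = ne01 R (D.lab x 0) (D.lab x 2) := by
    unfold eps
    rw [D.lab_map]
    show ne01 R (D.lab x (dl (p + 1) (0 + 1) 0)) (D.lab x (dl (p + 1) (0 + 1) 1)) = _
    have h3 : dl (p + 1) (0 + 1) 1 = 2 := by
      apply Fin.ext
      rw [dl_val, if_neg]
      · rfl
      · show ¬ 1 < 0 + 1
        omega
    rw [dl_succ_apply_zero, h3]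
  rw [Finset.sum_congr rfl fun i _ => by rw [e1, e2], e1, e3, e4, add_assoc, ← add_mul,
    add_comm (ne01 R (D.lab x 0) (D.lab x 2)), ne01_cocycle h2]
  rfl

variable {D} {a : Act C2 (SS.F R X)} (ha : D.Acts a)

theorem eps_t (g : C2) {p : ℕ} (x : X.obj (p + 1)) :
    D.eps (R := R) ((D.t g).app x) = D.eps x := by
  unfold eps
  rw [D.lab_t, ne01_mul]

include ha in
theorem uWf_mem {p : ℕ} {f : (SS.F R X).obj p} (hf : f ∈ a.invSub p) :
    D.uWf p f ∈ a.invSub (p + 1) := by
  rw [mem_invSub_iff ha] at *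
  intro g x
  rw [uWf_apply, uWf_apply, eps_t, ← (D.t g).nat, hf]

/-- **The class of the double covering**, as an operator on the invariant cochains. -/
def uW (h2 : (2 : R) = 0) : Deg1 a.inv a.inv where
  app p := (D.uWf p).restrict fun _ hf => uWf_mem ha hf
  app_d p f := Subtype.ext (by
    have h1 := D.uWf_d h2 f.1
    have h3 : ∀ (q : ℕ) (g : a.inv.obj q), ((a.inv).d q g).1 = (SS.F R X).d q g.1 := fun q g =>
      (subHom (SS.F R X) a.invSub fun φ x hx g => by rw [a.nat, hx g]).app_d q g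
    rw [h3]
    refine h1.trans ?_
    rw [← h3]
    rfl)

theorem uW_coe (h2 : (2 : R) = 0) {p : ℕ} (f : a.inv.obj p) (x : X.obj (p + 1)) :
    ((uW ha h2).app p f).1 x = D.eps x * f.1 (X.map (dl p 0) x) := rfl

/-- `U` is the multiplication with `u` on the homotopy fixed points. -/
def IsU {B : CosMod R} {a : Act C2 B} (U : Deg1 (hG a) (hG a)) : Prop :=
  ∀ (p : ℕ) (f : (hG a).obj p) (s : Fin (p + 2) → C2),
    hG.fn (U.app p f) s = if s 0 = s 1 then 0 else B.map (dl p 0) (hG.fn f (s ∘ dl p 0))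

variable {U : Deg1 (hG a) (hG a)} (hU : IsU U)

include hU in
/-- **The multiplication with `u` is the multiplication with the class of the double covering**,
strictly, after evaluation at the labels. -/
theorem kap_U (h2 : (2 : R) = 0) {p : ℕ} (f : (hG a).obj p) :
    (kap ha).app (p + 1) (U.app p f) = (uW ha h2).app p ((kap ha).app p f) := by
  apply Subtype.ext
  funext x
  have h1 := congrFun (hU p f (D.lab x)) x
  refine h1.trans ?_
  show _ = D.eps x * hG.fn f (D.lab (X.map (dl p 0) x)) (X.map (dl p 0) x)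
  rw [D.lab_map]
  unfold eps ne01
  split_ifs
  · rw [zero_mul]; rfl
  · rw [one_mul]; rfl

include hU in
theorem mapH_kap_U (h2 : (2 : R) = 0) {n : ℕ} (x : (hG a).H n) :
    (kap ha).mapH (n + 1) (U.mapH n x) = (uW ha h2).mapH n ((kap ha).mapH n x) := by
  induction x using CosMod.H_ind with
  | h z =>
    rw [Deg1.mapH_cls, Hom.mapH_cls, Hom.mapH_cls, Deg1.mapH_cls]
    congr 1
    exact Subtype.ext (kap_U ha hU h2 z.1)

include hU in
/-- `u (iota z) = iota (uW z)` -/
theorem U_iota (h2 : (2 : R) = 0) {n : ℕ} (z : a.inv.H n) :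
    U.mapH n ((iota a).mapH n z) = (iota a).mapH (n + 1) ((uW ha h2).mapH n z) := by
  rw [← mapH_iota_kap ha (n + 1) (U.mapH n ((iota a).mapH n z)), mapH_kap_U ha hU h2,
    mapH_kap_iota]

/-! ### the operator on the quotient -/

variable {W : SS} {π : SS.Map X W} (hq : D.IsQuo π)

/-- the operator `uW` on the functions on the quotient -/
def uWqf (hq : D.IsQuo π) (p : ℕ) : (SS.F R W).obj p →ₗ[R] (SS.F R W).obj (p + 1) where
  toFun f w := D.eps (hq.surj w).choose * f (W.map (dl p 0) w)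
  map_add' f g := funext fun w => mul_add _ _ _
  map_smul' r f := funext fun w => mul_left_comm _ _ _

theorem uWqf_apply {p : ℕ} (f : (SS.F R W).obj p) (x : X.obj (p + 1)) :
    uWqf hq p f (π.app x) = D.uWf p ((π.pull (R := R)).app p f) x := by
  obtain ⟨t, ht⟩ := hq.orb _ _ (hq.surj (π.app x)).choose_spec
  have h3 : D.eps (R := R) (hq.surj (π.app x)).choose = D.eps x :=
    (eps_t t _).symm.trans (congrArg (fun z => D.eps (R := R) z) ht)
  show D.eps (hq.surj (π.app x)).choose * f (W.map (dl p 0) (π.app x)) = _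
  rw [h3, uWf_apply, SS.Map.pull_app, π.nat]

/-- the operator `uW` on the functions on the quotient -/
def uWq (h2 : (2 : R) = 0) : Deg1 (SS.F R W) (SS.F R W) where
  app p := uWqf hq p
  app_d p f := by
    funext w
    obtain ⟨x, rfl⟩ := hq.surj w
    have h1 := D.uWf_d h2 ((π.pull (R := R)).app p f)
    rw [uWqf_apply, (π.pull (R := R)).app_d, ← h1, SS.F_d, SS.F_d]
    refine Finset.sum_congr rfl fun i _ => ?_
    rw [← π.nat, uWqf_apply]

theorem uWq_app (h2 : (2 : R) = 0) {p : ℕ} (f : (SS.F R W).obj p) (x : X.obj (p + 1)) :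
    (uWq (D := D) hq h2).app p f (π.app x) = D.eps x * f (W.map (dl p 0) (π.app x)) := by
  rw [← π.nat]
  exact uWqf_apply hq f x

theorem pullInv_uWq (h2 : (2 : R) = 0) {p : ℕ} (f : (SS.F R W).obj p) :
    (pullInv ha hq).app (p + 1) ((uWq (D := D) hq h2).app p f) =
      (uW ha h2).app p ((pullInv ha hq).app p f) := by
  apply Subtype.ext
  funext x
  rw [pullInv_coe, uWq_app, uW_coe, pullInv_coe, ← π.nat]

theorem mapH_pullInv_uWq (h2 : (2 : R) = 0) {n : ℕ} (z : (SS.F R W).H n) :
    (pullInv ha hq).mapH (n + 1) ((uWq (D := D) hq h2).mapH n z) =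
      (uW ha h2).mapH n ((pullInv ha hq).mapH n z) := by
  induction z using CosMod.H_ind with
  | h z =>
    rw [Deg1.mapH_cls, Hom.mapH_cls, Hom.mapH_cls, Deg1.mapH_cls]
    congr 1
    exact Subtype.ext (pullInv_uWq ha hq h2 z.1)

/-- functions on the quotient as homotopy fixed points -/
def iotaW : Hom (SS.F R W) (hG a) := (iota a).comp (pullInv ha hq)

theorem iotaW_fn {p : ℕ} (f : (SS.F R W).obj p) (s : Fin (p + 1) → C2) (x : X.obj p) :
    hG.fn ((iotaW ha hq).app p f) s x = f (π.app x) := rfl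

theorem mapH_iotaW_bijective (n : ℕ) : Function.Bijective ((iotaW ha hq).mapH n) := by
  have h : ⇑((iotaW ha hq).mapH n) = (iota a).mapH n ∘ (pullInv ha hq).mapH n :=
    funext fun x => Hom.mapH_comp _ _ _ _
  rw [h]
  exact (mapH_iota_bijective ha n).comp
    (Hom.mapH_bijective _ (fun p => pullInv_bijective ha hq p) n)

include hU in
/-- `u (iotaW z) = iotaW (uWq z)` -/
theorem U_iotaW (h2 : (2 : R) = 0) {n : ℕ} (z : (SS.F R W).H n) :
    U.mapH n ((iotaW ha hq).mapH n z) =
      (iotaW ha hq).mapH (n + 1) ((uWq (D := D) hq h2).mapH n z) := by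
  rw [iotaW, Hom.mapH_comp, Hom.mapH_comp, U_iota ha hU h2, mapH_pullInv_uWq]

include hU ha in
/-- if `u^l = 0` on `H(hG a)` then `uW^l = 0` -/
theorem uWq_pow_eq_zero (h2 : (2 : R) = 0) {l n : ℕ}
    (h : ∀ x : (hG a).H n, U.pow l n x = 0) (z : (SS.F R W).H n) :
    (uWq (D := D) hq h2).pow l n z = 0 := by
  apply (mapH_iotaW_bijective ha hq (n + l)).1
  rw [map_zero, Deg1.pow_nat (V := U) _ (fun n x => (U_iotaW ha hU hq h2 x).symm), h]

end uW

end Lab

namespace Cov

variable {B : SS} (Y : Cov B)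

/-- the unordered pairs are the quotient of the ordered pairs -/
theorem lab2_isQuo : Y.lab2.IsQuo Y.toSub where
  surj w := Y.toSub_surj w
  inv g p x := by
    rcases C2_cases g with rfl | rfl
    · rw [lab2_t, Y.ncAct_one]
    · rw [lab2_t, Y.ncAct_tau, Y.toSub_swap]
  orb x y h := by
    rcases Y.toSub_eq_iff.1 h with rfl | rfl
    · exact ⟨1, by rw [lab2_t, Y.ncAct_one]⟩
    · exact ⟨tau, by rw [lab2_t, Y.ncAct_tau, Y.swap_swap]⟩

end Cov

end Vale.Agent.P263.E
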