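import Vale.Agent.P263.E.Star
import Vale.Agent.P263.E.UW
import Vale.Agent.P263.E.Seq
import Vale.Agent.P263.E.LZGr
import Vale.Agent.P263.S.HG

/-!
# P263, block E6 (helper512): `(★)` in cohomology and the instance for the cofibre of a covering

* `Pairs.star_H` : `u (j z) + j (uW z) = i (∂ (tr z))` in `H(hG KK)`.
* `Dat.pairs` : the instance of `Pairs` for `KT C2` of block E2.
-/

noncomputable section

namespace Vale.Agent.P263.E

open Vale.Agent.P263.S SS

variable {R : Type} [CommRing R]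

namespace Pairs

variable {X : SS} {K A C KK V : CosMod R} (P : Pairs X K A C KK V)

theorem isU_eq {B : CosMod R} {a : Act C2 B} {U : Deg1 (hG a) (hG a)} (hU : Lab.IsU U) {p : ℕ}
    (f : (hG a).obj p) : U.app p f = uF a p f := hG.ext fun s => hU p f s

/-- **`(★)` in cohomology.** -/
theorem star_H (h2 : (2 : R) = 0) {U : Deg1 (hG P.aKK) (hG P.aKK)} (hU : Lab.IsU U)
    (w : Deg1 V V) (hw : ∀ p v, w.app p v = P.uW p v) {n : ℕ} (z : V.H n) :
    U.mapH n (P.jG.mapH n z) + P.jG.mapH (n + 1) (w.mapH n z) =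
      P.iG.mapH (n + 1) (P.S1.conn n (P.tr.mapH n z)) := by
  induction z using CosMod.H_ind with
  | h v =>
    obtain ⟨α, κ, h1, h3, h4⟩ := P.S1.conn_exists n (P.tr.mapZ n v)
    rw [Hom.mapH_cls, Hom.mapH_cls, Deg1.mapH_cls, Deg1.mapH_cls, Hom.mapH_cls, h4, Hom.mapH_cls,
      ← map_add, ← sub_eq_zero, ← map_sub, CosMod.cls_eq_zero_iff]
    obtain ⟨x, hx⟩ := P.star_cochain h2 v.2 (α := α) h1 (κ := κ.1) h3
    refine ⟨x, hx.trans ?_⟩
    have e1 : ((U.mapZ n (P.jG.mapZ n v) + P.jG.mapZ (n + 1) (w.mapZ n v) -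
        P.iG.mapZ (n + 1) κ : (hG P.aKK).Z (n + 1)) : (hG P.aKK).obj (n + 1)) =
        U.app n (P.jG.app n v) + P.jG.app (n + 1) (w.app n v) - P.iG.app (n + 1) κ := rfl
    rw [e1, isU_eq hU, hw, sub_eq_add_neg, Lab.neg_of_two h2 (P.iG.app (n + 1) κ.1)]
    abel

end Pairs

namespace Dat

variable {B : SS} {Y : Cov B} (D : Dat R Y)

theorem jW_rel (h2 : (2 : R) = 0) {p : ℕ} (f : (F R (Y.ksub 2).tot).obj p) :
    D.r.app p 0 = Y.tr.app p (D.rho.app p 0) +
      (Y.nc C2).tr.app p ((Y.toSub.pull (R := R)).app p f) := by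
  rw [Y.tr_nc_pull_char2 h2, map_zero, map_zero, map_zero, add_zero]

/-- `f ↦ (0, 0, f)`, `f` a function on the unordered pairs -/
def jWf (h2 : (2 : R) = 0) {p : ℕ} (f : (F R (Y.ksub 2).tot).obj p) : (D.KT C2).obj p :=
  D.mk' C2 0 0 ((Y.toSub.pull (R := R)).app p f) (D.jW_rel h2 f)

@[simp] theorem zc_jWf (h2 : (2 : R) = 0) {p : ℕ} (f : (F R (Y.ksub 2).tot).obj p) :
    D.zc (D.jWf h2 f) = 0 := rfl

@[simp] theorem wc_jWf (h2 : (2 : R) = 0) {p : ℕ} (f : (F R (Y.ksub 2).tot).obj p) :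
    D.wc (D.jWf h2 f) = 0 := rfl

@[simp] theorem pT_jWf (h2 : (2 : R) = 0) {p : ℕ} (f : (F R (Y.ksub 2).tot).obj p) :
    (D.pT C2).app p (D.jWf h2 f) = (Y.toSub.pull (R := R)).app p f := D.pT_mk' C2 _ _ _ _

/-- `f ↦ (0, 0, f)`, `f` a function on the unordered pairs -/
def jW (h2 : (2 : R) = 0) : Hom (F R (Y.ksub 2).tot) (D.KT C2) where
  app p :=
    { toFun := fun f => D.jWf h2 f
      map_add' := fun f g => D.ext' C2 (add_zero _).symm (add_zero _).symm (by
        rw [map_add, pT_jWf, pT_jWf, pT_jWf, map_add])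
      map_smul' := fun r f => D.ext' C2 (smul_zero _).symm (smul_zero _).symm (by
        rw [map_smul, pT_jWf, pT_jWf, map_smul]; rfl) }
  nat {p q} θ f := D.ext' C2 (map_zero (D.I.map θ)).symm (map_zero (D.Z.map θ)).symm (by
    rw [Hom.nat]
    refine (D.pT_jWf h2 _).trans ?_
    rw [Hom.nat]
    exact congrArg ((F R (Y.nc C2).tot).map θ) (D.pT_jWf h2 f).symm)

@[simp] theorem jW_app (h2 : (2 : R) = 0) {p : ℕ} (f : (F R (Y.ksub 2).tot).obj p) :
    (D.jW h2).app p f = D.jWf h2 f := rfl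

/-- the components in `I` and `Z` -/
def alC : Hom (D.KT C2) (D.I.prod D.Z) where
  app _ :=
    { toFun := fun x => (D.zc x, D.wc x)
      map_add' := fun _ _ => rfl
      map_smul' := fun _ _ => rfl }
  nat _ _ := rfl

/-- The input for `(★)`: the action of `C2` on `KT C2` and on the functions on the ordered pairs,
and a labelling. -/
structure Swp where
  /-- the labelling -/
  L : Lab C2 (Y.nc C2).tot
  hL : ∀ g, L.t g = Y.ncAct g
  /-- the action on the functions on the ordered pairs -/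
  a : Act C2 (F R (Y.nc C2).tot)
  ha : L.Acts a
  /-- the action on `KT C2` -/
  aK : Act C2 (D.KT C2)
  zc_act : ∀ p g (x : (D.KT C2).obj p), D.zc (aK.act p g x) = D.zc x
  wc_act : ∀ p g (x : (D.KT C2).obj p), D.wc (aK.act p g x) = D.wc x
  pT_act : ∀ p g (x : (D.KT C2).obj p), (D.pT C2).app p (aK.act p g x) =
    a.act p g ((D.pT C2).app p x)

theorem isQuo {L : Lab C2 (Y.nc C2).tot} (hL : ∀ g, L.t g = Y.ncAct g) : L.IsQuo Y.toSub where
  surj w := Y.toSub_surj w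
  inv g p x := by
    rcases C2_cases g with rfl | rfl
    · rw [hL, Y.ncAct_one]
    · rw [hL, Y.ncAct_tau, Y.toSub_swap]
  orb x y h := by
    rcases Y.toSub_eq_iff.1 h with rfl | rfl
    · exact ⟨1, by rw [hL, Y.ncAct_one]⟩
    · exact ⟨tau, by rw [hL, Y.ncAct_tau, Y.swap_swap]⟩

variable {D}

/-- **The instance of `Pairs`.** -/
def pairs (h2 : (2 : R) = 0) (s : D.Swp) :
    Pairs (Y.nc C2).tot D.K (D.I.prod D.Z) (F R B) (D.KT C2) (F R (Y.ksub 2).tot) where
  D := s.L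
  a := s.a
  ha := s.ha
  S1 := D.s1
  T := (Y.nc C2).tr
  aKK := s.aK
  al := D.alC
  q := D.pT C2
  jinj p x h1 h3 := by
    have h4 : D.zc x = D.zc (0 : (D.KT C2).obj p) :=
      congrArg (fun t : D.I.obj p × D.Z.obj p => t.1) h1
    have h5 : D.wc x = D.wc (0 : (D.KT C2).obj p) :=
      congrArg (fun t : D.I.obj p × D.Z.obj p => t.2) h1
    exact D.ext' C2 h4 h5 (h3.trans (map_zero _).symm)
  ex p α g h := by
    refine ⟨D.mk' C2 α.1 α.2 g ?_, rfl, D.pT_mk' C2 _ _ _ _⟩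
    have h1 : D.r.app p α.1 - Y.tr.app p (D.rho.app p α.2) = (Y.nc C2).tr.app p g := h
    rw [← h1, add_sub_cancel]
  al_act p g x := Prod.ext (s.zc_act p g x) (s.wc_act p g x)
  q_act := s.pT_act
  i := D.iT C2
  al_i _ _ := rfl
  q_i p k := (D.s2 C2).pi p k
  pull := Y.toSub.pull
  pull_act p g v := (Lab.mem_invSub_iff s.ha _).2 (fun g x => congrArg v ((isQuo s.hL).inv g x)) g
  j := D.jW h2
  al_j _ _ := rfl
  q_j p v := D.pT_jWf h2 v
  tr := (Y.ksub 2).tr
  tr_eq p v := by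
    refine (Y.tr_nc_C2 _).trans ?_
    refine congrArg _ ?_
    funext w
    obtain ⟨x, rfl⟩ := Y.toSub_surj w
    refine (Y.tr_dbl_toSub _ x).trans ?_
    have h1 : s.L.lab (Y.swap.app x) 0 = tau * s.L.lab x 0 := by
      have h3 := s.L.lab_t tau x
      rw [s.hL, Y.ncAct_tau] at h3
      rw [h3]
    show (if s.L.lab x 0 = 1 then v (Y.toSub.app x) else 0) +
      (if s.L.lab (Y.swap.app x) 0 = 1 then v (Y.toSub.app (Y.swap.app x)) else 0) = _
    rw [h1, Y.toSub_swap]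
    rcases C2_cases (s.L.lab x 0) with h | h
    · rw [h, if_pos rfl, if_neg (by decide), add_zero]
    · rw [h, if_neg (by decide), if_pos (by decide), zero_add]
  uW := (Lab.uWq (D := s.L) (isQuo s.hL) h2).app
  pull_uW p v x := by
    refine (Lab.uWq_app (D := s.L) (isQuo s.hL) h2 v x).trans ?_
    unfold Lab.eps Lab.ne01
    rw [← Y.toSub.nat]
    split_ifs
    · rw [zero_mul]
    · rw [one_mul]; rfl

end Dat

end Vale.Agent.P263.E
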