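import Vale.Agent.P263.E.SeqAct
import Vale.Agent.P263.S.Pow

/-!
# P263, block E2: the products `K × K → KT C2` and `KT T × KT T → KT (C2 × T)` (helper727)

* `D.mul0 : Bil D.K D.K (D.KT C2)`, `D.mulT T : Bil (D.KT T) (D.KT T) (D.KT (C2 × T))`;
* symmetry: `D.sym_mul0 : Sym D.mul0 (D.actT C2 C2)`, `D.sym_mulT`;
* equivariance under the change of `T`: `D.mulT_rei`;
* interchange: `D.interchange`.
-/

noncomputable section

namespace Vale.Agent.P263.E

open Vale.Agent.P263.S SS

variable {R : Type} [CommRing R] {B : SS}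

namespace Alg

variable {A : CosMod R} (a : Alg A)

theorem mul4 (p : ℕ) (x y z w : A.obj p) :
    a.mul.app p (a.mul.app p x y) (a.mul.app p z w) =
      a.mul.app p (a.mul.app p x z) (a.mul.app p y w) := by
  rw [a.assoc, a.assoc, ← a.assoc p y z w, a.comm p y z, a.assoc p z y w]

end Alg

namespace Cov

variable (Y : Cov B)

/-- the exterior product of two functions as a function on pairs -/
def cross : Bil (F R Y.tot) (F R Y.tot) (F R (Y.pow C2).tot) where
  app p := LinearMap.mk₂ R (fun a b =>
      (fun x : (Y.pow C2).tot.obj p => a (x.val 1) * b (x.val tau) : (F R (Y.pow C2).tot).obj p))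
    (fun a a' b => by
      funext x
      exact add_mul (a (x.val 1)) (a' (x.val 1)) (b (x.val tau)))
    (fun r a b => by
      funext x
      exact mul_assoc r (a (x.val 1)) (b (x.val tau)))
    (fun a b b' => by
      funext x
      exact mul_add (a (x.val 1)) (b (x.val tau)) (b' (x.val tau)))
    (fun r a b => by
      funext x
      exact mul_left_comm (a (x.val 1)) r (b (x.val tau)))
  nat _ _ _ := rfl

@[simp] theorem cross_app {p : ℕ} (a b : (F R Y.tot).obj p) (x : (Y.pow C2).tot.obj p) :
    Y.cross.app p a b x = a (x.val 1) * b (x.val tau) := rfl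

theorem diag_cross {p : ℕ} (a b : (F R Y.tot).obj p) :
    (Y.diag C2).pull.app p (Y.cross.app p a b) = mul a b := rfl

theorem tr_cross {p : ℕ} (a b : (F R Y.tot).obj p) :
    ((Y.pow C2).tr (R := R)).app p (Y.cross.app p a b) =
      mul ((Y.tr (R := R)).app p a) ((Y.tr (R := R)).app p b) := by
  funext c
  have h := Y.sum_pow_prod (T := C2) c (fun t => if t = 1 then a else b)
  rw [prod_C2] at h
  refine Eq.trans ?_ h
  exact Finset.sum_congr rfl fun x _ =>
    (prod_C2 fun t => (if t = 1 then a else b) (x.val t)).symm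

section

variable (T : Type) [Fintype T] [DecidableEq T]

/-- the exterior product of two functions on `T`-tuples -/
def crossT : Bil (F R (Y.pow T).tot) (F R (Y.pow T).tot) (F R (Y.pow (C2 × T)).tot) where
  app p := LinearMap.mk₂ R
    (fun a b => (fun x : (Y.pow (C2 × T)).tot.obj p =>
      a ((Y.slice 1).app x) * b ((Y.slice tau).app x) : (F R (Y.pow (C2 × T)).tot).obj p))
    (fun a a' b => by
      funext x
      exact add_mul (a ((Y.slice 1).app x)) (a' ((Y.slice 1).app x)) (b ((Y.slice tau).app x)))
    (fun r a b => by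
      funext x
      exact mul_assoc r (a ((Y.slice 1).app x)) (b ((Y.slice tau).app x)))
    (fun a b b' => by
      funext x
      exact mul_add (a ((Y.slice 1).app x)) (b ((Y.slice tau).app x)) (b' ((Y.slice tau).app x)))
    (fun r a b => by
      funext x
      exact mul_left_comm (a ((Y.slice 1).app x)) r (b ((Y.slice tau).app x)))
  nat _ _ _ := rfl

@[simp] theorem crossT_app {p : ℕ} (a b : (F R (Y.pow T).tot).obj p)
    (x : (Y.pow (C2 × T)).tot.obj p) :
    (Y.crossT T).app p a b x = a ((Y.slice 1).app x) * b ((Y.slice tau).app x) := rfl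

theorem diag_crossT {p : ℕ} (a b : (F R (Y.pow T).tot).obj p) :
    (Y.diag (C2 × T)).pull.app p ((Y.crossT T).app p a b) =
      mul ((Y.diag T).pull.app p a) ((Y.diag T).pull.app p b) := rfl

theorem tr_crossT {p : ℕ} (a b : (F R (Y.pow T).tot).obj p) :
    ((Y.pow (C2 × T)).tr (R := R)).app p ((Y.crossT T).app p a b) =
      mul (((Y.pow T).tr (R := R)).app p a) (((Y.pow T).tr (R := R)).app p b) := by
  funext c
  have h := Y.sum_slice_prod (T := T) (S := C2) c (fun t => if t = 1 then a else b)
  rw [prod_C2] at h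
  refine Eq.trans ?_ h
  exact Finset.sum_congr rfl fun x _ =>
    (prod_C2 fun s => (if s = 1 then a else b) ((Y.slice s).app x)).symm

end

end Cov

namespace Dat

variable {Y : Cov B} (D : Dat R Y)

/-- the product `K × K → KT C2` -/
def mul0 : Bil D.K D.K (D.KT C2) where
  app p := LinearMap.mk₂ R
    (fun x y => D.mkT (D.aI.mul.app p (D.kz.app p x) (D.kz.app p y))
      (D.aZ.mul.app p (D.kw.app p x) (D.kw.app p y))
      (Y.cross.app p (D.rho.app p (D.kw.app p x)) (D.rho.app p (D.kw.app p y)))
      (by rw [Y.diag_cross, D.rho_mul])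
      (by rw [Y.tr_cross, D.r_mul, D.r_kz, D.r_kz]))
    (fun x x' y => by
      refine D.extT ?_ ?_ ?_
      · exact (congrArg (fun z => D.aI.mul.app p z (D.kz.app p y)) (map_add _ _ _)).trans
          (LinearMap.map_add₂ _ _ _ _)
      · exact (congrArg (fun z => D.aZ.mul.app p z (D.kw.app p y)) (map_add _ _ _)).trans
          (LinearMap.map_add₂ _ _ _ _)
      · refine (congrArg (fun z => Y.cross.app p z (D.rho.app p (D.kw.app p y))) ?_).trans
          (LinearMap.map_add₂ _ _ _ _)
        rw [map_add, map_add])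
    (fun r x y => by
      refine D.extT ?_ ?_ ?_
      · exact (congrArg (fun z => D.aI.mul.app p z (D.kz.app p y)) (map_smul _ _ _)).trans
          (LinearMap.map_smul₂ _ _ _ _)
      · exact (congrArg (fun z => D.aZ.mul.app p z (D.kw.app p y)) (map_smul _ _ _)).trans
          (LinearMap.map_smul₂ _ _ _ _)
      · refine (congrArg (fun z => Y.cross.app p z (D.rho.app p (D.kw.app p y))) ?_).trans
          (LinearMap.map_smul₂ _ _ _ _)
        rw [map_smul, map_smul])
    (fun x y y' => by
      refine D.extT ?_ ?_ ?_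
      · exact (congrArg (fun z => D.aI.mul.app p (D.kz.app p x) z) (map_add _ _ _)).trans
          (map_add _ _ _)
      · exact (congrArg (fun z => D.aZ.mul.app p (D.kw.app p x) z) (map_add _ _ _)).trans
          (map_add _ _ _)
      · refine (congrArg (fun z => Y.cross.app p (D.rho.app p (D.kw.app p x)) z) ?_).trans
          (map_add _ _ _)
        rw [map_add, map_add])
    (fun r x y => by
      refine D.extT ?_ ?_ ?_
      · exact (congrArg (fun z => D.aI.mul.app p (D.kz.app p x) z) (map_smul _ _ _)).trans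
          (map_smul _ _ _)
      · exact (congrArg (fun z => D.aZ.mul.app p (D.kw.app p x) z) (map_smul _ _ _)).trans
          (map_smul _ _ _)
      · refine (congrArg (fun z => Y.cross.app p (D.rho.app p (D.kw.app p x)) z) ?_).trans
          (map_smul _ _ _)
        rw [map_smul, map_smul])
  nat φ x y := by
    refine D.extT ?_ ?_ ?_
    · exact (congrArg₂ (fun a b => D.aI.mul.app _ a b) (Hom.nat _ _ _) (Hom.nat _ _ _)).trans
        (D.aI.mul.nat φ _ _)
    · exact (congrArg₂ (fun a b => D.aZ.mul.app _ a b) (Hom.nat _ _ _) (Hom.nat _ _ _)).trans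
        (D.aZ.mul.nat φ _ _)
    · refine (congrArg₂ (fun a b => Y.cross.app _ a b) ?_ ?_).trans
        (Y.cross.nat φ (D.rho.app _ (D.kw.app _ x)) (D.rho.app _ (D.kw.app _ y)))
      · rw [Hom.nat, Hom.nat]
      · rw [Hom.nat, Hom.nat]

@[simp] theorem zc_mul0 {p : ℕ} (x y : D.K.obj p) :
    D.zc (D.mul0.app p x y) = D.aI.mul.app p (D.kz.app p x) (D.kz.app p y) := rfl

@[simp] theorem wc_mul0 {p : ℕ} (x y : D.K.obj p) :
    D.wc (D.mul0.app p x y) = D.aZ.mul.app p (D.kw.app p x) (D.kw.app p y) := rfl

@[simp] theorem gc_mul0 {p : ℕ} (x y : D.K.obj p) : D.gc (D.mul0.app p x y) =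
    Y.cross.app p (D.rho.app p (D.kw.app p x)) (D.rho.app p (D.kw.app p y)) := rfl

/-- the product of `K` restricted to the pairs of different points -/
theorem pT_mul0 {p : ℕ} (x y : D.K.obj p) : (D.pT C2).app p (D.mul0.app p x y) =
    Y.ext2 (D.rho.app p (D.kw.app p x)) (D.rho.app p (D.kw.app p y)) := rfl

section

variable (T : Type) [Fintype T] [DecidableEq T]

/-- the product `KT T × KT T → KT (C2 × T)` -/
def mulT : Bil (D.KT T) (D.KT T) (D.KT (C2 × T)) where
  app p := LinearMap.mk₂ R
    (fun x y => D.mkT (D.aI.mul.app p (D.zc x) (D.zc y)) (D.aZ.mul.app p (D.wc x) (D.wc y))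
      ((Y.crossT T).app p (D.gc x) (D.gc y))
      (by rw [Y.diag_crossT, D.rho_mul, D.gc_diag, D.gc_diag])
      (by rw [Y.tr_crossT, D.r_mul, D.tr_gc, D.tr_gc]))
    (fun x x' y => D.extT (LinearMap.map_add₂ _ _ _ _) (LinearMap.map_add₂ _ _ _ _)
      (LinearMap.map_add₂ ((Y.crossT T).app p) (D.gc x) (D.gc x') (D.gc y)))
    (fun r x y => D.extT (LinearMap.map_smul₂ _ _ _ _) (LinearMap.map_smul₂ _ _ _ _)
      (LinearMap.map_smul₂ ((Y.crossT T).app p) r (D.gc x) (D.gc y)))
    (fun x y y' => D.extT (map_add _ _ _) (map_add _ _ _)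
      (map_add ((Y.crossT T).app p (D.gc x)) (D.gc y) (D.gc y')))
    (fun r x y => D.extT (map_smul _ _ _) (map_smul _ _ _)
      (map_smul ((Y.crossT T).app p (D.gc x)) r (D.gc y)))
  nat φ x y := D.extT (D.aI.mul.nat φ _ _) (D.aZ.mul.nat φ _ _) rfl

@[simp] theorem zc_mulT {p : ℕ} (x y : (D.KT T).obj p) :
    D.zc ((D.mulT T).app p x y) = D.aI.mul.app p (D.zc x) (D.zc y) := rfl

@[simp] theorem wc_mulT {p : ℕ} (x y : (D.KT T).obj p) :
    D.wc ((D.mulT T).app p x y) = D.aZ.mul.app p (D.wc x) (D.wc y) := rfl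

@[simp] theorem gc_mulT {p : ℕ} (x y : (D.KT T).obj p) :
    D.gc ((D.mulT T).app p x y) = (Y.crossT T).app p (D.gc x) (D.gc y) := rfl

end

/-! ### symmetry -/

theorem rei_mul0 {p : ℕ} (x y : D.K.obj p) :
    (D.rei (Equiv.mulLeft tau)).app p (D.mul0.app p x y) = D.mul0.app p y x := by
  refine D.extT (D.aI.comm p _ _) (D.aZ.comm p _ _) ?_
  funext t
  exact mul_comm (D.rho.app p (D.kw.app p x) (t.val tau)) (D.rho.app p (D.kw.app p y) (t.val 1))

/-- the product `K × K → KT C2` is symmetric -/
theorem sym_mul0 : Sym D.mul0 (D.actT C2 C2) := fun _ x y => D.rei_mul0 x y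

section

variable (T : Type) [Fintype T] [DecidableEq T]

/-- the swap of the two halves of `C2 × T` -/
theorem rei_mulT {p : ℕ} (x y : (D.KT T).obj p) :
    (D.rei ((Equiv.mulLeft tau).prodCongr (Equiv.refl T))).app p ((D.mulT T).app p x y) =
      (D.mulT T).app p y x := by
  refine D.extT (D.aI.comm p _ _) (D.aZ.comm p _ _) ?_
  funext t
  exact mul_comm (D.gc x ((Y.slice tau).app t)) (D.gc y ((Y.slice 1).app t))

/-- the action of `C2` on `KT (C2 × T)` through the first factor -/
def actL : Act C2 (D.KT (C2 × T)) where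
  act p :=
    { toFun := fun g => (D.rei ((Equiv.mulLeft g).prodCongr (Equiv.refl T))).app p
      map_one' := by
        refine LinearMap.ext fun x => D.extT rfl rfl ?_
        funext y
        refine congrArg (D.gc x) (Cov.Tup.ext rfl (funext fun t => ?_))
        exact congrArg (fun s => y.val (s, t.2)) (one_mul t.1)
      map_mul' := fun g h => by
        refine LinearMap.ext fun x => D.extT rfl rfl ?_
        funext y
        refine congrArg (D.gc x) (Cov.Tup.ext rfl (funext fun t => ?_))
        exact congrArg (fun s => y.val (s, t.2)) (mul_assoc g h t.1) }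
  nat φ g x := (D.rei ((Equiv.mulLeft g).prodCongr (Equiv.refl T))).nat φ x

@[simp] theorem actL_act (p : ℕ) (g : C2) (x : (D.KT (C2 × T)).obj p) :
    (D.actL T).act p g x = (D.rei ((Equiv.mulLeft g).prodCongr (Equiv.refl T))).app p x := rfl

/-- the product `KT T × KT T → KT (C2 × T)` is symmetric -/
theorem sym_mulT : Sym (D.mulT T) (D.actL T) := fun _ x y => D.rei_mulT T x y

variable (G : Type) [Group G] [MulAction G T]

/-- the action of `G` on `KT (S × T)` through the second factor -/
def actR (S : Type) [Fintype S] [DecidableEq S] : Act G (D.KT (S × T)) where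
  act p :=
    { toFun := fun g => (D.rei ((Equiv.refl S).prodCongr (MulAction.toPerm g : Equiv.Perm T))).app p
      map_one' := by
        refine LinearMap.ext fun x => D.extT rfl rfl ?_
        funext y
        refine congrArg (D.gc x) (Cov.Tup.ext rfl (funext fun t => ?_))
        exact congrArg (fun s => y.val (t.1, s)) (one_smul G t.2)
      map_mul' := fun g h => by
        refine LinearMap.ext fun x => D.extT rfl rfl ?_
        funext y
        refine congrArg (D.gc x) (Cov.Tup.ext rfl (funext fun t => ?_))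
        exact congrArg (fun s => y.val (t.1, s)) (mul_smul g h t.2) }
  nat φ g x := (D.rei ((Equiv.refl S).prodCongr (MulAction.toPerm g : Equiv.Perm T))).nat φ x

@[simp] theorem actR_act (S : Type) [Fintype S] [DecidableEq S] (p : ℕ) (g : G)
    (x : (D.KT (S × T)).obj p) : (D.actR T G S).act p g x =
      (D.rei ((Equiv.refl S).prodCongr (MulAction.toPerm g : Equiv.Perm T))).app p x := rfl

end

/-! ### equivariance and interchange -/

/-- the product is natural in the index set -/
theorem mulT_rei {T T' : Type} [Fintype T] [DecidableEq T] [Fintype T'] [DecidableEq T']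
    (σ : T ≃ T') {p : ℕ} (x y : (D.KT T).obj p) :
    (D.mulT T').app p ((D.rei σ).app p x) ((D.rei σ).app p y) =
      (D.rei ((Equiv.refl C2).prodCongr σ)).app p ((D.mulT T).app p x y) := rfl

theorem mulT_equiv (T : Type) [Fintype T] [DecidableEq T] (G : Type) [Group G] [MulAction G T]
    (p : ℕ) (g : G) (x y : (D.KT T).obj p) :
    (D.mulT T).app p ((D.actT T G).act p g x) ((D.actT T G).act p g y) =
      (D.actR T G C2).act p g ((D.mulT T).app p x y) := rfl

/-- the product `h(KT T) × h(KT T) → h(KT (C2 × T))` -/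
def hmul (T : Type) [Fintype T] [DecidableEq T] (G : Type) [Group G] [MulAction G T] :
    Bil (hG (D.actT T G)) (hG (D.actT T G)) (hG (D.actR T G C2)) :=
  hG.bil _ _ _ (D.mulT T) (D.mulT_equiv T G)

/-- **interchange**: the transposition of `C2 × C2` exchanges the two inner factors -/
theorem interchange {p : ℕ} (a b c d : D.K.obj p) :
    (D.rei (Equiv.prodComm C2 C2)).app p
        ((D.mulT C2).app p (D.mul0.app p a b) (D.mul0.app p c d)) =
      (D.mulT C2).app p (D.mul0.app p a c) (D.mul0.app p b d) := by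
  refine D.extT (D.aI.mul4 p _ _ _ _) (D.aZ.mul4 p _ _ _ _) ?_
  funext t
  exact mul_mul_mul_comm (D.rho.app p (D.kw.app p a) (t.val (1, 1)))
    (D.rho.app p (D.kw.app p b) (t.val (tau, 1))) (D.rho.app p (D.kw.app p c) (t.val (1, tau)))
    (D.rho.app p (D.kw.app p d) (t.val (tau, tau)))

end Dat

end Vale.Agent.P263.E
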