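import Vale.Agent.P263.E.SqE
import Vale.Agent.P263.E.LZInst
import Vale.Agent.P263.E.Cl
import Vale.Agent.P263.E.Mul

/-!
# P263, block E4 (helper659): the instance of `PowIn` for the cofibre of a covering

`D : Dat (ZMod 2) Y`, `s : D.Swp` (the swap on `KT C2`), `m : D.MulK` (the product `K × K → KT C2`),
`nil` : `u^R = 0` on `H(hG F(W~))`; `D.powIn s m R nil : PowIn`.
`Sq_kw` : the projection to `H(Z)` carries the squares of the cofibre to the squares of `Z`.
-/

noncomputable section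

namespace Vale.Agent.P263.E

open Vale.Agent.P263.S SS

namespace Dat

section general

variable {R : Type} [CommRing R] {B : SS} {Y : Cov B} (D : Dat R Y)

/-- The product `K × K → KT C2`. -/
structure MulK where
  /-- the product -/
  mul : Bil D.K D.K (D.KT C2)
  zc_mul : ∀ p x y, D.zc (mul.app p x y) = D.aI.mul.app p (D.kz.app p x) (D.kz.app p y)
  wc_mul : ∀ p x y, D.wc (mul.app p x y) = D.aZ.mul.app p (D.kw.app p x) (D.kw.app p y)
  pT_mul : ∀ p x y, (D.pT C2).app p (mul.app p x y) =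
    Y.ext2 (D.rho.app p (D.kw.app p x)) (D.rho.app p (D.kw.app p y))

variable {D}

theorem Swp.act_ext2 (s : D.Swp) {p : ℕ} (f g : (F R Y.tot).obj p) :
    s.a.act p C2.t (Y.ext2 f g) = Y.ext2 g f := by
  funext x
  have h := s.ha p C2.t (Y.ext2 f g) (Y.swap.app x)
  rw [s.hL] at h
  have h1 : (Y.ncAct C2.t).app (Y.swap.app x) = x := Y.swap_swap x
  rw [h1] at h
  exact h.trans (mul_comm _ _)

theorem MulK.sym (m : D.MulK) (s : D.Swp) : Sym m.mul s.aK := by
  intro p x y
  refine D.ext' C2 ?_ ?_ ?_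
  · rw [s.zc_act, m.zc_mul, m.zc_mul, D.aI.comm]
  · rw [s.wc_act, m.wc_mul, m.wc_mul, D.aZ.comm]
  · rw [s.pT_act, m.pT_mul, m.pT_mul, s.act_ext2]

theorem Swp.hi (s : D.Swp) (p : ℕ) (g : C2) (x : D.K.obj p) :
    (D.s2 C2).i.app p ((Act.triv C2 D.K).act p g x) = s.aK.act p g ((D.s2 C2).i.app p x) := by
  refine D.ext' C2 ?_ ?_ ?_
  · rw [s.zc_act]; rfl
  · rw [s.wc_act]; rfl
  · rw [s.pT_act]
    have h : (D.pT C2).app p ((D.s2 C2).i.app p x) = 0 := (D.s2 C2).pi p x
    rw [h, map_zero]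
    exact h

/-- The projection `KT C2 → Z`. -/
def wcH (D : Dat R Y) (T : Type) [Fintype T] [DecidableEq T] : Hom (D.KT T) D.Z where
  app _ :=
    { toFun := fun x => D.wc x
      map_add' := fun _ _ => rfl
      map_smul' := fun _ _ => rfl }
  nat _ _ := rfl

@[simp] theorem wcH_app (D : Dat R Y) (T : Type) [Fintype T] [DecidableEq T] {p : ℕ}
    (x : (D.KT T).obj p) : (D.wcH T).app p x = D.wc x := rfl

end general

variable {B : SS} {Y : Cov B} (D : Dat (ZMod 2) Y)

variable {D} in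
/-- **The instance of `PowIn` for the cofibre of a covering.** -/
def powIn (s : D.Swp) (m : D.MulK) (R : ℕ)
    (nil : ∀ n (x : (guHG idC s.a).H n), (guHG idC s.a).upow R n x = 0) : PowIn where
  K := D.K
  KK := D.KT C2
  W := F (ZMod 2) (Y.nc C2).tot
  c := s.aK
  w := s.a
  S := D.s2 C2
  hi := s.hi
  hp := s.pT_act
  mul := m.mul
  sym := m.sym s
  R := R
  nil := nil

theorem sym_aZ : Sym D.aZ.mul (Act.triv C2 D.Z) := fun p x y => D.aZ.comm p x y

/-- **The projection to `H(Z)` carries the squares of the cofibre to the squares of `Z`.** -/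
theorem Sq_kw (s : D.Swp) (m : D.MulK) (R : ℕ)
    (nil : ∀ n (x : (guHG idC s.a).H n), (guHG idC s.a).upow R n x = 0)
    (fr : GU.Free (guHG idC (Act.triv C2 D.K)) D.K.H)
    (frZ : GU.Free (guHG idC (Act.triv C2 D.Z)) D.Z.H)
    (hcf : ∀ n j (x : (hG (Act.triv C2 D.K)).H n), frZ.cf n j
      ((hG.mapHom (Act.triv C2 D.K) (Act.triv C2 D.Z) D.kw (fun _ _ _ => rfl)).mapH n x) =
        D.kw.mapH j (fr.cf n j x)) (q j : ℕ) (x : D.K.H q) :
    D.kw.mapH j (((powIn s m R nil).setup fr).Sq q j x) =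
      frZ.cf (q + q) j (P D.aZ.mul (Act.triv C2 D.Z) D.sym_aZ (D.kw.mapH q x)) :=
  (powIn s m R nil).Sq_map fr D.aZ.mul D.sym_aZ frZ (D.wcH C2) D.kw (fun _ _ => rfl)
    s.wc_act m.wc_mul hcf q j x

end Dat

/-! ### the standard swap and product -/

/-- the action of `C2` on the functions on ordered pairs is the one of every labelling -/
theorem Cov.PLab.acts {R : Type} [CommRing R] {B : SS} {Y : Cov B} (P : Y.PLab) :
    P.toLab.Acts (Y.actNC R C2 C2) := by
  intro p g φ x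
  refine congrArg φ (Y.nc_ext rfl fun t => congrArg x.1.val ?_)
  show g * (g • t) = t
  rcases C2_cases g with rfl | rfl
  · rw [one_smul, one_mul]
  · exact tau_mul_self_mul t

namespace Dat

section general

variable {R : Type} [CommRing R] {B : SS} {Y : Cov B} (D : Dat R Y)

/-- the swap on `KT C2`, with a labelling of the ordered pairs -/
def swp (P : Y.PLab) : D.Swp where
  L := P.toLab
  hL _ := rfl
  a := Y.actNC R C2 C2
  ha := P.acts
  aK := D.actT C2 C2
  zc_act _ _ _ := rfl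
  wc_act _ _ _ := rfl
  pT_act _ _ _ := rfl

/-- the product `K × K → KT C2` -/
def mulK : D.MulK where
  mul := D.mul0
  zc_mul _ _ _ := rfl
  wc_mul _ _ _ := rfl
  pT_mul _ _ _ := rfl

end general

variable {B : SS} {Y : Cov B} (D : Dat (ZMod 2) Y)

/-- **The input of `SqAlg` for the cofibre of a covering.** -/
def pw (R : ℕ) (nil : ∀ n (x : (guHG idC (Y.actNC (ZMod 2) C2 C2)).H n),
    (guHG idC (Y.actNC (ZMod 2) C2 C2)).upow R n x = 0) : PowIn where
  K := D.K
  KK := D.KT C2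
  W := F (ZMod 2) (Y.nc C2).tot
  c := D.actT C2 C2
  w := Y.actNC (ZMod 2) C2 C2
  S := D.s2 C2
  hi := D.iT_equiv C2 C2
  hp := D.pT_equiv C2 C2
  mul := D.mul0
  sym := D.sym_mul0
  R := R
  nil := nil

theorem pw_eq (P : Y.PLab) (R : ℕ) (nil : ∀ n (x : (guHG idC (Y.actNC (ZMod 2) C2 C2)).H n),
    (guHG idC (Y.actNC (ZMod 2) C2 C2)).upow R n x = 0) :
    powIn (D.swp P) D.mulK R nil = D.pw R nil := rfl

/-- **The projection to `H(Z)` carries the squares of the cofibre to the squares of `Z`.** -/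
theorem kw_Sq (R : ℕ) (nil : ∀ n (x : (guHG idC (Y.actNC (ZMod 2) C2 C2)).H n),
    (guHG idC (Y.actNC (ZMod 2) C2 C2)).upow R n x = 0) (q j : ℕ) (x : D.K.H q) :
    D.kw.mapH j ((D.pw R nil).st.Sq q j x) =
      cf D.Z (q + q) j (P D.aZ.mul (Act.triv C2 D.Z) D.sym_aZ (D.kw.mapH q x)) :=
  (D.pw R nil).st_Sq_map D.aZ.mul D.sym_aZ (D.wcH C2) D.kw (fun _ _ => rfl)
    (fun _ _ _ => rfl) (fun _ _ _ => rfl) q j x

end Dat

end Vale.Agent.P263.E
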