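import Vale.Agent.P263.S.Htpy
import Vale.Agent.P263.E.Simp

/-!
# P263, block E: cofree simplicial sets; every map can be made levelwise injective

`SS.cofree X` has as `p`-simplices the families `(θ : [n] → [p]) ↦ X_n`; it is contractible and
contains `X` by `SS.unit X : x ↦ (θ ↦ θ^* x)`.  For `f : X → Q` the map
`SS.thick f : X → Q × cofree X` is levelwise injective, lies over `f`, and the projection
`SS.thickPr : Q × cofree X → Q` induces an isomorphism on the cohomology of function cochains with
coefficients in any commutative ring.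
-/

namespace Vale.Agent.P263.E

open Vale.Agent.P263.S

namespace SS

/-- A simplicial homotopy `Y × Δ^1 → X`, in the form of a natural family indexed by the maps
`[p] → [1]`. -/
structure Htp (Y X : SS) where
  /-- the family -/
  h : ∀ p, Op p 1 → Y.obj p → X.obj p
  nat : ∀ {p q : ℕ} (f : Op p q) (χ : Op q 1) (y : Y.obj q),
    h p (χ.comp f) (Y.map f y) = X.map f (h q χ y)

namespace Htp

variable {Y X : SS} (K : Htp Y X)

/-- the end `0` -/
def e0 : Map Y X := ⟨fun {p} y => K.h p (c0 p) y, fun f y => by rw [← K.nat, c0_comp]⟩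

/-- the end `1` -/
def e1 : Map Y X := ⟨fun {p} y => K.h p (c1 p) y, fun f y => by rw [← K.nat, c1_comp]⟩

variable (R : Type) [CommRing R]

/-- the prism of a simplicial homotopy -/
def prism : Prism (F R X) (F R Y) where
  h p χ :=
    { toFun := fun c y => c (K.h p χ y)
      map_add' := fun _ _ => rfl
      map_smul' := fun _ _ => rfl }
  nat {p q} f χ c := by
    funext y
    exact (congrArg c (K.nat f χ y)).symm

variable {R}

theorem mapH_eq (p : ℕ) (x : (F R X).H p) :
    (K.e1.pull (R := R)).mapH p x = (K.e0.pull (R := R)).mapH p x :=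
  (K.prism R).mapH_end p x

/-- the two pull-backs of a cocycle differ by a coboundary -/
theorem pull_sub_mem {p : ℕ} {c : (F R X).obj p} (hc : c ∈ (F R X).Z p) :
    (K.e1.pull (R := R)).app p c - (K.e0.pull (R := R)).app p c ∈ (F R Y).Bd p :=
  (K.prism R).sub_mem hc

end Htp

/-- the cofree simplicial set on the underlying graded set of `X` -/
def cofree (X : SS) : SS where
  obj p := ∀ n : ℕ, Op n p → X.obj n
  map f c := fun n g => c n (f.comp g)
  map_id _ := rfl
  map_comp _ _ _ := rfl

@[simp] theorem cofree_map_apply {X : SS} {p q : ℕ} (f : Op p q) (c : (cofree X).obj q) (n : ℕ)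
    (g : Op n p) : (cofree X).map f c n g = c n (f.comp g) := rfl

/-- the unit map `X → cofree X` -/
def unit (X : SS) : Map X (cofree X) where
  app x := fun _ g => X.map g x
  nat f x := by
    funext n g
    exact (X.map_comp f g x).symm

theorem unit_inj (X : SS) : (unit X).Inj := by
  intro p x y h
  have h1 : X.map (OrderHom.id : Op p p) x = X.map (OrderHom.id : Op p p) y :=
    congrFun (congrFun h p) OrderHom.id
  rwa [X.map_id, X.map_id] at h1

/-- the base point of `cofree X` given by a choice of simplices -/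
def bpt {X : SS} (b : ∀ n, X.obj n) (p : ℕ) : (cofree X).obj p := fun n _ => b n

@[simp] theorem bpt_map {X : SS} (b : ∀ n, X.obj n) {p q : ℕ} (f : Op p q) :
    (cofree X).map f (bpt b q) = bpt b p := rfl

open Classical in
/-- the contraction of `cofree X` -/
noncomputable def contr {X : SS} (b : ∀ n, X.obj n) : Htp (cofree X) (cofree X) where
  h _ χ c := fun n g => if ∀ i, χ (g i) = 1 then c n g else b n
  nat _ _ _ := rfl

theorem contr_c1 {X : SS} (b : ∀ n, X.obj n) {p : ℕ} (c : (cofree X).obj p) :
    (contr b).h p (c1 p) c = c := by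
  funext n g
  exact if_pos fun i => c1_val p (g i)

theorem contr_c0 {X : SS} (b : ∀ n, X.obj n) {p : ℕ} (c : (cofree X).obj p) :
    (contr b).h p (c0 p) c = bpt b p := by
  funext n g
  refine if_neg fun h => ?_
  have := (c0_val p (g 0)).symm.trans (h 0)
  exact absurd this (by decide)

/-- `X` thickened over `Q` -/
def thick {X Q : SS} (f : Map X Q) : Map X (Q.prod (cofree X)) := pair f (unit X)

theorem thick_inj {X Q : SS} (f : Map X Q) : (thick f).Inj := by
  intro p x y h
  exact unit_inj X p (congrArg Prod.snd h)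

theorem fst_thick {X Q : SS} (f : Map X Q) : (fst Q (cofree X)).comp (thick f) = f := rfl

/-- the section of the projection `Q × cofree X → Q` -/
def sec {X : SS} (Q : SS) (b : ∀ n, X.obj n) : Map Q (Q.prod (cofree X)) where
  app {p} q := (q, bpt b p)
  nat _ _ := rfl

theorem fst_sec {X : SS} (Q : SS) (b : ∀ n, X.obj n) :
    (fst Q (cofree X)).comp (sec Q b) = Map.id Q := rfl

/-- the homotopy between the identity of `Q × cofree X` and the projection to the section -/
noncomputable def secHtp {X : SS} (Q : SS) (b : ∀ n, X.obj n) :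
    Htp (Q.prod (cofree X)) (Q.prod (cofree X)) where
  h p χ x := (x.1, (contr b).h p χ x.2)
  nat _ _ _ := rfl

theorem secHtp_e1 {X : SS} (Q : SS) (b : ∀ n, X.obj n) :
    (secHtp Q b).e1 = Map.id _ := by
  apply Map.ext
  intro p x
  exact Prod.ext rfl (contr_c1 b x.2)

theorem secHtp_e0 {X : SS} (Q : SS) (b : ∀ n, X.obj n) :
    (secHtp Q b).e0 = (sec Q b).comp (fst Q (cofree X)) := by
  apply Map.ext
  intro p x
  exact Prod.ext rfl (contr_c0 b x.2)

variable {R : Type} [CommRing R]

/-- The projection `Q × cofree X → Q` induces an isomorphism in cohomology. -/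
theorem mapH_fst_sec {X : SS} (Q : SS) (b : ∀ n, X.obj n) (p : ℕ)
    (x : (F R (Q.prod (cofree X))).H p) :
    ((fst Q (cofree X)).pull (R := R)).mapH p (((sec Q b).pull (R := R)).mapH p x) = x := by
  rw [← Hom.mapH_comp, ← Map.pull_comp, ← secHtp_e0, ← Htp.mapH_eq, secHtp_e1, Map.pull_id,
    Hom.mapH_id]

theorem mapH_sec_fst {X : SS} (Q : SS) (b : ∀ n, X.obj n) (p : ℕ) (x : (F R Q).H p) :
    ((sec Q b).pull (R := R)).mapH p (((fst Q (cofree X)).pull (R := R)).mapH p x) = x := by
  rw [← Hom.mapH_comp, ← Map.pull_comp, fst_sec, Map.pull_id, Hom.mapH_id]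

/-- The projection `Q × cofree X → Q` induces an isomorphism in cohomology. -/
theorem mapH_fst_bijective {X : SS} (Q : SS) (b : ∀ n, X.obj n) (p : ℕ) :
    Function.Bijective (((fst Q (cofree X)).pull (R := R)).mapH p) :=
  ⟨fun x y h => by rw [← mapH_sec_fst Q b p x, h, mapH_sec_fst],
    fun x => ⟨_, mapH_fst_sec Q b p x⟩⟩

/-- elementwise: every cocycle of `Q × cofree X` is cohomologous to a pulled back cocycle -/
theorem exists_pull_fst {X : SS} (Q : SS) (b : ∀ n, X.obj n) {p : ℕ}
    {c : (F R (Q.prod (cofree X))).obj p} (hc : c ∈ (F R (Q.prod (cofree X))).Z p) :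
    ∃ e ∈ (F R Q).Z p, c - ((fst Q (cofree X)).pull (R := R)).app p e ∈
      (F R (Q.prod (cofree X))).Bd p := by
  refine ⟨((sec Q b).pull (R := R)).app p c, Hom.app_mem_Z _ hc, ?_⟩
  have h := (secHtp Q b).pull_sub_mem hc
  rw [secHtp_e1, secHtp_e0] at h
  exact h

/-- elementwise: a cocycle of `Q` whose pull back bounds is a coboundary -/
theorem mem_Bd_of_pull_fst {X : SS} (Q : SS) (b : ∀ n, X.obj n) {p : ℕ} {c : (F R Q).obj p}
    (hc : ((fst Q (cofree X)).pull (R := R)).app p c ∈ (F R (Q.prod (cofree X))).Bd p) :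
    c ∈ (F R Q).Bd p :=
  Hom.app_mem_Bd ((sec Q b).pull (R := R)) hc

/-- the cofree simplicial set has the cohomology of a point -/
theorem cofree_mapH_toPt_bijective {X : SS} (b : ∀ n, X.obj n) (p : ℕ) :
    Function.Bijective (((toPt (cofree X)).pull (R := R)).mapH p) := by
  have hs : (toPt (cofree X)).comp ⟨fun {p} _ => bpt b p, fun _ _ => rfl⟩ = Map.id pt := rfl
  have h1 : (contr b).e1 = Map.id _ := Map.ext fun p x => contr_c1 b x
  have h0 : (contr b).e0 = Map.comp ⟨fun {p} _ => bpt b p, fun _ _ => rfl⟩ (toPt (cofree X)) :=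
    Map.ext fun p x => contr_c0 b x
  constructor
  · intro x y h
    have e := congrArg ((Map.pull (R := R) (X := pt)
      ⟨fun {p} _ => bpt b p, fun _ _ => rfl⟩).mapH p) h
    rwa [← Hom.mapH_comp, ← Hom.mapH_comp, ← Map.pull_comp, hs, Map.pull_id, Hom.mapH_id,
      Hom.mapH_id] at e
  · intro x
    refine ⟨(Map.pull (R := R) (X := pt) ⟨fun {p} _ => bpt b p, fun _ _ => rfl⟩).mapH p x, ?_⟩
    rw [← Hom.mapH_comp, ← Map.pull_comp, ← h0, ← Htp.mapH_eq, h1, Map.pull_id, Hom.mapH_id]

/-- simplices of every degree from one vertex -/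
def cst (X : SS) (v : X.obj 0) (n : ℕ) : X.obj n :=
  X.map ⟨fun _ => 0, fun _ _ _ => le_rfl⟩ v

end SS

end Vale.Agent.P263.E
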