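import Vale.Agent.P263.E.Simp
import Vale.Agent.P263.S.Defs

/-!
# P263: the quadratic construction `D2 Z = (EC₂ × Z × Z)/C₂` and the spaces `BW A n`, `BV n`

`D2 Z` has the `p`-simplices `[s, z, z']`, `s : Fin (p+1) → C2`, modulo
`[s, z, z'] = [τ s, z', z]`.  Its cochains are the homotopy fixed points `hG (swapF R Z)` of
`F R (Z × Z)`.
-/

noncomputable section

namespace Vale.Agent.P263.E

open Vale.Agent.P263.S

/-- The generator of `C2`. -/
def tau : C2 := Multiplicative.ofAdd 1

theorem tau_mul_tau : tau * tau = 1 := by decide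

theorem C2_cases (g : C2) : g = 1 ∨ g = tau := by
  revert g; decide

theorem tau_ne_one : tau ≠ 1 := by decide

theorem tau_mul_self_mul (g : C2) : tau * (tau * g) = g := by
  rw [← mul_assoc, tau_mul_tau, one_mul]

/-- In `C2` one has `g ≠ h ↔ g = τ h`. -/
theorem C2_ne_iff {g h : C2} : g ≠ h ↔ g = tau * h := by
  revert g h; decide

namespace SS

variable {Z Z' Z'' : SS} {p q : ℕ}

/-- The simplices of `EC₂ × Z × Z`. -/
abbrev D2Pre (Z : SS) (p : ℕ) : Type := (Fin (p + 1) → C2) × Z.obj p × Z.obj p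

/-- The diagonal swap. -/
def flip (x : D2Pre Z p) : D2Pre Z p := (fun i => tau * x.1 i, x.2.2, x.2.1)

@[simp] theorem flip_flip (x : D2Pre Z p) : flip (flip x) = x := by
  obtain ⟨s, z, z'⟩ := x
  simp [flip, tau_mul_self_mul]

/-- the swap has no fixed points -/
theorem flip_ne (x : D2Pre Z p) : flip x ≠ x := by
  intro h
  have h1 := congrFun (congrArg Prod.fst h) 0
  have h2 : tau * x.1 0 = x.1 0 := h1
  exact tau_ne_one (by simpa using h2)

/-- The orbit relation of the swap. -/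
def flipSetoid (Z : SS) (p : ℕ) : Setoid (D2Pre Z p) where
  r x y := x = y ∨ x = flip y
  iseqv :=
    { refl := fun _ => Or.inl rfl
      symm := by
        rintro x y (rfl | rfl)
        · exact Or.inl rfl
        · exact Or.inr (flip_flip y).symm
      trans := by
        rintro x y z (rfl | rfl) (rfl | rfl)
        · exact Or.inl rfl
        · exact Or.inr rfl
        · exact Or.inr rfl
        · exact Or.inl (flip_flip z) }

/-- Reindexing of `EC₂ × Z × Z`. -/
def preMap (Z : SS) (f : Op p q) (x : D2Pre Z q) : D2Pre Z p :=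
  (fun i => x.1 (f i), Z.map f x.2.1, Z.map f x.2.2)

theorem preMap_flip (f : Op p q) (x : D2Pre Z q) : preMap Z f (flip x) = flip (preMap Z f x) := rfl

/-- `D2 Z = (EC₂ × Z × Z)/C₂`. -/
def D2 (Z : SS) : SS where
  obj p := Quotient (flipSetoid Z p)
  map f := Quotient.map' (preMap Z f) (by
    rintro x y (rfl | rfl)
    · exact Or.inl rfl
    · exact Or.inr (preMap_flip f y))
  map_id x := by
    refine Quotient.inductionOn' x fun x => ?_
    show Quotient.mk'' (preMap Z OrderHom.id x) = Quotient.mk'' x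
    congr 1
    obtain ⟨s, z, z'⟩ := x
    simp [preMap, Z.map_id]
  map_comp f g x := by
    refine Quotient.inductionOn' x fun x => ?_
    show Quotient.mk'' (preMap Z (f.comp g) x) = Quotient.mk'' (preMap Z g (preMap Z f x))
    congr 1
    obtain ⟨s, z, z'⟩ := x
    simp [preMap, Z.map_comp]

namespace D2

/-- The simplex `[s, z, z']` of `D2 Z`. -/
def mk (s : Fin (p + 1) → C2) (z z' : Z.obj p) : (D2 Z).obj p :=
  (Quotient.mk'' (s, z, z') : Quotient (flipSetoid Z p))

theorem mk_swap (s : Fin (p + 1) → C2) (z z' : Z.obj p) :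
    mk (fun i => tau * s i) z' z = mk s z z' :=
  Quotient.sound' (show (flipSetoid Z p).r (fun i => tau * s i, z', z) (s, z, z') from
    Or.inr rfl)

theorem mk_eq_iff {s t : Fin (p + 1) → C2} {z z' w w' : Z.obj p} :
    mk s z z' = mk t w w' ↔
      (s = t ∧ z = w ∧ z' = w') ∨ (s = (fun i => tau * t i) ∧ z = w' ∧ z' = w) := by
  constructor
  · intro h
    have h' : (flipSetoid Z p).r (s, z, z') (t, w, w') := Quotient.exact' h
    rcases h' with h' | h'
    · left
      simpa [Prod.ext_iff] using h'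
    · right
      simpa [Prod.ext_iff, flip] using h'
  · rintro (⟨rfl, rfl, rfl⟩ | ⟨rfl, rfl, rfl⟩)
    · rfl
    · exact mk_swap _ _ _

/-- for a fixed `s` the two entries are determined -/
theorem mk_inj {s : Fin (p + 1) → C2} {z z' w w' : Z.obj p} (h : mk s z z' = mk s w w') :
    z = w ∧ z' = w' := by
  rcases mk_eq_iff.1 h with ⟨_, h1, h2⟩ | ⟨h0, _, _⟩
  · exact ⟨h1, h2⟩
  · exact absurd (congrFun h0 0) (by
      intro h3
      have h4 : tau * s 0 = s 0 := h3.symm
      exact tau_ne_one (by simpa using h4))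

theorem ind {P : (D2 Z).obj p → Prop} (h : ∀ s z z', P (mk s z z')) (x : (D2 Z).obj p) : P x :=
  Quotient.inductionOn' (s₁ := flipSetoid Z p) x fun x => h x.1 x.2.1 x.2.2

theorem rep (x : (D2 Z).obj p) : ∃ s z z', x = mk s z z' :=
  ind (P := fun x => ∃ s z z', x = mk s z z') (fun s z z' => ⟨s, z, z', rfl⟩) x

/-- every simplex has a representative with `s 0 = 1` -/
theorem exists_norm (x : (D2 Z).obj p) : ∃ s z z', s 0 = 1 ∧ x = mk s z z' := by
  obtain ⟨s, z, z', rfl⟩ := rep x
  rcases C2_cases (s 0) with h | h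
  · exact ⟨s, z, z', h, rfl⟩
  · exact ⟨fun i => tau * s i, z', z, by show tau * s 0 = 1; rw [h, tau_mul_tau],
      (mk_swap s z z').symm⟩

/-- Functions out of `D2 Z`. -/
def lift {α : Type*} (f : (Fin (p + 1) → C2) → Z.obj p → Z.obj p → α)
    (hf : ∀ s z z', f (fun i => tau * s i) z' z = f s z z') (x : (D2 Z).obj p) : α :=
  Quotient.liftOn' (s₁ := flipSetoid Z p) x (fun x => f x.1 x.2.1 x.2.2) (by
    rintro x y (rfl | rfl)
    · rfl
    · exact hf y.1 y.2.1 y.2.2)

@[simp] theorem lift_mk {α : Type*} (f : (Fin (p + 1) → C2) → Z.obj p → Z.obj p → α)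
    (hf : ∀ s z z', f (fun i => tau * s i) z' z = f s z z') (s : Fin (p + 1) → C2)
    (z z' : Z.obj p) : lift f hf (mk s z z') = f s z z' := rfl

@[simp] theorem map_mk (f : Op p q) (s : Fin (q + 1) → C2) (z z' : Z.obj q) :
    (D2 Z).map f (mk s z z') = mk (fun i => s (f i)) (Z.map f z) (Z.map f z') := rfl

end D2

/-- The functoriality of `D2`. -/
def Map.D2 (f : Map Z Z') : Map (SS.D2 Z) (SS.D2 Z') where
  app {p} := D2.lift (fun s z z' => D2.mk s (f.app z) (f.app z'))
    (fun s z z' => D2.mk_swap s (f.app z) (f.app z'))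
  nat {p q} g x := by
    obtain ⟨s, z, z', rfl⟩ := D2.rep x
    rw [D2.map_mk, D2.lift_mk, D2.lift_mk, D2.map_mk, f.nat, f.nat]

@[simp] theorem Map.D2_mk (f : Map Z Z') (s : Fin (p + 1) → C2) (z z' : Z.obj p) :
    f.D2.app (D2.mk s z z') = D2.mk s (f.app z) (f.app z') := rfl

theorem Map.D2_comp (g : Map Z' Z'') (f : Map Z Z') : (g.comp f).D2 = g.D2.comp f.D2 := by
  apply Map.ext
  intro p x
  obtain ⟨s, z, z', rfl⟩ := D2.rep x
  rfl

theorem Map.D2_id (Z : SS) : (Map.id Z).D2 = Map.id (SS.D2 Z) := by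
  apply Map.ext
  intro p x
  obtain ⟨s, z, z', rfl⟩ := D2.rep x
  rfl

/-- The swap of `Z × Z`. -/
def swapMap (Z : SS) : Map (Z.prod Z) (Z.prod Z) := ⟨fun x => (x.2, x.1), fun _ _ => rfl⟩

@[simp] theorem swapMap_app (x : (Z.prod Z).obj p) : (swapMap Z).app x = (x.2, x.1) := rfl

/-- The map `Z × Z → D2 Z`, `(z, z') ↦ [1, z, z']`. -/
def sheet (Z : SS) : Map (Z.prod Z) (D2 Z) :=
  ⟨fun x => D2.mk (fun _ => 1) x.1 x.2, fun _ _ => rfl⟩

@[simp] theorem sheet_app (x : (Z.prod Z).obj p) :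
    (sheet Z).app x = D2.mk (fun _ => 1) x.1 x.2 := rfl

/-- The classifying space `BC₂`, with the simplices `[s]`. -/
def BC2 : SS := D2 pt

/-- The simplex `[s]` of `BC2`. -/
def BC2.mk (s : Fin (p + 1) → C2) : BC2.obj p := D2.mk (Z := pt) s () ()

theorem BC2.mk_swap (s : Fin (p + 1) → C2) : BC2.mk (fun i => tau * s i) = BC2.mk s :=
  D2.mk_swap (Z := pt) s () ()

theorem BC2.rep (x : BC2.obj p) : ∃ s, x = BC2.mk s := by
  obtain ⟨s, _, _, h⟩ := D2.rep (Z := pt) x
  exact ⟨s, h⟩

/-- Functions out of `BC2`. -/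
def BC2.lift {α : Type*} (f : (Fin (p + 1) → C2) → α)
    (hf : ∀ s, f (fun i => tau * s i) = f s) (x : BC2.obj p) : α :=
  D2.lift (Z := pt) (fun s _ _ => f s) (fun s _ _ => hf s) x

@[simp] theorem BC2.lift_mk {α : Type*} (f : (Fin (p + 1) → C2) → α)
    (hf : ∀ s, f (fun i => tau * s i) = f s) (s : Fin (p + 1) → C2) :
    BC2.lift f hf (BC2.mk s) = f s := rfl

@[simp] theorem BC2.map_mk (f : Op p q) (s : Fin (q + 1) → C2) :
    BC2.map f (BC2.mk s) = BC2.mk (fun i => s (f i)) := rfl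

/-- The map `D2 Z → BC₂`. -/
def D2.base (Z : SS) : Map (D2 Z) BC2 := (toPt Z).D2

@[simp] theorem D2.base_mk (s : Fin (p + 1) → C2) (z z' : Z.obj p) :
    (D2.base Z).app (D2.mk s z z') = BC2.mk s := rfl

/-- The diagonal `BC₂ × Z → D2 Z`, `([s], z) ↦ [s, z, z]`. -/
def D2.diag (Z : SS) : Map (BC2.prod Z) (D2 Z) where
  app x := BC2.lift (fun s => D2.mk s x.2 x.2) (fun s => D2.mk_swap s x.2 x.2) x.1
  nat {p q} g x := by
    obtain ⟨b, z⟩ := x
    obtain ⟨s, rfl⟩ := BC2.rep b
    rfl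

@[simp] theorem D2.diag_mk (s : Fin (p + 1) → C2) (z : Z.obj p) :
    (D2.diag Z).app ((BC2.mk s, z) : (BC2.prod Z).obj p) = D2.mk s z z := rfl

theorem D2.diag_nat (f : Map Z Z') :
    f.D2.comp (D2.diag Z) = (D2.diag Z').comp (pair (fst BC2 Z) (f.comp (snd BC2 Z))) := by
  apply Map.ext
  intro p x
  obtain ⟨b, z⟩ := x
  obtain ⟨s, rfl⟩ := BC2.rep b
  rfl

/-! ### the iterated construction -/

/-- `BW A n = D2^n A`: binary trees of depth `n` with leaves labelled in `A`. -/
def BW (A : SS) : ℕ → SS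
  | 0 => A
  | n + 1 => D2 (BW A n)

@[simp] theorem BW_zero (A : SS) : BW A 0 = A := rfl

@[simp] theorem BW_succ (A : SS) (n : ℕ) : BW A (n + 1) = D2 (BW A n) := rfl

/-- The map `BW A n → BW A' n` given by a map of the labels. -/
def Map.BW {A A' : SS} (f : Map A A') : (n : ℕ) → Map (SS.BW A n) (SS.BW A' n)
  | 0 => f
  | n + 1 => (Map.BW f n).D2

/-- `BV n = BC₂ × ⋯ × BC₂`. -/
def BV : ℕ → SS
  | 0 => pt
  | n + 1 => BC2.prod (BV n)

/-- The iterated diagonal `BV n → BW pt n`. -/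
def BV.dn : (n : ℕ) → Map (BV n) (BW pt n)
  | 0 => Map.id pt
  | n + 1 => (D2.diag (BW pt n)).comp (pair (fst BC2 (BV n)) ((BV.dn n).comp (snd BC2 (BV n))))

theorem BV.dn_succ_mk {n : ℕ} (s : Fin (p + 1) → C2) (v : (BV n).obj p) :
    (BV.dn (n + 1)).app ((BC2.mk s, v) : (BC2.prod (BV n)).obj p) =
      D2.mk s ((BV.dn n).app v) ((BV.dn n).app v) := rfl

/-! ### cochains of `D2 Z` -/

variable (R : Type) [CommRing R]

/-- The swap action of `C2` on the functions on `Z × Z`. -/
def swapF (Z : SS) : Act C2 (F R (Z.prod Z)) :=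
  Act.ofInvol ((swapMap Z).pull) (fun _ _ => rfl)

variable {R}

theorem swapF_one (x : (F R (Z.prod Z)).obj p) : (swapF R Z).act p 1 x = x := by
  rw [map_one]; rfl

theorem swapF_tau (x : (F R (Z.prod Z)).obj p) (z : (Z.prod Z).obj p) :
    (swapF R Z).act p tau x z = x (z.2, z.1) := by
  show ((if Multiplicative.toAdd tau = 0 then LinearMap.id else ((swapMap Z).pull).app p :
    (F R (Z.prod Z)).obj p →ₗ[R] (F R (Z.prod Z)).obj p)) x z = _
  rw [if_neg (by decide)]
  rfl

/-- Functions on `D2 Z` are homotopy fixed points. -/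
def toHG (Z : SS) : Hom (F R (D2 Z)) (hG (swapF R Z)) where
  app p :=
    { toFun := fun c => hG.mk (swapF R Z) (fun s x => c (D2.mk s x.1 x.2)) (by
        intro g s
        rcases C2_cases g with rfl | rfl
        · refine Eq.trans ?_ (swapF_one _).symm
          simp only [one_mul]
          rfl
        · funext x
          refine Eq.trans ?_ (swapF_tau _ _).symm
          exact congrArg c (D2.mk_swap s x.2 x.1))
      map_add' := fun _ _ => rfl
      map_smul' := fun _ _ => rfl }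
  nat {p q} f c := rfl

@[simp] theorem toHG_fn (c : (F R (D2 Z)).obj p) (s : Fin (p + 1) → C2)
    (x : (Z.prod Z).obj p) : hG.fn ((toHG Z).app p c) s x = c (D2.mk s x.1 x.2) := rfl

/-- Homotopy fixed points are functions on `D2 Z`. -/
def ofHG (Z : SS) : Hom (hG (swapF R Z)) (F R (D2 Z)) where
  app p :=
    { toFun := fun f => D2.lift (fun s z z' => hG.fn f s (z, z')) (by
        intro s z z'
        rw [hG.fn_mul f tau s]
        exact swapF_tau _ _)
      map_add' := fun f g => by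
        funext x
        obtain ⟨s, z, z', rfl⟩ := D2.rep x
        rfl
      map_smul' := fun r f => by
        funext x
        obtain ⟨s, z, z', rfl⟩ := D2.rep x
        rfl }
  nat {p q} g f := by
    funext x
    obtain ⟨s, z, z', rfl⟩ := D2.rep x
    rfl

@[simp] theorem ofHG_mk (f : (hG (swapF R Z)).obj p) (s : Fin (p + 1) → C2) (z z' : Z.obj p) :
    (ofHG Z).app p f (D2.mk s z z') = hG.fn f s (z, z') := rfl

theorem ofHG_toHG (c : (F R (D2 Z)).obj p) : (ofHG Z).app p ((toHG Z).app p c) = c := by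
  funext x
  obtain ⟨s, z, z', rfl⟩ := D2.rep x
  rfl

theorem toHG_ofHG (f : (hG (swapF R Z)).obj p) : (toHG Z).app p ((ofHG Z).app p f) = f :=
  hG.ext fun s => by
    funext x
    rfl

theorem toHG_bijective (Z : SS) (p : ℕ) :
    Function.Bijective ((toHG (R := R) Z).app p) :=
  ⟨fun a b h => by rw [← ofHG_toHG a, h, ofHG_toHG], fun b => ⟨_, toHG_ofHG b⟩⟩

/-- The pairing `F Z × F Z' → F (Z × Z')`, `(f, g) ↦ f z * g z'`. -/
def muF (R : Type) [CommRing R] (Z Z' : SS) : Bil (F R Z) (F R Z') (F R (Z.prod Z')) where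
  app p := LinearMap.mk₂ R (fun f g x => f x.1 * g x.2)
    (fun f f' g => by funext x; exact add_mul _ _ _)
    (fun c f g => by funext x; exact mul_assoc _ _ _)
    (fun f g g' => by funext x; exact mul_add _ _ _)
    (fun c f g => by funext x; exact mul_left_comm _ _ _)
  nat _ _ _ := rfl

@[simp] theorem muF_app (Z Z' : SS) (f : (F R Z).obj p) (g : (F R Z').obj p)
    (x : (Z.prod Z').obj p) : (muF R Z Z').app p f g x = f x.1 * g x.2 := rfl

theorem muF_pull {W W' : SS} (f : Map W Z) (g : Map W' Z') (a : (F R Z).obj p)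
    (b : (F R Z').obj p) (x : (W.prod W').obj p) :
    (muF R W W').app p ((f.pull).app p a) ((g.pull).app p b) x =
      (muF R Z Z').app p a b (f.app x.1, g.app x.2) := rfl

theorem muF_swap (f g : (F R Z).obj p) (x : (Z.prod Z).obj p) :
    (muF R Z Z).app p f g (x.2, x.1) = (muF R Z Z).app p g f x := mul_comm _ _

end SS

end Vale.Agent.P263.E
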