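import Mathlib

/-!
P263, block E4 (helper659), pure algebra: squares from a total power operation
`Pt : E q → H(KK)` which is defined only after multiplication with a power of `u`.

`GU` = graded `F_2[u]`-modules; `GU.Free A E` = the structure `A = E[u]`, given by the coefficient maps
`cf n j : A^n → E^j` (coefficient of `u^(n-j)`).
`Setup`: `0 → K → KK → W → 0` on cohomology, `K = E[u]`, `W` is `u`-torsion.
`Setup.Sq q j : E q → E j` is `Sq^(j-q)`.
-/

namespace Vale.Agent.P263.E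

universe v

/-- A graded `F_2[u]`-module. -/
structure GU where
  /-- the pieces -/
  H : ℕ → Type v
  [grp : ∀ n, AddCommGroup (H n)]
  [mod : ∀ n, Module (ZMod 2) (H n)]
  /-- multiplication with `u` -/
  u : ∀ n, H n →ₗ[ZMod 2] H (n + 1)

attribute [instance] GU.grp GU.mod

/-- multiplication with `u^R` -/
def GU.upow (A : GU.{v}) : ∀ R n : ℕ, A.H n →ₗ[ZMod 2] A.H (n + R)
  | 0, _ => LinearMap.id
  | (R+1), n => (A.u (n + R)).comp (A.upow R n)

@[simp] lemma GU.upow_zero (A : GU.{v}) (n : ℕ) (x : A.H n) : A.upow 0 n x = x := rfl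
lemma GU.upow_succ (A : GU.{v}) (R n : ℕ) (x : A.H n) :
    A.upow (R + 1) n x = A.u (n + R) (A.upow R n x) := rfl

lemma GU.upow_eq_zero (A : GU.{v}) {R : ℕ} (hR : 1 ≤ R) {n : ℕ} {x : A.H n} (hx : A.u n x = 0) :
    A.upow R n x = 0 := by
  induction R with
  | zero => omega
  | succ R ih =>
    rcases Nat.eq_zero_or_pos R with h | h
    · subst h; exact hx
    · rw [GU.upow_succ, ih h, map_zero]

/-- `u`-linear maps of degree `0` -/
structure GU.Hom (A B : GU.{v}) where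
  /-- the components -/
  f : ∀ n, A.H n →ₗ[ZMod 2] B.H n
  comm : ∀ n x, f (n + 1) (A.u n x) = B.u n (f n x)

lemma GU.Hom.upow {A B : GU.{v}} (φ : GU.Hom A B) (R n : ℕ) (x : A.H n) :
    φ.f (n + R) (A.upow R n x) = B.upow R n (φ.f n x) := by
  induction R with
  | zero => rfl
  | succ R ih => rw [GU.upow_succ, GU.upow_succ, ← ih]; exact φ.comm _ _

/-- `A = E[u]`. -/
structure GU.Free (A : GU.{v}) (E : ℕ → Type v) [∀ j, AddCommGroup (E j)]
    [∀ j, Module (ZMod 2) (E j)] where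
  /-- the coefficient of `u^(n-j)` (zero for `j > n`) -/
  cf : ∀ n j, A.H n →ₗ[ZMod 2] E j
  cf_u : ∀ n j x, cf (n + 1) j (A.u n x) = cf n j x
  cf_gt : ∀ n j x, n < j → cf n j x = 0
  ext : ∀ n x, (∀ j, j ≤ n → cf n j x = 0) → x = 0
  surj : ∀ n (b : ∀ j, E j), ∃ x, ∀ j, j ≤ n → cf n j x = b j

namespace GU.Free

variable {A : GU.{v}} {E : ℕ → Type v} [∀ j, AddCommGroup (E j)] [∀ j, Module (ZMod 2) (E j)]
  (fr : GU.Free A E)

include fr

lemma cf_upow (R n j : ℕ) (x : A.H n) : fr.cf (n + R) j (A.upow R n x) = fr.cf n j x := by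
  induction R with
  | zero => rfl
  | succ R ih => rw [GU.upow_succ, ← ih]; exact fr.cf_u _ _ _

lemma ext' {n : ℕ} {x y : A.H n} (h : ∀ j, fr.cf n j x = fr.cf n j y) : x = y := by
  rw [← sub_eq_zero]
  exact fr.ext n _ fun j _ => by rw [map_sub, h, sub_self]

lemma u_inj {n : ℕ} {x : A.H n} (h : A.u n x = 0) : x = 0 :=
  fr.ext n x fun j _ => by rw [← fr.cf_u, h, map_zero]

end GU.Free

set_option linter.dupNamespace false in
/-- The input of block E4. `dbl q` is the degree of `Pt x`, `x ∈ E^q`. -/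
structure Setup (dbl : ℕ → ℕ) where
  /-- `H_{Z/2}(K)` -/
  K : GU.{v}
  /-- `H_{Z/2}(KK)` -/
  KK : GU.{v}
  /-- `H_{Z/2}(F_2^{W~})` -/
  W : GU.{v}
  /-- `H(K)` -/
  E : ℕ → Type v
  [grpE : ∀ n, AddCommGroup (E n)]
  [modE : ∀ n, Module (ZMod 2) (E n)]
  fr : GU.Free K E
  i : GU.Hom K KK
  r : GU.Hom KK W
  /-- the connecting map -/
  δ : ∀ n, W.H n →ₗ[ZMod 2] K.H (n + 1)
  δ_u : ∀ n w, δ (n + 1) (W.u n w) = K.u (n + 1) (δ n w)
  exact_KK : ∀ n x, r.f n x = 0 → ∃ y, i.f n y = x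
  exact_K : ∀ n x, i.f (n + 1) x = 0 → ∃ w, δ n w = x
  inj_zero : ∀ x, i.f 0 x = 0 → x = 0
  R : ℕ
  nil : ∀ n w, W.upow R n w = 0
  /-- the total power -/
  Pt : ∀ q, E q → KK.H (dbl q)
  Pt_add : ∀ q x y, KK.u _ (Pt q (x + y)) = KK.u _ (Pt q x) + KK.u _ (Pt q y)

attribute [instance] Setup.grpE Setup.modE

namespace Setup

variable {dbl : ℕ → ℕ} (S : Setup.{v} dbl)

lemma cf_δ (n k j : ℕ) (w : S.W.H n) :
    S.fr.cf (n + k + 1) j (S.δ (n + k) (S.W.upow k n w)) = S.fr.cf (n + 1) j (S.δ n w) := by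
  induction k with
  | zero => rfl
  | succ k ih =>
    rw [← ih]
    have h := S.δ_u (n + k) (S.W.upow k n w)
    have h2 := congrArg (S.fr.cf (n + k + 1 + 1) j) h
    exact h2.trans (S.fr.cf_u _ _ _)

lemma δ_eq_zero (n : ℕ) (w : S.W.H n) : S.δ n w = 0 := by
  refine S.fr.ext _ _ fun j _ => ?_
  rw [← S.cf_δ n S.R j w, S.nil, map_zero, map_zero]

/-- `i` is injective: `E[u] → H_{Z/2}(KK)`. -/
theorem i_zero {n : ℕ} {x : S.K.H n} (h : S.i.f n x = 0) : x = 0 := by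
  cases n with
  | zero => exact S.inj_zero x h
  | succ n =>
    obtain ⟨w, hw⟩ := S.exact_K n x h
    rw [← hw, S.δ_eq_zero]

theorem i_inj (n : ℕ) : Function.Injective (S.i.f n) := fun x y h => by
  rw [← sub_eq_zero]
  exact S.i_zero (by rw [map_sub, h, sub_self])

lemma r_i (hri : ∀ n x, S.r.f n (S.i.f n x) = 0) (n : ℕ) (x : S.KK.H n) :
    S.r.f n x = 0 ↔ ∃ y, S.i.f n y = x :=
  ⟨S.exact_KK n x, fun ⟨y, hy⟩ => by rw [← hy, hri]⟩

/-- `u^T Pt x = i y` -/
def Good (q : ℕ) (x : S.E q) (T : ℕ) (y : S.K.H (dbl q + T)) : Prop :=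
  S.i.f (dbl q + T) y = S.KK.upow T (dbl q) (S.Pt q x)

lemma Good.succ {q : ℕ} {x : S.E q} {T : ℕ} {y : S.K.H (dbl q + T)} (h : S.Good q x T y) :
    S.Good q x (T + 1) (S.K.u _ y) := by
  unfold Good at h ⊢
  rw [GU.upow_succ, ← h]
  exact S.i.comm _ _

lemma exists_good (q : ℕ) (x : S.E q) : ∃ y, S.Good q x S.R y := by
  apply S.exact_KK
  rw [GU.Hom.upow, S.nil]

lemma good_cf_add {q : ℕ} {x : S.E q} {T : ℕ} {y : S.K.H (dbl q + T)} (h : S.Good q x T y)
    (k : ℕ) {y' : S.K.H (dbl q + (T + k))} (h' : S.Good q x (T + k) y') (j : ℕ) :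
    S.fr.cf _ j y' = S.fr.cf _ j y := by
  induction k with
  | zero => rw [S.i_inj _ (h.trans h'.symm)]; rfl
  | succ k ih =>
    have hz : ∃ z, S.Good q x (T + k) z := by
      clear ih h' y'
      induction k with
      | zero => exact ⟨y, h⟩
      | succ k ih => obtain ⟨z, hz⟩ := ih; exact ⟨_, hz.succ⟩
    obtain ⟨z, hz⟩ := hz
    have h1 : y' = S.K.u _ z := S.i_inj _ (h'.trans hz.succ.symm)
    rw [h1, ← ih hz]
    exact S.fr.cf_u _ _ _

/-- The coefficients do not depend on the exponent of `u`. -/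
lemma good_cf {q : ℕ} {x : S.E q} {T T' : ℕ} {y : S.K.H (dbl q + T)} (h : S.Good q x T y)
    {y' : S.K.H (dbl q + T')} (h' : S.Good q x T' y') (j : ℕ) :
    S.fr.cf _ j y = S.fr.cf _ j y' := by
  rcases le_total T T' with hT | hT
  · obtain ⟨k, rfl⟩ := Nat.exists_eq_add_of_le hT
    exact (S.good_cf_add h k h' j).symm
  · obtain ⟨k, rfl⟩ := Nat.exists_eq_add_of_le hT
    exact S.good_cf_add h' k h j

lemma Pt_add_pow (q : ℕ) (x y : S.E q) : S.KK.upow (S.R + 1) _ (S.Pt q (x + y)) =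
    S.KK.upow (S.R + 1) _ (S.Pt q x) + S.KK.upow (S.R + 1) _ (S.Pt q y) := by
  have h : S.KK.u _ (S.Pt q (x + y) - S.Pt q x - S.Pt q y) = 0 := by
    rw [map_sub, map_sub, S.Pt_add]; abel
  have h2 := S.KK.upow_eq_zero (R := S.R + 1) (by omega) h
  rw [map_sub, map_sub, sub_sub, sub_eq_zero] at h2
  exact h2

lemma good_add {q : ℕ} {x x' : S.E q} {y y' : S.K.H (dbl q + (S.R + 1))}
    (h : S.Good q x (S.R + 1) y) (h' : S.Good q x' (S.R + 1) y') :
    S.Good q (x + x') (S.R + 1) (y + y') := by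
  unfold Good at h h' ⊢
  rw [map_add, h, h', S.Pt_add_pow]

/-- `Sq q j : E^q → E^j` is `Sq^(j-q)`. -/
noncomputable def Sq (q j : ℕ) : S.E q →ₗ[ZMod 2] S.E j :=
  AddMonoidHom.toZModLinearMap 2
    { toFun := fun x => S.fr.cf _ j (S.exists_good q x).choose
      map_zero' := by
        have h := (S.exists_good q 0).choose_spec.succ
        have h2 := S.good_add h h
        rw [add_zero] at h2
        have h3 := S.i_inj _ (h.trans h2.symm)
        have h4 : S.K.u _ (S.exists_good q 0).choose = 0 := by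
          have h5 := h3
          rw [left_eq_add] at h5
          exact h5
        rw [S.fr.u_inj h4, map_zero]
      map_add' := fun x y => by
        rw [S.good_cf (S.exists_good q (x + y)).choose_spec
          (S.good_add (S.exists_good q x).choose_spec.succ (S.exists_good q y).choose_spec.succ) j,
          map_add]
        congr 1
        · exact S.fr.cf_u _ _ _
        · exact S.fr.cf_u _ _ _ }

/-- The characterisation of the squares: if `u^T Pt x = i y` (any `T`), then `Sq^(j-q) x` is the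
coefficient of `u^(2q+T-j)` of `y`. -/
theorem Sq_spec {q : ℕ} {x : S.E q} {T : ℕ} {y : S.K.H (dbl q + T)} (h : S.Good q x T y)
    (j : ℕ) : S.Sq q j x = S.fr.cf _ j y :=
  S.good_cf (S.exists_good q x).choose_spec h j

theorem exists_good' (q : ℕ) (x : S.E q) {T : ℕ} (hT : S.R ≤ T) : ∃ y, S.Good q x T y := by
  obtain ⟨k, rfl⟩ := Nat.exists_eq_add_of_le hT
  clear hT
  induction k with
  | zero => exact S.exists_good q x
  | succ k ih => obtain ⟨z, hz⟩ := ih; exact ⟨_, hz.succ⟩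

/-- The total square determines `u^T Pt x`. -/
theorem exists_good_cf (q : ℕ) (x : S.E q) {T : ℕ} (hT : S.R ≤ T) :
    ∃ y, S.Good q x T y ∧ ∀ j, S.fr.cf _ j y = S.Sq q j x := by
  obtain ⟨y, hy⟩ := S.exists_good' q x hT
  exact ⟨y, hy, fun j => (S.Sq_spec hy j).symm⟩

/-- no squares above degree `2 q + R` -/
theorem Sq_gt {q j : ℕ} (hj : dbl q + S.R < j) (x : S.E q) : S.Sq q j x = 0 := by
  obtain ⟨y, hy⟩ := S.exists_good q x
  rw [S.Sq_spec hy]
  exact S.fr.cf_gt _ _ _ hj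

/-! ### comparison -/

/-- Naturality. -/
theorem Sq_nat (S' : Setup.{v} dbl) (fE : ∀ j, S.E j →ₗ[ZMod 2] S'.E j) (fK : GU.Hom S.K S'.K)
    (hcf : ∀ n j x, S'.fr.cf n j (fK.f n x) = fE j (S.fr.cf n j x)) (fKK : GU.Hom S.KK S'.KK)
    (hi : ∀ n x, fKK.f n (S.i.f n x) = S'.i.f n (fK.f n x))
    (hPt : ∀ q x, S'.Pt q (fE q x) = fKK.f _ (S.Pt q x)) (q j : ℕ) (x : S.E q) :
    S'.Sq q j (fE q x) = fE j (S.Sq q j x) := by
  obtain ⟨y, hy⟩ := S.exists_good q x
  have hy' : S'.Good q (fE q x) S.R (fK.f _ y) := by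
    have h1 := hi _ y
    have h2 : S.i.f _ y = _ := hy
    rw [h2] at h1
    unfold Good
    rw [← h1, fKK.upow, hPt]
  rw [Setup.Sq_spec _ hy', S.Sq_spec hy]
  exact hcf _ _ _

/-- Comparison with the squares of an algebra `H(Z')`, `e : KK → H(Z')[u]`. -/
theorem Sq_out {Z : GU.{v}} {HZ : ℕ → Type v} [∀ j, AddCommGroup (HZ j)]
    [∀ j, Module (ZMod 2) (HZ j)] (frZ : GU.Free Z HZ) (ε : ∀ j, S.E j →ₗ[ZMod 2] HZ j)
    (e : GU.Hom S.KK Z) (he : ∀ n j x, frZ.cf n j (e.f n (S.i.f n x)) = ε j (S.fr.cf n j x))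
    (q j : ℕ) (x : S.E q) : ε j (S.Sq q j x) = frZ.cf (dbl q) j (e.f _ (S.Pt q x)) := by
  obtain ⟨y, hy⟩ := S.exists_good q x
  have h2 : S.i.f _ y = _ := hy
  rw [S.Sq_spec hy, ← he, h2, e.upow, frZ.cf_upow]

/-- Comparison with the squares of an algebra `H(L)`, `L → K`, on which the product of `KK` is the
product of `L`. -/
theorem Sq_in {q : ℕ} {x : S.E q} {y : S.K.H (dbl q)} (h : S.Pt q x = S.i.f _ y) (j : ℕ) :
    S.Sq q j x = S.fr.cf _ j y :=
  S.Sq_spec (T := 0) (y := y) h.symm j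

end Setup

end Vale.Agent.P263.E
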