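import Vale.Agent.P263.E.LZCl
import Vale.Agent.P263.S.GysTriv

/-!
# P263: the total square commutes with the transfer of a finite covering (helper774)

`Y : Cov B`, coefficients in `ZMod 2`: `P (tr y) = tr_* (P y)` in `H (hG (triv (F B)))`
(`Cov.P_tr`).  The off-diagonal term is the transfer from `hG (F W~)`, which vanishes because
every class of `H (hG (F W~))` comes from the unordered pairs.
-/

noncomputable section

namespace Vale.Agent.P263.E

open Vale.Agent.P263.S SS Finset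

/-- pointwise multiplication of functions -/
def mulF (R : Type) [CommRing R] (X : SS) : Bil (F R X) (F R X) (F R X) where
  app p := LinearMap.mk₂ R (fun f g x => f x * g x)
    (fun f f' g => by funext x; exact add_mul _ _ _)
    (fun c f g => by funext x; exact mul_assoc _ _ _)
    (fun f g g' => by funext x; exact mul_add _ _ _)
    (fun c f g => by funext x; exact mul_left_comm _ _ _)
  nat _ _ _ := rfl

@[simp] theorem mulF_app {R : Type} [CommRing R] (X : SS) {p : ℕ} (f g : (F R X).obj p)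
    (x : X.obj p) : (mulF R X).app p f g x = f x * g x := rfl

theorem sym_mulF (R : Type) [CommRing R] (X : SS) : Sym (mulF R X) (Act.triv C2 (F R X)) := by
  intro p f g
  funext x
  exact mul_comm _ _

namespace Cov

variable {B : SS} (Y : Cov B)

/-- The transfer from the ordered pairs vanishes on homotopy fixed points. -/
theorem mapH_ncTr {R : Type} [CommRing R] (h2 : (2 : R) = 0)
    (h : ∀ p (g : C2) (x : (F R (Y.nc C2).tot).obj p),
      (Y.nc C2).tr.app p ((Y.swapAct R).act p g x) =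
        (Act.triv C2 (F R B)).act p g ((Y.nc C2).tr.app p x)) (p : ℕ)
    (z : (hG (Y.swapAct R)).H p) :
    (hG.mapHom (Y.swapAct R) (Act.triv C2 (F R B)) (Y.nc C2).tr h).mapH p z = 0 := by
  obtain ⟨D⟩ := Y.exists_pLab
  obtain ⟨w, rfl⟩ := (Y.mapH_toHF_bijective (D := D) (Y.swapAct_acts D) p).2 z
  rw [← Hom.mapH_comp]
  have e : (hG.mapHom (Y.swapAct R) (Act.triv C2 (F R B)) (Y.nc C2).tr h).comp
      (Y.toHF (D := D) (Y.swapAct_acts D)) = 0 := by
    apply Hom.ext
    intro q x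
    apply hG.ext
    intro s
    show (Y.nc C2).tr.app q ((Y.toSub.pull).app q x) = 0
    exact Y.tr_nc_pull_char2 h2 x
  rw [e, Hom.mapH_zero]

theorem tr_swapAct {R : Type} [CommRing R] (p : ℕ) (g : C2) (x : (F R (Y.nc C2).tot).obj p) :
    (Y.nc C2).tr.app p ((Y.swapAct R).act p g x) =
      (Act.triv C2 (F R B)).act p g ((Y.nc C2).tr.app p x) := by
  rcases C2_cases g with rfl | rfl
  · rw [map_one, map_one]
    rfl
  · obtain ⟨D⟩ := Y.exists_pLab
    funext b
    show ∑ y ∈ (Y.nc C2).fib b, (Y.swapAct R).act p tau x y = ∑ y ∈ (Y.nc C2).fib b, x y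
    have h1 : ∀ y, (Y.swapAct R).act p tau x y = x (Y.swap.app y) := fun y =>
      Y.acts_tau (Y.swapAct_acts D) x y
    simp only [h1]
    exact Y.sum_ncReindex (Equiv.mulLeft tau) b x

theorem sym_ext2S (R : Type) [CommRing R] : Sym (Y.ext2B R) (Y.swapAct R) := by
  obtain ⟨D⟩ := Y.exists_pLab
  exact Y.sym_ext2B (Y.swapAct_acts D)

/-- the componentwise action on a direct sum -/
def actD {R : Type} [CommRing R] {G : Type} [Group G] {A A' : CosMod R} (a : Act G A)
    (a' : Act G A') : Act G (dsum A A') where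
  act p :=
    { toFun := fun g => (a.act p g).prodMap (a'.act p g)
      map_one' := by rw [map_one, map_one]; rfl
      map_mul' := fun g g' => by rw [_root_.map_mul, _root_.map_mul]; rfl }
  nat φ g x := Prod.ext (a.nat φ g x.1) (a'.nat φ g x.2)

/-- products on the diagonal and off the diagonal -/
def kapB (R : Type) [CommRing R] :
    Bil (F R Y.tot) (F R Y.tot) (dsum (F R Y.tot) (F R (Y.nc C2).tot)) where
  app p := LinearMap.mk₂ R (fun a b => ((mulF R Y.tot).app p a b, (Y.ext2B R).app p a b))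
    (fun f f' g => by rw [map_add, map_add]; rfl)
    (fun c f g => by rw [map_smul, map_smul]; rfl)
    (fun f g g' => by rw [map_add, map_add]; rfl)
    (fun c f g => by rw [map_smul, map_smul]; rfl)
  nat θ a b := Prod.ext ((mulF R Y.tot).nat θ a b) ((Y.ext2B R).nat θ a b)

theorem sym_kapB (R : Type) [CommRing R] :
    Sym (Y.kapB R) (actD (Act.triv C2 (F R Y.tot)) (Y.swapAct R)) := fun p a b =>
  Prod.ext (sym_mulF R Y.tot p a b) (Y.sym_ext2S R p a b)

/-- the sum of the two transfers -/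
def trD (R : Type) [CommRing R] : Hom (dsum (F R Y.tot) (F R (Y.nc C2).tot)) (F R B) :=
  Y.tr.comp (pr1 _ _) + (Y.nc C2).tr.comp (pr2 _ _)

theorem trD_equiv (R : Type) [CommRing R] (p : ℕ) (g : C2)
    (x : (dsum (F R Y.tot) (F R (Y.nc C2).tot)).obj p) :
    (Y.trD R).app p ((actD (Act.triv C2 (F R Y.tot)) (Y.swapAct R)).act p g x) =
      (Act.triv C2 (F R B)).act p g ((Y.trD R).app p x) := by
  show Y.tr.app p x.1 + (Y.nc C2).tr.app p ((Y.swapAct R).act p g x.2) =
    Y.tr.app p x.1 + (Y.nc C2).tr.app p x.2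
  rw [Y.tr_swapAct]
  rfl

/-- **The total square commutes with the transfer of a finite covering.** -/
theorem P_tr {n : ℕ} (y : (F (ZMod 2) Y.tot).H n) :
    P (mulF (ZMod 2) B) (Act.triv C2 _) (sym_mulF _ B) ((Y.tr (R := ZMod 2)).mapH n y) =
      (hG.mapHom (Act.triv C2 (F (ZMod 2) Y.tot)) (Act.triv C2 (F (ZMod 2) B)) Y.tr
        (fun _ _ _ => rfl)).mapH (n + n) (P (mulF (ZMod 2) Y.tot) (Act.triv C2 _)
          (sym_mulF _ Y.tot) y) := by
  have e1 := P_nat (Y.kapB (ZMod 2)) (actD (Act.triv C2 (F (ZMod 2) Y.tot)) (Y.swapAct (ZMod 2)))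
    (Y.sym_kapB (ZMod 2)) (mulF (ZMod 2) B) (Act.triv C2 _) (sym_mulF _ B) Y.tr (Y.trD (ZMod 2))
    (Y.trD_equiv (ZMod 2)) (fun p a b => (Y.tr_mul_tr a b).symm) y
  have e2 := P_nat (Y.kapB (ZMod 2)) (actD (Act.triv C2 (F (ZMod 2) Y.tot)) (Y.swapAct (ZMod 2)))
    (Y.sym_kapB (ZMod 2)) (mulF (ZMod 2) Y.tot) (Act.triv C2 _) (sym_mulF _ Y.tot) (Hom.id _)
    (pr1 _ _) (fun _ _ _ => rfl) (fun p a b => rfl) y
  rw [Hom.mapH_id] at e2
  rw [e1, e2, ← Hom.mapH_comp]
  have e3 : hG.mapHom (actD (Act.triv C2 (F (ZMod 2) Y.tot)) (Y.swapAct (ZMod 2)))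
      (Act.triv C2 (F (ZMod 2) B)) (Y.trD (ZMod 2)) (Y.trD_equiv (ZMod 2)) =
    ((hG.mapHom (Act.triv C2 (F (ZMod 2) Y.tot)) (Act.triv C2 (F (ZMod 2) B)) Y.tr
        (fun _ _ _ => rfl)).comp (hG.mapHom (actD (Act.triv C2 (F (ZMod 2) Y.tot))
          (Y.swapAct (ZMod 2))) (Act.triv C2 _) (pr1 _ _) (fun _ _ _ => rfl))) +
    ((hG.mapHom (Y.swapAct (ZMod 2)) (Act.triv C2 (F (ZMod 2) B)) (Y.nc C2).tr
        (Y.tr_swapAct)).comp (hG.mapHom (actD (Act.triv C2 (F (ZMod 2) Y.tot))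
          (Y.swapAct (ZMod 2))) (Y.swapAct (ZMod 2)) (pr2 _ _) (fun _ _ _ => rfl))) := rfl
  rw [e3, Hom.mapH_add, Hom.mapH_comp (hG.mapHom (Y.swapAct (ZMod 2)) _ _ _),
    Y.mapH_ncTr rfl, add_zero]

/-- the coefficients of the total square commute with the transfer -/
theorem cf_P_tr {n : ℕ} (j : ℕ) (y : (F (ZMod 2) Y.tot).H n) :
    cf (F (ZMod 2) B) (n + n) j (P (mulF (ZMod 2) B) (Act.triv C2 _) (sym_mulF _ B)
        ((Y.tr (R := ZMod 2)).mapH n y)) =
      (Y.tr (R := ZMod 2)).mapH j (cf (F (ZMod 2) Y.tot) (n + n) j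
        (P (mulF (ZMod 2) Y.tot) (Act.triv C2 _) (sym_mulF _ Y.tot) y)) := by
  rw [Y.P_tr]
  exact cf_nat Y.tr (n + n) j _

end Cov

/-- the total square commutes with pull-backs -/
theorem P_pull {X X' : SS} (f : SS.Map X X') {n : ℕ} (y : (F (ZMod 2) X').H n) :
    P (mulF (ZMod 2) X) (Act.triv C2 _) (sym_mulF _ X) ((f.pull (R := ZMod 2)).mapH n y) =
      (hG.mapHom (Act.triv C2 (F (ZMod 2) X')) (Act.triv C2 (F (ZMod 2) X)) f.pull
        (fun _ _ _ => rfl)).mapH (n + n) (P (mulF (ZMod 2) X') (Act.triv C2 _)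
          (sym_mulF _ X') y) :=
  P_nat (mulF (ZMod 2) X') (Act.triv C2 _) (sym_mulF _ X') (mulF (ZMod 2) X) (Act.triv C2 _)
    (sym_mulF _ X) f.pull f.pull (fun _ _ _ => rfl) (fun _ _ _ => rfl) y

theorem cf_P_pull {X X' : SS} (f : SS.Map X X') {n : ℕ} (j : ℕ) (y : (F (ZMod 2) X').H n) :
    cf (F (ZMod 2) X) (n + n) j (P (mulF (ZMod 2) X) (Act.triv C2 _) (sym_mulF _ X)
        ((f.pull (R := ZMod 2)).mapH n y)) =
      (f.pull (R := ZMod 2)).mapH j (cf (F (ZMod 2) X') (n + n) j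
        (P (mulF (ZMod 2) X') (Act.triv C2 _) (sym_mulF _ X') y)) := by
  rw [P_pull]
  exact cf_nat f.pull (n + n) j _

end Vale.Agent.P263.E
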