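import Vale.Agent.P263.E.KunF
import Vale.Agent.P263.E.PTr
import Vale.Agent.P263.S.KunB

/-!
# P263, block S6: `H^*(D_2 Z)` for `Z` with finite levels (helper587)

* `kunF Z : KunB (muF (ZMod 2) Z Z)`;
* `spanD2`, `uZspan` : no hypothesis but `FinLev Z`;
* `toT`, `ofT` : cochains on `BC2 × Z` = homotopy fixed points of the trivial action on `F Z`;
* `uT Z` : multiplication by `u` on `H^*(BC2 × Z)`; `diag_uZ`;
* `det_D2` : `u w` is detected on `BC2 × Z`.
-/

noncomputable section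

namespace Vale.Agent.P263.E

open Vale.Agent.P263.S

namespace SS

/-- the Künneth basis of `H(Z × Z)`, `Z` with finite levels -/
def kunF (Z : SS) [FinLev Z] : KunB (muF (ZMod 2) Z Z) := kunF_of Z (kunB _)

/-- **`H^*(D2 Z)` is spanned by the transfers and the `u^j P(x)`.** -/
theorem spanD2 (Z : SS) [FinLev Z] (d : ℕ) (w : (F (ZMod 2) (D2 Z)).H d) :
    ∃ (y : (F (ZMod 2) (Z.prod Z)).H d) (x : ∀ q, (F (ZMod 2) Z).H q),
      w - ∑ i : Fin (d / 2 + 1), upZ Z (d - 2 * i) i d (by have := i.2; omega) (x i) =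
        (trZ (ZMod 2) Z).mapH d y :=
  span_D2 Z (kunF Z) d w

/-- multiples of `u` -/
theorem uZspan (Z : SS) [FinLev Z] (d : ℕ) (w : (F (ZMod 2) (D2 Z)).H d) :
    ∃ x : ∀ q, (F (ZMod 2) Z).H q, uZ Z d w = ∑ i : Fin (d / 2 + 1),
      upZ Z (d + 1 - 2 * i) i (d + 1) (by have := i.2; omega) (x i) :=
  uZ_span Z (kunF Z) d w

/-! ### cochains on `BC2 × Z` -/

variable {R : Type} [CommRing R] {Z : SS} {p : ℕ}

/-- functions on `BC2 × Z` are homotopy fixed points of the trivial action -/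
def toT (Z : SS) : Hom (F R (BC2.prod Z)) (hG (Act.triv C2 (F R Z))) where
  app p :=
    { toFun := fun c => hG.mk (Act.triv C2 (F R Z))
        (fun s z => c ((BC2.mk s, z) : (BC2.prod Z).obj p)) (by
          intro g s
          rcases C2_cases g with rfl | rfl
          · simp only [one_mul]
            rfl
          · funext z
            have e := BC2.mk_swap s
            show c ((BC2.mk fun i => tau * s i, z) : (BC2.prod Z).obj p) =
              c ((BC2.mk s, z) : (BC2.prod Z).obj p)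
            rw [e])
      map_add' := fun _ _ => rfl
      map_smul' := fun _ _ => rfl }
  nat {p q} f c := rfl

@[simp] theorem toT_fn (c : (F R (BC2.prod Z)).obj p) (s : Fin (p + 1) → C2) (z : Z.obj p) :
    hG.fn ((toT Z).app p c) s z = c ((BC2.mk s, z) : (BC2.prod Z).obj p) := rfl

/-- homotopy fixed points of the trivial action are functions on `BC2 × Z` -/
def ofT (Z : SS) : Hom (hG (Act.triv C2 (F R Z))) (F R (BC2.prod Z)) where
  app p :=
    { toFun := fun f x => BC2.lift (fun s => hG.fn f s x.2) (fun s => by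
        rw [hG.fn_mul f tau s]
        rfl) x.1
      map_add' := fun f g => by
        funext x
        obtain ⟨b, z⟩ := x
        obtain ⟨s, rfl⟩ := BC2.rep b
        rfl
      map_smul' := fun r f => by
        funext x
        obtain ⟨b, z⟩ := x
        obtain ⟨s, rfl⟩ := BC2.rep b
        rfl }
  nat {p q} g f := by
    funext x
    obtain ⟨b, z⟩ := x
    obtain ⟨s, rfl⟩ := BC2.rep b
    rfl

@[simp] theorem ofT_mk (f : (hG (Act.triv C2 (F R Z))).obj p) (s : Fin (p + 1) → C2)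
    (z : Z.obj p) :
    (ofT Z).app p f ((BC2.mk s, z) : (BC2.prod Z).obj p) = hG.fn f s z := rfl

theorem ofT_toT (c : (F R (BC2.prod Z)).obj p) : (ofT Z).app p ((toT Z).app p c) = c := by
  funext x
  obtain ⟨b, z⟩ := x
  obtain ⟨s, rfl⟩ := BC2.rep b
  rfl

theorem toT_ofT (f : (hG (Act.triv C2 (F R Z))).obj p) : (toT Z).app p ((ofT Z).app p f) = f :=
  hG.ext fun s => by
    funext z
    rfl

theorem mapH_toT_ofT (Z : SS) (n : ℕ) (x : (hG (Act.triv C2 (F R Z))).H n) :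
    (toT Z).mapH n ((ofT Z).mapH n x) = x := by
  have e : (toT (R := R) Z).comp (ofT Z) = Hom.id _ := Hom.ext fun _ f => toT_ofT f
  rw [← Hom.mapH_comp, e, Hom.mapH_id]

theorem mapH_ofT_toT (Z : SS) (n : ℕ) (x : (F R (BC2.prod Z)).H n) :
    (ofT Z).mapH n ((toT Z).mapH n x) = x := by
  have e : (ofT (R := R) Z).comp (toT Z) = Hom.id _ := Hom.ext fun _ f => ofT_toT f
  rw [← Hom.mapH_comp, e, Hom.mapH_id]

/-- the diagonal of `Z` -/
def dgZ (Z : SS) : Map Z (Z.prod Z) := pair (Map.id Z) (Map.id Z)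

/-- pullback along the diagonal is equivariant -/
theorem dgZ_equiv (R : Type) [CommRing R] (Z : SS) (p : ℕ) (s : C2)
    (x : (F R (Z.prod Z)).obj p) :
    (dgZ Z).pull.app p ((swapF R Z).act p s x) =
      (Act.triv C2 (F R Z)).act p s ((dgZ Z).pull.app p x) := by
  rcases C2_cases s with rfl | rfl
  · rw [swapF_one]
    rfl
  · funext z
    exact swapF_tau x (z, z)

/-- the restriction to `BC2 × Z`, on homotopy fixed points -/
def dgT (R : Type) [CommRing R] (Z : SS) : Hom (hG (swapF R Z)) (hG (Act.triv C2 (F R Z))) :=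
  hG.mapHom (swapF R Z) (Act.triv C2 (F R Z)) (dgZ Z).pull (dgZ_equiv R Z)

theorem toT_diag (Z : SS) :
    (toT Z).comp (D2.diag Z).pull = (dgT R Z).comp (toHG Z) :=
  Hom.ext fun p c => hG.ext fun s => by
    funext z
    rfl

theorem mapH_toT_diag (Z : SS) (n : ℕ) (x : (F R (D2 Z)).H n) :
    (toT Z).mapH n ((D2.diag Z).pull.mapH n x) = (dgT R Z).mapH n ((toHG Z).mapH n x) := by
  rw [← Hom.mapH_comp, toT_diag, Hom.mapH_comp]

/-- multiplication by `u` on `H^*(BC2 × Z)` -/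
def uT (Z : SS) (n : ℕ) :
    (F (ZMod 2) (BC2.prod Z)).H n →ₗ[ZMod 2] (F (ZMod 2) (BC2.prod Z)).H (n + 1) :=
  ((ofT Z).mapH (n + 1)).comp
    ((uH idC (Act.triv C2 (F (ZMod 2) Z)) n).comp ((toT Z).mapH n))

theorem uT_apply (Z : SS) (n : ℕ) (x : (F (ZMod 2) (BC2.prod Z)).H n) :
    uT Z n x = (ofT Z).mapH (n + 1)
      (uH idC (Act.triv C2 (F (ZMod 2) Z)) n ((toT Z).mapH n x)) := rfl

/-- the restriction to `BC2 × Z` commutes with `u` -/
theorem diag_uZ (Z : SS) (n : ℕ) (w : (F (ZMod 2) (D2 Z)).H n) :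
    (D2.diag Z).pull.mapH (n + 1) (uZ Z n w) = uT Z n ((D2.diag Z).pull.mapH n w) := by
  rw [uT_apply, mapH_toT_diag, dgT, ← uH_mapHom idC, ← dgT, uZ_apply]
  rw [← mapH_ofT_toT Z (n + 1) ((D2.diag Z).pull.mapH (n + 1) _), mapH_toT_diag, mapH_toHG_ofHG]

/-- the restriction of `u^j P(x)` to `BC2 × Z` -/
theorem diag_upZ (Z : SS) (j q d : ℕ) (e : j + 2 * q = d) (x : (F (ZMod 2) Z).H q) :
    (toT Z).mapH d ((D2.diag Z).pull.mapH d (upZ Z j q d e x)) =
      uP (mulF (ZMod 2) Z) (Act.triv C2 (F (ZMod 2) Z)) (sym_mulF (ZMod 2) Z) j q d e x := by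
  rw [mapH_toT_diag, upZ, mapH_toHG_ofHG, dgT]
  have h := uP_nat (muF (ZMod 2) Z Z) (swapF (ZMod 2) Z) (muF_sym (ZMod 2) Z)
    (mulF (ZMod 2) Z) (Act.triv C2 (F (ZMod 2) Z)) (sym_mulF (ZMod 2) Z) (Hom.id _)
    (dgZ Z).pull (dgZ_equiv (ZMod 2) Z) (fun _ _ _ => rfl) j q d e x
  rw [Hom.mapH_id] at h
  exact h.symm

/-- **Detection.** Multiples of `u` in `H^*(D2 Z)` are detected on `BC2 × Z`. -/
theorem det_D2 (Z : SS) [FinLev Z] (d : ℕ) (w : (F (ZMod 2) (D2 Z)).H d)
    (hw : (D2.diag Z).pull.mapH (d + 1) (uZ Z d w) = 0) : uZ Z d w = 0 := by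
  have h1 : (dgT (ZMod 2) Z).mapH (d + 1)
      (uH idC (swapF (ZMod 2) Z) d ((toHG Z).mapH d w)) = 0 := by
    have h2 := congrArg ((toT Z).mapH (d + 1)) hw
    rw [mapH_toT_diag, map_zero, uZ_apply, mapH_toHG_ofHG] at h2
    exact h2
  have h3 := nak_det (muF_sym (ZMod 2) Z) (kunF Z) (sym_mulF (ZMod 2) Z)
    (fun n x => by
      funext z
      exact (by decide : ∀ a : ZMod 2, a * a = a) (x z))
    (dgZ Z).pull (dgZ_equiv (ZMod 2) Z) (fun _ _ _ => rfl) d ((toHG Z).mapH d w) h1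
  rw [uZ_apply, h3, map_zero]

end SS

end Vale.Agent.P263.E
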