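import Mathlib

/-!
# P263, block E: abstract algebra of the cofibre of a transfer

Everything is ungraded here: `hA` is the total `C_2`-equivariant cohomology of a cosimplicial
module with trivial action, `A` its total cohomology, `hA = A[u]` in the form of the structure
`Triv`.  All modules are modules over a commutative ring `k` (in the application `ZMod 2`).
-/

namespace Vale.Agent.P263.E

variable {k : Type*} [CommRing k]

/-- `hA = A[u]`: `pi` is the pull back along `EG → pt`, `res` the restriction to the trivial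
group. -/
structure Triv (k : Type*) [CommRing k] (A hA : Type*) [AddCommGroup A] [Module k A]
    [AddCommGroup hA] [Module k hA] where
  u : hA →ₗ[k] hA
  pi : A →ₗ[k] hA
  res : hA →ₗ[k] A
  res_pi : ∀ a, res (pi a) = a
  res_u : ∀ x, res (u x) = 0
  u_inj : Function.Injective u
  ex : ∀ x, res x = 0 → ∃ y, u y = x

namespace Triv

variable {A hA B hB : Type*} [AddCommGroup A] [Module k A] [AddCommGroup hA] [Module k hA]
  [AddCommGroup B] [Module k B] [AddCommGroup hB] [Module k hB]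
  (T : Triv k A hA) (S : Triv k B hB)

theorem exists_div (x : hA) : ∃ y, T.u y = x - T.pi (T.res x) :=
  T.ex _ (by rw [map_sub, T.res_pi, sub_self])

/-- auxiliary function for `div` -/
noncomputable def divFun (x : hA) : hA := (T.exists_div x).choose

theorem u_divFun (x : hA) : T.u (T.divFun x) = x - T.pi (T.res x) := (T.exists_div x).choose_spec

/-- the quotient of the division by `u`: `x = pi (res x) + u (div x)` -/
noncomputable def div : hA →ₗ[k] hA where
  toFun := T.divFun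
  map_add' x y := by
    apply T.u_inj
    rw [map_add, T.u_divFun, T.u_divFun, T.u_divFun, map_add, map_add]
    abel
  map_smul' c x := by
    apply T.u_inj
    rw [map_smul, T.u_divFun, T.u_divFun, map_smul, map_smul, smul_sub]
    rfl

theorem u_div (x : hA) : T.u (T.div x) = x - T.pi (T.res x) := T.u_divFun x

theorem eq_add (x : hA) : T.pi (T.res x) + T.u (T.div x) = x := by
  rw [T.u_div]; abel

@[simp] theorem div_u (x : hA) : T.div (T.u x) = x := by
  apply T.u_inj
  rw [T.u_div, T.res_u, map_zero, sub_zero]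

@[simp] theorem div_pi (a : A) : T.div (T.pi a) = 0 := by
  apply T.u_inj
  rw [T.u_div, T.res_pi, sub_self, map_zero]

/-- the coefficient of `u ^ n` -/
noncomputable def coef (n : ℕ) : hA →ₗ[k] A := T.res.comp (T.div ^ n)

theorem coef_apply (n : ℕ) (x : hA) : T.coef n x = T.res ((T.div ^ n) x) := rfl

@[simp] theorem coef_zero (x : hA) : T.coef 0 x = T.res x := rfl

theorem coef_succ (n : ℕ) (x : hA) : T.coef (n + 1) x = T.coef n (T.div x) := by
  rw [coef_apply, coef_apply, pow_succ]; rfl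

theorem div_pow_u_pow (n : ℕ) (x : hA) : (T.div ^ n) ((T.u ^ n) x) = x := by
  induction n generalizing x with
  | zero => rfl
  | succ n ih =>
    rw [pow_succ, pow_succ' T.u]
    change (T.div ^ n) (T.div (T.u ((T.u ^ n) x))) = x
    rw [div_u, ih]

theorem coef_u_zero (x : hA) : T.coef 0 (T.u x) = 0 := T.res_u x

theorem coef_u_succ (n : ℕ) (x : hA) : T.coef (n + 1) (T.u x) = T.coef n x := by
  rw [coef_succ, div_u]

theorem coef_u_pow_lt {n m : ℕ} (h : n < m) (x : hA) : T.coef n ((T.u ^ m) x) = 0 := by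
  induction n generalizing m with
  | zero =>
    obtain ⟨m, rfl⟩ : ∃ l, m = l + 1 := ⟨m - 1, by omega⟩
    rw [pow_succ']; exact T.coef_u_zero _
  | succ n ih =>
    obtain ⟨m, rfl⟩ : ∃ l, m = l + 1 := ⟨m - 1, by omega⟩
    rw [pow_succ']
    change T.coef (n + 1) (T.u ((T.u ^ m) x)) = 0
    rw [coef_u_succ]
    exact ih (by omega)

theorem coef_u_pow_add (n m : ℕ) (x : hA) : T.coef (n + m) ((T.u ^ m) x) = T.coef n x := by
  induction m with
  | zero => rfl
  | succ m ih =>
    rw [pow_succ']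
    change T.coef (n + m + 1) (T.u ((T.u ^ m) x)) = _
    rw [coef_u_succ, ih]

theorem coef_pi (n : ℕ) (a : A) : T.coef n (T.pi a) = if n = 0 then a else 0 := by
  cases n with
  | zero => simp [T.res_pi]
  | succ n => rw [coef_succ, div_pi, map_zero]; simp

theorem coef_u_pow_pi (n m : ℕ) (a : A) :
    T.coef n ((T.u ^ m) (T.pi a)) = if n = m then a else 0 := by
  rcases lt_trichotomy n m with h | h | h
  · rw [T.coef_u_pow_lt h, if_neg (by omega)]
  · subst h
    have := T.coef_u_pow_add 0 n (T.pi a)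
    rw [Nat.zero_add] at this
    rw [this, coef_pi, if_pos rfl, if_pos rfl]
  · obtain ⟨l, rfl⟩ : ∃ l, n = l + m := ⟨n - m, by omega⟩
    rw [T.coef_u_pow_add, coef_pi, if_neg (by omega), if_neg (by omega)]

/-- the finite expansion -/
theorem expand (n : ℕ) (x : hA) :
    x = ∑ i ∈ Finset.range n, (T.u ^ i) (T.pi (T.coef i x)) + (T.u ^ n) ((T.div ^ n) x) := by
  induction n generalizing x with
  | zero => simp
  | succ n ih =>
    rw [Finset.sum_range_succ']
    conv_lhs => rw [← T.eq_add x, ih (T.div x)]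
    rw [map_add, map_sum]
    simp only [pow_zero, coef_zero, coef_succ, Module.End.one_apply]
    rw [pow_succ' T.u n, pow_succ T.div n]
    simp only [Module.End.mul_apply, pow_succ']
    abel

theorem u_pow_inj (n : ℕ) : Function.Injective (T.u ^ n) := by
  induction n with
  | zero => exact fun _ _ h => h
  | succ n ih =>
    intro x y h
    rw [pow_succ] at h
    exact T.u_inj (ih h)

/-- a morphism: `u`-linear and compatible with `pi` -/
structure Mor (T : Triv k A hA) (S : Triv k B hB) where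
  f : A →ₗ[k] B
  h : hA →ₗ[k] hB
  h_u : ∀ x, h (T.u x) = S.u (h x)
  h_pi : ∀ a, h (T.pi a) = S.pi (f a)

namespace Mor

variable {T S} (φ : Mor T S)

theorem h_u_pow (n : ℕ) (x : hA) : φ.h ((T.u ^ n) x) = (S.u ^ n) (φ.h x) := by
  induction n with
  | zero => rfl
  | succ n ih =>
    rw [pow_succ', pow_succ']
    change φ.h (T.u ((T.u ^ n) x)) = S.u ((S.u ^ n) (φ.h x))
    rw [φ.h_u, ih]

theorem res_h (x : hA) : S.res (φ.h x) = φ.f (T.res x) := by
  conv_lhs => rw [← T.eq_add x, map_add, map_add, φ.h_pi, φ.h_u, S.res_pi, S.res_u, add_zero]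

theorem div_h (x : hA) : S.div (φ.h x) = φ.h (T.div x) := by
  conv_lhs => rw [← T.eq_add x, map_add, map_add, φ.h_pi, φ.h_u, S.div_pi, S.div_u, zero_add]

theorem div_pow_h (n : ℕ) (x : hA) : (S.div ^ n) (φ.h x) = φ.h ((T.div ^ n) x) := by
  induction n generalizing x with
  | zero => rfl
  | succ n ih =>
    rw [pow_succ, pow_succ]
    change (S.div ^ n) (S.div (φ.h x)) = φ.h ((T.div ^ n) (T.div x))
    rw [φ.div_h, ih]

theorem coef_h (n : ℕ) (x : hA) : S.coef n (φ.h x) = φ.f (T.coef n x) := by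
  rw [coef_apply, coef_apply, φ.div_pow_h, φ.res_h]

end Mor

end Triv

/-- The data of the cofibre of a transfer: total (equivariant) cohomology modules.
`E = H(K)`, `hE = H(hK)`, `hKK = H(h KK)`, `A = H(I) × H(Z')`, `hA = H(hI) × H(hZ')`,
`B = H(F_2^B)`, `W = H(F_2^W)` (swap-invariant functions), `hW = H(h F_2^W)` with trivial action,
`hWt = H(h F_2^(W~))`. -/
structure Core (k : Type*) [CommRing k] (E hE hKK A hA B hB W hW hWt : Type*)
    [AddCommGroup E] [Module k E] [AddCommGroup hE] [Module k hE] [AddCommGroup hKK] [Module k hKK]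
    [AddCommGroup A] [Module k A] [AddCommGroup hA] [Module k hA]
    [AddCommGroup B] [Module k B] [AddCommGroup hB] [Module k hB]
    [AddCommGroup W] [Module k W] [AddCommGroup hW] [Module k hW]
    [AddCommGroup hWt] [Module k hWt] where
  TE : Triv k E hE
  TA : Triv k A hA
  TB : Triv k B hB
  TW : Triv k W hW
  uKK : hKK →ₗ[k] hKK
  uWt : hWt →ₗ[k] hWt
  /-- `K → I × Z'` -/
  a : Triv.Mor TE TA
  /-- `K → KK` -/
  i : hE →ₗ[k] hKK
  i_u : ∀ x, i (TE.u x) = uKK (i x)
  /-- `KK → F_2^(W~)` -/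
  q : hKK →ₗ[k] hWt
  q_u : ∀ x, q (uKK x) = uWt (q x)
  q_i : ∀ x, q (i x) = 0
  ex_q : ∀ x, q x = 0 → ∃ y, i y = x
  /-- the connecting map of (s2), only what is used: elements of the kernel of `i` are images of
  elements of `hWt` under a `u`-linear map -/
  cn : hWt →ₗ[k] hE
  cn_u : ∀ x, cn (uWt x) = TE.u (cn x)
  ex_i : ∀ x, i x = 0 → ∃ w, cn w = x
  /-- the nilpotency of `u` on `hWt` -/
  D : ℕ
  nil : ∀ x, (uWt ^ D) x = 0
  /-- `KK → I × Z'` -/
  al : hKK →ₗ[k] hA
  al_u : ∀ x, al (uKK x) = TA.u (al x)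
  al_i : ∀ x, al (i x) = a.h x
  /-- `∂ : H(B) → E` of (s1) -/
  del : Triv.Mor TB TE
  /-- exactness of (s3) at `KK`, with `∂' = i ∘ ∂` -/
  ex_KK : ∀ x, al x = 0 → q x = 0 → ∃ h, i (del.h h) = x
  /-- `j : F_2^W → KK` -/
  j : hW →ₗ[k] hKK
  j_u : ∀ x, j (TW.u x) = uKK (j x)
  al_j : ∀ x, al (j x) = 0
  /-- `H(F_2^W) → H(h F_2^(W~))` is onto (it is an isomorphism) -/
  onto : ∀ x, ∃ z, q (j (TW.pi z)) = x
  /-- the class of the double covering -/
  uW : W →ₗ[k] W
  nilW : ∀ z, (uW ^ D) z = 0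
  /-- the connecting map of (s4) -/
  ka : hW →ₗ[k] hW
  ka_u : ∀ x, ka (TW.u x) = TW.u (ka x)
  ka_pi : ∀ z, ka (TW.pi z) = TW.u (TW.pi z) + TW.pi (uW z)
  /-- the transfer `F_2^W → F_2^B` -/
  tr : Triv.Mor TW TB
  j_ka : ∀ x, j (ka x) = i (del.h (tr.h x))

namespace Core

variable {E hE hKK A hA B hB W hW hWt : Type*}
    [AddCommGroup E] [Module k E] [AddCommGroup hE] [Module k hE] [AddCommGroup hKK] [Module k hKK]
    [AddCommGroup A] [Module k A] [AddCommGroup hA] [Module k hA]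
    [AddCommGroup B] [Module k B] [AddCommGroup hB] [Module k hB]
    [AddCommGroup W] [Module k W] [AddCommGroup hW] [Module k hW]
    [AddCommGroup hWt] [Module k hWt]
    (C : Core k E hE hKK A hA B hB W hW hWt)

theorem i_u_pow (n : ℕ) (x : hE) : C.i ((C.TE.u ^ n) x) = (C.uKK ^ n) (C.i x) := by
  induction n with
  | zero => rfl
  | succ n ih =>
    rw [pow_succ', pow_succ']
    change C.i (C.TE.u ((C.TE.u ^ n) x)) = C.uKK ((C.uKK ^ n) (C.i x))
    rw [C.i_u, ih]

theorem j_u_pow (n : ℕ) (x : hW) : C.j ((C.TW.u ^ n) x) = (C.uKK ^ n) (C.j x) := by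
  induction n with
  | zero => rfl
  | succ n ih =>
    rw [pow_succ', pow_succ']
    change C.j (C.TW.u ((C.TW.u ^ n) x)) = C.uKK ((C.uKK ^ n) (C.j x))
    rw [C.j_u, ih]

theorem q_u_pow (n : ℕ) (x : hKK) : C.q ((C.uKK ^ n) x) = (C.uWt ^ n) (C.q x) := by
  induction n with
  | zero => rfl
  | succ n ih =>
    rw [pow_succ', pow_succ']
    change C.q (C.uKK ((C.uKK ^ n) x)) = C.uWt ((C.uWt ^ n) (C.q x))
    rw [C.q_u, ih]

theorem al_u_pow (n : ℕ) (x : hKK) : C.al ((C.uKK ^ n) x) = (C.TA.u ^ n) (C.al x) := by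
  induction n with
  | zero => rfl
  | succ n ih =>
    rw [pow_succ', pow_succ']
    change C.al (C.uKK ((C.uKK ^ n) x)) = C.TA.u ((C.TA.u ^ n) (C.al x))
    rw [C.al_u, ih]

theorem cn_u_pow (n : ℕ) (x : hWt) : C.cn ((C.uWt ^ n) x) = (C.TE.u ^ n) (C.cn x) := by
  induction n with
  | zero => rfl
  | succ n ih =>
    rw [pow_succ', pow_succ']
    change C.cn (C.uWt ((C.uWt ^ n) x)) = C.TE.u ((C.TE.u ^ n) (C.cn x))
    rw [C.cn_u, ih]

theorem nil_le {n : ℕ} (h : C.D ≤ n) (x : hWt) : (C.uWt ^ n) x = 0 := by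
  obtain ⟨l, rfl⟩ : ∃ l, n = l + C.D := ⟨n - C.D, by omega⟩
  rw [pow_add]
  change (C.uWt ^ l) ((C.uWt ^ C.D) x) = 0
  rw [C.nil, map_zero]

theorem nilW_le {n : ℕ} (h : C.D ≤ n) (x : W) : (C.uW ^ n) x = 0 := by
  obtain ⟨l, rfl⟩ : ∃ l, n = l + C.D := ⟨n - C.D, by omega⟩
  rw [pow_add]
  change (C.uW ^ l) ((C.uW ^ C.D) x) = 0
  rw [C.nilW, map_zero]

/-- `i` is injective. -/
theorem i_inj : Function.Injective C.i := by
  rw [injective_iff_map_eq_zero]
  intro x hx
  obtain ⟨w, rfl⟩ := C.ex_i x hx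
  apply C.TE.u_pow_inj C.D
  rw [← C.cn_u_pow, C.nil, map_zero, map_zero]

/-- `u^n p` comes from `hE` for large `n`. -/
theorem exists_lift {n : ℕ} (h : C.D ≤ n) (p : hKK) : ∃ y, C.i y = (C.uKK ^ n) p :=
  C.ex_q _ (by rw [C.q_u_pow, C.nil_le h])

/-- auxiliary function for `lift` -/
noncomputable def liftFun {n : ℕ} (h : C.D ≤ n) (p : hKK) : hE := (C.exists_lift h p).choose

theorem i_liftFun {n : ℕ} (h : C.D ≤ n) (p : hKK) : C.i (C.liftFun h p) = (C.uKK ^ n) p :=
  (C.exists_lift h p).choose_spec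

/-- the unique `y` with `i y = u^n p` -/
noncomputable def lift {n : ℕ} (h : C.D ≤ n) : hKK →ₗ[k] hE where
  toFun := C.liftFun h
  map_add' p p' := by
    apply C.i_inj
    rw [map_add, C.i_liftFun, C.i_liftFun, C.i_liftFun, map_add]
  map_smul' c p := by
    apply C.i_inj
    rw [map_smul, C.i_liftFun, C.i_liftFun, map_smul]
    rfl

theorem i_lift {n : ℕ} (h : C.D ≤ n) (p : hKK) : C.i (C.lift h p) = (C.uKK ^ n) p :=
  C.i_liftFun h p

theorem lift_succ {n : ℕ} (h : C.D ≤ n) (p : hKK) :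
    C.lift (h.trans (Nat.le_succ n)) p = C.TE.u (C.lift h p) := by
  apply C.i_inj
  rw [C.i_lift, C.i_u, C.i_lift, pow_succ']
  rfl

/-- The auxiliary element `Σ_(a+b=n-1) u^a pi (uW^b z)` of the proof of LZ_1. -/
noncomputable def aux (n : ℕ) (z : W) : hW :=
  ∑ a ∈ Finset.range n, (C.TW.u ^ a) (C.TW.pi ((C.uW ^ (n - 1 - a)) z))

theorem ka_u_pow (n : ℕ) (x : hW) : C.ka ((C.TW.u ^ n) x) = (C.TW.u ^ n) (C.ka x) := by
  induction n with
  | zero => rfl
  | succ n ih =>
    rw [pow_succ']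
    change C.ka (C.TW.u ((C.TW.u ^ n) x)) = C.TW.u ((C.TW.u ^ n) (C.ka x))
    rw [C.ka_u, ih]

theorem aux_succ (n : ℕ) (z : W) :
    C.aux (n + 1) z = C.TW.u (C.aux n z) + C.TW.pi ((C.uW ^ n) z) := by
  unfold aux
  rw [Finset.sum_range_succ', map_sum]
  congr 1
  apply Finset.sum_congr rfl
  intro a ha
  rw [pow_succ']
  change C.TW.u ((C.TW.u ^ a) _) = _
  congr 5
  omega

end Core

/-- **LZ_1, abstract form** (characteristic two). -/
theorem Core.ka_aux [CharP k 2] {E hE hKK A hA B hB W hW hWt : Type*}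
    [AddCommGroup E] [Module k E] [AddCommGroup hE] [Module k hE] [AddCommGroup hKK] [Module k hKK]
    [AddCommGroup A] [Module k A] [AddCommGroup hA] [Module k hA]
    [AddCommGroup B] [Module k B] [AddCommGroup hB] [Module k hB]
    [AddCommGroup W] [Module k W] [AddCommGroup hW] [Module k hW]
    [AddCommGroup hWt] [Module k hWt]
    (C : Core k E hE hKK A hA B hB W hW hWt) (n : ℕ) (z : W) :
    C.ka (C.aux n z) = (C.TW.u ^ n) (C.TW.pi z) + C.TW.pi ((C.uW ^ n) z) := by
  have h2 : ∀ x : hW, x + x = 0 := by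
    intro x
    rw [← two_smul k x, show (2 : k) = 0 from CharTwo.two_eq_zero, zero_smul]
  induction n with
  | zero =>
    simp only [aux, Finset.range_zero, Finset.sum_empty, map_zero, pow_zero]
    exact (h2 _).symm
  | succ n ih =>
    rw [aux_succ, map_add, C.ka_u, ih, C.ka_pi, map_add, pow_succ' C.TW.u, pow_succ' C.uW]
    simp only [Module.End.mul_apply]
    have e : C.TW.u (C.TW.pi ((C.uW ^ n) z)) + C.TW.u (C.TW.pi ((C.uW ^ n) z)) = 0 := h2 _
    calc C.TW.u ((C.TW.u ^ n) (C.TW.pi z)) + C.TW.u (C.TW.pi ((C.uW ^ n) z)) +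
          (C.TW.u (C.TW.pi ((C.uW ^ n) z)) + C.TW.pi (C.uW ((C.uW ^ n) z)))
        = C.TW.u ((C.TW.u ^ n) (C.TW.pi z)) + (C.TW.u (C.TW.pi ((C.uW ^ n) z)) +
          C.TW.u (C.TW.pi ((C.uW ^ n) z))) + C.TW.pi (C.uW ((C.uW ^ n) z)) := by abel
      _ = _ := by rw [e, add_zero]

/-- **LZ_1, abstract form** (characteristic two): the coefficients of `u^m`, `m < n`, of
`y`, `i y = u^n p`, are the transfers of the classes of the unordered pairs. -/
theorem Core.LZ [CharP k 2] {E hE hKK A hA B hB W hW hWt : Type*}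
    [AddCommGroup E] [Module k E] [AddCommGroup hE] [Module k hE] [AddCommGroup hKK] [Module k hKK]
    [AddCommGroup A] [Module k A] [AddCommGroup hA] [Module k hA]
    [AddCommGroup B] [Module k B] [AddCommGroup hB] [Module k hB]
    [AddCommGroup W] [Module k W] [AddCommGroup hW] [Module k hW]
    [AddCommGroup hWt] [Module k hWt]
    (C : Core k E hE hKK A hA B hB W hW hWt) {n : ℕ} (hn : C.D ≤ n) (p : hKK) (z : W)
    (hz : C.q (C.j (C.TW.pi z)) = C.q p) {m : ℕ} (hm : m < n) :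
    C.TE.coef m (C.lift hn p) = C.del.f (C.tr.f ((C.uW ^ (n - 1 - m)) z)) := by
  set y := C.lift hn p with hy
  have hiy : C.i y = (C.uKK ^ n) p := C.i_lift hn p
  set y0 := (C.TE.div ^ n) y with hy0
  have h1 : C.a.h y0 = C.al p := by
    rw [hy0, ← C.a.div_pow_h, ← C.al_i, hiy, C.al_u_pow, C.TA.div_pow_u_pow]
  obtain ⟨h, hh⟩ := C.ex_KK (p - C.i y0 - C.j (C.TW.pi z))
    (by rw [map_sub, map_sub, C.al_i, C.al_j, h1, sub_self, sub_zero])
    (by rw [map_sub, map_sub, C.q_i, hz, sub_zero, sub_self])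
  have h2 : p = C.i y0 + C.j (C.TW.pi z) + C.i (C.del.h h) := by
    rw [hh]; abel
  have h3 : (C.TW.u ^ n) (C.TW.pi z) = C.ka (C.aux n z) := by
    rw [C.ka_aux, C.nilW_le hn, map_zero, add_zero]
  have h4 : y = (C.TE.u ^ n) y0 + C.del.h (C.tr.h (C.aux n z)) + (C.TE.u ^ n) (C.del.h h) := by
    apply C.i_inj
    rw [hiy, h2, map_add, map_add, ← C.i_u_pow, ← C.i_u_pow, ← C.j_u_pow, h3, C.j_ka, map_add,
      map_add]
  rw [h4, map_add, map_add, C.TE.coef_u_pow_lt hm, C.TE.coef_u_pow_lt hm, zero_add, add_zero,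
    C.del.coef_h, C.tr.coef_h]
  congr 2
  unfold aux
  rw [map_sum]
  simp only [C.TW.coef_u_pow_pi]
  rw [Finset.sum_eq_single m]
  · rw [if_pos rfl]
  · intro b _ hb
    rw [if_neg (Ne.symm hb)]
  · intro h
    exact absurd (Finset.mem_range.2 hm) h

end Vale.Agent.P263.E
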