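import Vale.Agent.P263.E.SqAlg
import Vale.Agent.P263.EX.BM

/-!
P263, block E5 (helper370), pure algebra: Bullett-Macdonald relations for squares which are
defined only after multiplication with a power of `u` (`E.Setup` of helper659).

* `far_zero`, `far_BM`: the scalar form.  The symmetry of the iterated total square gives the
  relations and, at the same time, the vanishing of the second squares of negative degree.
* `GUV`: graded `F_2[u,v]`-modules, `Setup2`: the second level over a `Setup`.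
* `Setup2.bm_vec`: the relations.
-/

namespace Vale.Agent.P263.E

open Polynomial Finset Vale.Agent.P263.EX

/-! ### The scalar form -/

theorem far_zero {q N T J : ℕ} (hJ : J = 2 * q + T) {g : ℕ → ZMod 2} (h1 : ∀ j, j < q → g j = 0)
    (h2 : ∀ j, J < j → g j = 0)
    (eq : ∑ j ∈ range (J + 1), C (g j) * ((1 + X) ^ (J - j) * X ^ (2 * j + T)) =
      ∑ j ∈ range (J + 1), C (g j) * (((1 : (ZMod 2)[X]) + X) ^ (J - j) * X ^ (J - j + N))) :
    ∀ j, N < j → g j = 0 := by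
  by_contra hcon
  push Not at hcon
  obtain ⟨j1, hj1, hg1⟩ := hcon
  have hb : j1 ≤ J := by
    by_contra h
    exact hg1 (h2 _ (by omega))
  obtain ⟨j0, ⟨hj0, hg0, hj0J⟩, hmax⟩ : ∃ j0, (N < j0 ∧ g j0 ≠ 0 ∧ j0 ≤ J) ∧
      ∀ j, j0 < j → g j = 0 := by
    classical
    refine ⟨Nat.findGreatest (fun j => N < j ∧ g j ≠ 0) J, ?_, ?_⟩
    · have h := Nat.findGreatest_spec (P := fun j => N < j ∧ g j ≠ 0) hb ⟨hj1, hg1⟩
      exact ⟨h.1, h.2, Nat.findGreatest_le J⟩
    · intro j hj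
      by_contra hgj
      have hjJ : j ≤ J := by
        by_contra h
        exact hgj (h2 _ (by omega))
      have h := Nat.findGreatest_spec (P := fun j => N < j ∧ g j ≠ 0) hb ⟨hj1, hg1⟩
      exact Nat.findGreatest_is_greatest (P := fun j => N < j ∧ g j ≠ 0) hj hjJ
        ⟨lt_trans h.1 hj, hgj⟩
  have hc := congrArg (fun p : (ZMod 2)[X] => p.coeff (J - j0 + N)) eq
  simp only [finsetSum_coeff, coeff_C_mul] at hc
  rw [Finset.sum_eq_zero, Finset.sum_eq_single j0] at hc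
  · rw [coeff_mul_X_pow', if_pos le_rfl, Nat.sub_self, coeff_one_add_X_pow] at hc
    simp only [Nat.choose_zero_right, Nat.cast_one, mul_one] at hc
    exact hg0 hc.symm
  · intro j _ hj
    rcases Nat.lt_or_gt_of_ne hj with h | h
    · rw [coeff_mul_X_pow', if_neg (by omega), mul_zero]
    · rw [hmax j h, zero_mul]
  · intro h
    exact absurd (mem_range.mpr (by omega)) h
  · intro j _
    rcases Nat.lt_or_ge j q with h | h
    · rw [h1 j h, zero_mul]
    · rw [coeff_mul_X_pow', if_neg (by omega), mul_zero]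

theorem far_BM {q M T J : ℕ} (hJ : J = 2 * q + T) (hT : q + M ≤ T) {g : ℕ → ZMod 2}
    (h1 : ∀ j, j < q → g j = 0) (h2 : ∀ j, J < j → g j = 0)
    (eq : ∑ j ∈ range (J + 1), C (g j) * ((1 + X) ^ (J - j) * X ^ (2 * j + T)) =
      ∑ j ∈ range (J + 1), C (g j) *
        (((1 : (ZMod 2)[X]) + X) ^ (J - j) * X ^ (J - j + (q + M)))) :
    ∑ a ∈ range (M + 1), C (g (q + a)) * BM.wt (ZMod 2) (M - a) a = 0 := by
  have hz := far_zero hJ h1 h2 eq
  have hX : (X : (ZMod 2)[X]) ≠ 0 := X_ne_zero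
  have hX1 : ((1 : (ZMod 2)[X]) + X) ≠ 0 := by
    rw [add_comm]
    exact (monic_X_add_C (1 : ZMod 2)).ne_zero
  have red : ∀ f : ℕ → (ZMod 2)[X], ∑ j ∈ range (J + 1), C (g j) * f j =
      ∑ a ∈ range (M + 1), C (g (q + a)) * f (q + a) := by
    intro f
    have e1 : ∑ j ∈ range (q + (M + 1)), C (g j) * f j = ∑ j ∈ range (J + 1), C (g j) * f j := by
      refine Finset.sum_subset ?_ ?_
      · intro j hj
        rw [mem_range] at hj ⊢
        omega
      · intro j _ hj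
        rw [mem_range] at hj
        rw [hz j (by omega), C_0, zero_mul]
    rw [← e1, Finset.sum_range_add, Finset.sum_eq_zero, zero_add]
    intro j hj
    rw [h1 j (mem_range.mp hj), C_0, zero_mul]
  rw [red, red] at eq
  have key : ((1 + X) ^ (J - (q + M)) * X ^ J) *
      ∑ a ∈ range (M + 1), C (g (q + a)) * BM.wt (ZMod 2) (M - a) a = 0 := by
    have h0 : ∑ a ∈ range (M + 1), C (g (q + a)) * ((1 + X) ^ (J - (q + a)) *
          X ^ (2 * (q + a) + T)) +
        ∑ a ∈ range (M + 1), C (g (q + a)) *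
          (((1 : (ZMod 2)[X]) + X) ^ (J - (q + a)) * X ^ (J - (q + a) + (q + M))) = 0 := by
      rw [eq, CharTwo.add_self_eq_zero]
    rw [← h0, ← Finset.sum_add_distrib, Finset.mul_sum]
    refine Finset.sum_congr rfl fun a ha => ?_
    have ha' := mem_range.mp ha
    have x1 : J - (q + a) = (J - (q + M)) + (M - a) := by omega
    have x2 : 2 * (q + a) + T = J + 2 * a := by omega
    have x3 : J - (q + a) + (q + M) = J + (M - a) := by omega
    rw [x3, x2, x1]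
    unfold BM.wt
    rw [pow_add, pow_add, pow_add]
    ring
  exact (mul_eq_zero.mp key).resolve_left (mul_ne_zero (pow_ne_zero _ hX1) (pow_ne_zero _ hX))

universe v

/-! ### Graded modules over `F_2[u,v]` -/

/-- A graded `F_2[u,v]`-module. -/
structure GUV where
  /-- the pieces -/
  H : ℕ → Type v
  [grp : ∀ n, AddCommGroup (H n)]
  [mod : ∀ n, Module (ZMod 2) (H n)]
  /-- multiplication with `u` -/
  u : ∀ n, H n →ₗ[ZMod 2] H (n + 1)
  /-- multiplication with `v` -/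
  v : ∀ n, H n →ₗ[ZMod 2] H (n + 1)
  comm : ∀ n x, u (n + 1) (v n x) = v (n + 1) (u n x)

attribute [instance] GUV.grp GUV.mod

namespace GUV

variable (A B : GUV.{v})

/-- forget `v` -/
abbrev toGU : GU.{v} := { H := A.H, u := A.u }

/-- The total module. -/
abbrev Tot : Type v := DirectSum ℕ A.H

/-- the inclusion of a degree -/
noncomputable abbrev inc (n : ℕ) : A.H n →ₗ[ZMod 2] A.Tot := DirectSum.lof (ZMod 2) ℕ A.H n

/-- `u` on the total module -/
noncomputable def U : Module.End (ZMod 2) A.Tot :=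
  DirectSum.toModule (ZMod 2) ℕ _ fun n => (A.inc (n + 1)).comp (A.u n)

/-- `v` on the total module -/
noncomputable def V : Module.End (ZMod 2) A.Tot :=
  DirectSum.toModule (ZMod 2) ℕ _ fun n => (A.inc (n + 1)).comp (A.v n)

theorem U_inc (n : ℕ) (x : A.H n) : A.U (A.inc n x) = A.inc (n + 1) (A.u n x) := by
  rw [U, DirectSum.toModule_lof]; rfl

theorem V_inc (n : ℕ) (x : A.H n) : A.V (A.inc n x) = A.inc (n + 1) (A.v n x) := by
  rw [V, DirectSum.toModule_lof]; rfl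

variable {A B}

theorem hom_ext {M : Type*} [AddCommGroup M] [Module (ZMod 2) M] {f g : A.Tot →ₗ[ZMod 2] M}
    (h : ∀ n x, f (A.inc n x) = g (A.inc n x)) : f = g :=
  DirectSum.linearMap_ext (ZMod 2) fun n => LinearMap.ext fun x => h n x

variable (A B)

theorem UV : Commute A.U A.V := by
  show A.U * A.V = A.V * A.U
  refine hom_ext fun n x => ?_
  rw [Module.End.mul_apply, Module.End.mul_apply, V_inc, U_inc, U_inc, V_inc, A.comm]

/-- `v^2 + u v` -/
noncomputable def W : Module.End (ZMod 2) A.Tot := A.V * A.V + A.V * A.U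

/-- degree `0` maps on the total modules -/
noncomputable def tmap (f : ∀ n, A.H n →ₗ[ZMod 2] B.H n) : A.Tot →ₗ[ZMod 2] B.Tot :=
  DirectSum.toModule (ZMod 2) ℕ _ fun n => (B.inc n).comp (f n)

variable {A B}

theorem tmap_inc (f : ∀ n, A.H n →ₗ[ZMod 2] B.H n) (n : ℕ) (x : A.H n) :
    tmap A B f (A.inc n x) = B.inc n (f n x) := by
  rw [tmap, DirectSum.toModule_lof]; rfl

theorem tmap_apply (f : ∀ n, A.H n →ₗ[ZMod 2] B.H n) (z : A.Tot) (n : ℕ) :
    (tmap A B f z) n = f n (z n) := by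
  have h : (DirectSum.component (ZMod 2) ℕ B.H n).comp (tmap A B f) =
      (f n).comp (DirectSum.component (ZMod 2) ℕ A.H n) := by
    refine hom_ext fun m x => ?_
    rw [LinearMap.comp_apply, LinearMap.comp_apply, tmap_inc]
    rcases eq_or_ne m n with h | h
    · subst h
      rw [DirectSum.component.lof_self, DirectSum.component.lof_self]
    · rw [DirectSum.component.of, DirectSum.component.of, dif_neg h, dif_neg h, map_zero]
  exact congrArg (fun g : A.Tot →ₗ[ZMod 2] B.H n => g z) h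

theorem tmap_inj (f : ∀ n, A.H n →ₗ[ZMod 2] B.H n) (hf : ∀ n x, f n x = 0 → x = 0) {z : A.Tot}
    (hz : tmap A B f z = 0) : z = 0 := by
  refine DFinsupp.ext fun n => ?_
  refine hf n _ ?_
  rw [← tmap_apply, hz]
  rfl

/-! #### nilpotency, graded form -/

variable (A)

/-- multiplication with `u^R` -/
def upow : ∀ R n : ℕ, A.H n →ₗ[ZMod 2] A.H (n + R)
  | 0, _ => LinearMap.id
  | (R+1), n => (A.u (n + R)).comp (upow R n)

/-- multiplication with `v^R` -/
def vpow : ∀ R n : ℕ, A.H n →ₗ[ZMod 2] A.H (n + R)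
  | 0, _ => LinearMap.id
  | (R+1), n => (A.v (n + R)).comp (vpow R n)

/-- multiplication with `(u + v)^R` -/
def wpow : ∀ R n : ℕ, A.H n →ₗ[ZMod 2] A.H (n + R)
  | 0, _ => LinearMap.id
  | (R+1), n => (A.u (n + R) + A.v (n + R)).comp (wpow R n)

theorem inc_upow (R n : ℕ) (x : A.H n) :
    A.inc (n + R) (A.upow R n x) = (A.U ^ R) (A.inc n x) := by
  induction R with
  | zero => rw [pow_zero]; rfl
  | succ R ih => rw [pow_succ', Module.End.mul_apply, ← ih, U_inc]; rfl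

theorem inc_vpow (R n : ℕ) (x : A.H n) :
    A.inc (n + R) (A.vpow R n x) = (A.V ^ R) (A.inc n x) := by
  induction R with
  | zero => rw [pow_zero]; rfl
  | succ R ih => rw [pow_succ', Module.End.mul_apply, ← ih, V_inc]; rfl

theorem inc_wpow (R n : ℕ) (x : A.H n) :
    A.inc (n + R) (A.wpow R n x) = ((A.U + A.V) ^ R) (A.inc n x) := by
  induction R with
  | zero => rw [pow_zero]; rfl
  | succ R ih =>
    rw [pow_succ', Module.End.mul_apply, ← ih, LinearMap.add_apply, U_inc, V_inc, ← map_add]; rfl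

theorem UW_pow (R : ℕ) : (A.U * A.W) ^ R = A.U ^ R * (A.V ^ R * (A.U + A.V) ^ R) := by
  have h := A.UV
  have e : A.W = A.V * (A.U + A.V) := by
    rw [W, mul_add, add_comm]
  have h1 : Commute A.V (A.U + A.V) := h.symm.add_right (Commute.refl _)
  have h2 : Commute A.U (A.V * (A.U + A.V)) := h.mul_right ((Commute.refl _).add_right h)
  rw [e, h2.mul_pow, h1.mul_pow]

/-- The elementwise form of the nilpotency: `u^R (v^R ((u+v)^R x)) = 0`. -/
theorem nil_of (R : ℕ) (h : ∀ n (x : A.H n), A.upow R _ (A.vpow R _ (A.wpow R n x)) = 0)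
    (w : A.Tot) : ((A.U * A.W) ^ R) w = 0 := by
  have h0 : (A.U * A.W) ^ R = 0 := by
    refine hom_ext fun n x => ?_
    rw [UW_pow, Module.End.mul_apply, Module.End.mul_apply, ← inc_wpow, ← inc_vpow, ← inc_upow, h,
      map_zero]
    rfl
  rw [h0]
  rfl

end GUV

/-! ### The second level -/

/-- The second level over a `Setup`: `UV = H(hG hG K) = E[u,v]`, `VV = H(hG_u hG_v KV)`,
`WW = H(hG_u hG_v F(nc V))`. -/
structure Setup2 {dbl : ℕ → ℕ} (S : Setup.{v} dbl) where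
  hdbl : ∀ q, dbl q = q + q
  UV : GUV.{v}
  VV : GUV.{v}
  WW : GUV.{v}
  /-- `UV = (E[v])[u]` -/
  fr2 : GU.Free UV.toGU S.K.H
  cf_v : ∀ n m z, fr2.cf (n + 1) (m + 1) (UV.v n z) = S.K.u m (fr2.cf n m z)
  cf_v0 : ∀ n z, fr2.cf (n + 1) 0 (UV.v n z) = 0
  /-- the inflation `E → E[v]` -/
  infl : ∀ j, S.E j →ₗ[ZMod 2] S.K.H j
  cf_infl : ∀ j x, S.fr.cf j j (infl j x) = x
  cf_infl_ne : ∀ n j x, j ≠ n → S.fr.cf n j (infl n x) = 0
  /-- the flip on `E[u,v]` -/
  tau : ∀ n, UV.H n →ₗ[ZMod 2] UV.H n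
  cf_tau : ∀ n m m' j z, j ≤ m → j ≤ m' → m + m' = n + j →
    S.fr.cf m j (fr2.cf n m (tau n z)) = S.fr.cf m' j (fr2.cf n m' z)
  /-- the flip on `VV` -/
  tauV : ∀ n, VV.H n →ₗ[ZMod 2] VV.H n
  tauV_u : ∀ n x, tauV (n + 1) (VV.u n x) = VV.v n (tauV n x)
  tauV_v : ∀ n x, tauV (n + 1) (VV.v n x) = VV.u n (tauV n x)
  /-- `K → KV` -/
  iV : ∀ n, UV.H n →ₗ[ZMod 2] VV.H n
  iV_u : ∀ n z, iV (n + 1) (UV.u n z) = VV.u n (iV n z)
  iV_v : ∀ n z, iV (n + 1) (UV.v n z) = VV.v n (iV n z)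
  iV_tau : ∀ n z, tauV n (iV n z) = iV n (tau n z)
  /-- the connecting map -/
  del : ∀ n, WW.H n →ₗ[ZMod 2] UV.H (n + 1)
  del_u : ∀ n w, del (n + 1) (WW.u n w) = UV.u (n + 1) (del n w)
  del_v : ∀ n w, del (n + 1) (WW.v n w) = UV.v (n + 1) (del n w)
  exact_UV : ∀ n z, iV (n + 1) z = 0 → ∃ w, del n w = z
  inj_zero2 : ∀ z, iV 0 z = 0 → z = 0
  R2 : ℕ
  nil2 : ∀ w : WW.Tot, ((WW.U * WW.W) ^ R2) w = 0
  /-- `H_u(K) → H_u H_v(K)` -/
  pi : ∀ n, S.K.H n →ₗ[ZMod 2] UV.H n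
  cf_pi : ∀ n m y, fr2.cf n m (pi n y) = infl m (S.fr.cf n m y)
  /-- `H_u(KK) → H_u H_v(KV)` -/
  ka : ∀ n, S.KK.H n →ₗ[ZMod 2] VV.H n
  ka_u : ∀ n x, ka (n + 1) (S.KK.u n x) = VV.u n (ka n x)
  ka_i : ∀ n y, ka n (S.i.f n y) = iV n (pi n y)
  /-- the power operation on `H_v(KK)` -/
  Pu : ∀ n m, m = n + n → S.KK.H n → VV.H m
  Pu_add : ∀ n m h x y, VV.u m (Pu n m h (x + y)) = VV.u m (Pu n m h x) + VV.u m (Pu n m h y)
  Pu_v : ∀ n m h h' x, Pu (n + 1) (m + 2) h' (S.KK.u n x) =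
    VV.v (m + 1) (VV.v m (Pu n m h x)) + VV.v (m + 1) (VV.u m (Pu n m h x))
  Pu_infl : ∀ j h e, Pu j (dbl j) h (S.i.f j (infl j e)) = ka (dbl j) (S.Pt j e)
  sym : ∀ q m h x, tauV m (Pu (dbl q) m h (S.Pt q x)) = Pu (dbl q) m h (S.Pt q x)

namespace Setup2

variable {dbl : ℕ → ℕ} {S : Setup.{v} dbl} (S2 : Setup2 S)

/-! #### Polynomials attached to the elements of `E[u,v]` -/

section poly

variable (N : ℕ) (φ : S.E N →ₗ[ZMod 2] ZMod 2)

/-- The coefficients, `u = X`, `v = 1`. -/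
noncomputable def pA : S2.UV.Tot →ₗ[ZMod 2] (ZMod 2)[X] :=
  DirectSum.toModule (ZMod 2) ℕ _ fun n => ∑ m ∈ range (n + 1),
    (monomial (n - m)).comp (φ.comp ((S.fr.cf m N).comp (S2.fr2.cf n m)))

/-- The coefficients, `u = 1`, `v = X`. -/
noncomputable def pB : S2.UV.Tot →ₗ[ZMod 2] (ZMod 2)[X] :=
  DirectSum.toModule (ZMod 2) ℕ _ fun n => ∑ m ∈ range (n + 1),
    (monomial (m - N)).comp (φ.comp ((S.fr.cf m N).comp (S2.fr2.cf n m)))

theorem pA_inc (n : ℕ) (z : S2.UV.H n) : S2.pA N φ (S2.UV.inc n z) = ∑ m ∈ range (n + 1),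
    monomial (n - m) (φ (S.fr.cf m N (S2.fr2.cf n m z))) := by
  rw [pA, DirectSum.toModule_lof, LinearMap.sum_apply]; rfl

theorem pB_inc (n : ℕ) (z : S2.UV.H n) : S2.pB N φ (S2.UV.inc n z) = ∑ m ∈ range (n + 1),
    monomial (m - N) (φ (S.fr.cf m N (S2.fr2.cf n m z))) := by
  rw [pB, DirectSum.toModule_lof, LinearMap.sum_apply]; rfl

theorem cf_top (n : ℕ) (z : S2.UV.H n) : S2.fr2.cf (n + 1) (n + 1) (S2.UV.u n z) = 0 := by
  have h := S2.fr2.cf_u n (n + 1) z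
  rw [S2.fr2.cf_gt n (n + 1) z (by omega)] at h
  exact h

theorem cf_u2 (n m : ℕ) (z : S2.UV.H n) :
    S2.fr2.cf (n + 1) m (S2.UV.u n z) = S2.fr2.cf n m z := S2.fr2.cf_u n m z

theorem pA_U (z : S2.UV.Tot) : S2.pA N φ (S2.UV.U z) = X * S2.pA N φ z := by
  have h : (S2.pA N φ).comp S2.UV.U = (LinearMap.mulLeft (ZMod 2) X).comp (S2.pA N φ) := by
    refine GUV.hom_ext fun n z => ?_
    rw [LinearMap.comp_apply, LinearMap.comp_apply, GUV.U_inc, pA_inc, pA_inc,
      Finset.sum_range_succ, cf_top, map_zero, map_zero, map_zero, add_zero,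
      LinearMap.mulLeft_apply, Finset.mul_sum]
    refine Finset.sum_congr rfl fun m hm => ?_
    have := mem_range.mp hm
    rw [cf_u2, show n + 1 - m = (n - m) + 1 by omega, X_mul_monomial]
  exact congrArg (fun g : S2.UV.Tot →ₗ[ZMod 2] (ZMod 2)[X] => g z) h

theorem pA_V (z : S2.UV.Tot) : S2.pA N φ (S2.UV.V z) = S2.pA N φ z := by
  have h : (S2.pA N φ).comp S2.UV.V = S2.pA N φ := by
    refine GUV.hom_ext fun n z => ?_
    rw [LinearMap.comp_apply, GUV.V_inc, pA_inc, pA_inc, Finset.sum_range_succ', S2.cf_v0,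
      map_zero, map_zero, map_zero, add_zero]
    refine Finset.sum_congr rfl fun m hm => ?_
    rw [S2.cf_v, S.fr.cf_u, show n + 1 - (m + 1) = n - m by omega]
  exact congrArg (fun g : S2.UV.Tot →ₗ[ZMod 2] (ZMod 2)[X] => g z) h

theorem pB_U (z : S2.UV.Tot) : S2.pB N φ (S2.UV.U z) = S2.pB N φ z := by
  have h : (S2.pB N φ).comp S2.UV.U = S2.pB N φ := by
    refine GUV.hom_ext fun n z => ?_
    rw [LinearMap.comp_apply, GUV.U_inc, pB_inc, pB_inc,
      Finset.sum_range_succ, cf_top, map_zero, map_zero, map_zero, add_zero]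
    refine Finset.sum_congr rfl fun m hm => ?_
    rw [cf_u2]
  exact congrArg (fun g : S2.UV.Tot →ₗ[ZMod 2] (ZMod 2)[X] => g z) h

theorem pB_V (z : S2.UV.Tot) : S2.pB N φ (S2.UV.V z) = X * S2.pB N φ z := by
  have h : (S2.pB N φ).comp S2.UV.V = (LinearMap.mulLeft (ZMod 2) X).comp (S2.pB N φ) := by
    refine GUV.hom_ext fun n z => ?_
    rw [LinearMap.comp_apply, LinearMap.comp_apply, GUV.V_inc, pB_inc, pB_inc,
      Finset.sum_range_succ', S2.cf_v0, map_zero, map_zero, map_zero, add_zero,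
      LinearMap.mulLeft_apply, Finset.mul_sum]
    refine Finset.sum_congr rfl fun m hm => ?_
    rw [S2.cf_v, S.fr.cf_u]
    rcases Nat.lt_or_ge m N with h | h
    · rw [S.fr.cf_gt _ _ _ h, map_zero, map_zero, map_zero, mul_zero]
    · rw [show m + 1 - N = (m - N) + 1 by omega, X_mul_monomial]
  exact congrArg (fun g : S2.UV.Tot →ₗ[ZMod 2] (ZMod 2)[X] => g z) h

theorem pA_tau (z : S2.UV.Tot) :
    S2.pA N φ (GUV.tmap S2.UV S2.UV S2.tau z) = S2.pB N φ z := by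
  have h : (S2.pA N φ).comp (GUV.tmap S2.UV S2.UV S2.tau) = S2.pB N φ := by
    refine GUV.hom_ext fun n z => ?_
    rw [LinearMap.comp_apply, GUV.tmap_inc, pA_inc, pB_inc]
    rcases Nat.lt_or_ge n N with h | h
    · rw [Finset.sum_eq_zero, Finset.sum_eq_zero]
      · intro m hm
        have := mem_range.mp hm
        rw [S.fr.cf_gt m N _ (by omega), map_zero, map_zero]
      · intro m hm
        have := mem_range.mp hm
        rw [S.fr.cf_gt m N _ (by omega), map_zero, map_zero]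
    · obtain ⟨k, rfl⟩ := Nat.exists_eq_add_of_le h
      have split : ∀ f : ℕ → (ZMod 2)[X], (∀ m, m < N → f m = 0) →
          ∑ m ∈ range (N + k + 1), f m = ∑ m ∈ range (k + 1), f (N + m) := by
        intro f hf
        rw [show N + k + 1 = N + (k + 1) by ring, Finset.sum_range_add,
          Finset.sum_eq_zero fun m hm => hf m (mem_range.mp hm), zero_add]
      rw [split, split, ← Finset.sum_range_reflect]
      · refine Finset.sum_congr rfl fun m hm => ?_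
        have := mem_range.mp hm
        rw [S2.cf_tau (N + k) (N + (k + 1 - 1 - m)) (N + m) N z (by omega) (by omega) (by omega)]
        congr 2
        omega
      · intro m hm
        rw [S.fr.cf_gt m N _ (by omega), map_zero, map_zero]
      · intro m hm
        rw [S.fr.cf_gt m N _ (by omega), map_zero, map_zero]
  exact congrArg (fun g : S2.UV.Tot →ₗ[ZMod 2] (ZMod 2)[X] => g z) h

theorem pA_W (z : S2.UV.Tot) : S2.pA N φ (S2.UV.W z) = (1 + X) * S2.pA N φ z := by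
  rw [GUV.W, LinearMap.add_apply, Module.End.mul_apply, Module.End.mul_apply, map_add, pA_V, pA_V,
    pA_V, pA_U]
  ring

theorem pB_W (z : S2.UV.Tot) : S2.pB N φ (S2.UV.W z) = (X * (1 + X)) * S2.pB N φ z := by
  rw [GUV.W, LinearMap.add_apply, Module.End.mul_apply, Module.End.mul_apply, map_add, pB_V, pB_V,
    pB_V, pB_U]
  ring

theorem pA_UW_pow (k : ℕ) (z : S2.UV.Tot) :
    S2.pA N φ (((S2.UV.U * S2.UV.W) ^ k) z) = (X * (1 + X)) ^ k * S2.pA N φ z := by
  induction k with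
  | zero => rw [pow_zero, pow_zero, one_mul]; rfl
  | succ k ih =>
    rw [pow_succ', Module.End.mul_apply, Module.End.mul_apply, pA_U, pA_W, ih]
    ring

theorem pA_U_pow (k : ℕ) (z : S2.UV.Tot) :
    S2.pA N φ ((S2.UV.U ^ k) z) = X ^ k * S2.pA N φ z := by
  induction k with
  | zero => rw [pow_zero, pow_zero, one_mul]; rfl
  | succ k ih =>
    rw [pow_succ', Module.End.mul_apply, pA_U, ih]
    ring

theorem pB_V_pow (k : ℕ) (z : S2.UV.Tot) :
    S2.pB N φ ((S2.UV.V ^ k) z) = X ^ k * S2.pB N φ z := by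
  induction k with
  | zero => rw [pow_zero, pow_zero, one_mul]; rfl
  | succ k ih =>
    rw [pow_succ', Module.End.mul_apply, pB_V, ih]
    ring

theorem pA_V_pow (k : ℕ) (z : S2.UV.Tot) :
    S2.pA N φ ((S2.UV.V ^ k) z) = S2.pA N φ z := by
  induction k with
  | zero => rw [pow_zero]; rfl
  | succ k ih => rw [pow_succ', Module.End.mul_apply, pA_V, ih]

theorem pB_U_pow (k : ℕ) (z : S2.UV.Tot) :
    S2.pB N φ ((S2.UV.U ^ k) z) = S2.pB N φ z := by
  induction k with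
  | zero => rw [pow_zero]; rfl
  | succ k ih => rw [pow_succ', Module.End.mul_apply, pB_U, ih]

end poly

/-- The polynomials determine a homogeneous element. -/
theorem zero_of_pA (n : ℕ) (z : S2.UV.H n)
    (h : ∀ (N : ℕ) (φ : S.E N →ₗ[ZMod 2] ZMod 2), S2.pA N φ (S2.UV.inc n z) = 0) : z = 0 := by
  refine S2.fr2.ext n z fun m hm => S.fr.ext m _ fun j _ => ?_
  rw [← Module.forall_dual_apply_eq_zero_iff (ZMod 2)]
  intro φ
  have h1 := congrArg (fun p : (ZMod 2)[X] => p.coeff (n - m)) (h j φ)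
  simp only [pA_inc, finsetSum_coeff, coeff_monomial, coeff_zero] at h1
  rw [Finset.sum_eq_single m, if_pos rfl] at h1
  · exact h1
  · intro b hb hbm
    have := mem_range.mp hb
    rw [if_neg (by omega)]
  · intro hc
    exact absurd (mem_range.mpr (by omega)) hc

/-! #### The maps on the total modules -/

/-- `K → KV` -/
noncomputable def I : S2.UV.Tot →ₗ[ZMod 2] S2.VV.Tot := GUV.tmap S2.UV S2.VV S2.iV

/-- the flip -/
noncomputable def T : S2.UV.Tot →ₗ[ZMod 2] S2.UV.Tot := GUV.tmap S2.UV S2.UV S2.tau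

/-- the flip -/
noncomputable def TV : S2.VV.Tot →ₗ[ZMod 2] S2.VV.Tot := GUV.tmap S2.VV S2.VV S2.tauV

/-- the connecting map -/
noncomputable def D : S2.WW.Tot →ₗ[ZMod 2] S2.UV.Tot :=
  DirectSum.toModule (ZMod 2) ℕ _ fun n => (S2.UV.inc (n + 1)).comp (S2.del n)

theorem D_inc (n : ℕ) (w : S2.WW.H n) : S2.D (S2.WW.inc n w) = S2.UV.inc (n + 1) (S2.del n w) := by
  rw [D, DirectSum.toModule_lof]; rfl

theorem D_U (w : S2.WW.Tot) : S2.D (S2.WW.U w) = S2.UV.U (S2.D w) := by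
  have h : S2.D.comp S2.WW.U = S2.UV.U.comp S2.D := by
    refine GUV.hom_ext fun n z => ?_
    rw [LinearMap.comp_apply, LinearMap.comp_apply, GUV.U_inc, D_inc, D_inc, GUV.U_inc, S2.del_u]
  exact congrArg (fun g : S2.WW.Tot →ₗ[ZMod 2] S2.UV.Tot => g w) h

theorem D_V (w : S2.WW.Tot) : S2.D (S2.WW.V w) = S2.UV.V (S2.D w) := by
  have h : S2.D.comp S2.WW.V = S2.UV.V.comp S2.D := by
    refine GUV.hom_ext fun n z => ?_
    rw [LinearMap.comp_apply, LinearMap.comp_apply, GUV.V_inc, D_inc, D_inc, GUV.V_inc, S2.del_v]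
  exact congrArg (fun g : S2.WW.Tot →ₗ[ZMod 2] S2.UV.Tot => g w) h

theorem D_pow (k : ℕ) (w : S2.WW.Tot) :
    S2.D (((S2.WW.U * S2.WW.W) ^ k) w) = ((S2.UV.U * S2.UV.W) ^ k) (S2.D w) := by
  induction k with
  | zero => rw [pow_zero, pow_zero]; rfl
  | succ k ih =>
    rw [pow_succ', pow_succ', Module.End.mul_apply, Module.End.mul_apply, Module.End.mul_apply,
      Module.End.mul_apply, ← ih, D_U]
    congr 1
    rw [GUV.W, GUV.W, LinearMap.add_apply, LinearMap.add_apply, map_add, Module.End.mul_apply,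
      Module.End.mul_apply, Module.End.mul_apply, Module.End.mul_apply, D_V, D_V, D_V, D_U]

/-- `i : E[u,v] → H(hG hG KV)` is injective. -/
theorem iV_zero (n : ℕ) (z : S2.UV.H n) (h : S2.iV n z = 0) : z = 0 := by
  cases n with
  | zero => exact S2.inj_zero2 z h
  | succ n =>
    obtain ⟨w, rfl⟩ := S2.exact_UV n z h
    refine S2.zero_of_pA _ _ fun N φ => ?_
    have h1 : (X * (1 + X)) ^ S2.R2 * S2.pA N φ (S2.UV.inc (n + 1) (S2.del n w)) = 0 := by
      rw [← pA_UW_pow, ← D_inc, ← D_pow, S2.nil2, map_zero, map_zero]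
    have hX1 : ((1 : (ZMod 2)[X]) + X) ≠ 0 := by
      rw [add_comm]
      exact (monic_X_add_C (1 : ZMod 2)).ne_zero
    exact (mul_eq_zero.mp h1).resolve_left (pow_ne_zero _ (mul_ne_zero X_ne_zero hX1))

theorem I_zero {z : S2.UV.Tot} (h : S2.I z = 0) : z = 0 := GUV.tmap_inj _ S2.iV_zero h

theorem I_inj {z z' : S2.UV.Tot} (h : S2.I z = S2.I z') : z = z' := by
  rw [← sub_eq_zero]
  exact S2.I_zero (by rw [map_sub, h, sub_self])

theorem I_inc (n : ℕ) (z : S2.UV.H n) : S2.I (S2.UV.inc n z) = S2.VV.inc n (S2.iV n z) :=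
  GUV.tmap_inc _ _ _

theorem I_U (z : S2.UV.Tot) : S2.I (S2.UV.U z) = S2.VV.U (S2.I z) := by
  have h : S2.I.comp S2.UV.U = S2.VV.U.comp S2.I := by
    refine GUV.hom_ext fun n z => ?_
    rw [LinearMap.comp_apply, LinearMap.comp_apply, GUV.U_inc, I_inc, I_inc, GUV.U_inc, S2.iV_u]
  exact congrArg (fun g : S2.UV.Tot →ₗ[ZMod 2] S2.VV.Tot => g z) h

theorem I_V (z : S2.UV.Tot) : S2.I (S2.UV.V z) = S2.VV.V (S2.I z) := by
  have h : S2.I.comp S2.UV.V = S2.VV.V.comp S2.I := by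
    refine GUV.hom_ext fun n z => ?_
    rw [LinearMap.comp_apply, LinearMap.comp_apply, GUV.V_inc, I_inc, I_inc, GUV.V_inc, S2.iV_v]
  exact congrArg (fun g : S2.UV.Tot →ₗ[ZMod 2] S2.VV.Tot => g z) h

theorem TV_I (z : S2.UV.Tot) : S2.TV (S2.I z) = S2.I (S2.T z) := by
  have h : S2.TV.comp S2.I = S2.I.comp S2.T := by
    refine GUV.hom_ext fun n z => ?_
    rw [LinearMap.comp_apply, LinearMap.comp_apply, I_inc, TV, GUV.tmap_inc, T, GUV.tmap_inc,
      I_inc, S2.iV_tau]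
  exact congrArg (fun g : S2.UV.Tot →ₗ[ZMod 2] S2.VV.Tot => g z) h

theorem TV_U (x : S2.VV.Tot) : S2.TV (S2.VV.U x) = S2.VV.V (S2.TV x) := by
  have h : S2.TV.comp S2.VV.U = S2.VV.V.comp S2.TV := by
    refine GUV.hom_ext fun n z => ?_
    rw [LinearMap.comp_apply, LinearMap.comp_apply, GUV.U_inc, TV, GUV.tmap_inc, GUV.tmap_inc,
      GUV.V_inc, S2.tauV_u]
  exact congrArg (fun g : S2.VV.Tot →ₗ[ZMod 2] S2.VV.Tot => g x) h

theorem TV_V (x : S2.VV.Tot) : S2.TV (S2.VV.V x) = S2.VV.U (S2.TV x) := by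
  have h : S2.TV.comp S2.VV.V = S2.VV.U.comp S2.TV := by
    refine GUV.hom_ext fun n z => ?_
    rw [LinearMap.comp_apply, LinearMap.comp_apply, GUV.V_inc, TV, GUV.tmap_inc, GUV.tmap_inc,
      GUV.U_inc, S2.tauV_v]
  exact congrArg (fun g : S2.VV.Tot →ₗ[ZMod 2] S2.VV.Tot => g x) h

/-! #### The second power operation -/

/-- the second power operation with values in the total module -/
noncomputable def PU (n : ℕ) (x : S.KK.H n) : S2.VV.Tot :=
  S2.VV.inc (n + n) (S2.Pu n (n + n) rfl x)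

theorem inc_Pu (n m : ℕ) (h : m = n + n) (x : S.KK.H n) :
    S2.VV.inc m (S2.Pu n m h x) = S2.PU n x := by
  subst h; rfl

theorem PU_u (n : ℕ) (x : S.KK.H n) : S2.PU (n + 1) (S.KK.u n x) = S2.VV.W (S2.PU n x) := by
  rw [← S2.inc_Pu (n + 1) (n + n + 2) (by ring), S2.Pu_v n (n + n) rfl, GUV.W,
    LinearMap.add_apply, Module.End.mul_apply, Module.End.mul_apply, map_add, PU, GUV.V_inc,
    GUV.U_inc, GUV.V_inc, GUV.V_inc]

theorem PU_upow (n k : ℕ) (x : S.KK.H n) :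
    S2.PU (n + k) (S.KK.upow k n x) = (S2.VV.W ^ k) (S2.PU n x) := by
  induction k with
  | zero => rw [pow_zero]; rfl
  | succ k ih =>
    rw [pow_succ', Module.End.mul_apply, ← ih]
    exact S2.PU_u _ _

theorem U_PU_add (n : ℕ) (x y : S.KK.H n) :
    S2.VV.U (S2.PU n (x + y)) = S2.VV.U (S2.PU n x) + S2.VV.U (S2.PU n y) := by
  rw [PU, PU, PU, GUV.U_inc, GUV.U_inc, GUV.U_inc, S2.Pu_add, map_add]

theorem U_pow_PU_add {k : ℕ} (hk : 1 ≤ k) (n : ℕ) (x y : S.KK.H n) :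
    (S2.VV.U ^ k) (S2.PU n (x + y)) = (S2.VV.U ^ k) (S2.PU n x) + (S2.VV.U ^ k) (S2.PU n y) := by
  obtain ⟨l, rfl⟩ : ∃ l, k = l + 1 := ⟨k - 1, by omega⟩
  rw [pow_succ, Module.End.mul_apply, Module.End.mul_apply, Module.End.mul_apply, U_PU_add,
    map_add]

theorem TV_PU (q : ℕ) (x : S.E q) : S2.TV (S2.PU (dbl q) (S.Pt q x)) = S2.PU (dbl q) (S.Pt q x) := by
  rw [PU, TV, GUV.tmap_inc, S2.sym]

theorem inc_ka_upow (n k : ℕ) (x : S.KK.H n) :
    S2.VV.inc (n + k) (S2.ka (n + k) (S.KK.upow k n x)) =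
      (S2.VV.U ^ k) (S2.VV.inc n (S2.ka n x)) := by
  induction k with
  | zero => rw [pow_zero]; rfl
  | succ k ih =>
    rw [pow_succ', Module.End.mul_apply, ← ih, GUV.U_inc, ← S2.ka_u]
    rfl

/-- `w` is the image of an element with polynomials `a`, `b`. -/
def Rep (N : ℕ) (φ : S.E N →ₗ[ZMod 2] ZMod 2) (w : S2.VV.Tot) (a b : (ZMod 2)[X]) : Prop :=
  ∃ F, S2.I F = w ∧ S2.pA N φ F = a ∧ S2.pB N φ F = b

variable {S2} in
theorem Rep.add {N : ℕ} {φ : S.E N →ₗ[ZMod 2] ZMod 2} {w w' : S2.VV.Tot}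
    {a b a' b' : (ZMod 2)[X]} (h : S2.Rep N φ w a b) (h' : S2.Rep N φ w' a' b') :
    S2.Rep N φ (w + w') (a + a') (b + b') := by
  obtain ⟨F, rfl, rfl, rfl⟩ := h
  obtain ⟨F', rfl, rfl, rfl⟩ := h'
  exact ⟨F + F', by rw [map_add], by rw [map_add], by rw [map_add]⟩

variable {S2} in
theorem Rep.W {N : ℕ} {φ : S.E N →ₗ[ZMod 2] ZMod 2} {w : S2.VV.Tot}
    {a b : (ZMod 2)[X]} (h : S2.Rep N φ w a b) :
    S2.Rep N φ (S2.VV.W w) ((1 + X) * a) ((X * (1 + X)) * b) := by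
  obtain ⟨F, rfl, rfl, rfl⟩ := h
  refine ⟨S2.UV.W F, ?_, S2.pA_W _ _ _, S2.pB_W _ _ _⟩
  rw [GUV.W, GUV.W, LinearMap.add_apply, LinearMap.add_apply, Module.End.mul_apply,
    Module.End.mul_apply, Module.End.mul_apply, Module.End.mul_apply, map_add, I_V, I_V, I_V, I_U]

variable {S2} in
/-- Elements fixed by the flip. -/
theorem Rep.symm {N : ℕ} {φ : S.E N →ₗ[ZMod 2] ZMod 2} {w : S2.VV.Tot}
    {a b : (ZMod 2)[X]} (h : S2.Rep N φ w a b) (hw : S2.TV w = w) : a = b := by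
  obtain ⟨F, rfl, rfl, rfl⟩ := h
  have h1 : S2.T F = F := by
    apply S2.I_inj
    rw [← TV_I, hw]
  conv_lhs => rw [← h1]
  exact S2.pA_tau _ _ _

variable {S2} in
theorem Rep.UV_pow {N : ℕ} {φ : S.E N →ₗ[ZMod 2] ZMod 2} {w : S2.VV.Tot}
    {a b : (ZMod 2)[X]} (h : S2.Rep N φ w a b) (k l : ℕ) :
    S2.Rep N φ ((S2.VV.U ^ k) ((S2.VV.V ^ l) w)) (X ^ k * a) (X ^ l * b) := by
  obtain ⟨F, rfl, rfl, rfl⟩ := h
  refine ⟨(S2.UV.U ^ k) ((S2.UV.V ^ l) F), ?_, ?_, ?_⟩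
  · have hV : ∀ l : ℕ, S2.I ((S2.UV.V ^ l) F) = (S2.VV.V ^ l) (S2.I F) := by
      intro l
      induction l with
      | zero => rw [pow_zero, pow_zero]; rfl
      | succ l ih =>
        rw [pow_succ', pow_succ', Module.End.mul_apply, Module.End.mul_apply, I_V, ih]
    induction k with
    | zero => rw [pow_zero, pow_zero]; exact hV l
    | succ k ih =>
      rw [pow_succ', pow_succ', Module.End.mul_apply, Module.End.mul_apply, I_U, ih]
  · rw [pA_U_pow, pA_V_pow]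
  · rw [pB_U_pow, pB_V_pow]

theorem rep_infl (N : ℕ) (φ : S.E N →ₗ[ZMod 2] ZMod 2) {t : ℕ} (hR : S.R ≤ t) (hN : N ≤ t)
    (j : ℕ) (e : S.E j) : S2.Rep N φ ((S2.VV.U ^ t) (S2.PU j (S.i.f j (S2.infl j e))))
      (C (φ (S.Sq j N e)) * X ^ (2 * j + t - N)) (C (φ (S.Sq j N e))) := by
  obtain ⟨y, hy, hcf⟩ := S.exists_good_cf j e hR
  have hdj := S2.hdbl j
  have hsum : ∀ f : ℕ → ℕ, ∑ m ∈ range (dbl j + t + 1),
      monomial (f m) (φ (S.fr.cf m N (S2.fr2.cf (dbl j + t) m (S2.pi (dbl j + t) y)))) =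
      monomial (f N) (φ (S.Sq j N e)) := by
    intro f
    rw [Finset.sum_eq_single N]
    · rw [S2.cf_pi, S2.cf_infl, hcf]
    · intro m _ hm
      rw [S2.cf_pi, S2.cf_infl_ne _ _ _ (Ne.symm hm), map_zero, map_zero]
    · intro h
      exact absurd (mem_range.mpr (by omega)) h
  refine ⟨S2.UV.inc (dbl j + t) (S2.pi (dbl j + t) y), ?_, ?_, ?_⟩
  · rw [I_inc, ← S2.ka_i]
    have hy' : S.i.f (dbl j + t) y = S.KK.upow t (dbl j) (S.Pt j e) := hy
    rw [hy', inc_ka_upow, ← S2.Pu_infl j hdj e, inc_Pu]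
  · rw [pA_inc, hsum (fun m => dbl j + t - m), C_mul_X_pow_eq_monomial, hdj,
      show j + j = 2 * j by ring]
  · rw [pB_inc, hsum (fun m => m - N), Nat.sub_self, monomial_zero_left]

theorem rep_PU (N : ℕ) (φ : S.E N →ₗ[ZMod 2] ZMod 2) {t : ℕ} (hR : S.R ≤ t) (hN : N ≤ t)
    (h1 : 1 ≤ t) : ∀ (m : ℕ) (y : S.K.H m), S2.Rep N φ ((S2.VV.U ^ t) (S2.PU m (S.i.f m y)))
      (∑ j ∈ range (m + 1), C (φ (S.Sq j N (S.fr.cf m j y))) *
        ((1 + X) ^ (m - j) * X ^ (2 * j + t - N)))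
      (∑ j ∈ range (m + 1), C (φ (S.Sq j N (S.fr.cf m j y))) * (X * (1 + X)) ^ (m - j)) := by
  intro m
  induction m with
  | zero =>
    intro y
    have hy : y = S2.infl 0 (S.fr.cf 0 0 y) := by
      refine S.fr.ext' fun j => ?_
      rcases Nat.eq_zero_or_pos j with h | h
      · subst h; rw [S2.cf_infl]
      · rw [S.fr.cf_gt _ _ _ h, S.fr.cf_gt _ _ _ h]
    have h := S2.rep_infl N φ hR hN 0 (S.fr.cf 0 0 y)
    rw [← hy] at h
    simpa using h
  | succ m ih =>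
    intro y
    obtain ⟨y', hy'⟩ := S.fr.surj m (fun j => S.fr.cf (m + 1) j y)
    have hy : y = S2.infl (m + 1) (S.fr.cf (m + 1) (m + 1) y) + S.K.u m y' := by
      refine S.fr.ext' fun j => ?_
      rw [map_add, S.fr.cf_u]
      rcases lt_trichotomy j (m + 1) with h | h | h
      · rw [S2.cf_infl_ne _ _ _ (by omega), zero_add, hy' j (by omega)]
      · subst h
        rw [S2.cf_infl, S.fr.cf_gt m (m + 1) y' (by omega), add_zero]
      · rw [S2.cf_infl_ne _ _ _ (by omega), S.fr.cf_gt (m + 1) j y h,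
          S.fr.cf_gt m j y' (by omega), add_zero]
    have e1 : (S2.VV.U ^ t) (S2.PU (m + 1) (S.i.f (m + 1) y)) =
        S2.VV.W ((S2.VV.U ^ t) (S2.PU m (S.i.f m y'))) + (S2.VV.U ^ t) (S2.PU (m + 1)
          (S.i.f (m + 1) (S2.infl (m + 1) (S.fr.cf (m + 1) (m + 1) y)))) := by
      conv_lhs => rw [hy, map_add, S.i.comm, S2.U_pow_PU_add h1, PU_u, add_comm]
      congr 1
      have hc : Commute (S2.VV.U ^ t) S2.VV.W := by
        unfold GUV.W
        have h2 := S2.VV.UV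
        exact ((h2.mul_right h2).add_right (h2.mul_right (Commute.refl _))).pow_left t
      exact congrArg (fun g : Module.End (ZMod 2) S2.VV.Tot => g (S2.PU m (S.i.f m y'))) hc.eq
    rw [e1]
    have hr := (ih y').W.add (S2.rep_infl N φ hR hN (m + 1) (S.fr.cf (m + 1) (m + 1) y))
    have ea : ∑ j ∈ range (m + 1 + 1), C (φ (S.Sq j N (S.fr.cf (m + 1) j y))) *
        ((1 + X) ^ (m + 1 - j) * X ^ (2 * j + t - N)) = (1 + X) *
        (∑ j ∈ range (m + 1), C (φ (S.Sq j N (S.fr.cf m j y'))) *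
          ((1 + X) ^ (m - j) * X ^ (2 * j + t - N))) +
        C (φ (S.Sq (m + 1) N (S.fr.cf (m + 1) (m + 1) y))) * X ^ (2 * (m + 1) + t - N) := by
      rw [Finset.sum_range_succ, Nat.sub_self, pow_zero, one_mul, Finset.mul_sum]
      refine congrArg₂ (· + ·) (Finset.sum_congr rfl fun j hj => ?_) rfl
      have := mem_range.mp hj
      rw [hy' j (by omega), show m + 1 - j = (m - j) + 1 by omega, pow_succ]
      ring
    have eb : ∑ j ∈ range (m + 1 + 1), C (φ (S.Sq j N (S.fr.cf (m + 1) j y))) *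
        (X * (1 + X)) ^ (m + 1 - j) = (X * (1 + X)) *
        (∑ j ∈ range (m + 1), C (φ (S.Sq j N (S.fr.cf m j y'))) * (X * (1 + X)) ^ (m - j)) +
        C (φ (S.Sq (m + 1) N (S.fr.cf (m + 1) (m + 1) y))) := by
      rw [Finset.sum_range_succ, Nat.sub_self, pow_zero, mul_one, Finset.mul_sum]
      refine congrArg₂ (· + ·) (Finset.sum_congr rfl fun j hj => ?_) rfl
      have := mem_range.mp hj
      rw [hy' j (by omega), show m + 1 - j = (m - j) + 1 by omega, pow_succ]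
      ring
    rw [ea, eb]
    exact hr

theorem TV_UV (x : S2.VV.Tot) :
    S2.TV ((S2.VV.U * S2.VV.V) x) = (S2.VV.U * S2.VV.V) (S2.TV x) := by
  rw [S2.VV.UV.eq, Module.End.mul_apply, TV_V, TV_U, ← S2.VV.UV.eq, Module.End.mul_apply]

theorem TV_UW (x : S2.VV.Tot) :
    S2.TV ((S2.VV.U * S2.VV.W) x) = (S2.VV.U * S2.VV.W) (S2.TV x) := by
  have e : S2.VV.U * S2.VV.W = (S2.VV.U * S2.VV.V) * S2.VV.U + (S2.VV.U * S2.VV.V) * S2.VV.V := by
    rw [GUV.W, mul_add, mul_assoc, mul_assoc, add_comm]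
  have e1 : ∀ z, (S2.VV.U * S2.VV.W) z =
      (S2.VV.U * S2.VV.V) (S2.VV.U z) + (S2.VV.U * S2.VV.V) (S2.VV.V z) := fun z => by
    rw [e]; rfl
  rw [e1, e1, map_add, TV_UV, TV_UV, TV_U, TV_V, add_comm]

theorem TV_pow_pow (k l : ℕ) {x : S2.VV.Tot} (hx : S2.TV x = x) :
    S2.TV (((S2.VV.U * S2.VV.V) ^ k) (((S2.VV.U * S2.VV.W) ^ l) x)) =
      ((S2.VV.U * S2.VV.V) ^ k) (((S2.VV.U * S2.VV.W) ^ l) x) := by
  have h1 : ∀ l : ℕ, S2.TV (((S2.VV.U * S2.VV.W) ^ l) x) = ((S2.VV.U * S2.VV.W) ^ l) x := by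
    intro l
    induction l with
    | zero => rw [pow_zero]; exact hx
    | succ l ih =>
      rw [pow_succ']
      exact (S2.TV_UW _).trans (congrArg _ ih)
  induction k with
  | zero => rw [pow_zero]; exact h1 l
  | succ k ih =>
    rw [pow_succ']
    exact (S2.TV_UV _).trans (congrArg _ ih)

theorem commUW : Commute S2.VV.U S2.VV.W := by
  have h2 := S2.VV.UV
  exact (h2.mul_right h2).add_right (h2.mul_right (Commute.refl _))

include S2 in
/-- The symmetry of the iterated total square. -/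
theorem sq_sq_symm (N : ℕ) (φ : S.E N →ₗ[ZMod 2] ZMod 2) (q : ℕ) (x : S.E q) {t : ℕ}
    (hR : S.R ≤ t) (hN : N ≤ t) (h1 : 1 ≤ t) :
    ∑ j ∈ range (2 * q + t + 1), C (φ (S.Sq j N (S.Sq q j x))) *
        ((1 + X) ^ (2 * q + t - j) * X ^ (2 * j + t)) =
      ∑ j ∈ range (2 * q + t + 1), C (φ (S.Sq j N (S.Sq q j x))) *
        (((1 : (ZMod 2)[X]) + X) ^ (2 * q + t - j) * X ^ (2 * q + t - j + N)) := by
  obtain ⟨y, hy, hcf⟩ := S.exists_good_cf q x hR
  have hdq : dbl q + t = 2 * q + t := by rw [S2.hdbl]; ring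
  have hy' : S.i.f (dbl q + t) y = S.KK.upow t (dbl q) (S.Pt q x) := hy
  have h2 := S2.rep_PU N φ hR hN h1 (dbl q + t) y
  rw [hy', PU_upow] at h2
  simp only [hcf] at h2
  rw [hdq] at h2
  have h3 := h2.UV_pow t t
  have hop : (S2.VV.U ^ t) ((S2.VV.V ^ t) ((S2.VV.U ^ t) ((S2.VV.W ^ t)
      (S2.PU (dbl q) (S.Pt q x))))) = ((S2.VV.U * S2.VV.V) ^ t) (((S2.VV.U * S2.VV.W) ^ t)
      (S2.PU (dbl q) (S.Pt q x))) := by
    rw [S2.VV.UV.mul_pow, S2.commUW.mul_pow]
    rfl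
  rw [hop] at h3
  have h4 := h3.symm (S2.TV_pow_pow t t (S2.TV_PU q x))
  have h5 := mul_left_cancel₀ (pow_ne_zero t (X_ne_zero (R := ZMod 2))) h4
  have h6 := congrArg (fun p : (ZMod 2)[X] => X ^ N * p) h5
  simp only [Finset.mul_sum] at h6
  calc _ = _ := Finset.sum_congr rfl fun j _ => ?_
    _ = _ := h6
    _ = _ := Finset.sum_congr rfl fun j _ => ?_
  · rw [show (X : (ZMod 2)[X]) ^ (2 * j + t) = X ^ (N + (2 * j + t - N)) by congr 1; omega,
      pow_add X N]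
    ring
  · rw [mul_pow, pow_add X _ N]
    ring

theorem far_h2 (N : ℕ) (φ : S.E N →ₗ[ZMod 2] ZMod 2) (hd : ∀ q, dbl q = q + q) (q : ℕ)
    (x : S.E q) {t : ℕ} (hR : S.R ≤ t) (j : ℕ) (hj : 2 * q + t < j) :
    φ (S.Sq j N (S.Sq q j x)) = 0 := by
  have h := hd q
  rw [S.Sq_gt (q := q) (j := j) (by omega) x, map_zero, map_zero]

include S2 in
/-- The second squares of negative degree vanish. -/
theorem sq_sq_neg (q : ℕ) (x : S.E q) (hneg : ∀ j, j < q → S.Sq q j x = 0) (N j : ℕ)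
    (hj : N < j) : S.Sq j N (S.Sq q j x) = 0 := by
  rw [← Module.forall_dual_apply_eq_zero_iff (ZMod 2)]
  intro φ
  exact far_zero (q := q) (N := N) (T := S.R + N + 1) (J := 2 * q + (S.R + N + 1)) rfl
    (g := fun j => φ (S.Sq j N (S.Sq q j x)))
    (fun j hj => by rw [hneg j hj, map_zero, map_zero])
    (fun j hj => far_h2 N φ S2.hdbl q x (by omega) j hj)
    (S2.sq_sq_symm N φ q x (by omega) (by omega) (by omega)) j hj

include S2 in
/-- **Bullett-Macdonald relations**, vector form. -/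
theorem bm_vec (q M k : ℕ) (x : S.E q) (hneg : ∀ j, j < q → S.Sq q j x = 0) :
    ∑ a ∈ range (M + 1), ((BM.wt (ZMod 2) (M - a) a).coeff k) •
      S.Sq (q + a) (q + M) (S.Sq q (q + a) x) = 0 := by
  rw [← Module.forall_dual_apply_eq_zero_iff (ZMod 2)]
  intro φ
  have h := far_BM (q := q) (M := M) (T := S.R + (q + M) + 1)
    (J := 2 * q + (S.R + (q + M) + 1)) rfl (by omega)
    (g := fun j => φ (S.Sq j (q + M) (S.Sq q j x)))
    (fun j hj => by rw [hneg j hj, map_zero, map_zero])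
    (fun j hj => far_h2 (q + M) φ S2.hdbl q x (by omega) j hj)
    (S2.sq_sq_symm (q + M) φ q x (by omega) (by omega) (by omega))
  have h2 := congrArg (fun p : (ZMod 2)[X] => p.coeff k) h
  simp only [finsetSum_coeff, coeff_zero, coeff_C_mul] at h2
  rw [map_sum, ← h2]
  refine Finset.sum_congr rfl fun a _ => ?_
  rw [map_smul, smul_eq_mul, mul_comm]

end Setup2

end Vale.Agent.P263.E
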