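import Vale.Agent.P263.E.BMHom
import Vale.Agent.P263.E.BMAlg
import Vale.Agent.P263.S.PowU
import Vale.Agent.P263.S.UComm
import Vale.Agent.P263.S.Inner
import Vale.Agent.P263.S.Flip

/-!
# P263, block E5 (helper561): the Bullett-Macdonald relations on `H(K)`
-/

noncomputable section

namespace Vale.Agent.P263.E

open Vale.Agent.P263.S

namespace BMIn

variable (X : BMIn)

/-- the outer variable on `H(hG hG K)` -/
abbrev ou (n : ℕ) : X.KUV.H n →ₗ[ZMod 2] X.KUV.H (n + 1) :=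
  uH idC (Act.triv C2 (hG (Act.triv C2 X.K))) n

/-- the inner variable on `H(hG hG K)` -/
abbrev ov (n : ℕ) : X.KUV.H n →ₗ[ZMod 2] X.KUV.H (n + 1) :=
  vinH idC (Act.triv C2 X.K) (Act.triv C2 X.K) (Act.Comm.triv_left (Act.triv C2 X.K)) n

/-- the outer variable on `H(hG_V KV)` -/
abbrev Vu (n : ℕ) : (hG X.cV).H n →ₗ[ZMod 2] (hG X.cV).H (n + 1) :=
  uH (MonoidHom.fst C2 C2) X.cV n

/-- the inner variable on `H(hG_V KV)` -/
abbrev Vv (n : ℕ) : (hG X.cV).H n →ₗ[ZMod 2] (hG X.cV).H (n + 1) :=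
  uH (MonoidHom.snd C2 C2) X.cV n

theorem ou_ov (n : ℕ) (x : X.KUV.H n) : X.ou (n + 1) (X.ov n x) = X.ov (n + 1) (X.ou n x) :=
  (vinH_uH idC (Act.triv C2 X.K) (Act.triv C2 X.K)
    (Act.Comm.triv_left (Act.triv C2 X.K)) idC n x).symm

theorem Vu_Vv (n : ℕ) (x : (hG X.cV).H n) : X.Vu (n + 1) (X.Vv n x) = X.Vv (n + 1) (X.Vu n x) :=
  uH_comm _ _ X.cV n x

theorem iter_u (n : ℕ) (x : (hG X.cuH).H n) :
    (hG.iter X.cu X.cv X.cuv).mapH (n + 1) (uH idC X.cuH n x) =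
      X.Vu n ((hG.iter X.cu X.cv X.cuv).mapH n x) := iter_uH X.cu X.cv X.cuv idC n x

theorem iter_v (n : ℕ) (x : (hG X.cuH).H n) :
    (hG.iter X.cu X.cv X.cuv).mapH (n + 1) (vinH idC X.cu X.cv X.cuv n x) =
      X.Vv n ((hG.iter X.cu X.cv X.cuv).mapH n x) := iter_flip_uH X.cu X.cv X.cuv idC n x

theorem iV2_u (n : ℕ) (z : X.KUV.H n) :
    X.iV2.mapH (n + 1) (X.ou n z) = uH idC X.cuH n (X.iV2.mapH n z) :=
  uH_mapHom idC _ _ _ _ z

theorem iV2_v (n : ℕ) (z : X.KUV.H n) :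
    X.iV2.mapH (n + 1) (X.ov n z) = vinH idC X.cu X.cv X.cuv n (X.iV2.mapH n z) :=
  vinH_mapHom idC (Act.triv C2 X.K) (Act.triv C2 X.K)
    (Act.Comm.triv_left (Act.triv C2 X.K)) X.cu X.cv X.cuv X.iV1
    (fun p x => uc_mapHom idC _ _ _ _ x) (fun p g x => hG.ext fun t => (X.iu p g _).symm) z

theorem iV_u (n : ℕ) (z : X.KUV.H n) :
    X.iVh.mapH (n + 1) (X.ou n z) = X.Vu n (X.iVh.mapH n z) := by
  rw [iVh, Hom.mapH_comp, Hom.mapH_comp, ← iter_u, iV2_u]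

theorem iV_v (n : ℕ) (z : X.KUV.H n) :
    X.iVh.mapH (n + 1) (X.ov n z) = X.Vv n (X.iVh.mapH n z) := by
  rw [iVh, Hom.mapH_comp, Hom.mapH_comp, ← iter_v, iV2_v]

theorem tauV_u (n : ℕ) (x : (hG X.cV).H n) :
    X.tauVh.mapH (n + 1) (X.Vu n x) = X.Vv n (X.tauVh.mapH n x) :=
  uH_pull (MonoidHom.fst C2 C2) X.cV X.cV swV X.σ X.σ_cV x

theorem tauV_v (n : ℕ) (x : (hG X.cV).H n) :
    X.tauVh.mapH (n + 1) (X.Vv n x) = X.Vu n (X.tauVh.mapH n x) :=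
  uH_pull (MonoidHom.snd C2 C2) X.cV X.cV swV X.σ X.σ_cV x

theorem ka_u (n : ℕ) (x : (hG X.c).H n) :
    X.kah.mapH (n + 1) (uH idC X.c n x) = X.Vu n (X.kah.mapH n x) := by
  have h : X.ka2.mapH (n + 1) (uH idC X.c n x) = uH idC X.cuH n (X.ka2.mapH n x) :=
    uH_mapHom idC _ _ _ _ x
  rw [kah, Hom.mapH_comp, Hom.mapH_comp, ← iter_u, h]

theorem Pu_add (n m : ℕ) (h : m = n + n) (x y : (hG X.c).H n) :
    X.Vu m (X.Pu n m h (x + y)) = X.Vu m (X.Pu n m h x) + X.Vu m (X.Pu n m h y) := by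
  subst h
  have h2 : uH idC X.cuH (n + n) (X.PP n (x + y)) =
      uH idC X.cuH (n + n) (X.PP n x) + uH idC X.cuH (n + n) (X.PP n y) :=
    uH_P_add X.νh X.cuH X.sym_νh n x y
  rw [Pu_rfl, Pu_rfl, Pu_rfl, ← iter_u, ← iter_u, ← iter_u, ← map_add, h2]

theorem Pu_v (n m : ℕ) (h : m = n + n) (h' : m + 2 = n + 1 + (n + 1)) (x : (hG X.c).H n) :
    X.Pu (n + 1) (m + 2) h' (uH idC X.c n x) =
      X.Vv (m + 1) (X.Vv m (X.Pu n m h x)) + X.Vv (m + 1) (X.Vu m (X.Pu n m h x)) := by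
  subst h
  have h1 : X.PP (n + 1) (uH idC X.c n x) = castH (hG X.cuH) h'
      (vinH idC X.cu X.cv X.cuv (n + n + 1) (vinH idC X.cu X.cv X.cuv (n + n) (X.PP n x)) +
        uH idC X.cuH (n + n + 1) (vinH idC X.cu X.cv X.cuv (n + n) (X.PP n x))) :=
    P_uH X.ν X.c X.cv X.cu X.cuv X.hν X.sν h' x
  have h2 : X.Pu (n + 1) (n + n + 2) h' (uH idC X.c n x) = castH (hG X.cV) h'.symm
    ((hG.iter X.cu X.cv X.cuv).mapH (n + 1 + (n + 1)) (X.PP (n + 1) (uH idC X.c n x))) := rfl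
  rw [h2, h1, ← castH_nat, castH_castH, castH_rfl, map_add, iter_v, iter_v, iter_u, iter_v,
    Vu_Vv, Pu_rfl]

/-! ### The connecting map -/

/-- `hG hG K → hG_V K` -/
abbrev itK : Hom X.KUV
    (hG ((Act.triv C2 X.K).prod (Act.triv C2 X.K) (Act.Comm.triv_left (Act.triv C2 X.K)))) :=
  hG.iter (Act.triv C2 X.K) (Act.triv C2 X.K) (Act.Comm.triv_left (Act.triv C2 X.K))

/-- `hG_V K → hG hG K` -/
abbrev unK : Hom
    (hG ((Act.triv C2 X.K).prod (Act.triv C2 X.K) (Act.Comm.triv_left (Act.triv C2 X.K))))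
    X.KUV :=
  hG.unIter (Act.triv C2 X.K) (Act.triv C2 X.K) (Act.Comm.triv_left (Act.triv C2 X.K))

theorem i_V (p : ℕ) (g : C2 × C2) (x : X.K.obj p) :
    X.SV.i.app p (((Act.triv C2 X.K).prod (Act.triv C2 X.K)
      (Act.Comm.triv_left (Act.triv C2 X.K))).act p g x) = X.cV.act p g (X.SV.i.app p x) := by
  show X.SV.i.app p x = X.cu.act p g.1 (X.cv.act p g.2 (X.SV.i.app p x))
  rw [X.iv, X.iu]

/-- the exact sequence of homotopy fixed points for `V` -/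
abbrev sesV : SES (hG ((Act.triv C2 X.K).prod (Act.triv C2 X.K)
    (Act.Comm.triv_left (Act.triv C2 X.K)))) (hG X.cV) (hG X.wV) :=
  hG.ses X.SV _ X.cV X.wV X.i_V X.hpV

theorem iVh_eq : X.iVh = X.sesV.i.comp X.itK := rfl

/-- the connecting map -/
def delV (n : ℕ) : (hG X.wV).H n →ₗ[ZMod 2] X.KUV.H (n + 1) :=
  (X.unK.mapH (n + 1)).comp (X.sesV.conn n)

theorem itK_unK (n : ℕ) (z : (hG ((Act.triv C2 X.K).prod (Act.triv C2 X.K)
    (Act.Comm.triv_left (Act.triv C2 X.K)))).H n) : X.itK.mapH n (X.unK.mapH n z) = z := by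
  rw [← Hom.mapH_comp]
  have h : X.itK.comp X.unK = Hom.id _ := rfl
  rw [h, Hom.mapH_id]

theorem unK_itK (n : ℕ) (z : X.KUV.H n) : X.unK.mapH n (X.itK.mapH n z) = z := by
  rw [← Hom.mapH_comp]
  have h : X.unK.comp X.itK = Hom.id _ := rfl
  rw [h, Hom.mapH_id]

theorem itK_inj (n : ℕ) {z z' : X.KUV.H n} (h : X.itK.mapH n z = X.itK.mapH n z') : z = z' := by
  rw [← X.unK_itK n z, h, X.unK_itK]

theorem itK_delV (n : ℕ) (w : (hG X.wV).H n) :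
    X.itK.mapH (n + 1) (X.delV n w) = X.sesV.conn n w := X.itK_unK (n + 1) _

theorem exact_V (n : ℕ) (z : X.KUV.H (n + 1)) (h : X.iVh.mapH (n + 1) z = 0) :
    ∃ w, X.delV n w = z := by
  rw [iVh_eq, Hom.mapH_comp] at h
  obtain ⟨w, hw⟩ := (X.sesV.exact_A n _).1 h
  exact ⟨w, X.itK_inj (n + 1) ((X.itK_delV n w).trans hw)⟩

theorem inj_zero_V (z : X.KUV.H 0) (h : X.iVh.mapH 0 z = 0) : z = 0 := by
  rw [iVh_eq, Hom.mapH_comp] at h
  apply X.itK_inj 0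
  rw [map_zero]
  exact X.sesV.inj_zero _ h

theorem delV_u (n : ℕ) (w : (hG X.wV).H n) :
    X.delV (n + 1) (uH (MonoidHom.fst C2 C2) X.wV n w) = X.ou (n + 1) (X.delV n w) := by
  apply X.itK_inj (n + 2)
  have h1 : X.itK.mapH (n + 1 + 1) (X.ou (n + 1) (X.delV n w)) =
      uH (MonoidHom.fst C2 C2) _ (n + 1) (X.itK.mapH (n + 1) (X.delV n w)) :=
    iter_uH (Act.triv C2 X.K) (Act.triv C2 X.K) (Act.Comm.triv_left (Act.triv C2 X.K)) idC
      (n + 1) (X.delV n w)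
  rw [itK_delV, uH_conn, h1, itK_delV]

theorem delV_v (n : ℕ) (w : (hG X.wV).H n) :
    X.delV (n + 1) (uH (MonoidHom.snd C2 C2) X.wV n w) = X.ov (n + 1) (X.delV n w) := by
  apply X.itK_inj (n + 2)
  have h1 : X.itK.mapH (n + 1 + 1) (X.ov (n + 1) (X.delV n w)) =
      uH (MonoidHom.snd C2 C2) _ (n + 1) (X.itK.mapH (n + 1) (X.delV n w)) :=
    iter_flip_uH (Act.triv C2 X.K) (Act.triv C2 X.K) (Act.Comm.triv_left (Act.triv C2 X.K)) idC
      (n + 1) (X.delV n w)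
  rw [itK_delV, uH_conn, h1, itK_delV]

theorem tauV_iVH (n : ℕ) (z : X.KUV.H n) :
    X.tauVh.mapH n (X.iVh.mapH n z) = X.iVh.mapH n (X.tauh.mapH n z) := by
  rw [← Hom.mapH_comp, ← Hom.mapH_comp, X.tauV_iV]

theorem ka_iH (n : ℕ) (y : (hG (Act.triv C2 X.K)).H n) :
    X.kah.mapH n ((hG.mapHom (Act.triv C2 X.K) X.c X.S.i X.hi).mapH n y) =
      X.iVh.mapH n (X.pih.mapH n y) := by
  rw [← Hom.mapH_comp, ← Hom.mapH_comp, X.ka_i]

/-! ### The instance -/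

/-- `H(hG hG K) = E[u, v]` -/
def UV : GUV.{0} where
  H n := X.KUV.H n
  u n := X.ou n
  v n := X.ov n
  comm n x := X.ou_ov n x

/-- `H(hG_V KV)` -/
def VV : GUV.{0} where
  H n := (hG X.cV).H n
  u n := X.Vu n
  v n := X.Vv n
  comm n x := X.Vu_Vv n x

/-- `H(hG_V WV)` -/
def WW : GUV.{0} where
  H n := (hG X.wV).H n
  u n := uH (MonoidHom.fst C2 C2) X.wV n
  v n := uH (MonoidHom.snd C2 C2) X.wV n
  comm n x := uH_comm _ _ X.wV n x

/-- The nilpotency hypothesis. -/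
def NilV (R : ℕ) : Prop := ∀ n (x : (hG X.wV).H n),
  (guHG (MonoidHom.fst C2 C2) X.wV).upow R (n + R + R)
    ((guHG (MonoidHom.snd C2 C2) X.wV).upow R (n + R)
      ((guHG (MonoidHom.fst C2 C2 * MonoidHom.snd C2 C2) X.wV).upow R n x)) = 0

theorem upow_eq (R n : ℕ) (x : (hG X.wV).H n) :
    X.WW.upow R n x = (guHG (MonoidHom.fst C2 C2) X.wV).upow R n x := by
  induction R with
  | zero => rfl
  | succ R ih =>
    exact congrArg (uH (MonoidHom.fst C2 C2) X.wV (n + R)) ih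

theorem vpow_eq (R n : ℕ) (x : (hG X.wV).H n) :
    X.WW.vpow R n x = (guHG (MonoidHom.snd C2 C2) X.wV).upow R n x := by
  induction R with
  | zero => rfl
  | succ R ih =>
    exact congrArg (uH (MonoidHom.snd C2 C2) X.wV (n + R)) ih

theorem wpow_eq (R n : ℕ) (x : (hG X.wV).H n) :
    X.WW.wpow R n x =
      (guHG (MonoidHom.fst C2 C2 * MonoidHom.snd C2 C2) X.wV).upow R n x := by
  induction R with
  | zero => rfl
  | succ R ih =>
    refine Eq.trans ?_ (congrArg (uH (MonoidHom.fst C2 C2 * MonoidHom.snd C2 C2) X.wV (n + R)) ih)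
    exact (uH_mul (MonoidHom.fst C2 C2) (MonoidHom.snd C2 C2) X.wV (n + R) _).symm

theorem nil_WW {R : ℕ} (h : X.NilV R) (w : X.WW.Tot) : ((X.WW.U * X.WW.W) ^ R) w = 0 := by
  refine GUV.nil_of X.WW R (fun n x => ?_) w
  have h1 := X.wpow_eq R n x
  have h2 := (congrArg (X.WW.vpow R (n + R)) h1).trans (X.vpow_eq R (n + R) _)
  have h3 := (congrArg (X.WW.upow R (n + R + R)) h2).trans (X.upow_eq R (n + R + R) _)
  exact h3.trans (h n x)

/-- **The second level over the squares of `H(K)`.** -/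
def setup2 (R : ℕ) (h : X.NilV R) : Setup2 X.toPowIn.st where
  hdbl _ := rfl
  UV := X.UV
  VV := X.VV
  WW := X.WW
  fr2 := free2 X.K
  cf_v n m z := cf2_v X.K n m z
  cf_v0 n z := cf2_v_zero X.K n z
  infl j := (hG.pstar C2 X.K).mapH j
  cf_infl j x := cf_pstar_self X.K j x
  cf_infl_ne n j x hn := cf_pstar_ne X.K hn.symm x
  tau n := X.tauh.mapH n
  cf_tau n m m' j z _ _ hm := cf_cf2_fl X.K n m m' j hm z
  tauV n := X.tauVh.mapH n
  tauV_u n x := X.tauV_u n x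
  tauV_v n x := X.tauV_v n x
  iV n := X.iVh.mapH n
  iV_u n z := X.iV_u n z
  iV_v n z := X.iV_v n z
  iV_tau n z := X.tauV_iVH n z
  del n := X.delV n
  del_u n w := X.delV_u n w
  del_v n w := X.delV_v n w
  exact_UV n z hz := X.exact_V n z hz
  inj_zero2 z hz := X.inj_zero_V z hz
  R2 := R
  nil2 := X.nil_WW h
  pi n := X.pih.mapH n
  cf_pi n m y := cf_nat (hG.pstar C2 X.K) n m y
  ka n := X.kah.mapH n
  ka_u n x := X.ka_u n x
  ka_i n y := X.ka_iH n y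
  Pu n m h x := X.Pu n m h x
  Pu_add n m h x y := X.Pu_add n m h x y
  Pu_v n m h h' x := X.Pu_v n m h h' x
  Pu_infl j h e := X.Pu_infl j h e
  sym q m h x := X.Pu_sym q m h x

/-- **The Bullett-Macdonald relations on `H(K)`.** -/
theorem bm (R : ℕ) (h : X.NilV R) (q M k : ℕ) (x : X.K.H q)
    (hneg : ∀ j, j < q → X.toPowIn.st.Sq q j x = 0) :
    ∑ a ∈ Finset.range (M + 1), ((EX.BM.wt (ZMod 2) (M - a) a).coeff k) •
      X.toPowIn.st.Sq (q + a) (q + M) (X.toPowIn.st.Sq q (q + a) x) = 0 :=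
  (X.setup2 R h).bm_vec q M k x hneg

end BMIn

end Vale.Agent.P263.E
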