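import Vale.Agent.P263.S.Defs
import Vale.Agent.P263.E.Simp
import Vale.Agent.P263.S.LES

/-!
# P263, block E6: the free action lemma (helper14)

`a : Act G (F R X)` an action of `G` on the functions on `X`, coming from a free action on `X` with a
labelling `c : X_0 → G` of the vertices, `c (g x) = g c(x)`.  Then the inclusion
`iota : (F X)^G → hG (F X)` of the invariant functions (constant in the `G`-variables) is bijective in
cohomology.  The inverse is `kap f w = f (c(w_0), …, c(w_p)) w`; `kap ∘ iota = id` on the nose and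
`iota ∘ kap` is homotopic to the identity by one prism.
-/

noncomputable section

namespace Vale.Agent.P263.S

variable {R : Type} [CommRing R] {G : Type} [Group G] {B : CosMod R}

/-- the invariant elements -/
def Act.invSub (a : Act G B) (p : ℕ) : Submodule R (B.obj p) where
  carrier := {x | ∀ g : G, a.act p g x = x}
  zero_mem' := fun g => map_zero _
  add_mem' := fun {x y} hx hy g => by rw [map_add, hx g, hy g]
  smul_mem' := fun r x hx g => by rw [map_smul, hx g]

/-- the cosimplicial module of the invariant elements -/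
def Act.inv (a : Act G B) : CosMod R :=
  sub B a.invSub fun φ x hx g => by rw [a.nat, hx g]

end Vale.Agent.P263.S

namespace Vale.Agent.P263.E

open Vale.Agent.P263.S

/-- the vertex `i` of `[p]` -/
def vx (p : ℕ) (i : Fin (p + 1)) : Op 0 p := ⟨fun _ => i, fun _ _ _ => le_rfl⟩

theorem comp_vx {p q : ℕ} (θ : Op p q) (i : Fin (p + 1)) : θ.comp (vx p i) = vx q (θ i) := rfl

variable {R : Type} [CommRing R] {G : Type} [Group G] {X : SS}

/-- A `G`-labelled action on `X`. -/
structure Lab (G : Type) [Group G] (X : SS) where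
  /-- the action -/
  t : G → SS.Map X X
  t_inv : ∀ (g : G) {p : ℕ} (x : X.obj p), (t g).app ((t g⁻¹).app x) = x
  /-- the labelling of the vertices -/
  c : X.obj 0 → G
  c_t : ∀ g x, c ((t g).app x) = g * c x

namespace Lab

variable (D : Lab G X)

/-- the labels of the vertices of a simplex -/
def lab {p : ℕ} (x : X.obj p) : Fin (p + 1) → G := fun i => D.c (X.map (vx p i) x)

theorem lab_map {p q : ℕ} (θ : Op p q) (x : X.obj q) : D.lab (X.map θ x) = D.lab x ∘ θ := by
  funext i
  show D.c (X.map (vx p i) (X.map θ x)) = D.c (X.map (vx q (θ i)) x)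
  rw [← X.map_comp, comp_vx]

theorem lab_t {p : ℕ} (g : G) (x : X.obj p) : D.lab ((D.t g).app x) = fun i => g * D.lab x i := by
  funext i
  show D.c (X.map (vx p i) ((D.t g).app x)) = g * D.c (X.map (vx p i) x)
  rw [← (D.t g).nat, D.c_t]

/-- the action on functions is the one given by the action on `X` -/
def Acts (a : Act G (SS.F R X)) : Prop :=
  ∀ p (g : G) (φ : (SS.F R X).obj p) (x : X.obj p), a.act p g φ ((D.t g).app x) = φ x

variable {D}

variable {a : Act G (SS.F R X)} (ha : D.Acts a)

/-- the inclusion of the invariants -/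
def iota (a : Act G (SS.F R X)) : Hom a.inv (hG a) where
  app p :=
    { toFun := fun φ => ⟨fun _ => φ.1, fun g _ => (φ.2 g).symm⟩
      map_add' := fun _ _ => rfl
      map_smul' := fun _ _ => rfl }
  nat _ _ := rfl

include ha in
/-- the evaluation at the labels -/
def kap : Hom (hG a) a.inv where
  app p :=
    { toFun := fun f => ⟨fun x => f.1 (D.lab x) x, fun g => by
        funext x
        obtain ⟨y, rfl⟩ : ∃ y, (D.t g).app y = x := ⟨_, D.t_inv g x⟩
        refine (ha p g (fun x => f.1 (D.lab x) x) y).trans ?_
        have h1 := f.2 g (D.lab y)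
        have h2 := ha p g (f.1 (D.lab y)) y
        rw [← h1, ← D.lab_t] at h2
        exact h2.symm⟩
      map_add' := fun _ _ => rfl
      map_smul' := fun _ _ => rfl }
  nat θ f := by
    apply Subtype.ext
    funext x
    show f.1 (D.lab x ∘ θ) (X.map θ x) = f.1 (D.lab (X.map θ x)) (X.map θ x)
    rw [D.lab_map]

theorem kap_iota {p : ℕ} (φ : a.inv.obj p) : (kap ha).app p ((iota a).app p φ) = φ := rfl

/-- the interpolation -/
def mix {p : ℕ} (θ : Op p 1) (s u : Fin (p + 1) → G) : Fin (p + 1) → G :=
  fun i => if θ i = 0 then s i else u i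

theorem mix_c0 {p : ℕ} (s u : Fin (p + 1) → G) : mix (c0 p) s u = s := by
  funext i
  unfold mix
  rw [c0_val, if_pos rfl]

theorem mix_c1 {p : ℕ} (s u : Fin (p + 1) → G) : mix (c1 p) s u = u := by
  funext i
  unfold mix
  rw [c1_val, if_neg (by decide)]

theorem mix_mul {p : ℕ} (θ : Op p 1) (g : G) (s u : Fin (p + 1) → G) :
    mix θ (fun i => g * s i) (fun i => g * u i) = fun i => g * mix θ s u i := by
  funext i
  unfold mix
  split_ifs <;> rfl

include ha in
/-- the prism between `iota ∘ kap` and the identity -/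
def prism : Prism (hG a) (hG a) where
  h p θ :=
    { toFun := fun f => ⟨fun s x => f.1 (mix θ s (D.lab x)) x, fun g s => by
        funext x
        obtain ⟨y, rfl⟩ : ∃ y, (D.t g).app y = x := ⟨_, D.t_inv g x⟩
        refine Eq.trans ?_ (ha p g (fun x => f.1 (mix θ s (D.lab x)) x) y).symm
        have h1 := f.2 g (mix θ s (D.lab y))
        have h2 := ha p g (f.1 (mix θ s (D.lab y))) y
        rw [← h1, ← mix_mul, ← D.lab_t] at h2
        exact h2⟩
      map_add' := fun _ _ => rfl
      map_smul' := fun _ _ => rfl }
  nat {p q} α θ f := by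
    apply Subtype.ext
    funext s x
    show f.1 (mix θ s (D.lab x) ∘ α) (X.map α x) =
      f.1 (mix (θ.comp α) (s ∘ α) (D.lab (X.map α x))) (X.map α x)
    rw [D.lab_map]
    rfl

theorem mapH_iota_kap (p : ℕ) (x : (hG a).H p) :
    (iota a).mapH p ((kap ha).mapH p x) = x := by
  rw [← Hom.mapH_comp]
  have h := Hom.mapH_eq_of_prism (prism ha) (f := (iota a).comp (kap ha)) (g := Hom.id _)
    (fun p f => by
      apply Subtype.ext
      funext s x
      show f.1 (mix (c1 p) s (D.lab x)) x = f.1 (D.lab x) x
      rw [mix_c1])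
    (fun p f => by
      apply Subtype.ext
      funext s x
      show f.1 (mix (c0 p) s (D.lab x)) x = f.1 s x
      rw [mix_c0]) p x
  rw [h, Hom.mapH_id]

theorem mapH_kap_iota (p : ℕ) (x : a.inv.H p) :
    (kap ha).mapH p ((iota a).mapH p x) = x := by
  rw [← Hom.mapH_comp]
  exact Hom.mapH_id p x

include ha in
/-- **The free action lemma.** -/
theorem mapH_iota_bijective (p : ℕ) : Function.Bijective ((iota a).mapH p) :=
  Function.bijective_iff_has_inverse.2
    ⟨(kap ha).mapH p, mapH_kap_iota ha p, mapH_iota_kap ha p⟩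

end Lab

end Vale.Agent.P263.E
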