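import Vale.Agent.P263.E.Cov
import Vale.Agent.P263.E.Free
import Vale.Agent.P263.E.D2

/-!
# P263, block E1: pairs in the fibres

`Y.nc C2` : the ordered pairs of different points in one fibre, `Y.ksub 2` : the unordered pairs,
`Y.toSub : (Y.nc C2).tot → (Y.ksub 2).tot` the double covering, `Y.dbl : Cov (Y.ksub 2).tot`,
the free action of `C2`, a labelling `Y.lab2 : Lab C2 (Y.nc C2).tot`, the product formula
`tr a * tr b = tr (a b) + tr_nc (a(y) b(y'))`.
-/

noncomputable section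

namespace Vale.Agent.P263.E

open Vale.Agent.P263.S SS Finset

namespace Cov

variable {B : SS} (Y : Cov B) {R : Type} [CommRing R]

/-! ### permutations of the coordinates -/

section perm

variable {T T' : Type} [Fintype T] [DecidableEq T] [Fintype T'] [DecidableEq T']

theorem nc_reindex (σ : T' ≃ T) {p : ℕ} (x : (Y.pow T).tot.obj p) :
    Y.NC ((Y.reindex σ).app x) ↔ Y.NC x := by
  constructor
  · rintro ⟨s, t, h⟩
    exact ⟨σ s, σ t, h⟩
  · rintro ⟨s, t, h⟩
    refine ⟨σ.symm s, σ.symm t, ?_⟩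
    rw [reindex_val, reindex_val, σ.apply_symm_apply, σ.apply_symm_apply]
    exact h

/-- change of the index set on the non-constant tuples -/
def ncReindex (σ : T' ≃ T) : SS.Map (Y.nc T).tot (Y.nc T').tot :=
  ⟨fun x => ⟨(Y.reindex σ).app x.1, (Y.nc_reindex σ x.1).2 x.2⟩, fun _ _ => rfl⟩

@[simp] theorem ncReindex_coe (σ : T' ≃ T) {p : ℕ} (x : (Y.nc T).tot.obj p) :
    ((Y.ncReindex σ).app x).1 = (Y.reindex σ).app x.1 := rfl

@[simp] theorem ncReindex_val (σ : T' ≃ T) {p : ℕ} (x : (Y.nc T).tot.obj p) (t : T') :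
    ((Y.ncReindex σ).app x).1.val t = x.1.val (σ t) := rfl

/-- extensionality for non-constant tuples -/
theorem nc_ext {p : ℕ} {x x' : (Y.nc T).tot.obj p} (hb : x.1.base = x'.1.base)
    (h : ∀ t, x.1.val t = x'.1.val t) : x = x' :=
  Subtype.ext (Tup.ext hb (funext h))

theorem nc_ext' [Nonempty T] {p : ℕ} {x x' : (Y.nc T).tot.obj p}
    (h : ∀ t, x.1.val t = x'.1.val t) : x = x' := by
  obtain ⟨t⟩ := ‹Nonempty T›
  refine Y.nc_ext ?_ h
  rw [← x.1.prop t, ← x'.1.prop t, h t]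

theorem sum_ncReindex (σ : T' ≃ T) {p : ℕ} {M : Type*} [AddCommMonoid M] (b : B.obj p)
    (f : (Y.nc T').tot.obj p → M) :
    ∑ x ∈ (Y.nc T).fib b, f ((Y.ncReindex σ).app x) = ∑ x ∈ (Y.nc T').fib b, f x := by
  refine sum_bij (Y.ncReindex σ) (fun _ => rfl) ?_ ?_ b f
  · intro y y' h h'
    refine Y.nc_ext h fun t => ?_
    have e : ((Y.ncReindex σ).app y).1.val (σ.symm t) =
        ((Y.ncReindex σ).app y').1.val (σ.symm t) := by rw [h']
    rw [ncReindex_val, ncReindex_val, σ.apply_symm_apply] at e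
    exact e
  · intro y
    refine ⟨(Y.ncReindex σ.symm).app y, ?_⟩
    refine Y.nc_ext rfl fun t => ?_
    rw [ncReindex_val, ncReindex_val, σ.symm_apply_apply]

end perm

/-! ### the swap -/

/-- the swap of the ordered pairs -/
def swap : SS.Map (Y.nc C2).tot (Y.nc C2).tot := Y.ncReindex (Equiv.mulLeft tau)

@[simp] theorem swap_val {p : ℕ} (x : (Y.nc C2).tot.obj p) (t : C2) :
    (Y.swap.app x).1.val t = x.1.val (tau * t) := rfl

@[simp] theorem swap_base {p : ℕ} (x : (Y.nc C2).tot.obj p) :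
    (Y.swap.app x).1.base = x.1.base := rfl

@[simp] theorem swap_swap {p : ℕ} (x : (Y.nc C2).tot.obj p) : Y.swap.app (Y.swap.app x) = x := by
  refine Y.nc_ext rfl fun t => ?_
  rw [swap_val, swap_val, tau_mul_self_mul]

/-- the first point of an ordered pair -/
abbrev p1 {p : ℕ} (x : (Y.nc C2).tot.obj p) : Y.tot.obj p := x.1.val 1

/-- the second point of an ordered pair -/
abbrev p2 {p : ℕ} (x : (Y.nc C2).tot.obj p) : Y.tot.obj p := x.1.val tau

theorem p1_ne_p2 {p : ℕ} (x : (Y.nc C2).tot.obj p) : Y.p1 x ≠ Y.p2 x := by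
  obtain ⟨s, t, h⟩ := x.2
  rcases C2_cases s with rfl | rfl <;> rcases C2_cases t with rfl | rfl
  · exact absurd rfl h
  · exact h
  · exact Ne.symm h
  · exact absurd rfl h

@[simp] theorem p1_swap {p : ℕ} (x : (Y.nc C2).tot.obj p) : Y.p1 (Y.swap.app x) = Y.p2 x := rfl

@[simp] theorem p2_swap {p : ℕ} (x : (Y.nc C2).tot.obj p) : Y.p2 (Y.swap.app x) = Y.p1 x := rfl

theorem pr_p1 {p : ℕ} (x : (Y.nc C2).tot.obj p) : Y.pr.app (Y.p1 x) = x.1.base := x.1.prop _

theorem pr_p2 {p : ℕ} (x : (Y.nc C2).tot.obj p) : Y.pr.app (Y.p2 x) = x.1.base := x.1.prop _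

theorem pair_ext {p : ℕ} {x x' : (Y.nc C2).tot.obj p} (h1 : Y.p1 x = Y.p1 x')
    (h2 : Y.p2 x = Y.p2 x') : x = x' := by
  refine Y.nc_ext' fun t => ?_
  rcases C2_cases t with rfl | rfl
  · exact h1
  · exact h2

theorem swap_ne {p : ℕ} (x : (Y.nc C2).tot.obj p) : Y.swap.app x ≠ x := by
  intro h
  exact Y.p1_ne_p2 x (congrArg Y.p2 h)

/-- the ordered pair of two different points of one fibre -/
def mkPair {p : ℕ} (y y' : Y.tot.obj p) (h : Y.pr.app y = Y.pr.app y') (hne : y ≠ y') :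
    (Y.nc C2).tot.obj p :=
  ⟨⟨Y.pr.app y, fun t => if t = 1 then y else y', fun t => by
      rcases C2_cases t with rfl | rfl
      · rfl
      · exact h.symm⟩, 1, tau, hne⟩

@[simp] theorem p1_mkPair {p : ℕ} {y y' : Y.tot.obj p} (h : Y.pr.app y = Y.pr.app y')
    (hne : y ≠ y') : Y.p1 (Y.mkPair y y' h hne) = y := rfl

@[simp] theorem p2_mkPair {p : ℕ} {y y' : Y.tot.obj p} (h : Y.pr.app y = Y.pr.app y')
    (hne : y ≠ y') : Y.p2 (Y.mkPair y y' h hne) = y' := rfl

/-! ### the unordered pairs -/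

open Classical in
/-- the double covering from the ordered to the unordered pairs -/
def toSub : SS.Map (Y.nc C2).tot (Y.ksub 2).tot :=
  ⟨fun x => ⟨x.1.base, {Y.p1 x, Y.p2 x}, fun y hy => by
      rcases Finset.mem_insert.1 hy with rfl | hy
      · exact Y.pr_p1 x
      · rw [Finset.mem_singleton.1 hy]
        exact Y.pr_p2 x, Finset.card_pair (Y.p1_ne_p2 x)⟩, fun θ x => by
      refine Sbs.ext rfl ?_
      change ({Y.tot.map θ (Y.p1 x), Y.tot.map θ (Y.p2 x)} : Finset (Y.tot.obj _)) =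
        Finset.image (Y.tot.map θ) {Y.p1 x, Y.p2 x}
      rw [Finset.image_insert, Finset.image_singleton]⟩

@[simp] theorem toSub_base {p : ℕ} (x : (Y.nc C2).tot.obj p) :
    (Y.toSub.app x).base = x.1.base := rfl

open Classical in
theorem toSub_pts {p : ℕ} (x : (Y.nc C2).tot.obj p) :
    (Y.toSub.app x).pts = {Y.p1 x, Y.p2 x} := rfl

theorem mem_toSub {p : ℕ} {x : (Y.nc C2).tot.obj p} {y : Y.tot.obj p} :
    y ∈ (Y.toSub.app x).pts ↔ y = Y.p1 x ∨ y = Y.p2 x := by
  classical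
  rw [toSub_pts, Finset.mem_insert, Finset.mem_singleton]

@[simp] theorem toSub_swap {p : ℕ} (x : (Y.nc C2).tot.obj p) :
    Y.toSub.app (Y.swap.app x) = Y.toSub.app x := by
  classical
  refine Sbs.ext rfl ?_
  rw [toSub_pts, toSub_pts, p1_swap, p2_swap, Finset.pair_comm]

theorem toSub_eq_iff {p : ℕ} {x x' : (Y.nc C2).tot.obj p} :
    Y.toSub.app x = Y.toSub.app x' ↔ x = x' ∨ x = Y.swap.app x' := by
  constructor
  · intro h
    have m1 : Y.p1 x = Y.p1 x' ∨ Y.p1 x = Y.p2 x' := by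
      rw [← Y.mem_toSub, ← h, Y.mem_toSub]; exact Or.inl rfl
    have m2 : Y.p2 x = Y.p1 x' ∨ Y.p2 x = Y.p2 x' := by
      rw [← Y.mem_toSub, ← h, Y.mem_toSub]; exact Or.inr rfl
    rcases m1 with m1 | m1 <;> rcases m2 with m2 | m2
    · exact absurd (m1.trans m2.symm) (Y.p1_ne_p2 x)
    · exact Or.inl (Y.pair_ext m1 m2)
    · exact Or.inr (Y.pair_ext m1 m2)
    · exact absurd (m1.trans m2.symm) (Y.p1_ne_p2 x)
  · rintro (rfl | rfl)
    · rfl
    · exact Y.toSub_swap _

theorem toSub_surj {p : ℕ} (w : (Y.ksub 2).tot.obj p) : ∃ x, Y.toSub.app x = w := by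
  classical
  obtain ⟨y, y', hne, h⟩ := Finset.card_eq_two.1 w.card
  have h1 : Y.pr.app y = w.base := w.sub y (by rw [h]; exact Finset.mem_insert_self _ _)
  have h2 : Y.pr.app y' = w.base := w.sub y' (by
    rw [h]; exact Finset.mem_insert_of_mem (Finset.mem_singleton_self _))
  refine ⟨Y.mkPair y y' (h1.trans h2.symm) hne, Sbs.ext h1 ?_⟩
  rw [toSub_pts, h, p1_mkPair, p2_mkPair]

open Classical in
/-- the two orderings of an unordered pair -/
def dblFib {p : ℕ} (w : (Y.ksub 2).tot.obj p) : Finset ((Y.nc C2).tot.obj p) :=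
  {(Y.toSub_surj w).choose, Y.swap.app (Y.toSub_surj w).choose}

theorem mem_dblFib {p : ℕ} {w : (Y.ksub 2).tot.obj p} {x : (Y.nc C2).tot.obj p} :
    x ∈ Y.dblFib w ↔ Y.toSub.app x = w := by
  classical
  rw [dblFib, Finset.mem_insert, Finset.mem_singleton, ← Y.toSub_eq_iff,
    (Y.toSub_surj w).choose_spec]

/-- the double covering as a covering of the unordered pairs -/
def dbl : Cov (Y.ksub 2).tot where
  tot := (Y.nc C2).tot
  pr := Y.toSub
  fib w := Y.dblFib w
  mem_fib := Y.mem_dblFib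
  lift_inj := by
    intro p q θ y y' h h'
    have hb : y.1.base = y'.1.base := congrArg Sbs.base h
    refine Y.nc_ext hb fun t => Y.lift_inj θ ?_ ?_
    · rw [y.1.prop, y'.1.prop, hb]
    · exact congrFun (congrArg Tup.val (congrArg Subtype.val h')) t
  lift_surj := by
    intro p q θ w x h
    obtain ⟨z, hz⟩ := Y.toSub_surj w
    subst hz
    rw [← Y.toSub.nat, Y.toSub_eq_iff] at h
    rcases h with h | h
    · exact ⟨z, rfl, h.symm⟩
    · refine ⟨Y.swap.app z, Y.toSub_swap z, ?_⟩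
      rw [← Y.swap.nat]
      exact h.symm

@[simp] theorem dbl_tot : Y.dbl.tot = (Y.nc C2).tot := rfl

/-- the fibres of the double covering -/
theorem sum_dbl {p : ℕ} {M : Type*} [AddCommMonoid M] (x : (Y.nc C2).tot.obj p)
    (f : (Y.nc C2).tot.obj p → M) :
    ∑ x' ∈ Y.dblFib (Y.toSub.app x), f x' = f x + f (Y.swap.app x) := by
  classical
  have h : Y.dblFib (Y.toSub.app x) = {x, Y.swap.app x} := by
    ext x'
    rw [Y.mem_dblFib, Finset.mem_insert, Finset.mem_singleton]
    exact Y.toSub_eq_iff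
  rw [h]
  exact Finset.sum_pair (Y.swap_ne x).symm

/-- the transfer of the double covering -/
theorem tr_dbl_toSub {p : ℕ} (f : (F R (Y.nc C2).tot).obj p) (x : (Y.nc C2).tot.obj p) :
    (Y.dbl.tr (R := R)).app p f (Y.toSub.app x) = f x + f (Y.swap.app x) :=
  Y.sum_dbl x f

theorem sum_nc_C2 {p : ℕ} {M : Type*} [AddCommMonoid M] (b : B.obj p)
    (f : (Y.nc C2).tot.obj p → M) :
    ∑ x ∈ (Y.nc C2).fib b, f x = ∑ w ∈ (Y.ksub 2).fib b, ∑ x ∈ Y.dblFib w, f x := by
  classical
  rw [← Finset.sum_fiberwise_of_maps_to (s := (Y.nc C2).fib b) (t := (Y.ksub 2).fib b)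
    (g := Y.toSub.app) (fun x hx => by
      rw [(Y.ksub 2).mem_fib]
      exact (Y.nc C2).mem_fib.1 hx) f]
  refine Finset.sum_congr rfl fun w hw => Finset.sum_congr ?_ fun _ _ => rfl
  ext x
  rw [Finset.mem_filter, Y.mem_dblFib, (Y.nc C2).mem_fib]
  rw [(Y.ksub 2).mem_fib] at hw
  constructor
  · exact fun h => h.2
  · intro h
    refine ⟨?_, h⟩
    have h1 : (Y.ksub 2).pr.app (Y.toSub.app x) = b := by
      have h2 : Y.toSub.app x = w := h
      rw [h2, hw]
    exact h1

/-- the transfer of the ordered pairs factors through the unordered pairs -/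
theorem tr_nc_C2 {p : ℕ} (f : (F R (Y.nc C2).tot).obj p) :
    ((Y.nc C2).tr (R := R)).app p f =
      ((Y.ksub 2).tr (R := R)).app p ((Y.dbl.tr (R := R)).app p f) := by
  funext b
  exact Y.sum_nc_C2 b f

/-- the transfer of a symmetric function -/
theorem tr_nc_pull {p : ℕ} (g : (F R (Y.ksub 2).tot).obj p) :
    ((Y.nc C2).tr (R := R)).app p (Y.toSub.pull.app p g) =
      (2 : R) • ((Y.ksub 2).tr (R := R)).app p g := by
  rw [tr_nc_C2, ← map_smul]
  refine congrArg _ ?_
  funext w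
  obtain ⟨x, rfl⟩ := Y.toSub_surj w
  rw [tr_dbl_toSub]
  change g (Y.toSub.app x) + g (Y.toSub.app (Y.swap.app x)) = (2 : R) * g (Y.toSub.app x)
  rw [toSub_swap, two_mul]

theorem tr_nc_pull_char2 (h2 : (2 : R) = 0) {p : ℕ} (g : (F R (Y.ksub 2).tot).obj p) :
    ((Y.nc C2).tr (R := R)).app p (Y.toSub.pull.app p g) = 0 := by
  rw [tr_nc_pull, h2, zero_smul]

theorem toSub_pull_injective (p : ℕ) : Function.Injective ((Y.toSub.pull (R := R)).app p) := by
  intro g g' h
  funext w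
  obtain ⟨x, rfl⟩ := Y.toSub_surj w
  exact congrFun h x

/-- a swap-invariant function is a function of the unordered pair -/
theorem exists_pull_eq {p : ℕ} (f : (F R (Y.nc C2).tot).obj p)
    (hf : ∀ x, f (Y.swap.app x) = f x) :
    ∃ g : (F R (Y.ksub 2).tot).obj p, Y.toSub.pull.app p g = f := by
  refine ⟨fun w => f (Y.toSub_surj w).choose, ?_⟩
  funext x
  change f (Y.toSub_surj (Y.toSub.app x)).choose = f x
  rcases Y.toSub_eq_iff.1 (Y.toSub_surj (Y.toSub.app x)).choose_spec with h | h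
  · rw [h]
  · rw [h, hf]

theorem exists_pull_iff {p : ℕ} (f : (F R (Y.nc C2).tot).obj p) :
    (∃ g : (F R (Y.ksub 2).tot).obj p, Y.toSub.pull.app p g = f) ↔
      ∀ x, f (Y.swap.app x) = f x := by
  constructor
  · rintro ⟨g, rfl⟩ x
    change g _ = g _
    rw [toSub_swap]
  · exact Y.exists_pull_eq f

/-- the transfer of the double covering is onto -/
theorem tr_dbl_surjective (p : ℕ) : Function.Surjective ((Y.dbl.tr (R := R)).app p) :=
  Y.dbl.tr_surjective (fun w => by
    obtain ⟨x, hx⟩ := Y.toSub_surj w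
    exact ⟨x, Y.dbl.mem_fib.2 hx⟩) p

/-- `(1 + swap)` on functions is the pull back of the transfer of the double covering -/
theorem pull_tr_dbl {p : ℕ} (f : (F R (Y.nc C2).tot).obj p) :
    Y.toSub.pull.app p ((Y.dbl.tr (R := R)).app p f) = f + (Y.swap.pull (R := R)).app p f := by
  funext x
  exact Y.tr_dbl_toSub f x

/-- in characteristic two the swap-invariant functions are the kernel of the transfer -/
theorem tr_dbl_eq_zero_iff (h2 : (2 : R) = 0) {p : ℕ} (f : (F R (Y.nc C2).tot).obj p) :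
    (Y.dbl.tr (R := R)).app p f = 0 ↔
      ∃ g : (F R (Y.ksub 2).tot).obj p, Y.toSub.pull.app p g = f := by
  have hneg : ∀ r : R, -r = r := by
    intro r
    have : r + r = 0 := by rw [← two_mul, h2, zero_mul]
    exact (eq_neg_of_add_eq_zero_left this).symm
  rw [Y.exists_pull_iff]
  constructor
  · intro h x
    have h1 := Y.tr_dbl_toSub f x
    rw [h] at h1
    have h3 : f x + f (Y.swap.app x) = 0 := h1.symm
    rw [eq_neg_of_add_eq_zero_right h3, hneg]
  · intro h
    funext w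
    obtain ⟨x, rfl⟩ := Y.toSub_surj w
    rw [tr_dbl_toSub, h, ← two_mul, h2, zero_mul]
    rfl

/-! ### products of transfers -/

/-- the exterior product of two functions on the ordered pairs -/
def ext2 {p : ℕ} (a b : (F R Y.tot).obj p) : (F R (Y.nc C2).tot).obj p :=
  fun x => a (Y.p1 x) * b (Y.p2 x)

@[simp] theorem ext2_apply {p : ℕ} (a b : (F R Y.tot).obj p) (x : (Y.nc C2).tot.obj p) :
    Y.ext2 a b x = a (Y.p1 x) * b (Y.p2 x) := rfl

theorem ext2_map {p q : ℕ} (θ : Op p q) (a b : (F R Y.tot).obj p) :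
    (F R (Y.nc C2).tot).map θ (Y.ext2 a b) =
      Y.ext2 ((F R Y.tot).map θ a) ((F R Y.tot).map θ b) := rfl

theorem prod_C2 {M : Type*} [CommMonoid M] (f : C2 → M) : ∏ t, f t = f 1 * f tau := by
  have h : (Finset.univ : Finset C2) = {1, tau} := by decide
  rw [h]
  exact Finset.prod_pair (by decide)

theorem sum_C2 {M : Type*} [AddCommMonoid M] (f : C2 → M) : ∑ t, f t = f 1 + f tau := by
  have h : (Finset.univ : Finset C2) = {1, tau} := by decide
  rw [h]
  exact Finset.sum_pair (by decide)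

/-- **product formula** -/
theorem tr_mul_tr {p : ℕ} (a b : (F R Y.tot).obj p) :
    mul ((Y.tr (R := R)).app p a) ((Y.tr (R := R)).app p b) =
      (Y.tr (R := R)).app p (mul a b) + ((Y.nc C2).tr (R := R)).app p (Y.ext2 a b) := by
  funext c
  have h := Y.sum_pow_prod (T := C2) c (fun t => if t = 1 then a else b)
  rw [prod_C2] at h
  refine h.symm.trans ?_
  refine (Finset.sum_congr rfl fun x _ => prod_C2 _).trans ?_
  exact Y.sum_pow_split c (fun x => a (x.val 1) * b (x.val tau))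

/-- the product formula with unordered pairs -/
theorem tr_mul_tr' {p : ℕ} (a b : (F R Y.tot).obj p) :
    mul ((Y.tr (R := R)).app p a) ((Y.tr (R := R)).app p b) =
      (Y.tr (R := R)).app p (mul a b) +
        ((Y.ksub 2).tr (R := R)).app p ((Y.dbl.tr (R := R)).app p (Y.ext2 a b)) := by
  rw [tr_mul_tr, tr_nc_C2]

/-- the norm of a function on the unordered pairs -/
def nrm {p : ℕ} (a : (F R Y.tot).obj p) : (F R (Y.ksub 2).tot).obj p := fun w => ∏ y ∈ w.pts, a y

theorem pull_nrm {p : ℕ} (a : (F R Y.tot).obj p) : Y.toSub.pull.app p (Y.nrm a) = Y.ext2 a a := by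
  classical
  funext x
  change ∏ y ∈ ({Y.p1 x, Y.p2 x} : Finset _), a y = a (Y.p1 x) * a (Y.p2 x)
  exact Finset.prod_pair (Y.p1_ne_p2 x)

theorem tr_mul_self {p : ℕ} (a : (F R Y.tot).obj p) :
    mul ((Y.tr (R := R)).app p a) ((Y.tr (R := R)).app p a) =
      (Y.tr (R := R)).app p (mul a a) + (2 : R) • ((Y.ksub 2).tr (R := R)).app p (Y.nrm a) := by
  rw [tr_mul_tr, ← pull_nrm, tr_nc_pull]

/-! ### the labelling -/

/-- the action of `C2` on the ordered pairs -/
def ncAct (g : C2) : SS.Map (Y.nc C2).tot (Y.nc C2).tot := Y.ncReindex (Equiv.mulLeft g)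

@[simp] theorem ncAct_val (g : C2) {p : ℕ} (x : (Y.nc C2).tot.obj p) (t : C2) :
    ((Y.ncAct g).app x).1.val t = x.1.val (g * t) := rfl

theorem ncAct_one {p : ℕ} (x : (Y.nc C2).tot.obj p) : (Y.ncAct 1).app x = x := by
  refine Y.nc_ext rfl fun t => ?_
  rw [ncAct_val, one_mul]

theorem ncAct_tau : Y.ncAct tau = Y.swap := rfl

open Classical in
/-- the labelling of the vertices: an ordering of every unordered pair is chosen -/
def lab2 : Lab C2 (Y.nc C2).tot where
  t := Y.ncAct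
  t_inv g p x := by
    refine Y.nc_ext rfl fun t => ?_
    rw [ncAct_val, ncAct_val, inv_mul_cancel_left]
  c x := if (Y.toSub_surj (Y.toSub.app x)).choose = x then 1 else tau
  c_t g x := by
    rcases C2_cases g with rfl | rfl
    · rw [ncAct_one, one_mul]
    · rw [ncAct_tau, toSub_swap]
      rcases Y.toSub_eq_iff.1 (Y.toSub_surj (Y.toSub.app x)).choose_spec with h | h
      · rw [h, if_pos rfl, if_neg (fun e => Y.swap_ne x e.symm), mul_one]
      · rw [h, if_pos rfl, if_neg (Y.swap_ne x), tau_mul_tau]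

@[simp] theorem lab2_t (g : C2) : Y.lab2.t g = Y.ncAct g := rfl

end Cov

end Vale.Agent.P263.E
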