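import Vale.Agent.P263.E.Seq
import Vale.Agent.P263.E.CovTwo
import Vale.Agent.P263.S.HGses

/-!
# P263, block E2: change of the index set and group actions on `KT T` (helper727)

* `actF m h1 hm : Act G (F R X)` from maps `m g : X → X`;
* `Y.actNC G T`, `Y.actPow G T` : the actions on the functions on (nonconstant) tuples;
* `D.rei σ : Hom (D.KT T) (D.KT T')` for `σ : T ≃ T'`, `D.actT G T : Act G (D.KT T)`;
* equivariance of `D.iT`, `D.pT`; `D.hs2 G T`, `D.hs3 G T` : the exact sequences of the homotopy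
  fixed points;
* `D.s4` : `0 → F(ksub 2) → F(nc C2) → F(ksub 2) → 0` in characteristic two.
-/

noncomputable section

namespace Vale.Agent.P263.S

variable {R : Type} [CommRing R] {G : Type} [Group G] {A B : CosMod R}

/-- The product action. -/
def Act.onProd (a : Act G A) (b : Act G B) : Act G (A.prod B) where
  act p :=
    { toFun := fun g => (a.act p g).prodMap (b.act p g)
      map_one' := by
        refine LinearMap.ext fun x => ?_
        exact Prod.ext (a.act_one p x.1) (b.act_one p x.2)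
      map_mul' := fun g h => by
        refine LinearMap.ext fun x => ?_
        exact Prod.ext (a.act_mul p g h x.1) (b.act_mul p g h x.2) }
  nat φ g x := Prod.ext (a.nat φ g x.1) (b.nat φ g x.2)

@[simp] theorem Act.onProd_act (a : Act G A) (b : Act G B) (p : ℕ) (g : G)
    (x : (A.prod B).obj p) : (a.onProd b).act p g x = (a.act p g x.1, b.act p g x.2) := rfl

end Vale.Agent.P263.S

namespace Vale.Agent.P263.E

open Vale.Agent.P263.S SS

variable {R : Type} [CommRing R] {B : SS}

/-- The action on functions from self-maps. -/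
def actF {G : Type} [Group G] {X : SS} (m : G → SS.Map X X)
    (h1 : ∀ (p : ℕ) (x : X.obj p), (m 1).app x = x)
    (hm : ∀ (g h : G) (p : ℕ) (x : X.obj p), (m (g * h)).app x = (m h).app ((m g).app x)) :
    Act G (F R X) where
  act p :=
    { toFun := fun g => (m g).pull.app p
      map_one' := by
        refine LinearMap.ext fun f => ?_
        funext x
        exact congrArg f (h1 p x)
      map_mul' := fun g h => by
        refine LinearMap.ext fun f => ?_
        funext x
        exact congrArg f (hm g h p x) }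
  nat φ g f := (m g).pull.nat φ f

@[simp] theorem actF_act {G : Type} [Group G] {X : SS} (m : G → SS.Map X X) (h1 hm) (p : ℕ) (g : G)
    (f : (F R X).obj p) (x : X.obj p) :
    (actF (R := R) m h1 hm).act p g f x = f ((m g).app x) := rfl

namespace Cov

variable (Y : Cov B)

section act

variable (R) (G : Type) [Group G] (T : Type) [Fintype T] [DecidableEq T] [MulAction G T]

/-- the action on the functions on tuples, `(g f) x = f (x ∘ g)` -/
def actPow : Act G (F R (Y.pow T).tot) :=
  actF (fun g => Y.reindex (MulAction.toPerm g : Equiv.Perm T))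
    (fun _ x => Tup.ext rfl (funext fun t => congrArg x.val (one_smul G t)))
    (fun g h _ x => Tup.ext rfl (funext fun t => congrArg x.val (mul_smul g h t)))

/-- the action on the functions on nonconstant tuples, `(g f) x = f (x ∘ g)` -/
def actNC : Act G (F R (Y.nc T).tot) :=
  actF (fun g => Y.ncReindex (MulAction.toPerm g : Equiv.Perm T))
    (fun _ x => Y.nc_ext rfl fun t => congrArg x.1.val (one_smul G t))
    (fun g h _ x => Y.nc_ext rfl fun t => congrArg x.1.val (mul_smul g h t))

@[simp] theorem actNC_act (p : ℕ) (g : G) (f : (F R (Y.nc T).tot).obj p)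
    (x : (Y.nc T).tot.obj p) : (Y.actNC R G T).act p g f x =
      f ((Y.ncReindex (MulAction.toPerm g : Equiv.Perm T)).app x) := rfl

end act

/-- the action of `C2` on the functions on ordered pairs is the one of the labelling `lab2` -/
theorem lab2_acts : Y.lab2.Acts (Y.actNC R C2 C2) := by
  intro p g φ x
  refine congrArg φ (Y.nc_ext rfl fun t => congrArg x.1.val ?_)
  show g * (g • t) = t
  rcases C2_cases g with rfl | rfl
  · rw [one_smul, one_mul]
  · exact tau_mul_self_mul t

section reindex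

variable {T T' : Type} [Fintype T] [DecidableEq T] [Fintype T'] [DecidableEq T']

theorem tr_reindex (σ : T ≃ T') {p : ℕ} (f : (F R (Y.pow T).tot).obj p) :
    ((Y.pow T').tr (R := R)).app p ((Y.reindex σ).pull.app p f) =
      ((Y.pow T).tr (R := R)).app p f := by
  funext b
  exact Y.sum_reindex σ b f

theorem tr_ncReindex (σ : T ≃ T') {p : ℕ} (f : (F R (Y.nc T).tot).obj p) :
    ((Y.nc T').tr (R := R)).app p ((Y.ncReindex σ).pull.app p f) =
      ((Y.nc T).tr (R := R)).app p f := by
  funext b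
  exact Y.sum_ncReindex σ b f

theorem dext_reindex [Nonempty T] [Nonempty T'] (σ : T ≃ T') {p : ℕ} (g : (F R Y.tot).obj p) :
    (Y.reindex σ).pull.app p ((Y.dext T).app p g) = (Y.dext T').app p g := by
  apply Y.pow_ext T'
  · rw [Y.diag_dext T']
    exact Y.diag_dext T g
  · rw [Y.ncIncl_dext T']
    funext x
    exact Y.dext_of_nc T g ((Y.nc_reindex σ x.1).2 x.2)

theorem ext0_reindex (σ : T ≃ T') {p : ℕ} (g : (F R (Y.nc T).tot).obj p) :
    (Y.reindex σ).pull.app p ((Y.ext0 T).app p g) =
      (Y.ext0 T').app p ((Y.ncReindex σ).pull.app p g) := by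
  funext x
  show (Y.ext0 T).app p g ((Y.reindex σ).app x) = _
  by_cases h : Y.NC x
  · exact (Y.ext0_nc T g ⟨_, (Y.nc_reindex σ x).2 h⟩).trans
      (Y.ext0_nc T' ((Y.ncReindex σ).pull.app p g) ⟨x, h⟩).symm
  · rw [Y.ext0_not_nc T g (fun h' => h ((Y.nc_reindex σ x).1 h')), Y.ext0_not_nc T' _ h]

end reindex

end Cov

namespace Dat

variable {Y : Cov B} (D : Dat R Y) {T T' T'' : Type} [Fintype T] [DecidableEq T] [Fintype T']
  [DecidableEq T'] [Fintype T''] [DecidableEq T'']

/-- change of the index set -/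
def rei (σ : T ≃ T') : Hom (D.KT T) (D.KT T') where
  app p :=
    { toFun := fun x => D.mkT (D.zc x) (D.wc x) ((Y.reindex σ).pull.app p (D.gc x))
        (D.gc_diag x) (by rw [Y.tr_reindex σ]; exact D.tr_gc x)
      map_add' := fun _ _ => rfl
      map_smul' := fun _ _ => rfl }
  nat _ _ := rfl

@[simp] theorem zc_rei (σ : T ≃ T') {p : ℕ} (x : (D.KT T).obj p) :
    D.zc ((D.rei σ).app p x) = D.zc x := rfl

@[simp] theorem wc_rei (σ : T ≃ T') {p : ℕ} (x : (D.KT T).obj p) :
    D.wc ((D.rei σ).app p x) = D.wc x := rfl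

@[simp] theorem gc_rei (σ : T ≃ T') {p : ℕ} (x : (D.KT T).obj p) :
    D.gc ((D.rei σ).app p x) = (Y.reindex σ).pull.app p (D.gc x) := rfl

theorem rei_refl {p : ℕ} (x : (D.KT T).obj p) : (D.rei (Equiv.refl T)).app p x = x := rfl

theorem rei_rei (σ : T ≃ T') (σ' : T' ≃ T'') {p : ℕ} (x : (D.KT T).obj p) :
    (D.rei σ').app p ((D.rei σ).app p x) = (D.rei (σ.trans σ')).app p x := rfl

theorem rei_congr {σ σ' : T ≃ T'} (h : ∀ t, σ t = σ' t) : D.rei σ = D.rei σ' := by
  rw [Equiv.ext h]

/-- the inclusion of `K` is compatible with the change of the index set -/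
theorem rei_iT [Nonempty T] [Nonempty T'] (σ : T ≃ T') {p : ℕ} (x : D.K.obj p) :
    (D.rei σ).app p ((D.iT T).app p x) = (D.iT T').app p x :=
  D.extT rfl rfl (Y.dext_reindex σ _)

theorem pT_rei (σ : T ≃ T') {p : ℕ} (x : (D.KT T).obj p) :
    (D.pT T').app p ((D.rei σ).app p x) = (Y.ncReindex σ).pull.app p ((D.pT T).app p x) := rfl

section act

variable (G : Type) [Group G] (T) [MulAction G T]

/-- the action on `KT T`, `g (z, w, f) = (z, w, x ↦ f (x ∘ g))` -/
def actT : Act G (D.KT T) where
  act p :=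
    { toFun := fun g => (D.rei (MulAction.toPerm g : Equiv.Perm T)).app p
      map_one' := by
        refine LinearMap.ext fun x => D.extT rfl rfl ?_
        funext y
        exact congrArg (D.gc x) (Cov.Tup.ext rfl (funext fun t => congrArg y.val (one_smul G t)))
      map_mul' := fun g h => by
        refine LinearMap.ext fun x => D.extT rfl rfl ?_
        funext y
        exact congrArg (D.gc x) (Cov.Tup.ext rfl (funext fun t => congrArg y.val (mul_smul g h t))) }
  nat φ g x := (D.rei (MulAction.toPerm g : Equiv.Perm T)).nat φ x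

@[simp] theorem actT_act (p : ℕ) (g : G) (x : (D.KT T).obj p) :
    (D.actT T G).act p g x = (D.rei (MulAction.toPerm g : Equiv.Perm T)).app p x := rfl

theorem iT_equiv [Nonempty T] (p : ℕ) (g : G) (x : D.K.obj p) :
    (D.iT T).app p ((Act.triv G D.K).act p g x) = (D.actT T G).act p g ((D.iT T).app p x) :=
  (D.rei_iT _ x).symm

theorem pT_equiv (p : ℕ) (g : G) (x : (D.KT T).obj p) :
    (D.pT T).app p ((D.actT T G).act p g x) = (Y.actNC R G T).act p g ((D.pT T).app p x) := rfl

/-- `0 → h(K) → h(KT T) → h(F(nc T)) → 0` -/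
def hs2 [Nonempty T] : SES (hG (Act.triv G D.K)) (hG (D.actT T G)) (hG (Y.actNC R G T)) :=
  hG.ses (D.s2 T) _ _ _ (D.iT_equiv T G) (D.pT_equiv T G)

theorem hs2_i [Nonempty T] : (D.hs2 T G).i =
    hG.mapHom (Act.triv G D.K) (D.actT T G) (D.iT T) (D.iT_equiv T G) := rfl

theorem hs2_p [Nonempty T] : (D.hs2 T G).p =
    hG.mapHom (D.actT T G) (Y.actNC R G T) (D.pT T) (D.pT_equiv T G) := rfl

theorem s3_i_equiv [Nonempty T] (p : ℕ) (g : G) (x : (D.KT T).obj p) :
    (D.s3 T).i.app p ((D.actT T G).act p g x) =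
      ((Act.triv G (D.I.prod D.Z)).onProd (Y.actNC R G T)).act p g ((D.s3 T).i.app p x) := rfl

theorem s3_p_equiv [Nonempty T] (p : ℕ) (g : G)
    (x : ((D.I.prod D.Z).prod (F R (Y.nc T).tot)).obj p) :
    (D.s3 T).p.app p (((Act.triv G (D.I.prod D.Z)).onProd (Y.actNC R G T)).act p g x) =
      (Act.triv G (F R B)).act p g ((D.s3 T).p.app p x) := by
  show D.kap.app p x.1 - (Y.nc T).tr.app p ((Y.actNC R G T).act p g x.2) =
    D.kap.app p x.1 - (Y.nc T).tr.app p x.2
  congr 1
  exact Y.tr_ncReindex _ x.2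

/-- `0 → h(KT T) → h((I × Z) × F(nc T)) → h(F(B)) → 0` -/
def hs3 [Nonempty T] : SES (hG (D.actT T G))
    (hG ((Act.triv G (D.I.prod D.Z)).onProd (Y.actNC R G T))) (hG (Act.triv G (F R B))) :=
  hG.ses (D.s3 T) _ _ _ (D.s3_i_equiv T G) (D.s3_p_equiv T G)

end act

end Dat

/-- `(s4)`: `0 → F(ksub 2) → F(nc C2) → F(ksub 2) → 0` in characteristic two -/
def Cov.s4 (Y : Cov B) (h2 : (2 : R) = 0) :
    SES (F R (Y.ksub 2).tot) (F R (Y.nc C2).tot) (F R (Y.ksub 2).tot) where
  i := Y.toSub.pull
  p := Y.dbl.tr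
  inj := Y.toSub_pull_injective
  surj := Y.tr_dbl_surjective
  pi _ g := (Y.tr_dbl_eq_zero_iff h2 _).2 ⟨g, rfl⟩
  ex _ f hf := (Y.tr_dbl_eq_zero_iff h2 f).1 hf

end Vale.Agent.P263.E
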