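import Mathlib.Algebra.BigOperators.Ring.Finset
import Mathlib.Algebra.BigOperators.Pi
import Mathlib.Data.Fintype.BigOperators
import Mathlib.Data.Finset.Powerset
import Vale.Agent.P263.E.Simp

/-!
# P263, block E1: finite coverings of simplicial sets as total spaces

`Cov B` : a finite covering `Y → B` (unique lifting of simplices), `Y.fib b` its fibres (finsets),
`Y.tr : F R Y.tot → F R B` the transfer (sum over the fibre),
`Y.sub P` sub-coverings, `Y.pow T` the fibre powers (`T`-tuples in one fibre), `Y.nc T` the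
non-constant tuples, `Y.ksub n` the covering of the `n`-element subsets of the fibres.
-/

namespace Vale.Agent.P263.E

open Vale.Agent.P263.S SS Finset

/-- A finite covering of `B`. -/
structure Cov (B : SS) where
  /-- the total space -/
  tot : SS
  /-- the projection -/
  pr : SS.Map tot B
  /-- the fibres -/
  fib : ∀ {p : ℕ}, B.obj p → Finset (tot.obj p)
  mem_fib : ∀ {p : ℕ} {b : B.obj p} {y : tot.obj p}, y ∈ fib b ↔ pr.app y = b
  lift_inj : ∀ {p q : ℕ} (θ : Op p q) {y y' : tot.obj q}, pr.app y = pr.app y' →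
    tot.map θ y = tot.map θ y' → y = y'
  lift_surj : ∀ {p q : ℕ} (θ : Op p q) (b : B.obj q) (y : tot.obj p), pr.app y = B.map θ b →
    ∃ y', pr.app y' = b ∧ tot.map θ y' = y

namespace Cov

variable {B : SS} (Y : Cov B) {R : Type} [CommRing R]

/-- all fibres are nonempty -/
def Full : Prop := ∀ {p : ℕ} (b : B.obj p), (Y.fib b).Nonempty

theorem map_mem_fib {p q : ℕ} (θ : Op p q) {b : B.obj q} {y : Y.tot.obj q} (hy : y ∈ Y.fib b) :
    Y.tot.map θ y ∈ Y.fib (B.map θ b) := by
  rw [Y.mem_fib] at *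
  rw [Y.pr.nat, hy]

/-- sums over the fibres are compatible with the simplicial operators -/
theorem sum_map {M : Type*} [AddCommMonoid M] {p q : ℕ} (θ : Op p q) (b : B.obj q)
    (f : Y.tot.obj p → M) :
    ∑ y ∈ Y.fib b, f (Y.tot.map θ y) = ∑ y ∈ Y.fib (B.map θ b), f y := by
  refine Finset.sum_bij (fun y _ => Y.tot.map θ y) (fun y hy => Y.map_mem_fib θ hy) ?_ ?_
    (fun _ _ => rfl)
  · intro y hy y' hy' h
    exact Y.lift_inj θ ((Y.mem_fib.1 hy).trans (Y.mem_fib.1 hy').symm) h
  · intro y hy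
    obtain ⟨y', h1, h2⟩ := Y.lift_surj θ b y (Y.mem_fib.1 hy)
    exact ⟨y', Y.mem_fib.2 h1, h2⟩

/-- the transfer: sum over the fibre -/
def tr : Hom (F R Y.tot) (F R B) where
  app p :=
    { toFun := fun f b => ∑ y ∈ Y.fib b, f y
      map_add' := fun f g => by
        funext b
        exact Finset.sum_add_distrib
      map_smul' := fun c f => by
        funext b
        exact (Finset.mul_sum _ _ _).symm }
  nat θ f := by
    funext b
    exact Y.sum_map θ b f

@[simp] theorem tr_apply {p : ℕ} (f : (F R Y.tot).obj p) (b : B.obj p) :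
    (Y.tr (R := R)).app p f b = ∑ y ∈ Y.fib b, f y := rfl

/-- the transfer is levelwise onto if the fibres are nonempty -/
theorem tr_surjective (h : Y.Full) (p : ℕ) : Function.Surjective ((Y.tr (R := R)).app p) := by
  classical
  intro c
  refine ⟨fun y => if y = (h (Y.pr.app y)).choose then c (Y.pr.app y) else 0, ?_⟩
  funext b
  change ∑ y ∈ Y.fib b, (if y = (h (Y.pr.app y)).choose then c (Y.pr.app y) else 0) = c b
  have key : ∀ y ∈ Y.fib b, (if y = (h (Y.pr.app y)).choose then c (Y.pr.app y) else 0) =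
      if y = (h b).choose then c b else 0 := by
    intro y hy
    have e : Y.pr.app y = b := Y.mem_fib.1 hy
    subst e
    rfl
  rw [Finset.sum_congr rfl key, Finset.sum_ite_eq' (Y.fib b) (h b).choose fun _ => c b,
    if_pos (h b).choose_spec]

/-- projection formula -/
theorem tr_mul_pull {p : ℕ} (f : (F R Y.tot).obj p) (g : (F R B).obj p) :
    (Y.tr (R := R)).app p (mul f (Y.pr.pull.app p g)) = mul ((Y.tr (R := R)).app p f) g := by
  funext b
  change ∑ y ∈ Y.fib b, f y * g (Y.pr.app y) = (∑ y ∈ Y.fib b, f y) * g b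
  refine Eq.trans (Finset.sum_congr rfl fun y hy => ?_) (Finset.sum_mul (Y.fib b) f (g b)).symm
  rw [Y.mem_fib.1 hy]

/-- maps of coverings over `B` which are bijective on the fibres -/
theorem sum_bij {Y Y' : Cov B} (φ : SS.Map Y.tot Y'.tot) {p : ℕ}
    (h0 : ∀ y : Y.tot.obj p, Y'.pr.app (φ.app y) = Y.pr.app y)
    (h1 : ∀ y y' : Y.tot.obj p, Y.pr.app y = Y.pr.app y' → φ.app y = φ.app y' → y = y')
    (h2 : ∀ y' : Y'.tot.obj p, ∃ y, φ.app y = y')
    {M : Type*} [AddCommMonoid M] (b : B.obj p) (f : Y'.tot.obj p → M) :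
    ∑ y ∈ Y.fib b, f (φ.app y) = ∑ y ∈ Y'.fib b, f y := by
  refine Finset.sum_bij (fun y _ => φ.app y) (fun y hy => ?_) ?_ ?_ (fun _ _ => rfl)
  · rw [Y'.mem_fib, h0, Y.mem_fib.1 hy]
  · intro y hy y' hy' h
    exact h1 y y' ((Y.mem_fib.1 hy).trans (Y.mem_fib.1 hy').symm) h
  · intro y hy
    obtain ⟨y', rfl⟩ := h2 y
    refine ⟨y', ?_, rfl⟩
    rw [Y.mem_fib, ← h0, Y'.mem_fib.1 hy]

/-! ### sub-coverings -/

open Classical in
/-- the sub-covering given by an invariant predicate -/
noncomputable def sub (P : ∀ {p : ℕ}, Y.tot.obj p → Prop)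
    (hP : ∀ {p q : ℕ} (θ : Op p q) (y : Y.tot.obj q), P (Y.tot.map θ y) ↔ P y) : Cov B where
  tot :=
    { obj := fun p => {y : Y.tot.obj p // P y}
      map := fun θ y => ⟨Y.tot.map θ y.1, (hP θ y.1).2 y.2⟩
      map_id := fun y => Subtype.ext (Y.tot.map_id y.1)
      map_comp := fun f g y => Subtype.ext (Y.tot.map_comp f g y.1) }
  pr := ⟨fun y => Y.pr.app y.1, fun θ y => Y.pr.nat θ y.1⟩
  fib b := (Y.fib b).subtype _
  mem_fib := by
    intro p b y
    rw [Finset.mem_subtype, Y.mem_fib]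
  lift_inj θ y y' h h' := Subtype.ext (Y.lift_inj θ h (congrArg Subtype.val h'))
  lift_surj θ b y h := by
    obtain ⟨y', h1, h2⟩ := Y.lift_surj θ b y.1 h
    refine ⟨⟨y', ?_⟩, h1, Subtype.ext h2⟩
    have := y.2
    rw [← h2] at this
    exact (hP θ y').1 this

section sub

variable (P : ∀ {p : ℕ}, Y.tot.obj p → Prop)
    (hP : ∀ {p q : ℕ} (θ : Op p q) (y : Y.tot.obj q), P (Y.tot.map θ y) ↔ P y)

/-- the inclusion of a sub-covering -/
noncomputable def subIncl : SS.Map (Y.sub P hP).tot Y.tot := ⟨fun y => y.1, fun _ _ => rfl⟩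

@[simp] theorem subIncl_app {p : ℕ} (y : (Y.sub P hP).tot.obj p) :
    (Y.subIncl P hP).app y = y.1 := rfl

open Classical in
theorem sum_sub {M : Type*} [AddCommMonoid M] {p : ℕ} (b : B.obj p) (f : Y.tot.obj p → M) :
    ∑ y ∈ (Y.sub P hP).fib b, f y.1 = ∑ y ∈ Y.fib b with P y, f y :=
  Finset.sum_subtype_eq_sum_filter _

end sub

/-! ### fibre powers -/

section pow

variable (T : Type) [Fintype T] [DecidableEq T]

/-- `T`-tuples of simplices in one fibre -/
@[ext] structure Tup (p : ℕ) where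
  /-- the simplex of the base -/
  base : B.obj p
  /-- the tuple -/
  val : T → Y.tot.obj p
  prop : ∀ t, Y.pr.app (val t) = base

/-- the tuples in the fibre of `b` -/
def tupEmb {p : ℕ} (b : B.obj p) :
    {y : T → Y.tot.obj p // y ∈ Fintype.piFinset fun _ : T => Y.fib b} ↪ Y.Tup T p :=
  ⟨fun y => ⟨b, y.1, fun t => Y.mem_fib.1 (Fintype.mem_piFinset.1 y.2 t)⟩, by
    intro y y' h
    exact Subtype.ext (congrArg Tup.val h)⟩

/-- the `T`-th fibre power -/
def pow : Cov B where
  tot :=
    { obj := fun p => Y.Tup T p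
      map := fun θ x => ⟨B.map θ x.base, fun t => Y.tot.map θ (x.val t), fun t => by
        rw [Y.pr.nat, x.prop]⟩
      map_id := fun x => Tup.ext (B.map_id _) (funext fun t => Y.tot.map_id _)
      map_comp := fun f g x => Tup.ext (B.map_comp f g _) (funext fun t => Y.tot.map_comp f g _) }
  pr := ⟨fun x => x.base, fun _ _ => rfl⟩
  fib b := (Fintype.piFinset fun _ : T => Y.fib b).attach.map (Y.tupEmb T b)
  mem_fib := by
    intro p b y
    rw [Finset.mem_map]
    constructor
    · rintro ⟨x, -, rfl⟩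
      rfl
    · rintro rfl
      exact ⟨⟨y.val, Fintype.mem_piFinset.2 fun t => Y.mem_fib.2 (y.prop t)⟩,
        Finset.mem_attach _ _, rfl⟩
  lift_inj := by
    intro p q θ y y' h h'
    refine Tup.ext h (funext fun t => Y.lift_inj θ ?_ ?_)
    · rw [y.prop, y'.prop]; exact h
    · exact congrFun (congrArg Tup.val h') t
  lift_surj := by
    intro p q θ b y h
    have : ∀ t, ∃ y', Y.pr.app y' = b ∧ Y.tot.map θ y' = y.val t := fun t =>
      Y.lift_surj θ b (y.val t) ((y.prop t).trans h)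
    choose z hz hz' using this
    exact ⟨⟨b, z, hz⟩, rfl, Tup.ext h.symm (funext hz')⟩

variable {T}

@[simp] theorem pow_map_val {p q : ℕ} (θ : Op p q) (x : (Y.pow T).tot.obj q) (t : T) :
    ((Y.pow T).tot.map θ x).val t = Y.tot.map θ (x.val t) := rfl

@[simp] theorem pow_map_base {p q : ℕ} (θ : Op p q) (x : (Y.pow T).tot.obj q) :
    ((Y.pow T).tot.map θ x).base = B.map θ x.base := rfl

@[simp] theorem pow_pr {p : ℕ} (x : (Y.pow T).tot.obj p) : (Y.pow T).pr.app x = x.base := rfl

/-- the evaluation at `t` -/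
def ev (t : T) : SS.Map (Y.pow T).tot Y.tot := ⟨fun x => x.val t, fun _ _ => rfl⟩

@[simp] theorem ev_app (t : T) {p : ℕ} (x : (Y.pow T).tot.obj p) : (Y.ev t).app x = x.val t := rfl

/-- the sum over a fibre of the fibre power of a product of functions of the coordinates -/
theorem sum_pow_prod {p : ℕ} (b : B.obj p) (f : T → Y.tot.obj p → R) :
    ∑ x ∈ (Y.pow T).fib b, ∏ t, f t (x.val t) = ∏ t, ∑ y ∈ Y.fib b, f t y := by
  rw [Finset.prod_univ_sum]
  refine (Finset.sum_map _ (Y.tupEmb T b) fun x : Y.Tup T p => ∏ t, f t (x.val t)).trans ?_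
  exact Finset.sum_attach (Fintype.piFinset fun _ : T => Y.fib b) fun y => ∏ t, f t (y t)

/-- change of the index set -/
def reindex {T' : Type} [Fintype T'] [DecidableEq T'] (σ : T' → T) :
    SS.Map (Y.pow T).tot (Y.pow T').tot :=
  ⟨fun x => ⟨x.base, fun t => x.val (σ t), fun _ => x.prop _⟩, fun _ _ => rfl⟩

@[simp] theorem reindex_val {T' : Type} [Fintype T'] [DecidableEq T'] (σ : T' → T) {p : ℕ}
    (x : (Y.pow T).tot.obj p) (t : T') : ((Y.reindex σ).app x).val t = x.val (σ t) := rfl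

@[simp] theorem reindex_base {T' : Type} [Fintype T'] [DecidableEq T'] (σ : T' → T) {p : ℕ}
    (x : (Y.pow T).tot.obj p) : ((Y.reindex σ).app x).base = x.base := rfl

theorem sum_reindex {T' : Type} [Fintype T'] [DecidableEq T'] (σ : T' ≃ T) {p : ℕ}
    {M : Type*} [AddCommMonoid M] (b : B.obj p) (f : (Y.pow T').tot.obj p → M) :
    ∑ x ∈ (Y.pow T).fib b, f ((Y.reindex σ).app x) = ∑ x ∈ (Y.pow T').fib b, f x := by
  refine sum_bij (Y.reindex σ) (fun _ => rfl) ?_ ?_ b f
  · intro y y' h h'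
    refine Tup.ext h (funext fun t => ?_)
    have e : y.val (σ (σ.symm t)) = y'.val (σ (σ.symm t)) :=
      congrFun (congrArg Tup.val h') (σ.symm t)
    rwa [σ.apply_symm_apply] at e
  · intro y
    refine ⟨⟨y.base, fun t => y.val (σ.symm t), fun _ => y.prop _⟩, ?_⟩
    exact Tup.ext rfl (funext fun t => congrArg y.val (σ.symm_apply_apply t))

/-- the constant tuples -/
def diag (T : Type) [Fintype T] [DecidableEq T] : SS.Map Y.tot (Y.pow T).tot :=
  ⟨fun y => ⟨Y.pr.app y, fun _ => y, fun _ => rfl⟩, fun θ y =>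
    Tup.ext (Y.pr.nat θ y) rfl⟩

@[simp] theorem diag_val {p : ℕ} (y : Y.tot.obj p) (t : T) :
    ((Y.diag T).app y).val t = y := rfl

@[simp] theorem diag_base {p : ℕ} (y : Y.tot.obj p) :
    ((Y.diag T).app y).base = Y.pr.app y := rfl

/-- tuples of tuples -/
def curry (S T : Type) [Fintype S] [DecidableEq S] [Fintype T] [DecidableEq T] :
    SS.Map (Y.pow (S × T)).tot ((Y.pow T).pow S).tot :=
  ⟨fun x => ⟨x.base, fun s => ⟨x.base, fun t => x.val (s, t), fun _ => x.prop _⟩, fun _ => rfl⟩,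
    fun _ _ => rfl⟩

/-- the slice of a tuple indexed by a product -/
def slice {S : Type} [Fintype S] [DecidableEq S] (s : S) :
    SS.Map (Y.pow (S × T)).tot (Y.pow T).tot := Y.reindex fun t => (s, t)

@[simp] theorem slice_val {S : Type} [Fintype S] [DecidableEq S] (s : S) {p : ℕ}
    (x : (Y.pow (S × T)).tot.obj p) (t : T) : ((Y.slice s).app x).val t = x.val (s, t) := rfl

theorem sum_curry {S : Type} [Fintype S] [DecidableEq S] {p : ℕ}
    {M : Type*} [AddCommMonoid M] (b : B.obj p) (f : ((Y.pow T).pow S).tot.obj p → M) :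
    ∑ x ∈ (Y.pow (S × T)).fib b, f ((Y.curry S T).app x) = ∑ x ∈ ((Y.pow T).pow S).fib b, f x := by
  refine sum_bij (Y.curry S T) (fun _ => rfl) ?_ ?_ b f
  · intro y y' h h'
    refine Tup.ext h (funext fun t => ?_)
    have := congrFun (congrArg Tup.val (congrFun (congrArg Tup.val h') t.1)) t.2
    exact this
  · intro y
    refine ⟨⟨y.base, fun t => (y.val t.1).val t.2, fun t => ?_⟩, ?_⟩
    · rw [(y.val t.1).prop]; exact y.prop t.1
    · refine Tup.ext rfl (funext fun s => ?_)
      exact Tup.ext (y.prop s).symm rfl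

/-- the sum over a fibre of `Y^(S × T)` of a product of functions of the slices -/
theorem sum_slice_prod {S : Type} [Fintype S] [DecidableEq S] {p : ℕ} (b : B.obj p)
    (f : S → (Y.pow T).tot.obj p → R) :
    ∑ x ∈ (Y.pow (S × T)).fib b, ∏ s, f s ((Y.slice s).app x) =
      ∏ s, ∑ x ∈ (Y.pow T).fib b, f s x := by
  rw [← (Y.pow T).sum_pow_prod, ← Y.sum_curry]
  rfl

/-- a tuple is not constant -/
def NC {p : ℕ} (x : (Y.pow T).tot.obj p) : Prop := ∃ s t, x.val s ≠ x.val t

theorem nc_map {p q : ℕ} (θ : Op p q) (x : (Y.pow T).tot.obj q) :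
    Y.NC ((Y.pow T).tot.map θ x) ↔ Y.NC x := by
  constructor
  · rintro ⟨s, t, h⟩
    exact ⟨s, t, fun e => h (by rw [pow_map_val, pow_map_val, e])⟩
  · rintro ⟨s, t, h⟩
    refine ⟨s, t, fun e => h (Y.lift_inj θ ?_ e)⟩
    rw [x.prop, x.prop]

/-- the covering of the non-constant tuples -/
noncomputable def nc (T : Type) [Fintype T] [DecidableEq T] : Cov B :=
  (Y.pow T).sub (fun x => Y.NC x) fun θ x => Y.nc_map θ x

/-- the inclusion of the non-constant tuples -/
noncomputable def ncIncl (T : Type) [Fintype T] [DecidableEq T] :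
    SS.Map (Y.nc T).tot (Y.pow T).tot := ⟨fun y => y.1, fun _ _ => rfl⟩

@[simp] theorem ncIncl_app {p : ℕ} (y : (Y.nc T).tot.obj p) : (Y.ncIncl T).app y = y.1 := rfl

/-- a tuple which is not non-constant is constant -/
theorem eq_diag_of_not_nc {p : ℕ} {x : (Y.pow T).tot.obj p} (h : ¬ Y.NC x) (t : T) :
    x = (Y.diag T).app (x.val t) := by
  refine Tup.ext (x.prop t).symm (funext fun s => ?_)
  by_contra h'
  exact h ⟨s, t, h'⟩

theorem not_nc_diag {p : ℕ} (y : Y.tot.obj p) : ¬ Y.NC ((Y.diag T).app y) := by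
  rintro ⟨s, t, h⟩
  exact h rfl

/-- the decomposition of the sum over a fibre power into constant and non-constant tuples -/
theorem sum_pow_split [Nonempty T] {p : ℕ} {M : Type*} [AddCommMonoid M] (b : B.obj p)
    (f : (Y.pow T).tot.obj p → M) :
    ∑ x ∈ (Y.pow T).fib b, f x =
      ∑ y ∈ Y.fib b, f ((Y.diag T).app y) + ∑ x ∈ (Y.nc T).fib b, f x.1 := by
  classical
  rw [← Finset.sum_filter_add_sum_filter_not ((Y.pow T).fib b) (fun x => ¬ Y.NC x) f]
  congr 1
  · symm
    obtain ⟨t0⟩ := ‹Nonempty T›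
    refine Finset.sum_bij (fun y _ => (Y.diag T).app y) ?_ ?_ ?_ (fun _ _ => rfl)
    · intro y hy
      rw [Finset.mem_filter, (Y.pow T).mem_fib]
      exact ⟨Y.mem_fib.1 hy, Y.not_nc_diag y⟩
    · intro y _ y' _ h
      exact congrFun (congrArg Tup.val h) t0
    · intro x hx
      rw [Finset.mem_filter, (Y.pow T).mem_fib] at hx
      refine ⟨x.val t0, ?_, (Y.eq_diag_of_not_nc hx.2 t0).symm⟩
      rw [Y.mem_fib, x.prop]
      exact hx.1
  · refine Eq.trans ?_ ((Y.pow T).sum_sub (fun x => Y.NC x) (fun θ x => Y.nc_map θ x) b f).symm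
    refine Finset.sum_congr ?_ fun _ _ => rfl
    ext x
    simp only [Finset.mem_filter, not_not]

/-- the transfer of the fibre power in terms of the constant and the non-constant tuples -/
theorem tr_pow [Nonempty T] {p : ℕ} (f : (F R (Y.pow T).tot).obj p) :
    ((Y.pow T).tr (R := R)).app p f =
      (Y.tr (R := R)).app p ((Y.diag T).pull.app p f) +
        ((Y.nc T).tr (R := R)).app p ((Y.ncIncl T).pull.app p f) := by
  funext b
  exact Y.sum_pow_split b f

end pow

/-! ### subsets of the fibres -/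

section ksub

/-- finite subsets of one fibre -/
@[ext] structure Sbs (n p : ℕ) where
  /-- the simplex of the base -/
  base : B.obj p
  /-- the subset -/
  pts : Finset (Y.tot.obj p)
  sub : ∀ y ∈ pts, Y.pr.app y = base
  card : pts.card = n

/-- the `n`-element subsets of the fibre of `b` -/
def sbsEmb (n : ℕ) {p : ℕ} (b : B.obj p) :
    {s : Finset (Y.tot.obj p) // s ∈ Finset.powersetCard n (Y.fib b)} ↪ Y.Sbs n p :=
  ⟨fun s => ⟨b, s.1, fun _ hy => Y.mem_fib.1 ((Finset.mem_powersetCard.1 s.2).1 hy),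
      (Finset.mem_powersetCard.1 s.2).2⟩, by
      intro s s' h
      exact Subtype.ext (congrArg Sbs.pts h)⟩

open Classical in
/-- the covering of the `n`-element subsets of the fibres -/
noncomputable def ksub (n : ℕ) : Cov B where
  tot :=
    { obj := fun p => Y.Sbs n p
      map := fun θ x => ⟨B.map θ x.base, x.pts.image (Y.tot.map θ), by
          intro y hy
          obtain ⟨z, hz, rfl⟩ := Finset.mem_image.1 hy
          rw [Y.pr.nat, x.sub z hz], by
          rw [Finset.card_image_of_injOn, x.card]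
          intro y hy y' hy' h
          exact Y.lift_inj θ ((x.sub y hy).trans (x.sub y' hy').symm) h⟩
      map_id := fun x => Sbs.ext (B.map_id _) (by
        refine (Finset.image_congr fun y _ => Y.tot.map_id y).trans ?_
        exact Finset.image_id')
      map_comp := fun f g x => Sbs.ext (B.map_comp f g _) (by
        show Finset.image _ _ = Finset.image _ (Finset.image _ _)
        rw [Finset.image_image]
        exact Finset.image_congr fun y _ => Y.tot.map_comp f g y) }
  pr := ⟨fun x => x.base, fun _ _ => rfl⟩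
  fib b := (Finset.powersetCard n (Y.fib b)).attach.map (Y.sbsEmb n b)
  mem_fib := by
    intro p b y
    rw [Finset.mem_map]
    constructor
    · rintro ⟨x, -, rfl⟩
      rfl
    · rintro rfl
      exact ⟨⟨y.pts, Finset.mem_powersetCard.2 ⟨fun z hz => Y.mem_fib.2 (y.sub z hz), y.card⟩⟩,
        Finset.mem_attach _ _, rfl⟩
  lift_inj := by
    intro p q θ y y' h h'
    refine Sbs.ext h ?_
    have e : y.pts.image (Y.tot.map θ) = y'.pts.image (Y.tot.map θ) := congrArg Sbs.pts h'
    ext z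
    constructor
    · intro hz
      have : Y.tot.map θ z ∈ y'.pts.image (Y.tot.map θ) := e ▸ Finset.mem_image_of_mem _ hz
      obtain ⟨z', hz', e'⟩ := Finset.mem_image.1 this
      rwa [← Y.lift_inj θ ((y'.sub z' hz').trans (h.symm.trans (y.sub z hz).symm)) e']
    · intro hz
      have : Y.tot.map θ z ∈ y.pts.image (Y.tot.map θ) := e ▸ Finset.mem_image_of_mem _ hz
      obtain ⟨z', hz', e'⟩ := Finset.mem_image.1 this
      rwa [← Y.lift_inj θ ((y.sub z' hz').trans (h.trans (y'.sub z hz).symm)) e']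
  lift_surj := by
    intro p q θ b y h
    refine ⟨⟨b, (Y.fib b).filter fun z => Y.tot.map θ z ∈ y.pts,
      fun z hz => Y.mem_fib.1 (Finset.mem_filter.1 hz).1, ?_⟩, rfl, ?_⟩
    · refine Eq.trans (Finset.card_bij (fun z _ => Y.tot.map θ z)
        (fun z hz => (Finset.mem_filter.1 hz).2) ?_ ?_) y.card
      · intro z hz z' hz' e
        exact Y.lift_inj θ ((Y.mem_fib.1 (Finset.mem_filter.1 hz).1).trans
          (Y.mem_fib.1 (Finset.mem_filter.1 hz').1).symm) e
      · intro z hz
        obtain ⟨z', h1, h2⟩ := Y.lift_surj θ b z ((y.sub z hz).trans h)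
        exact ⟨z', Finset.mem_filter.2 ⟨Y.mem_fib.2 h1, h2 ▸ hz⟩, h2⟩
    · refine Sbs.ext h.symm ?_
      ext z
      rw [Finset.mem_image]
      constructor
      · rintro ⟨z', hz', rfl⟩
        exact (Finset.mem_filter.1 hz').2
      · intro hz
        obtain ⟨z', h1, h2⟩ := Y.lift_surj θ b z ((y.sub z hz).trans h)
        exact ⟨z', Finset.mem_filter.2 ⟨Y.mem_fib.2 h1, h2 ▸ hz⟩, h2⟩

theorem sum_ksub {n p : ℕ} {M : Type*} [AddCommMonoid M] (b : B.obj p)
    (f : Finset (Y.tot.obj p) → M) :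
    ∑ x ∈ (Y.ksub n).fib b, f x.pts = ∑ s ∈ Finset.powersetCard n (Y.fib b), f s := by
  refine (Finset.sum_map _ (Y.sbsEmb n b) fun x : Y.Sbs n p => f x.pts).trans ?_
  exact Finset.sum_attach (Finset.powersetCard n (Y.fib b)) f

end ksub

/-! ### pull back of a covering -/

/-- the simplices of the pull back -/
abbrev PB {A : SS} (f : SS.Map A B) (p : ℕ) : Type :=
  {x : A.obj p × Y.tot.obj p // Y.pr.app x.2 = f.app x.1}

/-- the fibre of the pull back -/
def pbEmb {A : SS} (f : SS.Map A B) {p : ℕ} (a : A.obj p) :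
    {y : Y.tot.obj p // y ∈ Y.fib (f.app a)} ↪ Y.PB f p :=
  ⟨fun y => ⟨(a, y.1), Y.mem_fib.1 y.2⟩, by
      intro y y' h
      exact Subtype.ext (congrArg (fun x : Y.PB f p => x.1.2) h)⟩

/-- the pull back of a covering along a simplicial map -/
def pullback {A : SS} (f : SS.Map A B) : Cov A where
  tot :=
    { obj := fun p => Y.PB f p
      map := fun θ x => ⟨(A.map θ x.1.1, Y.tot.map θ x.1.2), by
        rw [Y.pr.nat, x.2, f.nat]⟩
      map_id := fun x => Subtype.ext (Prod.ext (A.map_id _) (Y.tot.map_id _))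
      map_comp := fun g h x => Subtype.ext (Prod.ext (A.map_comp g h _) (Y.tot.map_comp g h _)) }
  pr := ⟨fun x => x.1.1, fun _ _ => rfl⟩
  fib a := (Y.fib (f.app a)).attach.map (Y.pbEmb f a)
  mem_fib := by
    intro p b y
    rw [Finset.mem_map]
    constructor
    · rintro ⟨x, -, rfl⟩
      rfl
    · rintro rfl
      exact ⟨⟨y.1.2, Y.mem_fib.2 y.2⟩, Finset.mem_attach _ _, rfl⟩
  lift_inj := by
    intro p q θ y y' h h'
    have h1 : y.1.1 = y'.1.1 := h
    refine Subtype.ext (Prod.ext h1 (Y.lift_inj θ ?_ ?_))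
    · rw [y.2, y'.2, h1]
    · exact congrArg (fun x : Y.PB f p => x.1.2) h'
  lift_surj := by
    intro p q θ b y h
    have h1 : y.1.1 = A.map θ b := h
    obtain ⟨y', h2, h3⟩ := Y.lift_surj θ (f.app b) y.1.2 (by rw [y.2, h1, f.nat])
    exact ⟨⟨(b, y'), h2⟩, rfl, Subtype.ext (Prod.ext h1.symm h3)⟩

/-- the map of total spaces -/
def pullbackMap {A : SS} (f : SS.Map A B) : SS.Map (Y.pullback f).tot Y.tot :=
  ⟨fun x => x.1.2, fun _ _ => rfl⟩

theorem sum_pullback {A : SS} (f : SS.Map A B) {p : ℕ} {M : Type*} [AddCommMonoid M]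
    (a : A.obj p) (g : Y.tot.obj p → M) :
    ∑ x ∈ (Y.pullback f).fib a, g x.1.2 = ∑ y ∈ Y.fib (f.app a), g y := by
  refine (Finset.sum_map _ (Y.pbEmb f a) fun x : Y.PB f p => g x.1.2).trans ?_
  exact Finset.sum_attach (Y.fib (f.app a)) g

/-- transfer and pull back commute -/
theorem tr_pullback {A : SS} (f : SS.Map A B) {p : ℕ} (g : (F R Y.tot).obj p) :
    ((Y.pullback f).tr (R := R)).app p ((Y.pullbackMap f).pull.app p g) =
      f.pull.app p ((Y.tr (R := R)).app p g) := by
  funext a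
  exact Y.sum_pullback f a g

end Cov

end Vale.Agent.P263.E
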