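import Vale.Agent.P263.S.Norm
import Vale.Agent.P263.E.Cov

/-!
# P263, block E: dimension and skeleta

* `SS.Dim D X`, `SS.sk D X` : dimension and skeleta of simplicial sets; the function cochains of a
  simplicial set of dimension `≤ D` have no cohomology above `D`, and restriction to the
  `D`-skeleton is bijective on `H^j` for `j < D` and injective for `j = D`.
-/

namespace Vale.Agent.P263.S

namespace CosMod

variable {R : Type} [CommRing R]

/-- A map of cosimplicial modules which is bijective in degrees `≤ D` is injective on `H^j`,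
`j ≤ D`. -/
theorem _root_.Vale.Agent.P263.S.Hom.mem_Bd_of_trunc {A B : CosMod R} (f : Hom A B) {D : ℕ}
    (hf : ∀ p, p ≤ D → Function.Bijective (f.app p)) {p : ℕ} (hp : p ≤ D) {x : A.obj p}
    (hx : f.app p x ∈ B.Bd p) : x ∈ A.Bd p := by
  cases p with
  | zero =>
    rw [mem_Bd_zero] at *
    exact (hf 0 hp).1 (by rw [hx, map_zero])
  | succ p =>
    obtain ⟨b, hb⟩ := hx
    obtain ⟨a, rfl⟩ := (hf p (by omega)).2 b
    exact ⟨a, (hf (p + 1) hp).1 (by rw [f.app_d]; exact hb)⟩

/-- A map of cosimplicial modules which is bijective in degrees `≤ D` is surjective on cocycles of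
degree `< D`. -/
theorem _root_.Vale.Agent.P263.S.Hom.exists_Z_of_trunc {A B : CosMod R} (f : Hom A B) {D : ℕ}
    (hf : ∀ p, p ≤ D → Function.Bijective (f.app p)) {p : ℕ} (hp : p < D) {y : B.obj p}
    (hy : y ∈ B.Z p) : ∃ x ∈ A.Z p, f.app p x = y := by
  obtain ⟨x, rfl⟩ := (hf p (by omega)).2 y
  refine ⟨x, (hf (p + 1) (by omega)).1 ?_, rfl⟩
  rw [f.app_d, map_zero]
  exact hy

theorem _root_.Vale.Agent.P263.S.Hom.mapH_injective_of_trunc {A B : CosMod R} (f : Hom A B)
    {D : ℕ} (hf : ∀ p, p ≤ D → Function.Bijective (f.app p)) {p : ℕ} (hp : p ≤ D) :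
    Function.Injective (f.mapH p) := by
  rw [injective_iff_map_eq_zero]
  intro x hx
  obtain ⟨x, rfl⟩ := A.cls_surjective p x
  rw [Hom.mapH_cls, cls_eq_zero_iff] at hx
  exact cls_eq_zero_iff.mpr (f.mem_Bd_of_trunc hf hp hx)

theorem _root_.Vale.Agent.P263.S.Hom.mapH_bijective_of_trunc {A B : CosMod R} (f : Hom A B)
    {D : ℕ} (hf : ∀ p, p ≤ D → Function.Bijective (f.app p)) {p : ℕ} (hp : p < D) :
    Function.Bijective (f.mapH p) := by
  refine ⟨f.mapH_injective_of_trunc hf hp.le, fun y => ?_⟩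
  obtain ⟨y, rfl⟩ := B.cls_surjective p y
  obtain ⟨x, hx, e⟩ := f.exists_Z_of_trunc hf hp y.2
  exact ⟨A.cls p ⟨x, hx⟩, by rw [Hom.mapH_cls]; exact congrArg _ (Subtype.ext e)⟩

end CosMod

/-- A monotone map to a smaller ordinal factors through a codegeneracy. -/
theorem exists_factor_sg {r q : ℕ} (h : q ≤ r) (θ : Op (r + 1) q) :
    ∃ i, i ≤ r ∧ θ = (θ.comp (dl r i)).comp (sg r i) := by
  by_contra hne
  push Not at hne
  have key : ∀ i (hi : i < r + 2), i ≤ (θ ⟨i, hi⟩).1 := by
    intro i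
    induction i with
    | zero => intro _; exact Nat.zero_le _
    | succ i ih =>
      intro hi
      have h1 := ih (by omega)
      have h2 : (θ ⟨i, by omega⟩).1 ≤ (θ ⟨i + 1, hi⟩).1 :=
        θ.monotone (show (⟨i, by omega⟩ : Fin (r + 2)) ≤ ⟨i + 1, hi⟩ from Nat.le_succ i)
      rcases Nat.lt_or_ge (θ ⟨i, by omega⟩).1 (θ ⟨i + 1, hi⟩).1 with h3 | h3
      · omega
      · exfalso
        apply hne i (by omega)
        apply OrderHom.ext
        funext x
        show θ x = θ (dl r i (sg r i x))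
        have hx := x.2
        rcases Nat.lt_trichotomy x.1 i with h4 | h4 | h4
        · congr 1
          apply Fin.ext
          rw [dl_val, sg_val]
          split_ifs <;> omega
        · have e1 : x = ⟨i, by omega⟩ := Fin.ext h4
          have e2 : dl r i (sg r i x) = ⟨i + 1, hi⟩ := by
            apply Fin.ext
            show _ = i + 1
            rw [dl_val, sg_val]
            split_ifs <;> omega
          rw [e2, e1]
          exact Fin.ext (Nat.le_antisymm h2 h3)
        · congr 1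
          apply Fin.ext
          rw [dl_val, sg_val]
          split_ifs <;> omega
  have h1 := key (r + 1) (by omega)
  have h2 := (θ ⟨r + 1, by omega⟩).2
  omega

end Vale.Agent.P263.S

namespace Vale.Agent.P263.E

open Vale.Agent.P263.S

namespace SS

variable {R : Type} [CommRing R]

/-- Every simplex of degree `> D` comes from a simplex of degree `≤ D`. -/
def Dim (D : ℕ) (X : SS) : Prop :=
  ∀ p, D < p → ∀ x : X.obj p, ∃ q, q ≤ D ∧ ∃ (f : Op p q) (y : X.obj q), X.map f y = x

theorem Dim.exists_sg {D : ℕ} {X : SS} (h : Dim D X) {p : ℕ} (hp : D ≤ p) (x : X.obj (p + 1)) :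
    ∃ i, i ≤ p ∧ ∃ z : X.obj p, X.map (sg p i) z = x := by
  obtain ⟨q, hq, f, y, rfl⟩ := h (p + 1) (by omega) x
  obtain ⟨i, hi, e⟩ := exists_factor_sg (show q ≤ p by omega) f
  refine ⟨i, hi, X.map (f.comp (dl p i)) y, ?_⟩
  rw [← X.map_comp, ← e]

/-- The cohomology of a module of functions on a simplicial set of dimension `≤ D` vanishes above
`D`. -/
theorem Dim.Z_le_Bd {D : ℕ} {X : SS} (h : Dim D X) {A : CosMod R} (j : Hom A (F R X))
    (hj : ∀ p, Function.Injective (j.app p)) {n : ℕ} (hn : D < n) : A.Z n ≤ A.Bd n := by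
  obtain ⟨p, rfl⟩ : ∃ p, n = p + 1 := ⟨n - 1, by omega⟩
  refine A.Z_le_Bd_of_norm fun c hc => ?_
  apply hj (p + 1)
  rw [map_zero]
  funext x
  obtain ⟨i, hi, z, rfl⟩ := h.exists_sg (show D ≤ p by omega) x
  have h1 := congrArg (j.app p) (hc i hi)
  rw [j.nat, map_zero] at h1
  exact congrFun h1 z

theorem Dim.H_eq_zero {D : ℕ} {X : SS} (h : Dim D X) {A : CosMod R} (j : Hom A (F R X))
    (hj : ∀ p, Function.Injective (j.app p)) {n : ℕ} (hn : D < n) (x : A.H n) : x = 0 := by
  obtain ⟨x, rfl⟩ := A.cls_surjective n x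
  exact CosMod.cls_eq_zero_iff.mpr (h.Z_le_Bd j hj hn x.2)

/-- the `D`-skeleton -/
def sk (D : ℕ) (X : SS) : SS where
  obj p := {x : X.obj p // ∃ q, q ≤ D ∧ ∃ (f : Op p q) (y : X.obj q), X.map f y = x}
  map g x := ⟨X.map g x.1, by
    obtain ⟨q, hq, f, y, e⟩ := x.2
    exact ⟨q, hq, f.comp g, y, by rw [X.map_comp, e]⟩⟩
  map_id x := Subtype.ext (X.map_id x.1)
  map_comp f g x := Subtype.ext (X.map_comp f g x.1)

/-- the inclusion of the skeleton -/
def skIncl (D : ℕ) (X : SS) : Map (sk D X) X := ⟨fun x => x.1, fun _ _ => rfl⟩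

theorem skIncl_inj (D : ℕ) (X : SS) : (skIncl D X).Inj := fun _ _ _ h => Subtype.ext h

theorem skIncl_surj {D : ℕ} {X : SS} {p : ℕ} (hp : p ≤ D) (x : X.obj p) :
    ∃ y, (skIncl D X).app y = x :=
  ⟨⟨x, p, hp, OrderHom.id, x, X.map_id x⟩, rfl⟩

theorem dim_sk (D : ℕ) (X : SS) : Dim D (sk D X) := by
  intro p _ x
  obtain ⟨q, hq, f, y, e⟩ := x.2
  obtain ⟨y', rfl⟩ := skIncl_surj hq y
  exact ⟨q, hq, f, y', Subtype.ext e⟩

theorem skIncl_pull_bijective (D : ℕ) (X : SS) {p : ℕ} (hp : p ≤ D) :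
    Function.Bijective (((skIncl D X).pull (R := R)).app p) := by
  refine ⟨fun a b h => ?_, (skIncl_inj D X).pull_surjective p⟩
  funext x
  obtain ⟨y, rfl⟩ := skIncl_surj hp x
  exact congrFun h y

/-- Restriction to the `D`-skeleton is bijective on `H^j`, `j < D`. -/
theorem skIncl_mapH_bijective (D : ℕ) (X : SS) {p : ℕ} (hp : p < D) :
    Function.Bijective (((skIncl D X).pull (R := R)).mapH p) :=
  Hom.mapH_bijective_of_trunc _ (fun _ h => skIncl_pull_bijective D X h) hp

/-- Restriction to the `D`-skeleton is injective on `H^j`, `j ≤ D`. -/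
theorem skIncl_mapH_injective (D : ℕ) (X : SS) {p : ℕ} (hp : p ≤ D) :
    Function.Injective (((skIncl D X).pull (R := R)).mapH p) :=
  Hom.mapH_injective_of_trunc _ (fun _ h => skIncl_pull_bijective D X h) hp

/-- The total space of a covering of a simplicial set of dimension `≤ D` has dimension `≤ D`
(in particular all fibre powers, `nc T`, `ksub n`). -/
theorem Dim.cov {D : ℕ} {B : SS} (h : Dim D B) (Y : Cov B) : Dim D Y.tot := by
  intro p hp y
  obtain ⟨q, hq, f, b, e⟩ := h p hp (Y.pr.app y)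
  obtain ⟨y', -, h2⟩ := Y.lift_surj f b y e.symm
  exact ⟨q, hq, f, y', h2⟩

/-- Restriction of the total space of a covering to the skeleton of the base: bijective on simplices
of degree `≤ D`. -/
theorem pullbackMap_skIncl_bijective {D : ℕ} {B : SS} (Y : Cov B) {p : ℕ} (hp : p ≤ D) :
    Function.Bijective ((Y.pullbackMap (skIncl D B)).app (p := p)) := by
  constructor
  · rintro ⟨⟨a, y⟩, h⟩ ⟨⟨a', y'⟩, h'⟩ e
    have e1 : y = y' := e
    subst e1
    have e2 : a = a' := skIncl_inj D B p (h.symm.trans h')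
    subst e2
    rfl
  · intro y
    obtain ⟨a, ha⟩ := skIncl_surj hp (Y.pr.app y)
    exact ⟨⟨(a, y), ha.symm⟩, rfl⟩

theorem pullbackMap_skIncl_pull_bijective {D : ℕ} {B : SS} (Y : Cov B) {p : ℕ} (hp : p ≤ D) :
    Function.Bijective (((Y.pullbackMap (skIncl D B)).pull (R := R)).app p) := by
  have hb := pullbackMap_skIncl_bijective Y hp
  constructor
  · intro a b h
    funext y
    obtain ⟨x, rfl⟩ := hb.2 y
    exact congrFun h x
  · intro c
    choose g hg using hb.2
    refine ⟨fun y => c (g y), ?_⟩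
    funext x
    exact congrArg c (hb.1 (hg _))

/-- Restriction of the total space of a covering to the skeleton of the base: bijective on `H^j`,
`j < D`. -/
theorem pullbackMap_skIncl_mapH_bijective {D : ℕ} {B : SS} (Y : Cov B) {p : ℕ} (hp : p < D) :
    Function.Bijective (((Y.pullbackMap (skIncl D B)).pull (R := R)).mapH p) :=
  Hom.mapH_bijective_of_trunc _ (fun _ h => pullbackMap_skIncl_pull_bijective Y h) hp

/-- If `b : B → Z` is an isomorphism on `H^j`, `j < D`, so is its restriction to the skeleton. -/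
theorem mapH_comp_skIncl_bijective {D : ℕ} {B Z : SS} (b : Map B Z) {p : ℕ} (hp : p < D)
    (hb : Function.Bijective ((b.pull (R := R)).mapH p)) :
    Function.Bijective (((b.comp (skIncl D B)).pull (R := R)).mapH p) := by
  have e : ∀ x, ((b.comp (skIncl D B)).pull (R := R)).mapH p x =
      ((skIncl D B).pull (R := R)).mapH p ((b.pull (R := R)).mapH p x) := by
    intro x
    rw [Map.pull_comp, Hom.mapH_comp]
  have e' : ⇑(((b.comp (skIncl D B)).pull (R := R)).mapH p) =
      ((skIncl D B).pull (R := R)).mapH p ∘ (b.pull (R := R)).mapH p := funext e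
  rw [e']
  exact (skIncl_mapH_bijective D B hp).comp hb

theorem mapH_comp_skIncl_injective {D : ℕ} {B Z : SS} (b : Map B Z) {p : ℕ} (hp : p ≤ D)
    (hb : Function.Injective ((b.pull (R := R)).mapH p)) :
    Function.Injective (((b.comp (skIncl D B)).pull (R := R)).mapH p) := by
  have e' : ⇑(((b.comp (skIncl D B)).pull (R := R)).mapH p) =
      ((skIncl D B).pull (R := R)).mapH p ∘ (b.pull (R := R)).mapH p :=
    funext fun x => by rw [Map.pull_comp, Hom.mapH_comp]; rfl
  rw [e']
  exact (skIncl_mapH_injective D B hp).comp hb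

end SS

end Vale.Agent.P263.E
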