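import Vale.Agent.P263.E.NilV
import Vale.Agent.P263.E.Skel
import Vale.Agent.P263.E.SeqAct
import Vale.Agent.P263.S.Gys

/-!
# P263, block E3: nilpotency on the functions on nonconstant tuples (helper307)

`Y : Cov B` with `Dim D B`.
* `Y.nilC2` : `u^(D+1) = 0` on `H (hG (F (nc C2)))`;
* `Y.nilV`, `Y.nilV_uvw` : for `V = C2 × C2` acting on `nc V`, the product of the `(D+1)`-st powers
  of the three operators `uH ε` (`ε ≠ 1`) is zero on `H (hG (F (nc V)))`, in every order.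
-/

namespace Vale.Agent.P263.E

open Vale.Agent.P263.S SS

section char

variable {G : Type} [Group G]

/-- the additive function of a character -/
def chl (ε : G →* C2) (g : G) : ZMod 2 := Multiplicative.toAdd (ε g)

theorem chl_mul (ε : G →* C2) (g h : G) : chl ε (g * h) = chl ε g + chl ε h := by
  rw [chl, _root_.map_mul]
  rfl

theorem chl_eq_zero (ε : G →* C2) {g : G} (h : ε g = 1) : chl ε g = 0 := by
  rw [chl, h]
  rfl

theorem chl_key (x y : C2) : Multiplicative.toAdd y - Multiplicative.toAdd x =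
    if x = y then (0 : ZMod 2) else 1 := by
  revert x y
  decide

theorem uc_eq_mulc (ε : G →* C2) {B : CosMod (ZMod 2)} (a : Act G B) (p : ℕ)
    (f : (hG a).obj p) : uc ε a p f = mulc a (kl (chl ε)) (kl_inv (chl_mul ε)) p f := by
  refine hG.ext fun s => ?_
  rw [uc_fn, mulc_fn, kl, chl, chl, chl_key]
  split_ifs
  · rw [zero_smul]
  · rw [one_smul]

theorem uH_eq_opH (ε : G →* C2) {T : SS} (a : Act G (F (ZMod 2) T)) (p : ℕ) (z : (hG a).H p) :
    uH ε a p z = opH (mulc a (kl (chl ε)) (kl_inv (chl_mul ε))) (d_mulc a (chl_mul ε)) p z := by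
  obtain ⟨z, rfl⟩ := (hG a).cls_surjective p z
  rw [uH_cls, opH_cls]
  congr 1
  exact Subtype.ext (uc_eq_mulc ε a p z.1)

theorem upow_eq_iterH (ε : G →* C2) {T : SS} (a : Act G (F (ZMod 2) T)) (n p : ℕ)
    (z : (hG a).H p) : (guHG ε a).upow n p z =
      iterH (opH (mulc a (kl (chl ε)) (kl_inv (chl_mul ε))) (d_mulc a (chl_mul ε))) p n z := by
  induction n with
  | zero => rfl
  | succ n ih =>
    rw [iterH_succ, ← ih]
    exact uH_eq_opH ε a (p + n) _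

end char

theorem v4_aux : ∀ g1 g2 g3 g : ZMod 2 × ZMod 2, g1.1 ≠ 0 → g2.2 ≠ 0 → g3.1 + g3.2 ≠ 0 →
    g = 0 ∨ g = g1 ∨ g = g2 ∨ g = g3 ∨ g = g1 + g2 ∨ g = g1 + g3 ∨ g = g2 + g3 := by decide

theorem v4_key (g1 g2 g3 g : C2 × C2) (h1 : MonoidHom.fst C2 C2 g1 ≠ 1)
    (h2 : MonoidHom.snd C2 C2 g2 ≠ 1)
    (h3 : (MonoidHom.fst C2 C2 * MonoidHom.snd C2 C2) g3 ≠ 1) :
    g = 1 ∨ g = g1 ∨ g = g2 ∨ g = g3 ∨ g = g1 * g2 ∨ g = g1 * g3 ∨ g = g2 * g3 :=
  v4_aux g1 g2 g3 g h1 h2 h3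

theorem SS.Dim.dimLE {D : ℕ} {X : SS} (h : SS.Dim D X) : X.DimLE D := fun y => by
  obtain ⟨i, hi, z, hz⟩ := h.exists_sg le_rfl y
  exact ⟨i, hi, z, hz⟩

namespace Cov

variable {B : SS} (Y : Cov B)

section

variable (G : Type) [Group G] (T : Type) [Fintype T] [DecidableEq T] [MulAction G T]

/-- the maps of the action on the nonconstant tuples -/
def rnc (g : G) : SS.Map (Y.nc T).tot (Y.nc T).tot :=
  Y.ncReindex (MulAction.toPerm g : Equiv.Perm T)

theorem rnc_val (g : G) {p : ℕ} (x : (Y.nc T).tot.obj p) (t : T) :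
    ((Y.rnc G T g).app x).1.val t = x.1.val (g • t) := rfl

theorem rnc_one {p : ℕ} (x : (Y.nc T).tot.obj p) : (Y.rnc G T 1).app x = x :=
  Y.nc_ext rfl fun t => congrArg x.1.val (one_smul G t)

theorem rnc_mul (g h : G) {p : ℕ} (x : (Y.nc T).tot.obj p) :
    (Y.rnc G T (g * h)).app x = (Y.rnc G T h).app ((Y.rnc G T g).app x) :=
  Y.nc_ext rfl fun t => congrArg x.1.val (mul_smul g h t)

theorem rnc_eq {g : G} {p : ℕ} {x : (Y.nc T).tot.obj p} (h : (Y.rnc G T g).app x = x) (t : T) :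
    x.1.val (g • t) = x.1.val t := by
  have := congrArg (fun y : (Y.nc T).tot.obj p => y.1.val t) h
  exact this

theorem rnc_st (g : G) {p q : ℕ} (θ : Op p q) (x : (Y.nc T).tot.obj q)
    (h : (Y.rnc G T g).app ((Y.nc T).tot.map θ x) = (Y.nc T).tot.map θ x) :
    (Y.rnc G T g).app x = x := by
  refine Y.nc_ext rfl fun t => Y.lift_inj θ ?_ (Y.rnc_eq G T h t)
  rw [rnc_val, x.1.prop, x.1.prop]

end

/-- `u^(D+1) = 0` on `H (hG (F (nc C2)))` -/
theorem nilC2 {D : ℕ} (hD : SS.Dim D B) (n : ℕ) (x : (hG (Y.actNC (ZMod 2) C2 C2)).H n) :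
    (guHG idC (Y.actNC (ZMod 2) C2 C2)).upow (D + 1) n x = 0 := by
  obtain ⟨c, hc⟩ := exists_vertex (T := (Y.nc C2).tot) (ρ := Y.rnc C2 C2)
    (fun x => Y.rnc_one C2 C2 x) (fun g h p x => Y.rnc_mul C2 C2 g h x) (chl_mul idC)
    (fun x g hx => by
      rcases C2_cases g with rfl | rfl
      · exact chl_eq_zero idC rfl
      · exfalso
        obtain ⟨s, t, hst⟩ := x.2
        refine hst ?_
        have key : ∀ s : C2, x.1.val s = x.1.val 1 := by
          intro s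
          rcases C2_cases s with rfl | rfl
          · rfl
          · exact Y.rnc_eq C2 C2 hx 1
        rw [key s, key t])
  rw [upow_eq_iterH]
  exact iterH_mulc_nil (Y.actNC (ZMod 2) C2 C2) (ρ := Y.rnc C2 C2) (fun _ _ _ _ => rfl)
    (chl_mul idC) hc (hD.cov (Y.nc C2)).dimLE n x

/-- `e3^(D+1) e2^(D+1) e1^(D+1) = 0` on `H (hG (F (nc V)))`, if no proper subgroup of `V` meets the
complements of the three kernels -/
theorem nilV {V : Type} [Group V] [Fintype V] [DecidableEq V] (e1 e2 e3 : V →* C2)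
    (he : ∀ g1 g2 g3 g : V, e1 g1 ≠ 1 → e2 g2 ≠ 1 → e3 g3 ≠ 1 →
      g = 1 ∨ g = g1 ∨ g = g2 ∨ g = g3 ∨ g = g1 * g2 ∨ g = g1 * g3 ∨ g = g2 * g3)
    {D : ℕ} (hD : SS.Dim D B) (n : ℕ) (x : (hG (Y.actNC (ZMod 2) V V)).H n) :
    (guHG e3 (Y.actNC (ZMod 2) V V)).upow (D + 1) (n + (D + 1) + (D + 1))
      ((guHG e2 (Y.actNC (ZMod 2) V V)).upow (D + 1) (n + (D + 1))
        ((guHG e1 (Y.actNC (ZMod 2) V V)).upow (D + 1) n x)) = 0 := by
  rw [upow_eq_iterH, upow_eq_iterH, upow_eq_iterH]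
  refine nil3 (ρ := Y.rnc V V) (fun x => Y.rnc_one V V x) (fun g h p x => Y.rnc_mul V V g h x)
    (fun g p q θ x h => Y.rnc_st V V g θ x h) (Y.actNC (ZMod 2) V V) (fun _ _ _ _ => rfl)
    (chl_mul e1) (chl_mul e2) (chl_mul e3) (fun x => ?_) (hD.cov (Y.nc V)).dimLE n x
  by_contra hcon
  rw [not_or, not_or] at hcon
  obtain ⟨h1, h2, h3⟩ := hcon
  have key : ∀ e : V →* C2, ¬ Kill (Y.rnc V V) (chl e) x →
      ∃ g, (Y.rnc V V g).app x = x ∧ e g ≠ 1 := by
    intro e h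
    rw [Kill] at h
    push Not at h
    obtain ⟨g, hg, hg'⟩ := h
    exact ⟨g, hg, fun h => hg' (chl_eq_zero e h)⟩
  obtain ⟨g1, k1, l1⟩ := key e1 h1
  obtain ⟨g2, k2, l2⟩ := key e2 h2
  obtain ⟨g3, k3, l3⟩ := key e3 h3
  have hmul : ∀ g h : V, (Y.rnc V V g).app x = x → (Y.rnc V V h).app x = x →
      (Y.rnc V V (g * h)).app x = x := fun g h hg hh => by
    rw [Y.rnc_mul V V, hg, hh]
  have hall : ∀ g : V, (Y.rnc V V g).app x = x := by
    intro g
    rcases he g1 g2 g3 g l1 l2 l3 with rfl | rfl | rfl | rfl | rfl | rfl | rfl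
    · exact Y.rnc_one V V x
    · exact k1
    · exact k2
    · exact k3
    · exact hmul _ _ k1 k2
    · exact hmul _ _ k1 k3
    · exact hmul _ _ k2 k3
  obtain ⟨s, t, hst⟩ := x.2
  refine hst ?_
  have hv : ∀ s : V, x.1.val s = x.1.val 1 := fun s => by
    have := Y.rnc_eq V V (hall s) 1
    rwa [smul_eq_mul, mul_one] at this
  rw [hv s, hv t]

/-- the three characters of `V = C2 × C2`: first `u`, then `v`, then `u + v` -/
theorem nilV_uvw {D : ℕ} (hD : SS.Dim D B) (n : ℕ)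
    (x : (hG (Y.actNC (ZMod 2) (C2 × C2) (C2 × C2))).H n) :
    (guHG (MonoidHom.fst C2 C2 * MonoidHom.snd C2 C2)
        (Y.actNC (ZMod 2) (C2 × C2) (C2 × C2))).upow (D + 1) (n + (D + 1) + (D + 1))
      ((guHG (MonoidHom.snd C2 C2) (Y.actNC (ZMod 2) (C2 × C2) (C2 × C2))).upow (D + 1)
        (n + (D + 1))
        ((guHG (MonoidHom.fst C2 C2) (Y.actNC (ZMod 2) (C2 × C2) (C2 × C2))).upow (D + 1) n x)) =
      0 :=
  Y.nilV _ _ _ v4_key hD n x

/-- first `u + v`, then `v`, then `u` -/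
theorem nilV_wvu {D : ℕ} (hD : SS.Dim D B) (n : ℕ)
    (x : (hG (Y.actNC (ZMod 2) (C2 × C2) (C2 × C2))).H n) :
    (guHG (MonoidHom.fst C2 C2) (Y.actNC (ZMod 2) (C2 × C2) (C2 × C2))).upow (D + 1)
        (n + (D + 1) + (D + 1))
      ((guHG (MonoidHom.snd C2 C2) (Y.actNC (ZMod 2) (C2 × C2) (C2 × C2))).upow (D + 1)
        (n + (D + 1))
        ((guHG (MonoidHom.fst C2 C2 * MonoidHom.snd C2 C2)
          (Y.actNC (ZMod 2) (C2 × C2) (C2 × C2))).upow (D + 1) n x)) =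
      0 :=
  Y.nilV _ _ _ (fun g1 g2 g3 g h1 h2 h3 => by
    rcases v4_key g3 g2 g1 g h3 h2 h1 with h | h | h | h | h | h | h
    · exact Or.inl h
    · exact Or.inr (Or.inr (Or.inr (Or.inl h)))
    · exact Or.inr (Or.inr (Or.inl h))
    · exact Or.inr (Or.inl h)
    · exact Or.inr (Or.inr (Or.inr (Or.inr (Or.inr (Or.inr (by rw [h, mul_comm]))))))
    · exact Or.inr (Or.inr (Or.inr (Or.inr (Or.inr (Or.inl (by rw [h, mul_comm]))))))
    · exact Or.inr (Or.inr (Or.inr (Or.inr (Or.inl (by rw [h, mul_comm]))))))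
    hD n x

end Cov

end Vale.Agent.P263.E
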