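import Vale.Agent.P263.E.BM
import Vale.Agent.P263.E.SqInst
import Vale.Agent.P263.E.NilInst

/-!
# P263, block E5 (helper561): the Bullett-Macdonald relations for the cofibre of a covering

`Y.cext` : extension by zero of functions on pairs to functions on `C2 × C2`-tuples which are
constant in the second coordinate; `D.jV : Hom (D.KT C2) (D.KT (C2 × C2))`;
`D.bmIn R nil : BMIn`; `D.bm_st` : the Bullett-Macdonald relations for `(D.pw R nil).st`.
-/

noncomputable section

namespace Vale.Agent.P263.E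

open Vale.Agent.P263.S SS

variable {R : Type} [CommRing R] {B : SS}

namespace Cov

variable (Y : Cov B)

/-- the tuple is constant in the second coordinate -/
def CC {p : ℕ} (y : (Y.pow (C2 × C2)).tot.obj p) : Prop := ∀ s, y.val (s, 1) = y.val (s, tau)

theorem cc_map {p q : ℕ} (θ : Op p q) (y : (Y.pow (C2 × C2)).tot.obj q) :
    Y.CC ((Y.pow (C2 × C2)).tot.map θ y) ↔ Y.CC y := by
  constructor
  · intro h s
    refine Y.lift_inj θ ?_ (h s)
    rw [y.prop, y.prop]
  · intro h s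
    rw [pow_map_val, pow_map_val, h s]

/-- the first slice in the second coordinate -/
abbrev frs : SS.Map (Y.pow (C2 × C2)).tot (Y.pow C2).tot := Y.reindex fun s : C2 => (s, (1 : C2))

/-- doubling in the second coordinate -/
abbrev dup : SS.Map (Y.pow C2).tot (Y.pow (C2 × C2)).tot := Y.reindex fun t : C2 × C2 => t.1

theorem cc_dup {p : ℕ} (x : (Y.pow C2).tot.obj p) : Y.CC (Y.dup.app x) := fun _ => rfl

theorem dup_frs {p : ℕ} {y : (Y.pow (C2 × C2)).tot.obj p} (h : Y.CC y) :
    Y.dup.app (Y.frs.app y) = y := by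
  refine Tup.ext rfl (funext fun t => ?_)
  show y.val (t.1, 1) = y.val t
  rcases t with ⟨s, t⟩
  rcases C2_cases t with rfl | rfl
  · rfl
  · exact h s

theorem cc_val {p : ℕ} {y : (Y.pow (C2 × C2)).tot.obj p} (h : Y.CC y) (s t : C2) :
    y.val (s, t) = y.val (s, 1) := by
  rcases C2_cases t with rfl | rfl
  · rfl
  · exact (h s).symm

open Classical in
/-- extension by zero from the tuples which are constant in the second coordinate -/
def cext : Hom (F R (Y.pow C2).tot) (F R (Y.pow (C2 × C2)).tot) where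
  app p :=
    { toFun := fun g y => if Y.CC y then g (Y.frs.app y) else 0
      map_add' := fun f g => by
        funext y
        show (if Y.CC y then (f (Y.frs.app y) + g (Y.frs.app y) : R) else 0) =
          (if Y.CC y then f (Y.frs.app y) else 0) + (if Y.CC y then g (Y.frs.app y) else 0)
        split_ifs <;> simp
      map_smul' := fun a f => by
        funext y
        show (if Y.CC y then (a * f (Y.frs.app y) : R) else 0) =
          a * (if Y.CC y then f (Y.frs.app y) else 0)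
        split_ifs <;> simp }
  nat := by
    intro p q θ g
    funext y
    show (if Y.CC y then g ((Y.pow C2).tot.map θ (Y.frs.app y)) else 0) =
      if Y.CC ((Y.pow (C2 × C2)).tot.map θ y) then g (Y.frs.app ((Y.pow (C2 × C2)).tot.map θ y))
      else 0
    by_cases h : Y.CC y
    · rw [if_pos h, if_pos ((Y.cc_map θ y).2 h)]
      rfl
    · rw [if_neg h, if_neg (fun h' => h ((Y.cc_map θ y).1 h'))]

theorem cext_pos {p : ℕ} (g : (F R (Y.pow C2).tot).obj p) {y : (Y.pow (C2 × C2)).tot.obj p}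
    (h : Y.CC y) : Y.cext.app p g y = g (Y.frs.app y) := if_pos h

theorem cext_neg {p : ℕ} (g : (F R (Y.pow C2).tot).obj p) {y : (Y.pow (C2 × C2)).tot.obj p}
    (h : ¬ Y.CC y) : Y.cext.app p g y = 0 := if_neg h

theorem diag_cext {p : ℕ} (g : (F R (Y.pow C2).tot).obj p) :
    (Y.diag (C2 × C2)).pull.app p (Y.cext.app p g) = (Y.diag C2).pull.app p g := by
  funext y
  exact Y.cext_pos g (y := (Y.diag (C2 × C2)).app y) fun _ => rfl

theorem tr_cext {p : ℕ} (g : (F R (Y.pow C2).tot).obj p) :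
    (Y.pow (C2 × C2)).tr.app p (Y.cext.app p g) = (Y.pow C2).tr.app p g := by
  classical
  funext b
  show ∑ y ∈ (Y.pow (C2 × C2)).fib b, Y.cext.app p g y = ∑ x ∈ (Y.pow C2).fib b, g x
  symm
  refine Finset.sum_of_injOn (fun x => Y.dup.app x) ?_ ?_ ?_ ?_
  · intro x _ x' _ h
    have h2 := congrArg (fun y => Y.frs.app y) h
    exact h2
  · intro x hx
    rw [Finset.mem_coe, mem_fib] at hx ⊢
    exact hx
  · intro y hy hy'
    by_cases h : Y.CC y
    · exfalso
      refine hy' ⟨Y.frs.app y, ?_, Y.dup_frs h⟩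
      rw [Finset.mem_coe, mem_fib]
      rw [mem_fib] at hy
      exact hy
    · exact Y.cext_neg g h
  · intro x _
    exact (Y.cext_pos g (Y.cc_dup x)).symm

end Cov

namespace Dat

variable {Y : Cov B} (D : Dat R Y)

/-- `KT C2 → KT (C2 × C2)`, extension by zero from the tuples constant in the second coordinate -/
def jV : Hom (D.KT C2) (D.KT (C2 × C2)) where
  app p :=
    { toFun := fun x => D.mkT (D.zc x) (D.wc x) (Y.cext.app p (D.gc x))
        ((Y.diag_cext _).trans (D.gc_diag x)) ((D.tr_gc x).trans (Y.tr_cext _).symm)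
      map_add' := fun x y => D.extT rfl rfl (map_add (Y.cext.app p) (D.gc x) (D.gc y))
      map_smul' := fun a x => D.extT rfl rfl (map_smul (Y.cext.app p) a (D.gc x)) }
  nat φ x := D.extT rfl rfl (Y.cext.nat φ (D.gc x))

@[simp] theorem zc_jV {p : ℕ} (x : (D.KT C2).obj p) : D.zc (D.jV.app p x) = D.zc x := rfl

@[simp] theorem wc_jV {p : ℕ} (x : (D.KT C2).obj p) : D.wc (D.jV.app p x) = D.wc x := rfl

@[simp] theorem gc_jV {p : ℕ} (x : (D.KT C2).obj p) :
    D.gc (D.jV.app p x) = Y.cext.app p (D.gc x) := rfl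

theorem jV_v (p : ℕ) (g : C2) (x : (D.KT C2).obj p) :
    (D.actR C2 C2 C2).act p g (D.jV.app p x) = D.jV.app p x := by
  refine D.extT rfl rfl ?_
  funext y
  show Y.cext.app p (D.gc x) ((Y.reindex _).app y) = Y.cext.app p (D.gc x) y
  have hy : ∀ s t : C2, ((Y.reindex ((Equiv.refl C2).prodCongr
      (MulAction.toPerm g : Equiv.Perm C2))).app y).val (s, t) = y.val (s, g * t) := fun _ _ => rfl
  by_cases h : Y.CC y
  · rw [Y.cext_pos _ h, Y.cext_pos]
    · refine congrArg (D.gc x) (Cov.Tup.ext rfl (funext fun s => ?_))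
      exact Y.cc_val h s (g * 1)
    · intro s
      rw [hy, hy, Y.cc_val h, Y.cc_val h s (g * tau)]
  · rw [Y.cext_neg _ h, Y.cext_neg]
    intro h'
    refine h fun s => ?_
    rcases C2_cases g with rfl | rfl
    · exact h' s
    · exact (h' s).symm

theorem jV_u (p : ℕ) (g : C2) (x : (D.KT C2).obj p) :
    D.jV.app p ((D.actT C2 C2).act p g x) = (D.actL C2).act p g (D.jV.app p x) := by
  refine D.extT rfl rfl ?_
  funext y
  show Y.cext.app p (D.gc ((D.actT C2 C2).act p g x)) y =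
    Y.cext.app p (D.gc x) ((Y.reindex _).app y)
  by_cases h : Y.CC y
  · rw [Y.cext_pos _ h, Y.cext_pos]
    · rfl
    · intro s
      exact h (g * s)
  · rw [Y.cext_neg _ h, Y.cext_neg]
    intro h'
    refine h fun s => ?_
    have := h' (g⁻¹ * s)
    have e : ∀ t : C2, ((Y.reindex ((Equiv.mulLeft g).prodCongr (Equiv.refl C2))).app y).val
        (g⁻¹ * s, t) = y.val (g * (g⁻¹ * s), t) := fun _ => rfl
    rw [e, e, mul_inv_cancel_left] at this
    exact this

theorem jV_iT {p : ℕ} (x : D.K.obj p) :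
    D.jV.app p ((D.iT C2).app p x) = (D.iT (C2 × C2)).app p x := by
  refine D.extT rfl rfl ?_
  rw [gc_jV, gc_iT, gc_iT]
  apply Y.pow_ext (C2 × C2)
  · rw [Y.diag_cext, Y.diag_dext, Y.diag_dext]
  · rw [Y.ncIncl_dext]
    funext y
    show Y.cext.app p _ y.1 = 0
    by_cases h : Y.CC y.1
    · rw [Y.cext_pos _ h]
      refine Y.dext_of_nc C2 _ ?_
      obtain ⟨s, t, hst⟩ := y.2
      refine ⟨s.1, t.1, fun e => hst ?_⟩
      have e1 : y.1.val s = y.1.val (s.1, 1) := Y.cc_val h s.1 s.2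
      have e2 : y.1.val t = y.1.val (t.1, 1) := Y.cc_val h t.1 t.2
      rw [e1, e2]
      exact e
    · exact Y.cext_neg _ h

theorem jV_mul {p : ℕ} (x y : D.K.obj p) : D.jV.app p (D.mul0.app p x y) =
    (D.mulT C2).app p ((D.iT C2).app p x) ((D.iT C2).app p y) := by
  refine D.extT rfl rfl ?_
  rw [gc_jV, gc_mul0, gc_mulT, gc_iT, gc_iT]
  funext t
  rw [Y.crossT_app]
  have key : ∀ s : C2, ¬ Y.NC ((Y.slice s).app t) → t.val (s, 1) = t.val (s, tau) := by
    intro s h
    by_contra h'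
    exact h ⟨1, tau, h'⟩
  by_cases h : Y.CC t
  · have e : ∀ s : C2, (Y.slice s).app t = (Y.diag C2).app (t.val (s, 1)) := fun s =>
      Cov.Tup.ext (t.prop _).symm (funext fun t' => Y.cc_val h s t')
    rw [Y.cext_pos _ h, e, e, Y.dext_diag, Y.dext_diag]
    rfl
  · rw [Y.cext_neg _ h]
    have h2 : Y.NC ((Y.slice 1).app t) ∨ Y.NC ((Y.slice tau).app t) := by
      by_contra hn
      rw [not_or] at hn
      refine h fun s => ?_
      rcases C2_cases s with rfl | rfl
      · exact key 1 hn.1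
      · exact key tau hn.2
    rcases h2 with h2 | h2
    · rw [Y.dext_of_nc C2 _ h2, zero_mul]
    · rw [Y.dext_of_nc C2 _ h2, mul_zero]

/-- the two actions commute -/
theorem actL_actR : Act.Comm (D.actL C2) (D.actR C2 C2 C2) := fun _ _ _ _ => rfl

theorem actLR_V (p : ℕ) (g : C2 × C2) (x : (D.KT (C2 × C2)).obj p) :
    ((D.actL C2).prod (D.actR C2 C2 C2) D.actL_actR).act p g x =
      (D.actT (C2 × C2) (C2 × C2)).act p g x := rfl

theorem iT_u (p : ℕ) (g : C2) (x : D.K.obj p) :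
    (D.actL C2).act p g ((D.iT (C2 × C2)).app p x) = (D.iT (C2 × C2)).app p x :=
  D.rei_iT _ x

theorem iT_v (p : ℕ) (g : C2) (x : D.K.obj p) :
    (D.actR C2 C2 C2).act p g ((D.iT (C2 × C2)).app p x) = (D.iT (C2 × C2)).app p x :=
  D.rei_iT _ x

theorem pT_V (p : ℕ) (g : C2 × C2) (x : (D.KT (C2 × C2)).obj p) :
    (D.pT (C2 × C2)).app p (((D.actL C2).prod (D.actR C2 C2 C2) D.actL_actR).act p g x) =
      (Y.actNC R (C2 × C2) (C2 × C2)).act p g ((D.pT (C2 × C2)).app p x) := by
  rw [actLR_V]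
  exact D.pT_equiv (C2 × C2) (C2 × C2) p g x

end Dat

namespace Dat

variable {Y : Cov B} (D : Dat (ZMod 2) Y)

/-- **The input of the Bullett-Macdonald relations for the cofibre of a covering.** -/
def bmIn (R : ℕ) (nil : ∀ n (x : (guHG idC (Y.actNC (ZMod 2) C2 C2)).H n),
    (guHG idC (Y.actNC (ZMod 2) C2 C2)).upow R n x = 0) : BMIn where
  toPowIn := D.pw R nil
  KV := D.KT (C2 × C2)
  WV := F (ZMod 2) (Y.nc (C2 × C2)).tot
  SV := D.s2 (C2 × C2)
  cu := D.actL C2
  cv := D.actR C2 C2 C2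
  cuv := D.actL_actR
  wV := Y.actNC (ZMod 2) (C2 × C2) (C2 × C2)
  iu := D.iT_u
  iv := D.iT_v
  hpV := D.pT_V
  ν := D.mulT C2
  hν := D.mulT_equiv C2 C2
  sν := D.sym_mulT C2
  σ := D.rei (Equiv.prodComm C2 C2)
  σσ _ _ := rfl
  σu _ _ _ := rfl
  σv _ _ _ := rfl
  σi p x := D.rei_iT _ x
  mid p x y z w := D.interchange x y z w
  jV := D.jV
  jv := D.jV_v
  ju := D.jV_u
  ji p x := D.jV_iT x
  jmul p x y := D.jV_mul x y

/-- The second level over `(D.pw R nil).st`. -/
def setup2 (R : ℕ) (nil : ∀ n (x : (guHG idC (Y.actNC (ZMod 2) C2 C2)).H n),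
    (guHG idC (Y.actNC (ZMod 2) C2 C2)).upow R n x = 0) {N : ℕ} (hN : SS.Dim N B) :
    Setup2 (D.pw R nil).st :=
  (D.bmIn R nil).setup2 (N + 1) (Y.nilV_wvu hN)

/-- **The Bullett-Macdonald relations for the squares of the cofibre of a covering.** -/
theorem bm_st (R : ℕ) (nil : ∀ n (x : (guHG idC (Y.actNC (ZMod 2) C2 C2)).H n),
    (guHG idC (Y.actNC (ZMod 2) C2 C2)).upow R n x = 0) {N : ℕ} (hN : SS.Dim N B)
    (q M k : ℕ) (x : D.K.H q) (hneg : ∀ j, j < q → (D.pw R nil).st.Sq q j x = 0) :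
    ∑ a ∈ Finset.range (M + 1), ((EX.BM.wt (ZMod 2) (M - a) a).coeff k) •
      (D.pw R nil).st.Sq (q + a) (q + M) ((D.pw R nil).st.Sq q (q + a) x) = 0 :=
  (D.bmIn R nil).bm (N + 1) (Y.nilV_wvu hN) q M k x hneg

end Dat

end Vale.Agent.P263.E
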