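import Vale.Agent.P263.E.BMIn
import Vale.Agent.P263.S.GysTriv

/-!
# P263, block E5 (helper561): the maps of the second level

For `X : BMIn`: `X.KUV = hG (hG K)` (trivial actions), `X.cV` the action of `V = C2 × C2` on `KV`,
`X.iVh : Hom X.KUV (hG X.cV)`, `X.tauh` (the flip of `KUV`), `X.tauVh : Hom (hG X.cV) (hG X.cV)`
(the exchange), `X.pih : Hom (hG K) X.KUV` (constants in the inner variable),
`X.kah : Hom (hG X.c) (hG X.cV)`, `X.Pu` (the outer power operation); the relations between them.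
-/

noncomputable section

namespace Vale.Agent.P263.E

open Vale.Agent.P263.S

namespace BMIn

variable (X : BMIn)

/-- `hG (hG K)` -/
abbrev KUV : CosMod (ZMod 2) := hG (Act.triv C2 (hG (Act.triv C2 X.K)))

/-- the action of `C2 × C2` on `KV` -/
abbrev cV : Act (C2 × C2) X.KV := X.cu.prod X.cv X.cuv

/-- the outer action on `hG KV` -/
abbrev cuH : Act C2 (hG X.cv) := X.cu.onHG X.cv X.cuv

/-- `hG K → hG KV` -/
def iV1 : Hom (hG (Act.triv C2 X.K)) (hG X.cv) :=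
  hG.mapHom (Act.triv C2 X.K) X.cv X.SV.i (fun p g x => (X.iv p g x).symm)

@[simp] theorem iV1_fn {p : ℕ} (F : (hG (Act.triv C2 X.K)).obj p) (t : Fin (p + 1) → C2) :
    hG.fn (X.iV1.app p F) t = X.SV.i.app p (hG.fn F t) := rfl

/-- `hG hG K → hG hG KV` -/
def iV2 : Hom X.KUV (hG X.cuH) :=
  hG.mapHom (Act.triv C2 (hG (Act.triv C2 X.K))) X.cuH X.iV1
    (fun p g x => hG.ext fun t => (X.iu p g _).symm)

@[simp] theorem iV2_fn {p : ℕ} (F : X.KUV.obj p) (s t : Fin (p + 1) → C2) :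
    hG.fn (hG.fn (X.iV2.app p F) s) t = X.SV.i.app p (hG.fn (hG.fn F s) t) := rfl

/-- `hG hG K → hG_V KV` -/
def iVh : Hom X.KUV (hG X.cV) := (hG.iter X.cu X.cv X.cuv).comp X.iV2

@[simp] theorem iVh_fn {p : ℕ} (F : X.KUV.obj p) (w : Fin (p + 1) → C2 × C2) :
    hG.fn (X.iVh.app p F) w =
      X.SV.i.app p (hG.fn (hG.fn F (fun i => (w i).1)) (fun i => (w i).2)) := rfl

/-- the exchange of the two variables of `hG hG K` -/
def tauh : Hom X.KUV X.KUV :=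
  hG.flip (Act.triv C2 X.K) (Act.triv C2 X.K) (Act.Comm.triv_left (Act.triv C2 X.K))

@[simp] theorem tauh_fn {p : ℕ} (F : X.KUV.obj p) (s t : Fin (p + 1) → C2) :
    hG.fn (hG.fn (X.tauh.app p F) t) s = hG.fn (hG.fn F s) t := rfl

/-- the exchange of `C2 × C2` -/
def swV : C2 × C2 →* C2 × C2 := (MonoidHom.snd C2 C2).prod (MonoidHom.fst C2 C2)

@[simp] theorem swV_apply (g : C2 × C2) : swV g = (g.2, g.1) := rfl

theorem σ_cV (p : ℕ) (k : C2 × C2) (x : X.KV.obj p) :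
    X.σ.app p (X.cV.act p (swV k) x) = X.cV.act p k (X.σ.app p x) := by
  show X.σ.app p (X.cu.act p k.2 (X.cv.act p k.1 x)) =
    X.cu.act p k.1 (X.cv.act p k.2 (X.σ.app p x))
  rw [X.σu, X.σv, X.cuv]

/-- the exchange on `hG_V KV` -/
def tauVh : Hom (hG X.cV) (hG X.cV) := hG.pull X.cV X.cV swV X.σ X.σ_cV

@[simp] theorem tauVh_fn {p : ℕ} (F : (hG X.cV).obj p) (w : Fin (p + 1) → C2 × C2) :
    hG.fn (X.tauVh.app p F) w = X.σ.app p (hG.fn F (swV ∘ w)) := rfl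

theorem tauV_iV : X.tauVh.comp X.iVh = X.iVh.comp X.tauh := by
  apply Hom.ext
  intro p F
  apply hG.ext
  intro w
  exact X.σi p _

/-- constants in the inner variable -/
def pih : Hom (hG (Act.triv C2 X.K)) X.KUV := trivMap (hG.pstar C2 X.K)

@[simp] theorem pih_fn {p : ℕ} (F : (hG (Act.triv C2 X.K)).obj p) (s t : Fin (p + 1) → C2) :
    hG.fn (hG.fn (X.pih.app p F) s) t = hG.fn F s := rfl

/-- `KK → hG KV`, constants in the inner variable -/
def ka1 : Hom X.KK (hG X.cv) := hG.cst X.cv X.jV X.jv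

@[simp] theorem ka1_fn {p : ℕ} (x : X.KK.obj p) (t : Fin (p + 1) → C2) :
    hG.fn (X.ka1.app p x) t = X.jV.app p x := rfl

theorem ka1_act (p : ℕ) (g : C2) (x : X.KK.obj p) :
    X.ka1.app p (X.c.act p g x) = X.cuH.act p g (X.ka1.app p x) :=
  hG.ext fun _ => X.ju p g x

/-- `hG KK → hG hG KV` -/
def ka2 : Hom (hG X.c) (hG X.cuH) := hG.mapHom X.c X.cuH X.ka1 X.ka1_act

@[simp] theorem ka2_fn {p : ℕ} (F : (hG X.c).obj p) (s t : Fin (p + 1) → C2) :
    hG.fn (hG.fn (X.ka2.app p F) s) t = X.jV.app p (hG.fn F s) := rfl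

/-- `hG KK → hG_V KV` -/
def kah : Hom (hG X.c) (hG X.cV) := (hG.iter X.cu X.cv X.cuv).comp X.ka2

theorem ka_i : X.kah.comp (hG.mapHom (Act.triv C2 X.K) X.c X.S.i X.hi) = X.iVh.comp X.pih := by
  apply Hom.ext
  intro p F
  apply hG.ext
  intro w
  exact X.ji p _

/-- the product of homotopy fixed points -/
abbrev νh : Bil (hG X.c) (hG X.c) (hG X.cv) := hG.bil X.c X.c X.cv X.ν X.hν

theorem sym_νh : Sym X.νh X.cuH := sym_hbil X.hν X.sν X.cuv

/-- the outer power operation with values in `hG hG KV` -/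
def PP (n : ℕ) (x : (hG X.c).H n) : (hG X.cuH).H (n + n) := P X.νh X.cuH X.sym_νh x

/-- the outer power operation -/
def Pu (n m : ℕ) (h : m = n + n) (x : (hG X.c).H n) : (hG X.cV).H m :=
  castH (hG X.cV) h.symm ((hG.iter X.cu X.cv X.cuv).mapH (n + n) (X.PP n x))

theorem Pu_rfl (n : ℕ) (x : (hG X.c).H n) :
    X.Pu n (n + n) rfl x = (hG.iter X.cu X.cv X.cuv).mapH (n + n) (X.PP n x) :=
  castH_rfl _ _ _

/-- `P_u (i (inflation of e)) = κ (P e)` -/
theorem PP_infl (j : ℕ) (e : X.K.H j) :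
    X.PP j ((hG.mapHom (Act.triv C2 X.K) X.c X.S.i X.hi).mapH j ((hG.pstar C2 X.K).mapH j e)) =
      X.ka2.mapH (j + j) (P X.mul X.c X.sym e) := by
  rw [← Hom.mapH_comp]
  refine P_nat X.mul X.c X.sym X.νh X.cuH X.sym_νh _ X.ka1 X.ka1_act ?_ e
  intro p a b
  apply hG.ext
  intro t
  exact X.jmul p a b

theorem Pu_infl (j : ℕ) (h : j + j = j + j) (e : X.K.H j) :
    X.Pu j (j + j) h
      ((hG.mapHom (Act.triv C2 X.K) X.c X.S.i X.hi).mapH j ((hG.pstar C2 X.K).mapH j e)) =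
      X.kah.mapH (j + j) (P X.mul X.c X.sym e) := by
  rw [Pu, castH_rfl, PP_infl, ← Hom.mapH_comp]
  rfl

/-- the product followed by the exchange -/
def ν' : Bil X.KK X.KK X.KV where
  app p := (X.ν.app p).compr₂ (X.σ.app p)
  nat φ x y := by
    show X.σ.app _ (X.ν.app _ _ _) = X.KV.map φ (X.σ.app _ (X.ν.app _ x y))
    rw [X.ν.nat, X.σ.nat]

@[simp] theorem ν'_app (p : ℕ) (x y : X.KK.obj p) : X.ν'.app p x y = X.σ.app p (X.ν.app p x y) :=
  rfl

theorem hν' (p : ℕ) (g : C2) (x y : X.KK.obj p) :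
    X.ν'.app p (X.c.act p g x) (X.c.act p g y) = X.cu.act p g (X.ν'.app p x y) := by
  rw [ν'_app, X.hν, X.σv, ν'_app]

theorem sν' : Sym X.ν' X.cv := by
  intro p x y
  rw [ν'_app, ← X.σu, X.sν, ν'_app]

/-- the exchange on `hG hG KV` -/
def σ1 : Hom (hG X.cv) (hG X.cu) := hG.mapHom X.cv X.cu X.σ X.σv

/-- the exchange on `hG hG KV` -/
def σ1' : Hom (hG X.cu) (hG X.cv) := hG.mapHom X.cu X.cv X.σ X.σu

theorem σ1_act (p : ℕ) (g : C2) (x : (hG X.cv).obj p) :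
    X.σ1.app p (X.cuH.act p g x) = (X.cv.onHG X.cu X.cuv.symm).act p g (X.σ1.app p x) :=
  hG.ext fun _ => X.σu p g _

theorem σ1'_act (p : ℕ) (g : C2) (x : (hG X.cu).obj p) :
    X.σ1'.app p ((X.cv.onHG X.cu X.cuv.symm).act p g x) = X.cuH.act p g (X.σ1'.app p x) :=
  hG.ext fun _ => X.σv p g _

/-- the exchange on `hG hG KV` -/
def σ2 : Hom (hG X.cuH) (hG (X.cv.onHG X.cu X.cuv.symm)) := hG.mapHom _ _ X.σ1 X.σ1_act

/-- the exchange on `hG hG KV` -/
def σ2' : Hom (hG (X.cv.onHG X.cu X.cuv.symm)) (hG X.cuH) := hG.mapHom _ _ X.σ1' X.σ1'_act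

theorem σ2'_σ2 : X.σ2'.comp X.σ2 = Hom.id _ := by
  apply Hom.ext
  intro p F
  apply hG.ext
  intro s
  apply hG.ext
  intro t
  exact X.σσ p _

/-- the symmetry in the iterated form -/
theorem flip_PP_P (q : ℕ) (x : X.K.H q) :
    X.σ2'.mapH _ ((hG.flip X.cu X.cv X.cuv).mapH _ (X.PP (q + q) (P X.mul X.c X.sym x))) =
      X.PP (q + q) (P X.mul X.c X.sym x) := by
  have h := P_P_swap X.mul X.c X.sym X.ν X.mul X.c X.sym X.ν' X.cu X.cv X.cuv X.hν X.sν X.hν' X.sν'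
    (fun p w x y z => X.mid p w x y z) x
  have h2 := P_nat X.νh X.cuH X.sym_νh (hG.bil X.c X.c X.cu X.ν' X.hν')
    (X.cv.onHG X.cu X.cuv.symm) (sym_hbil X.hν' X.sν' X.cuv.symm) (Hom.id _) X.σ1 X.σ1_act
    (fun p a b => rfl) (P X.mul X.c X.sym x)
  rw [Hom.mapH_id] at h2
  refine (congrArg _ (h.trans h2)).trans ?_
  show X.σ2'.mapH _ (X.σ2.mapH _ _) = _
  rw [← Hom.mapH_comp, σ2'_σ2, Hom.mapH_id]
  rfl

theorem tauV_iter : X.tauVh.comp (hG.iter X.cu X.cv X.cuv) =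
    (hG.iter X.cu X.cv X.cuv).comp (X.σ2'.comp (hG.flip X.cu X.cv X.cuv)) := rfl

/-- **The symmetry of the iterated power operation.** -/
theorem Pu_sym (q m : ℕ) (h : m = q + q + (q + q)) (x : X.K.H q) :
    X.tauVh.mapH m (X.Pu (q + q) m h (P X.mul X.c X.sym x)) =
      X.Pu (q + q) m h (P X.mul X.c X.sym x) := by
  subst h
  rw [Pu_rfl, ← Hom.mapH_comp, tauV_iter, Hom.mapH_comp, Hom.mapH_comp, flip_PP_P]

end BMIn

end Vale.Agent.P263.E
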