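import Vale.Agent.P263.E.SqE
import Vale.Agent.P263.S.PowPow

/-!
# P263, block E5 (helper561): the input for the Bullett-Macdonald relations on `H(K)`

`BMIn` extends `PowIn` (`0 → K → KK → W → 0`, `mul : K × K → KK`) by the fourfold level
`0 → K → KV → WV → 0` with two commuting actions `cu` (outer), `cv` (inner) of `C2` on `KV`, the
product `ν : KK × KK → KV`, the exchange `σ` of the two variables and the map `jV : KK → KV`.
-/

noncomputable section

namespace Vale.Agent.P263.E

open Vale.Agent.P263.S

/-- The input for the Bullett-Macdonald relations. -/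
structure BMIn extends PowIn where
  /-- the fourfold level -/
  KV : CosMod (ZMod 2)
  /-- the quotient `KV / K` -/
  WV : CosMod (ZMod 2)
  /-- `0 → K → KV → WV → 0` -/
  SV : SES K KV WV
  /-- the outer action -/
  cu : Act C2 KV
  /-- the inner action -/
  cv : Act C2 KV
  cuv : Act.Comm cu cv
  /-- the action on the quotient -/
  wV : Act (C2 × C2) WV
  iu : ∀ p g x, cu.act p g (SV.i.app p x) = SV.i.app p x
  iv : ∀ p g x, cv.act p g (SV.i.app p x) = SV.i.app p x
  hpV : ∀ p g x, SV.p.app p ((cu.prod cv cuv).act p g x) = wV.act p g (SV.p.app p x)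
  /-- the product `KK × KK → KV` -/
  ν : Bil KK KK KV
  hν : ∀ p g x y, ν.app p (c.act p g x) (c.act p g y) = cv.act p g (ν.app p x y)
  sν : Sym ν cu
  /-- the exchange of the two variables -/
  σ : Hom KV KV
  σσ : ∀ p x, σ.app p (σ.app p x) = x
  σu : ∀ p g x, σ.app p (cu.act p g x) = cv.act p g (σ.app p x)
  σv : ∀ p g x, σ.app p (cv.act p g x) = cu.act p g (σ.app p x)
  σi : ∀ p x, σ.app p (SV.i.app p x) = SV.i.app p x
  mid : ∀ p x y z w, σ.app p (ν.app p (mul.app p x y) (mul.app p z w)) =
    ν.app p (mul.app p x z) (mul.app p y w)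
  /-- the map `KK → KV` (extension by zero from the pairs of constant pairs) -/
  jV : Hom KK KV
  jv : ∀ p g x, cv.act p g (jV.app p x) = jV.app p x
  ju : ∀ p g x, jV.app p (c.act p g x) = cu.act p g (jV.app p x)
  ji : ∀ p x, jV.app p (S.i.app p x) = SV.i.app p x
  jmul : ∀ p x y, jV.app p (mul.app p x y) = ν.app p (S.i.app p x) (S.i.app p y)

end Vale.Agent.P263.E
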