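import Vale.Agent.P263.EX.BM

/-!
# P263, block E5 (helper996): the algebra of the Bullett-Macdonald relations on `E`

`laurent_BM`: the swap symmetry, multiplied with a power of `u v (u+v)` and written with `u = 1`,
`v = X`, gives the vanishing of the terms with a negative outer square and the Bullett-Macdonald
relation.  In the application `g j = lam (Sq j m (Sq q j x))`, `m = q + M`.
-/

namespace Vale.Agent.P263.E

open Polynomial Finset Vale.Agent.P263.EX

/-- The terms with a negative outer square vanish. -/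
theorem laurent_neg (q M J K : ℕ) (g : ℕ → ZMod 2) (hlo : ∀ j, j < q → g j = 0)
    (hJK : J ≤ K)
    (sym : ∑ j ∈ range (J + 1), C (g j) * (X * (1 + X)) ^ (2 * q + K - j) =
      ∑ j ∈ range (J + 1), C (g j) * ((1 + X) ^ (2 * q + K - j) *
        (X : (ZMod 2)[X]) ^ (2 * j + K - (q + M)))) :
    ∀ j, q + M < j → j ≤ J → g j = 0 := by
  -- downward induction
  have key : ∀ k, ∀ j, q + M < j → j ≤ J → J - j < k → g j = 0 := by
    intro k
    induction k with
    | zero => intro j _ _ h; omega
    | succ k ih =>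
      intro j0 h1 h2 _
      have hc := congrArg (fun p : (ZMod 2)[X] => p.coeff (2 * q + K - j0)) sym
      simp only [finsetSum_coeff] at hc
      have hl : ∑ j ∈ range (J + 1), (C (g j) * (X * (1 + X)) ^ (2 * q + K - j)).coeff
          (2 * q + K - j0) = g j0 := by
        rw [Finset.sum_eq_single j0]
        · rw [mul_pow, coeff_C_mul, coeff_X_pow_mul', if_pos le_rfl, Nat.sub_self,
            coeff_one_add_X_pow]
          simp
        · intro j hj hne
          have hj' := mem_range.mp hj
          rcases Nat.lt_or_ge j0 j with h | h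
          · rw [ih j (by omega) (by omega) (by omega)]; simp
          · rw [mul_pow, coeff_C_mul, coeff_X_pow_mul', if_neg (by omega), mul_zero]
        · intro h
          exact absurd (mem_range.mpr (by omega)) h
      have hr : ∑ j ∈ range (J + 1), (C (g j) * ((1 + X) ^ (2 * q + K - j) *
        (X : (ZMod 2)[X]) ^ (2 * j + K - (q + M)))).coeff (2 * q + K - j0) = 0 := by
        refine Finset.sum_eq_zero fun j hj => ?_
        rcases Nat.lt_or_ge j q with h | h
        · rw [hlo j h]; simp
        · rw [coeff_C_mul, coeff_mul_X_pow', if_neg (by omega), mul_zero]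
      rw [hl, hr] at hc
      exact hc
  exact fun j h1 h2 => key (J - j + 1) j h1 h2 (by omega)

/-- **Scalar form.** -/
theorem laurent_BM (q M J K : ℕ) (g : ℕ → ZMod 2) (hlo : ∀ j, j < q → g j = 0)
    (hJ : q + M ≤ J) (hJK : J ≤ K)
    (sym : ∑ j ∈ range (J + 1), C (g j) * (X * (1 + X)) ^ (2 * q + K - j) =
      ∑ j ∈ range (J + 1), C (g j) * ((1 + X) ^ (2 * q + K - j) *
        (X : (ZMod 2)[X]) ^ (2 * j + K - (q + M)))) :
    ∑ a ∈ range (M + 1), C (g (q + a)) * BM.wt (ZMod 2) (M - a) a = 0 := by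
  have hneg := laurent_neg q M J K g hlo hJK sym
  have hX : (X : (ZMod 2)[X]) ≠ 0 := X_ne_zero
  have hX1 : ((1 : (ZMod 2)[X]) + X) ≠ 0 := by
    rw [add_comm]
    exact (monic_X_add_C (1 : ZMod 2)).ne_zero
  have red : ∀ F : ℕ → (ZMod 2)[X], ∑ j ∈ range (J + 1), C (g j) * F j =
      ∑ a ∈ range (M + 1), C (g (q + a)) * F (q + a) := by
    intro F
    obtain ⟨l, rfl⟩ : ∃ l, J = q + M + l := ⟨J - (q + M), by omega⟩
    rw [show q + M + l + 1 = q + (M + 1 + l) by omega, Finset.sum_range_add,
      Finset.sum_eq_zero (fun j hj => by rw [hlo j (mem_range.mp hj)]; simp), zero_add,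
      Finset.sum_range_add, Finset.sum_eq_zero (s := range l), add_zero]
    intro j hj
    have := mem_range.mp hj
    rw [hneg _ (by omega) (by omega)]
    simp
  rw [red, red] at sym
  have key : (X * (1 + X)) ^ (q + K - M) *
      ∑ a ∈ range (M + 1), C (g (q + a)) * BM.wt (ZMod 2) (M - a) a = 0 := by
    have hz : ∑ a ∈ range (M + 1), C (g (q + a)) * (X * (1 + X)) ^ (2 * q + K - (q + a)) +
        ∑ a ∈ range (M + 1), C (g (q + a)) * ((1 + X) ^ (2 * q + K - (q + a)) *
          (X : (ZMod 2)[X]) ^ (2 * (q + a) + K - (q + M))) = 0 := by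
      rw [sym, CharTwo.add_self_eq_zero]
    rw [← hz, ← Finset.sum_add_distrib, Finset.mul_sum]
    refine Finset.sum_congr rfl fun a ha => ?_
    have ha' := mem_range.mp ha
    rw [show 2 * q + K - (q + a) = (q + K - M) + (M - a) by omega,
      show 2 * (q + a) + K - (q + M) = (q + K - M) + 2 * a by omega]
    unfold BM.wt
    rw [pow_add, pow_add, pow_add, mul_pow, mul_pow]
    ring
  exact (mul_eq_zero.mp key).resolve_left (pow_ne_zero _ (mul_ne_zero hX hX1))

/-- **Vector form**: `s j = Sq j m (Sq q j x)`, `m = q + M`.  The hypothesis is needed after every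
linear functional.  The conclusion is the form of `bm_vec` in `S/SqAb.lean`. -/
theorem laurent_vec {V : Type*} [AddCommGroup V] [Module (ZMod 2) V] (q M J K : ℕ) (s : ℕ → V)
    (hlo : ∀ j, j < q → s j = 0) (hJ : q + M ≤ J) (hJK : J ≤ K)
    (sym : ∀ φ : Module.Dual (ZMod 2) V,
      ∑ j ∈ range (J + 1), C (φ (s j)) * (X * (1 + X)) ^ (2 * q + K - j) =
      ∑ j ∈ range (J + 1), C (φ (s j)) * ((1 + X) ^ (2 * q + K - j) *
        (X : (ZMod 2)[X]) ^ (2 * j + K - (q + M)))) (k : ℕ) :
    ∑ a ∈ range (M + 1), ((BM.wt (ZMod 2) (M - a) a).coeff k) • s (q + a) = 0 := by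
  rw [← Module.forall_dual_apply_eq_zero_iff (ZMod 2)]
  intro φ
  have h := laurent_BM q M J K (fun j => φ (s j)) (fun j hj => by rw [hlo j hj, map_zero]) hJ hJK
    (sym φ)
  have h2 := congrArg (fun p : (ZMod 2)[X] => p.coeff k) h
  simp only [finsetSum_coeff, coeff_zero, coeff_C_mul] at h2
  rw [map_sum, ← h2]
  refine Finset.sum_congr rfl fun a _ => ?_
  rw [map_smul, smul_eq_mul, mul_comm]

/-- the reversed order of summation, literally field `bm` of `TI.EData` -/
theorem laurent_vec' {V : Type*} [AddCommGroup V] [Module (ZMod 2) V] (q M J K : ℕ) (s : ℕ → V)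
    (hlo : ∀ j, j < q → s j = 0) (hJ : q + M ≤ J) (hJK : J ≤ K)
    (sym : ∀ φ : Module.Dual (ZMod 2) V,
      ∑ j ∈ range (J + 1), C (φ (s j)) * (X * (1 + X)) ^ (2 * q + K - j) =
      ∑ j ∈ range (J + 1), C (φ (s j)) * ((1 + X) ^ (2 * q + K - j) *
        (X : (ZMod 2)[X]) ^ (2 * j + K - (q + M)))) (k : ℕ) :
    ∑ a ∈ range (M + 1), ((BM.wt (ZMod 2) a (M - a)).coeff k) • s (q + (M - a)) = 0 := by
  rw [← laurent_vec q M J K s hlo hJ hJK sym k, ← Finset.sum_range_reflect]
  refine Finset.sum_congr rfl fun a ha => ?_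
  have := mem_range.mp ha
  rw [show M + 1 - 1 - a = M - a by omega, show M - (M - a) = a by omega]

end Vale.Agent.P263.E
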