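import Vale.Agent.P263.E.Cl

/-!
# P263, block E: maps of coverings

`CMap Y' Y f` : a simplicial map of the total spaces over `f : A → B`, bijective on the fibres.
It is compatible with the transfers, the fibre powers, the unordered pairs, the labellings and the
classifying maps `cl2`.
-/

noncomputable section

namespace Vale.Agent.P263.E

open Vale.Agent.P263.S SS Finset

/-- A map of coverings over `f`, bijective on the fibres. -/
structure CMap {A B : SS} (Y' : Cov A) (Y : Cov B) (f : SS.Map A B) where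
  /-- the map of the total spaces -/
  g : SS.Map Y'.tot Y.tot
  pr_g : ∀ {p : ℕ} (y : Y'.tot.obj p), Y.pr.app (g.app y) = f.app (Y'.pr.app y)
  inj : ∀ {p : ℕ} {y y' : Y'.tot.obj p}, Y'.pr.app y = Y'.pr.app y' → g.app y = g.app y' → y = y'
  surj : ∀ {p : ℕ} (a : A.obj p) (z : Y.tot.obj p), Y.pr.app z = f.app a →
    ∃ y, Y'.pr.app y = a ∧ g.app y = z

namespace CMap

variable {A B C : SS} {Y' : Cov A} {Y : Cov B} {Y'' : Cov C} {f : SS.Map A B}
  {R : Type} [CommRing R] (φ : CMap Y' Y f)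

theorem mem_fib_iff {p : ℕ} {a : A.obj p} {y : Y'.tot.obj p} (h : y ∈ Y'.fib a) :
    φ.g.app y ∈ Y.fib (f.app a) := by
  rw [Y.mem_fib, φ.pr_g, Y'.mem_fib.1 h]

theorem sum_fib {p : ℕ} {M : Type*} [AddCommMonoid M] (a : A.obj p) (h : Y.tot.obj p → M) :
    ∑ y ∈ Y'.fib a, h (φ.g.app y) = ∑ z ∈ Y.fib (f.app a), h z := by
  refine Finset.sum_bij (fun y _ => φ.g.app y) (fun y hy => φ.mem_fib_iff hy) ?_ ?_
    (fun _ _ => rfl)
  · intro y hy y' hy' e
    exact φ.inj ((Y'.mem_fib.1 hy).trans (Y'.mem_fib.1 hy').symm) e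
  · intro z hz
    obtain ⟨y, h1, h2⟩ := φ.surj a z (Y.mem_fib.1 hz)
    exact ⟨y, Y'.mem_fib.2 h1, h2⟩

/-- compatibility with the transfers -/
theorem tr_pull {p : ℕ} (c : (F R Y.tot).obj p) :
    (Y'.tr (R := R)).app p (φ.g.pull.app p c) = f.pull.app p ((Y.tr (R := R)).app p c) := by
  funext a
  exact φ.sum_fib a c

theorem tr_comp_pull : (Y'.tr (R := R)).comp (φ.g.pull) = (f.pull).comp (Y.tr (R := R)) :=
  Hom.ext fun _ c => φ.tr_pull c

theorem mapH_tr_pull (p : ℕ) (c : (F R Y.tot).H p) :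
    (Y'.tr (R := R)).mapH p ((φ.g.pull).mapH p c) =
      (f.pull).mapH p ((Y.tr (R := R)).mapH p c) := by
  rw [← Hom.mapH_comp, ← Hom.mapH_comp, φ.tr_comp_pull]

/-- composition -/
def comp {f' : SS.Map B C} (ψ : CMap Y Y'' f') (φ : CMap Y' Y f) : CMap Y' Y'' (f'.comp f) where
  g := ψ.g.comp φ.g
  pr_g y := by
    rw [Map.comp_app, ψ.pr_g, φ.pr_g, Map.comp_app]
  inj {p y y'} h h' := by
    refine φ.inj h (ψ.inj ?_ h')
    rw [φ.pr_g, φ.pr_g, h]
  surj {p} a z h := by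
    obtain ⟨y, h1, h2⟩ := ψ.surj (f.app a) z h
    obtain ⟨y', h3, h4⟩ := φ.surj a y h1
    refine ⟨y', h3, ?_⟩
    rw [Map.comp_app, h4, h2]

@[simp] theorem comp_g {f' : SS.Map B C} (ψ : CMap Y Y'' f') (φ : CMap Y' Y f) :
    (ψ.comp φ).g = ψ.g.comp φ.g := rfl

/-- the pull back of a covering -/
def ofPullback (Y : Cov B) (f : SS.Map A B) : CMap (Y.pullback f) Y f where
  g := Y.pullbackMap f
  pr_g y := y.2
  inj {p y y'} h h' := Subtype.ext (Prod.ext h h')
  surj {p} a z h := ⟨⟨(a, z), h⟩, rfl, rfl⟩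

@[simp] theorem ofPullback_g (Y : Cov B) (f : SS.Map A B) :
    (ofPullback Y f).g = Y.pullbackMap f := rfl

/-- the map of the fibre powers -/
def pow (T : Type) [Fintype T] [DecidableEq T] : CMap (Y'.pow T) (Y.pow T) f where
  g := ⟨fun x => ⟨f.app x.base, fun t => φ.g.app (x.val t), fun t => by
      rw [φ.pr_g, x.prop]⟩, fun θ x => Cov.Tup.ext (f.nat θ _) (funext fun t => φ.g.nat θ _)⟩
  pr_g _ := rfl
  inj {p y y'} h h' := by
    refine Cov.Tup.ext h (funext fun t => φ.inj ?_ ?_)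
    · rw [y.prop, y'.prop]
      exact h
    · exact congrFun (congrArg Cov.Tup.val h') t
  surj {p} a z h := by
    have : ∀ t, ∃ y, Y'.pr.app y = a ∧ φ.g.app y = z.val t := fun t =>
      φ.surj a (z.val t) ((z.prop t).trans h)
    choose y hy hy' using this
    exact ⟨⟨a, y, hy⟩, rfl, Cov.Tup.ext h.symm (funext hy')⟩

@[simp] theorem pow_val (T : Type) [Fintype T] [DecidableEq T] {p : ℕ}
    (x : (Y'.pow T).tot.obj p) (t : T) : ((φ.pow T).g.app x).val t = φ.g.app (x.val t) := rfl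

theorem pow_nc (T : Type) [Fintype T] [DecidableEq T] {p : ℕ} (x : (Y'.pow T).tot.obj p) :
    Y.NC ((φ.pow T).g.app x) ↔ Y'.NC x := by
  constructor
  · rintro ⟨s, t, h⟩
    exact ⟨s, t, fun e => h (by rw [pow_val, pow_val, e])⟩
  · rintro ⟨s, t, h⟩
    refine ⟨s, t, fun e => h (φ.inj ?_ e)⟩
    rw [x.prop, x.prop]

/-- the map of the non-constant tuples -/
def nc (T : Type) [Fintype T] [DecidableEq T] : CMap (Y'.nc T) (Y.nc T) f where
  g := ⟨fun x => ⟨(φ.pow T).g.app x.1, (φ.pow_nc T x.1).2 x.2⟩, fun θ x =>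
    Subtype.ext ((φ.pow T).g.nat θ x.1)⟩
  pr_g _ := rfl
  inj {p y y'} h h' := Subtype.ext ((φ.pow T).inj h (congrArg Subtype.val h'))
  surj {p} a z h := by
    obtain ⟨y, h1, h2⟩ := (φ.pow T).surj a z.1 h
    exact ⟨⟨y, (φ.pow_nc T y).1 (by rw [h2]; exact z.2)⟩, h1, Subtype.ext h2⟩

@[simp] theorem nc_val (T : Type) [Fintype T] [DecidableEq T] {p : ℕ}
    (x : (Y'.nc T).tot.obj p) (t : T) : ((φ.nc T).g.app x).1.val t = φ.g.app (x.1.val t) := rfl

@[simp] theorem nc_p1 {p : ℕ} (x : (Y'.nc C2).tot.obj p) :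
    Y.p1 ((φ.nc C2).g.app x) = φ.g.app (Y'.p1 x) := rfl

@[simp] theorem nc_p2 {p : ℕ} (x : (Y'.nc C2).tot.obj p) :
    Y.p2 ((φ.nc C2).g.app x) = φ.g.app (Y'.p2 x) := rfl

theorem nc_swap {p : ℕ} (x : (Y'.nc C2).tot.obj p) :
    (φ.nc C2).g.app (Y'.swap.app x) = Y.swap.app ((φ.nc C2).g.app x) := rfl

open Classical in
/-- the map of the subsets of the fibres -/
def ksub (n : ℕ) : CMap (Y'.ksub n) (Y.ksub n) f where
  g := ⟨fun w => ⟨f.app w.base, w.pts.image φ.g.app, by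
        intro z hz
        obtain ⟨y, hy, rfl⟩ := Finset.mem_image.1 hz
        rw [φ.pr_g, w.sub y hy], by
        rw [Finset.card_image_of_injOn, w.card]
        intro y hy y' hy' h
        exact φ.inj ((w.sub y hy).trans (w.sub y' hy').symm) h⟩, fun θ w => by
      refine Cov.Sbs.ext (f.nat θ _) ?_
      change Finset.image φ.g.app (Finset.image (Y'.tot.map θ) w.pts) =
        Finset.image (Y.tot.map θ) (Finset.image φ.g.app w.pts)
      rw [Finset.image_image, Finset.image_image]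
      exact Finset.image_congr fun y _ => φ.g.nat θ y⟩
  pr_g _ := rfl
  inj {p w w'} h h' := by
    have hb : w.base = w'.base := h
    refine Cov.Sbs.ext h ?_
    have e : w.pts.image φ.g.app = w'.pts.image φ.g.app := congrArg Cov.Sbs.pts h'
    ext y
    constructor
    · intro hy
      have h1 : φ.g.app y ∈ w'.pts.image φ.g.app := e ▸ Finset.mem_image_of_mem _ hy
      obtain ⟨y', hy', e'⟩ := Finset.mem_image.1 h1
      rwa [← φ.inj ((w'.sub y' hy').trans (hb.symm.trans (w.sub y hy).symm)) e']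
    · intro hy
      have h1 : φ.g.app y ∈ w.pts.image φ.g.app := e ▸ Finset.mem_image_of_mem _ hy
      obtain ⟨y', hy', e'⟩ := Finset.mem_image.1 h1
      rwa [← φ.inj ((w.sub y' hy').trans (hb.trans (w'.sub y hy).symm)) e']
  surj {p} a z h := by
    have hz : z.base = f.app a := h
    refine ⟨⟨a, (Y'.fib a).filter fun y => φ.g.app y ∈ z.pts,
      fun y hy => Y'.mem_fib.1 (Finset.mem_filter.1 hy).1, ?_⟩, rfl, ?_⟩
    · refine Eq.trans (Finset.card_bij (fun y _ => φ.g.app y)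
        (fun y hy => (Finset.mem_filter.1 hy).2) ?_ ?_) z.card
      · intro y hy y' hy' e
        exact φ.inj ((Y'.mem_fib.1 (Finset.mem_filter.1 hy).1).trans
          (Y'.mem_fib.1 (Finset.mem_filter.1 hy').1).symm) e
      · intro y hy
        obtain ⟨y', h1, h2⟩ := φ.surj a y ((z.sub y hy).trans hz)
        exact ⟨y', Finset.mem_filter.2 ⟨Y'.mem_fib.2 h1, h2 ▸ hy⟩, h2⟩
    · refine Cov.Sbs.ext h.symm ?_
      ext y
      rw [Finset.mem_image]
      constructor
      · rintro ⟨y', hy', rfl⟩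
        exact (Finset.mem_filter.1 hy').2
      · intro hy
        obtain ⟨y', h1, h2⟩ := φ.surj a y ((z.sub y hy).trans hz)
        exact ⟨y', Finset.mem_filter.2 ⟨Y'.mem_fib.2 h1, h2 ▸ hy⟩, h2⟩

theorem ksub_toSub {p : ℕ} (x : (Y'.nc C2).tot.obj p) :
    (φ.ksub 2).g.app (Y'.toSub.app x) = Y.toSub.app ((φ.nc C2).g.app x) := by
  classical
  refine Cov.Sbs.ext rfl ?_
  change Finset.image φ.g.app {Y'.p1 x, Y'.p2 x} = {φ.g.app (Y'.p1 x), φ.g.app (Y'.p2 x)}
  rw [Finset.image_insert, Finset.image_singleton]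

/-- the labelling of the pulled back covering -/
def pLab (D : Y.PLab) : Y'.PLab where
  c x := D.c ((φ.nc C2).g.app x)
  c_swap x := by
    rw [φ.nc_swap]
    exact D.c_swap _

theorem pLab_lab (D : Y.PLab) {p : ℕ} (x : (Y'.nc C2).tot.obj p) :
    (φ.pLab D).lab x = D.lab ((φ.nc C2).g.app x) := by
  funext i
  rw [Cov.PLab.lab_apply, Cov.PLab.lab_apply]
  exact congrArg D.c ((φ.nc C2).g.nat (vx p i) x)

/-- compatibility of the classifying maps -/
theorem cl2_pLab {Z' : SS} (D : Y.PLab) (cl : SS.Map Y.tot Z') :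
    Y'.cl2 (φ.pLab D) (cl.comp φ.g) = (Y.cl2 D cl).comp (φ.ksub 2).g := by
  apply SS.Map.ext
  intro p w
  obtain ⟨x, rfl⟩ := Y'.toSub_surj w
  refine (Y'.cl2_toSub _ _ x).trans ?_
  refine Eq.trans ?_ (congrArg (Y.cl2 D cl).app (φ.ksub_toSub x)).symm
  refine Eq.trans ?_ (Y.cl2_toSub D cl _).symm
  rw [φ.pLab_lab]
  rfl

end CMap

end Vale.Agent.P263.E
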