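import Vale.Agent.P263.E.D2

/-!
# P263: finite correspondences of simplicial sets and their transfers

A finite correspondence `c : Corr W Z` assigns to every simplex `z` of `Z` a finite set `c.S z`
of simplices of `W`, in such a way that the restriction along every `f : [p] → [q]` is a bijection
`c.S z → c.S (Z.map f z)` (a finite covering of `Z` whose total space is mapped to `W`, injectively
on the fibres).  `c.sum : Hom (F R W) (F R Z)` is the transfer `f ↦ (z ↦ ∑ w ∈ c.S z, f w)`, and
`c.D2 : Corr (D2 W) (D2 Z)`.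
-/

noncomputable section

namespace Vale.Agent.P263.E

open Vale.Agent.P263.S Classical

namespace SS

variable {R : Type} [CommRing R] {W Z V : SS} {p q : ℕ}

/-- Finite correspondences. -/
structure Corr (W Z : SS) where
  /-- the finite set of simplices of `W` over a simplex of `Z` -/
  S : ∀ {p : ℕ}, Z.obj p → Finset (W.obj p)
  inj : ∀ {p q : ℕ} (f : Op p q) (z : Z.obj q), Set.InjOn (W.map f) (S z)
  img : ∀ {p q : ℕ} (f : Op p q) (z : Z.obj q), (S z).image (W.map f) = S (Z.map f z)

namespace Corr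

theorem map_mem (c : Corr W Z) (f : Op p q) {z : Z.obj q} {w : W.obj q} (h : w ∈ c.S z) :
    W.map f w ∈ c.S (Z.map f z) := by
  rw [← c.img]; exact Finset.mem_image_of_mem _ h

/-- a sum over `S (Z.map f z)` is a sum over `S z` -/
theorem sum_map {A : Type*} [AddCommMonoid A] (c : Corr W Z) (f : Op p q) (z : Z.obj q)
    (g : W.obj p → A) : ∑ w ∈ c.S (Z.map f z), g w = ∑ w ∈ c.S z, g (W.map f w) := by
  rw [← c.img, Finset.sum_image (c.inj f z)]

/-- The transfer of a finite correspondence. -/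
def sum (c : Corr W Z) : Hom (F R W) (F R Z) where
  app p :=
    { toFun := fun f z => ∑ w ∈ c.S z, f w
      map_add' := fun f g => by funext z; exact Finset.sum_add_distrib
      map_smul' := fun r f => by funext z; exact (Finset.mul_sum _ _ _).symm }
  nat {p q} φ f := by
    funext z
    exact (c.sum_map φ z f).symm

@[simp] theorem sum_app (c : Corr W Z) (f : (F R W).obj p) (z : Z.obj p) :
    (c.sum (R := R)).app p f z = ∑ w ∈ c.S z, f w := rfl

/-- The correspondence of a simplicial map. -/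
def ofMap (f : Map Z W) : Corr W Z where
  S z := {f.app z}
  inj _ _ := by simp
  img g z := by simp [f.nat]

@[simp] theorem ofMap_sum (f : Map Z W) : (ofMap f).sum (R := R) = f.pull := by
  apply Hom.ext
  intro p x
  funext z
  exact Finset.sum_singleton _ _

/-- Pull-back of a correspondence along a map. -/
def pullback (c : Corr W Z) (f : Map V Z) : Corr W V where
  S v := c.S (f.app v)
  inj g v := c.inj g (f.app v)
  img g v := by rw [c.img, f.nat]

/-- the transfer commutes with pull-back -/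
theorem pullback_sum (c : Corr W Z) (f : Map V Z) :
    (c.pullback f).sum (R := R) = (f.pull).comp c.sum := rfl

/-- The part of a correspondence where a locally constant predicate holds. -/
def filter (c : Corr W Z) (P : ∀ {p : ℕ}, W.obj p → Prop)
    (hP : ∀ {p q : ℕ} (f : Op p q) (w : W.obj q), P (W.map f w) ↔ P w) : Corr W Z where
  S z := (c.S z).filter P
  inj f z := (c.inj f z).mono (by
    intro w hw
    exact (Finset.mem_filter.1 hw).1)
  img f z := by
    rw [← c.img, Finset.filter_image]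
    congr 1
    refine Finset.filter_congr (fun w _ => ?_)
    exact (hP f w).symm

theorem mem_filter {c : Corr W Z} {P : ∀ {p : ℕ}, W.obj p → Prop}
    {hP : ∀ {p q : ℕ} (f : Op p q) (w : W.obj q), P (W.map f w) ↔ P w} {z : Z.obj p}
    {w : W.obj p} : w ∈ (c.filter P hP).S z ↔ w ∈ c.S z ∧ P w := Finset.mem_filter

/-- The product of two correspondences. -/
def prod {W' Z' : SS} (c : Corr W Z) (c' : Corr W' Z') : Corr (W.prod W') (Z.prod Z') where
  S x := (c.S x.1 ×ˢ c'.S x.2 : Finset (_ × _))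
  inj f x := by
    rintro ⟨w, w'⟩ hw ⟨v, v'⟩ hv h
    have hw' := Finset.mem_product.1 (Finset.mem_coe.1 hw)
    have hv' := Finset.mem_product.1 (Finset.mem_coe.1 hv)
    have h1 : W.map f w = W.map f v := congrArg Prod.fst h
    have h2 : W'.map f w' = W'.map f v' := congrArg Prod.snd h
    exact Prod.ext (c.inj f x.1 hw'.1 hv'.1 h1) (c'.inj f x.2 hw'.2 hv'.2 h2)
  img f x := by
    ext y
    obtain ⟨a, b⟩ := y
    refine Iff.trans Finset.mem_image ?_
    refine Iff.trans ?_ (Finset.mem_product (s := c.S (Z.map f x.1))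
      (t := c'.S (Z'.map f x.2)) (p := (a, b))).symm
    rw [← c.img, ← c'.img]
    constructor
    · rintro ⟨⟨w, w'⟩, h, h'⟩
      have h0 := Finset.mem_product.1 h
      have h1 : W.map f w = a := congrArg Prod.fst h'
      have h2 : W'.map f w' = b := congrArg Prod.snd h'
      exact ⟨Finset.mem_image.2 ⟨w, h0.1, h1⟩, Finset.mem_image.2 ⟨w', h0.2, h2⟩⟩
    · rintro ⟨h1, h2⟩
      obtain ⟨w, h3, h4⟩ := Finset.mem_image.1 h1
      obtain ⟨w', h5, h6⟩ := Finset.mem_image.1 h2
      exact ⟨(w, w'), Finset.mem_product.2 ⟨h3, h5⟩, Prod.ext h4 h6⟩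

theorem prod_sum_apply {W' Z' : SS} (c : Corr W Z) (c' : Corr W' Z')
    (f : (F R (W.prod W')).obj p) (x : (Z.prod Z').obj p) :
    ((c.prod c').sum (R := R)).app p f x = ∑ w ∈ c.S x.1, ∑ w' ∈ c'.S x.2, f (w, w') :=
  Finset.sum_product _ _ _

/-- transfers are multiplicative for the external product -/
theorem prod_sum_mu {W' Z' : SS} (c : Corr W Z) (c' : Corr W' Z') (f : (F R W).obj p)
    (g : (F R W').obj p) :
    ((c.prod c').sum (R := R)).app p ((muF R W W').app p f g) =
      (muF R Z Z').app p ((c.sum).app p f) ((c'.sum).app p g) := by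
  funext x
  rw [prod_sum_apply]
  exact (Finset.sum_mul_sum _ _ _ _).symm

/-- `c × c` commutes with the swap. -/
theorem prod_sum_swap (c : Corr W Z) (f : (F R (W.prod W)).obj p) (g : C2) :
    ((c.prod c).sum (R := R)).app p ((swapF R W).act p g f) =
      (swapF R Z).act p g (((c.prod c).sum (R := R)).app p f) := by
  rcases C2_cases g with rfl | rfl
  · rw [swapF_one, swapF_one]
  · funext x
    refine Eq.trans ?_ (swapF_tau _ _).symm
    refine (prod_sum_apply c c _ x).trans ?_
    refine Eq.trans ?_ (prod_sum_apply c c _ (x.2, x.1)).symm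
    rw [Finset.sum_comm]
    refine Finset.sum_congr rfl (fun w _ => Finset.sum_congr rfl (fun w' _ => ?_))
    exact swapF_tau _ _

/-- The correspondence `D2 c`. -/
def D2 (c : Corr W Z) : Corr (SS.D2 W) (SS.D2 Z) where
  S {p} := D2.lift (fun s z z' =>
      (c.S z ×ˢ c.S z' : Finset (_ × _)).image (fun w => D2.mk s w.1 w.2)) (by
    intro s z z'
    ext x
    simp only [Finset.mem_image, Finset.mem_product, Prod.exists]
    constructor
    · rintro ⟨a, b, ⟨h1, h2⟩, rfl⟩
      exact ⟨b, a, ⟨h2, h1⟩, (D2.mk_swap s b a).symm⟩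
    · rintro ⟨a, b, ⟨h1, h2⟩, rfl⟩
      exact ⟨b, a, ⟨h2, h1⟩, D2.mk_swap s a b⟩)
  inj {p q} f z := by
    obtain ⟨s, z, z', rfl⟩ := D2.rep z
    intro x hx y hy h
    rw [D2.lift_mk] at hx hy
    obtain ⟨⟨a, b⟩, h1, rfl⟩ := Finset.mem_image.1 (Finset.mem_coe.1 hx)
    obtain ⟨⟨a', b'⟩, h2, rfl⟩ := Finset.mem_image.1 (Finset.mem_coe.1 hy)
    have h1' := Finset.mem_product.1 h1
    have h2' := Finset.mem_product.1 h2
    rw [D2.map_mk, D2.map_mk] at h
    obtain ⟨h3, h4⟩ := D2.mk_inj h
    have h5 : a = a' := c.inj f z h1'.1 h2'.1 h3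
    have h6 : b = b' := c.inj f z' h1'.2 h2'.2 h4
    rw [h5, h6]
  img {p q} f z := by
    obtain ⟨s, z, z', rfl⟩ := D2.rep z
    rw [D2.map_mk, D2.lift_mk, D2.lift_mk, ← c.img, ← c.img]
    ext x
    simp only [Finset.mem_image, Finset.mem_product, Prod.exists]
    constructor
    · rintro ⟨_, ⟨a, b, ⟨h1, h2⟩, rfl⟩, rfl⟩
      exact ⟨_, _, ⟨⟨a, h1, rfl⟩, ⟨b, h2, rfl⟩⟩, rfl⟩
    · rintro ⟨_, _, ⟨⟨a, h1, rfl⟩, ⟨b, h2, rfl⟩⟩, rfl⟩
      exact ⟨_, ⟨a, b, ⟨h1, h2⟩, rfl⟩, rfl⟩

theorem D2_S_mk (c : Corr W Z) (s : Fin (p + 1) → C2) (z z' : Z.obj p) :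
    c.D2.S (D2.mk s z z') = (c.S z ×ˢ c.S z' : Finset (_ × _)).image
      (fun w => D2.mk s w.1 w.2) := rfl

theorem mem_D2_S_mk {c : Corr W Z} {s : Fin (p + 1) → C2} {z z' : Z.obj p} {w w' : W.obj p} :
    D2.mk s w w' ∈ c.D2.S (D2.mk s z z') ↔ w ∈ c.S z ∧ w' ∈ c.S z' := by
  rw [D2_S_mk, Finset.mem_image]
  constructor
  · rintro ⟨⟨a, b⟩, h1, h2⟩
    obtain ⟨rfl, rfl⟩ := D2.mk_inj h2
    exact Finset.mem_product.1 h1
  · rintro ⟨h1, h2⟩
    exact ⟨(w, w'), Finset.mem_product.2 ⟨h1, h2⟩, rfl⟩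

theorem sum_D2_S_mk {A : Type*} [AddCommMonoid A] (c : Corr W Z) (s : Fin (p + 1) → C2)
    (z z' : Z.obj p) (f : (SS.D2 W).obj p → A) :
    ∑ x ∈ c.D2.S (D2.mk s z z'), f x = ∑ w ∈ c.S z, ∑ w' ∈ c.S z', f (D2.mk s w w') := by
  rw [D2_S_mk, Finset.sum_image, Finset.sum_product]
  rintro ⟨a, b⟩ _ ⟨a', b'⟩ _ h
  obtain ⟨h1, h2⟩ := D2.mk_inj h
  exact Prod.ext h1 h2

/-- The transfer of `D2 c` is the map of homotopy fixed points induced by the transfer of
`c × c`. -/
theorem toHG_D2_sum (c : Corr W Z) (f : (F R (SS.D2 W)).obj p) :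
    (toHG Z).app p ((c.D2.sum (R := R)).app p f) =
      (hG.mapHom (swapF R W) (swapF R Z) ((c.prod c).sum (R := R))
        (fun _ g x => c.prod_sum_swap x g)).app p ((toHG W).app p f) := by
  refine hG.ext fun s => ?_
  funext x
  exact (c.sum_D2_S_mk s x.1 x.2 f).trans
    (prod_sum_apply c c (hG.fn ((toHG W).app p f) s) x).symm

theorem toHG_comp_D2_sum (c : Corr W Z) :
    (toHG Z).comp (c.D2.sum (R := R)) =
      (hG.mapHom (swapF R W) (swapF R Z) ((c.prod c).sum (R := R))
        (fun _ g x => c.prod_sum_swap x g)).comp (toHG W) :=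
  Hom.ext fun _ f => toHG_D2_sum c f

end Corr

/-- Extension by zero outside of a locally constant predicate. -/
def cut (R : Type) [CommRing R] {X : SS} (P : ∀ {p : ℕ}, X.obj p → Prop)
    (hP : ∀ {p q : ℕ} (f : Op p q) (w : X.obj q), P (X.map f w) ↔ P w) :
    Hom (F R X) (F R X) where
  app p :=
    { toFun := fun f x => if P x then f x else 0
      map_add' := fun f g => by
        funext x
        show (if P x then f x + g x else 0) = (if P x then f x else 0) + (if P x then g x else 0)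
        split_ifs
        · rfl
        · rw [add_zero]
      map_smul' := fun r f => by
        funext x
        show (if P x then r * f x else 0) = r * (if P x then f x else 0)
        split_ifs
        · rfl
        · rw [mul_zero] }
  nat {p q} φ f := by
    funext x
    show (if P x then f (X.map φ x) else 0) = (if P (X.map φ x) then f (X.map φ x) else 0)
    rw [hP]

theorem cut_app {X : SS} {P : ∀ {p : ℕ}, X.obj p → Prop}
    {hP : ∀ {p q : ℕ} (f : Op p q) (w : X.obj q), P (X.map f w) ↔ P w} {p : ℕ}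
    (f : (F R X).obj p) (x : X.obj p) : (cut R P hP).app p f x = if P x then f x else 0 := rfl

end SS

end Vale.Agent.P263.E
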