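import Vale.Agent.P263.E.Cov

/-!
# P263, block E2: extension by zero on the fibre powers of a covering (helper727)

`Y.ext0 T` : from the nonconstant tuples, `Y.dext T` : from the constant tuples; `tr_ext0`, `tr_dext`,
`dext_add_ext0`, `pow_ext`.
-/

namespace Vale.Agent.P263.E

open Vale.Agent.P263.S SS

variable {R : Type} [CommRing R] {B : SS}

namespace Cov

variable (Y : Cov B) (T : Type) [Fintype T] [DecidableEq T]

open Classical in
/-- extension by zero from the nonconstant tuples -/
noncomputable def ext0 : Hom (F R (Y.nc T).tot) (F R (Y.pow T).tot) where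
  app p :=
    { toFun := fun g y => if h : Y.NC y then g ⟨y, h⟩ else 0
      map_add' := fun f g => by
        funext y
        show (if h : Y.NC y then (f ⟨y, h⟩ + g ⟨y, h⟩ : R) else 0) =
          (if h : Y.NC y then f ⟨y, h⟩ else 0) + (if h : Y.NC y then g ⟨y, h⟩ else 0)
        split_ifs <;> simp
      map_smul' := fun a f => by
        funext y
        show (if h : Y.NC y then (a * f ⟨y, h⟩ : R) else 0) =
          a * (if h : Y.NC y then f ⟨y, h⟩ else 0)
        split_ifs <;> simp }
  nat := by
    intro p q θ g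
    funext y
    show (if h : Y.NC y then g ((Y.nc T).tot.map θ ⟨y, h⟩) else 0) =
      if h : Y.NC ((Y.pow T).tot.map θ y) then g ⟨(Y.pow T).tot.map θ y, h⟩ else 0
    by_cases h : Y.NC y
    · rw [dif_pos h, dif_pos ((Y.nc_map θ y).2 h)]
      rfl
    · rw [dif_neg h, dif_neg (fun h' => h ((Y.nc_map θ y).1 h'))]

open Classical in
theorem ext0_apply {p : ℕ} (g : (F R (Y.nc T).tot).obj p) (y : (Y.pow T).tot.obj p) :
    (Y.ext0 T).app p g y = if h : Y.NC y then g ⟨y, h⟩ else 0 := rfl

@[simp] theorem ext0_nc {p : ℕ} (g : (F R (Y.nc T).tot).obj p) (y : (Y.nc T).tot.obj p) :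
    (Y.ext0 T).app p g y.1 = g y := (dif_pos y.2).trans rfl

theorem ext0_not_nc {p : ℕ} (g : (F R (Y.nc T).tot).obj p) {y : (Y.pow T).tot.obj p}
    (hy : ¬ Y.NC y) : (Y.ext0 T).app p g y = 0 := by
  rw [ext0_apply, dif_neg hy]

@[simp] theorem ext0_diag {p : ℕ} (g : (F R (Y.nc T).tot).obj p) (y : Y.tot.obj p) :
    (Y.ext0 T).app p g ((Y.diag T).app y) = 0 := Y.ext0_not_nc T g (Y.not_nc_diag y)

theorem ncIncl_ext0 {p : ℕ} (g : (F R (Y.nc T).tot).obj p) :
    (Y.ncIncl T).pull.app p ((Y.ext0 T).app p g) = g := by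
  funext y
  exact Y.ext0_nc T g y

theorem diag_ext0 {p : ℕ} (g : (F R (Y.nc T).tot).obj p) :
    (Y.diag T).pull.app p ((Y.ext0 T).app p g) = 0 := by
  funext y
  exact Y.ext0_diag T g y

variable [Nonempty T]

open Classical in
/-- extension by zero from the constant tuples -/
noncomputable def dext : Hom (F R Y.tot) (F R (Y.pow T).tot) where
  app p :=
    { toFun := fun g y => if Y.NC y then 0 else g (y.val (Classical.arbitrary T))
      map_add' := fun f g => by
        funext y
        show (if Y.NC y then 0 else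
            (f (y.val (Classical.arbitrary T)) + g (y.val (Classical.arbitrary T)) : R)) =
          (if Y.NC y then 0 else f (y.val (Classical.arbitrary T))) +
            (if Y.NC y then 0 else g (y.val (Classical.arbitrary T)))
        split_ifs <;> simp
      map_smul' := fun a f => by
        funext y
        show (if Y.NC y then 0 else (a * f (y.val (Classical.arbitrary T)) : R)) =
          a * (if Y.NC y then 0 else f (y.val (Classical.arbitrary T)))
        split_ifs <;> simp }
  nat := by
    intro p q θ g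
    funext y
    show (if Y.NC y then 0 else g (Y.tot.map θ (y.val (Classical.arbitrary T)))) =
      if Y.NC ((Y.pow T).tot.map θ y) then 0 else
        g (((Y.pow T).tot.map θ y).val (Classical.arbitrary T))
    by_cases h : Y.NC y
    · rw [if_pos h, if_pos ((Y.nc_map θ y).2 h)]
    · rw [if_neg h, if_neg (fun h' => h ((Y.nc_map θ y).1 h'))]
      rfl

open Classical in
theorem dext_apply {p : ℕ} (g : (F R Y.tot).obj p) (y : (Y.pow T).tot.obj p) :
    (Y.dext T).app p g y = if Y.NC y then 0 else g (y.val (Classical.arbitrary T)) := rfl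

@[simp] theorem dext_diag {p : ℕ} (g : (F R Y.tot).obj p) (y : Y.tot.obj p) :
    (Y.dext T).app p g ((Y.diag T).app y) = g y := if_neg (Y.not_nc_diag y)

theorem dext_of_nc {p : ℕ} (g : (F R Y.tot).obj p) {y : (Y.pow T).tot.obj p} (hy : Y.NC y) :
    (Y.dext T).app p g y = 0 := if_pos hy

@[simp] theorem dext_nc {p : ℕ} (g : (F R Y.tot).obj p) (y : (Y.nc T).tot.obj p) :
    (Y.dext T).app p g y.1 = 0 := Y.dext_of_nc T g y.2

theorem diag_dext {p : ℕ} (g : (F R Y.tot).obj p) :
    (Y.diag T).pull.app p ((Y.dext T).app p g) = g := by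
  funext y
  exact Y.dext_diag T g y

theorem ncIncl_dext {p : ℕ} (g : (F R Y.tot).obj p) :
    (Y.ncIncl T).pull.app p ((Y.dext T).app p g) = 0 := by
  funext y
  exact Y.dext_nc T g y

/-- a function on the fibre power is determined by its values on the constant and on the
nonconstant tuples -/
theorem pow_ext {p : ℕ} {f g : (F R (Y.pow T).tot).obj p}
    (h1 : (Y.diag T).pull.app p f = (Y.diag T).pull.app p g)
    (h2 : (Y.ncIncl T).pull.app p f = (Y.ncIncl T).pull.app p g) : f = g := by
  funext y
  by_cases h : Y.NC y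
  · exact congrFun h2 ⟨y, h⟩
  · rw [Y.eq_diag_of_not_nc h (Classical.arbitrary T)]
    exact congrFun h1 (y.val (Classical.arbitrary T))

/-- every function on the fibre power is the sum of its constant and its nonconstant part -/
theorem dext_add_ext0 {p : ℕ} (G : (F R (Y.pow T).tot).obj p) :
    (Y.dext T).app p ((Y.diag T).pull.app p G) +
      (Y.ext0 T).app p ((Y.ncIncl T).pull.app p G) = G := by
  apply Y.pow_ext T
  · rw [map_add, Y.diag_dext T, Y.diag_ext0 T, add_zero]
  · rw [map_add, Y.ncIncl_dext T, Y.ncIncl_ext0 T, zero_add]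

/-- the transfer of a function supported on the diagonal -/
theorem tr_dext {p : ℕ} (g : (F R Y.tot).obj p) :
    (Y.pow T).tr.app p ((Y.dext T).app p g) = Y.tr.app p g := by
  rw [Y.tr_pow, Y.diag_dext T, Y.ncIncl_dext T, map_zero, add_zero]

/-- the transfer of a function supported on the nonconstant tuples -/
theorem tr_ext0 {p : ℕ} (g : (F R (Y.nc T).tot).obj p) :
    (Y.pow T).tr.app p ((Y.ext0 T).app p g) = (Y.nc T).tr.app p g := by
  rw [Y.tr_pow, Y.diag_ext0 T, Y.ncIncl_ext0 T, map_zero, zero_add]

end Cov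

end Vale.Agent.P263.E
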