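import Vale.Agent.P263.E.TripThick
import Vale.Agent.P263.E.Seq

/-!
# P263, block E (helper27): the concrete input `Dat`, over any ring of coefficients

`Y : Cov B`, `β : B → Q`, `α : A → Q`, `cl : Y.tot → Z'`.

* `algF R X : Alg (F R X)`, `algCst R a : Alg (cstOn R a)`;
* `datF R Y β α cl : Dat R Y` with `I` the functions on `TZ Q B A` constant on `A`, `Z = F R Z'`,
  `r` the restriction to `B`, `rho = cl^*`;
* `tripF R Y β α cl` : helper302's triple for `datF`, with `fst = kz`, `snd = kw`,
  `t = tr ∘ cl^*`.
-/

noncomputable section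

namespace Vale.Agent.P263.E

open Vale.Agent.P263.S SS

variable (R : Type) [CommRing R]

/-- the algebra of functions -/
def algF (X : SS) : Alg (F R X) where
  mul :=
    { app := fun p => LinearMap.mk₂ R (fun f g : (F R X).obj p => (mul f g : (F R X).obj p))
        (fun f f' g => by funext x; exact add_mul (f x) (f' x) (g x))
        (fun c f g => by funext x; exact mul_assoc c (f x) (g x))
        (fun f g g' => by funext x; exact mul_add (f x) (g x) (g' x))
        (fun c f g => by funext x; exact mul_left_comm (f x) c (g x))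
      nat := fun _ _ _ => rfl }
  comm p f g := by funext x; exact mul_comm (f x) (g x)
  assoc p f g h := by funext x; exact mul_assoc (f x) (g x) (h x)

variable {R} in
@[simp] theorem algF_mul {X : SS} {p : ℕ} (f g : (F R X).obj p) :
    (algF R X).mul.app p f g = mul f g := rfl

/-- the algebra of the functions constant on `A` -/
def algCst {A Z : SS} (a : Map A Z) : Alg (cstOn R a) where
  mul :=
    { app := fun p => LinearMap.mk₂ R (fun f g : (cstOn R a).obj p =>
          (cstOnMk (mul f.1 g.1) (fun x y => by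
            show f.1 (a.app x) * g.1 (a.app x) = f.1 (a.app y) * g.1 (a.app y)
            rw [f.2 x y, g.2 x y]) : (cstOn R a).obj p))
        (fun f f' g => Subtype.ext (by funext x; exact add_mul (f.1 x) (f'.1 x) (g.1 x)))
        (fun c f g => Subtype.ext (by funext x; exact mul_assoc c (f.1 x) (g.1 x)))
        (fun f g g' => Subtype.ext (by funext x; exact mul_add (f.1 x) (g.1 x) (g'.1 x)))
        (fun c f g => Subtype.ext (by funext x; exact mul_left_comm (f.1 x) c (g.1 x)))
      nat := fun _ _ _ => rfl }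
  comm p f g := Subtype.ext (by funext x; exact mul_comm (f.1 x) (g.1 x))
  assoc p f g h := Subtype.ext (by funext x; exact mul_assoc (f.1 x) (g.1 x) (h.1 x))

variable {R} in
@[simp] theorem algCst_incl {A Z : SS} {a : Map A Z} {p : ℕ} (f g : (cstOn R a).obj p) :
    (cstOnIncl R a).app p ((algCst R a).mul.app p f g) =
      mul ((cstOnIncl R a).app p f) ((cstOnIncl R a).app p g) := rfl

variable {B : SS} (Y : Cov B) {Q A Z' : SS} (β : Map B Q) (α : Map A Q) (cl : Map Y.tot Z')

/-- **The concrete input of block [E].** -/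
def datF : Dat R Y where
  I := cstOn R (thA β α)
  Z := F R Z'
  aI := algCst R (thA β α)
  aZ := algF R Z'
  r := (thB β α).pull.comp (cstOnIncl R (thA β α))
  rho := cl.pull
  r_mul _ _ _ := rfl
  rho_mul _ _ _ := rfl
  r_onto p f := by
    obtain ⟨z, hz⟩ := (th_inj β α).pull_surjective (R := R) p (Sum.elim f (fun _ => 0))
    refine ⟨cstOnMk z fun x y => ?_, ?_⟩
    · exact (congrFun hz (Sum.inr x)).trans (congrFun hz (Sum.inr y)).symm
    · funext x
      exact congrFun hz (Sum.inl x)

@[simp] theorem datF_r_app {p : ℕ} (z : (cstOn R (thA β α)).obj p) :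
    (datF R Y β α cl).r.app p z = (thB β α).pull.app p ((cstOnIncl R (thA β α)).app p z) := rfl

@[simp] theorem datF_rho : (datF R Y β α cl).rho = cl.pull := rfl

theorem isPB_datF : IsPB (K := (datF R Y β α cl).K) (I := cstOn R (thA β α)) (C := F R Z')
    (datF R Y β α cl).kz (datF R Y β α cl).kw
    ((thB β α).pull.comp (cstOnIncl R (thA β α))) ((Y.tr (R := R)).comp cl.pull) where
  inj p x h1 h2 := (datF R Y β α cl).extK (h1.trans (map_zero _).symm) (h2.trans (map_zero _).symm)
  comm p x := (datF R Y β α cl).r_kz x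
  ex p z w h := ⟨(datF R Y β α cl).mkK z w h, rfl, rfl⟩

/-- **helper302's triple for the concrete input.** -/
def tripF : Trip R (datF R Y β α cl).K (cstOn R (thA β α)) (F R Z') (TZ Q B A) B A :=
  Trip.thick β α ((Y.tr (R := R)).comp cl.pull) (datF R Y β α cl).kz (datF R Y β α cl).kw
    (isPB_datF R Y β α cl)

@[simp] theorem tripF_fst : (tripF R Y β α cl).fst = (datF R Y β α cl).kz := rfl

@[simp] theorem tripF_snd : (tripF R Y β α cl).snd = (datF R Y β α cl).kw := rfl

@[simp] theorem tripF_t : (tripF R Y β α cl).t = (Y.tr (R := R)).comp cl.pull := rfl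

@[simp] theorem tripF_b : (tripF R Y β α cl).b = thB β α := rfl

@[simp] theorem tripF_a : (tripF R Y β α cl).a = thA β α := rfl

theorem tripF_base {d D : ℕ} (hD : d + 2 ≤ D) (hA : SphLike R A d)
    (hB : ∀ j, j ≤ D → Function.Bijective ((β.pull (R := R)).mapH j)) :
    (tripF R Y β α cl).Base d D :=
  Trip.thick_base β α _ _ _ _ (fun n => Sum.inr (hA.ne n).some) hD hA hB

/-- `ev (β^* x) = α^* x` -/
theorem tripF_ev {d D : ℕ} (h : (tripF R Y β α cl).Base d D) {j : ℕ} (hj : j ≤ D)
    (x : (F R Q).H j) : h.ev hj (β.pull.mapH j x) = α.pull.mapH j x :=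
  Trip.thick_ev β α _ _ _ _ h hj x

end Vale.Agent.P263.E
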