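import Vale.Agent.P263.E.D2
import Vale.Agent.P263.S.D2Det

/-!
# P263, block S6: `D_2 Z` for simplicial sets with finite levels (helper587)

* `FinLev Z` : all levels of `Z` are finite (instances for `pt`, products, `D2`, `BW`, `BV`);
* `muF_lift_bijective` : `F(Z) ⊗ F(Z') → F(Z × Z')` is levelwise bijective;
* `upZ Z j q d e x : H^d(D2 Z)` = `u^j P(x)`; `trZ Z` = transfer `F(Z × Z) → F(D2 Z)`;
* `span_D2` : `w - ∑_i upZ (d - 2 i) i d (x i) = tr y`.
-/

noncomputable section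

namespace Vale.Agent.P263.E

open Vale.Agent.P263.S

namespace SS

/-! ### finite levels -/

/-- all levels are finite -/
class FinLev (Z : SS) : Prop where
  fin : ∀ p, Finite (Z.obj p)

instance (Z : SS) [h : FinLev Z] (p : ℕ) : Finite (Z.obj p) := h.fin p

instance : FinLev pt := ⟨fun _ => inferInstanceAs (Finite Unit)⟩

instance (X Y : SS) [FinLev X] [FinLev Y] : FinLev (X.prod Y) :=
  ⟨fun p => inferInstanceAs (Finite (X.obj p × Y.obj p))⟩

instance : Finite C2 := inferInstanceAs (Finite (ZMod 2))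

instance (Z : SS) [FinLev Z] : FinLev (D2 Z) :=
  ⟨fun p => by
    have : Finite (D2Pre Z p) :=
      inferInstanceAs (Finite ((Fin (p + 1) → C2) × Z.obj p × Z.obj p))
    exact Quotient.finite _⟩

instance : FinLev BC2 := inferInstanceAs (FinLev (D2 pt))

instance BW.finLev (A : SS) [FinLev A] : ∀ n, FinLev (BW A n)
  | 0 => inferInstanceAs (FinLev A)
  | n + 1 => by
    have := BW.finLev A n
    exact inferInstanceAs (FinLev (D2 (BW A n)))

instance BV.finLev : ∀ n, FinLev (BV n)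
  | 0 => inferInstanceAs (FinLev pt)
  | n + 1 => by
    have := BV.finLev n
    exact inferInstanceAs (FinLev (BC2.prod (BV n)))

/-! ### the Künneth map at the level of cochains -/

theorem lift_mul_bijective (R : Type) [CommRing R] (X Y : Type) [Finite X] [Finite Y]
    (m : (X → R) →ₗ[R] (Y → R) →ₗ[R] (X × Y → R)) (hm : ∀ f g x, m f g x = f x.1 * g x.2) :
    Function.Bijective (TensorProduct.lift m) := by
  classical
  have := Fintype.ofFinite X
  have := Fintype.ofFinite Y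
  let b := (Pi.basisFun R X).tensorProduct (Pi.basisFun R Y)
  let b' := Pi.basisFun R (X × Y)
  have e : TensorProduct.lift m = (b.equiv b' (Equiv.refl _)).toLinearMap := by
    refine b.ext fun ij => ?_
    obtain ⟨i, j⟩ := ij
    rw [LinearEquiv.coe_coe, Module.Basis.equiv_apply, Module.Basis.tensorProduct_apply,
      TensorProduct.lift.tmul]
    funext x
    obtain ⟨x, y⟩ := x
    rw [hm]
    simp only [b', Pi.basisFun_apply, Equiv.refl_apply, Pi.single_apply, Prod.mk.injEq]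
    by_cases h1 : x = i <;> by_cases h2 : y = j <;> simp [h1, h2]
  rw [e]
  exact (b.equiv b' (Equiv.refl _)).bijective

theorem muF_lift_bijective (R : Type) [CommRing R] (Z Z' : SS) [FinLev Z] [FinLev Z'] (p : ℕ) :
    Function.Bijective ((muF R Z Z').lift.app p) :=
  lift_mul_bijective R (Z.obj p) (Z'.obj p) ((muF R Z Z').app p) fun _ _ _ => rfl

theorem muF_lift_mapH_bijective (R : Type) [CommRing R] (Z Z' : SS) [FinLev Z] [FinLev Z']
    (p : ℕ) : Function.Bijective ((muF R Z Z').lift.mapH p) :=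
  Hom.mapH_bijective _ (fun p => muF_lift_bijective R Z Z' p) p

/-- the Künneth basis of `H(Z × Z)` -/
def kunF_of (Z : SS) [FinLev Z] (K : KunB (Bil.univ (F (ZMod 2) Z) (F (ZMod 2) Z))) :
    KunB (muF (ZMod 2) Z Z) :=
  K.map (muF (ZMod 2) Z Z) (muF (ZMod 2) Z Z).lift (fun p a b => Bil.lift_tmul _ p a b)
    (muF_lift_mapH_bijective (ZMod 2) Z Z)

/-! ### `u^j P` for simplicial sets -/

theorem muF_sym (R : Type) [CommRing R] (Z : SS) : Sym (muF R Z Z) (swapF R Z) := by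
  intro p x y
  funext z
  exact (swapF_tau _ _).trans (muF_swap x y z)

theorem toHG_comp_ofHG (R : Type) [CommRing R] (Z : SS) :
    (toHG (R := R) Z).comp (ofHG Z) = Hom.id _ := Hom.ext fun _ f => toHG_ofHG f

theorem ofHG_comp_toHG (R : Type) [CommRing R] (Z : SS) :
    (ofHG (R := R) Z).comp (toHG Z) = Hom.id _ := Hom.ext fun _ f => ofHG_toHG f

theorem mapH_toHG_ofHG (R : Type) [CommRing R] (Z : SS) (n : ℕ) (x : (hG (swapF R Z)).H n) :
    (toHG Z).mapH n ((ofHG Z).mapH n x) = x := by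
  rw [← Hom.mapH_comp, toHG_comp_ofHG, Hom.mapH_id]

theorem mapH_ofHG_toHG (R : Type) [CommRing R] (Z : SS) (n : ℕ) (x : (F R (D2 Z)).H n) :
    (ofHG Z).mapH n ((toHG Z).mapH n x) = x := by
  rw [← Hom.mapH_comp, ofHG_comp_toHG, Hom.mapH_id]

/-- multiplication by `u` on `H^*(D2 Z)` -/
def uZ (Z : SS) (n : ℕ) : (F (ZMod 2) (D2 Z)).H n →ₗ[ZMod 2] (F (ZMod 2) (D2 Z)).H (n + 1) :=
  ((ofHG Z).mapH (n + 1)).comp ((uH idC (swapF (ZMod 2) Z) n).comp ((toHG Z).mapH n))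

theorem uZ_apply (Z : SS) (n : ℕ) (x : (F (ZMod 2) (D2 Z)).H n) :
    uZ Z n x = (ofHG Z).mapH (n + 1) (uH idC (swapF (ZMod 2) Z) n ((toHG Z).mapH n x)) := rfl

/-- the class `u^j P(x)` of `D2 Z` -/
def upZ (Z : SS) (j q d : ℕ) (e : j + 2 * q = d) (x : (F (ZMod 2) Z).H q) :
    (F (ZMod 2) (D2 Z)).H d :=
  (ofHG Z).mapH d (uP (muF (ZMod 2) Z Z) (swapF (ZMod 2) Z) (muF_sym (ZMod 2) Z) j q d e x)

theorem upZ_zero_left (Z : SS) (q : ℕ) (e : 0 + 2 * q = q + q) (x : (F (ZMod 2) Z).H q) :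
    upZ Z 0 q (q + q) e x =
      (ofHG Z).mapH (q + q) (P (muF (ZMod 2) Z Z) (swapF (ZMod 2) Z) (muF_sym (ZMod 2) Z) x) :=
  rfl

theorem upZ_succ (Z : SS) (j q d : ℕ) (e : j + 2 * q = d) (e' : j + 1 + 2 * q = d + 1)
    (x : (F (ZMod 2) Z).H q) : upZ Z (j + 1) q (d + 1) e' x = uZ Z d (upZ Z j q d e x) := by
  unfold upZ
  rw [uZ_apply, mapH_toHG_ofHG, uP_succ]

theorem upZ_zero (Z : SS) (j q d : ℕ) (e : j + 2 * q = d) : upZ Z j q d e 0 = 0 := by
  unfold upZ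
  rw [uP_zero, map_zero]

/-- the transfer `F(Z × Z) → F(D2 Z)` -/
def trZ (R : Type) [CommRing R] (Z : SS) : Hom (F R (Z.prod Z)) (F R (D2 Z)) :=
  (ofHG Z).comp (hG.tr (swapF R Z))

theorem trZ_mk (R : Type) [CommRing R] (Z : SS) {p : ℕ} (f : (F R (Z.prod Z)).obj p)
    (s : Fin (p + 1) → C2) (z z' : Z.obj p) :
    (trZ R Z).app p f (D2.mk s z z') = f (z, z') + f (z', z) := by
  have h1 : hG.fn ((hG.tr (swapF R Z)).app p f) s =
      (swapF R Z).act p 1 f + (swapF R Z).act p tau f := by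
    rw [hG.tr_fn, C2.sum_eq]
    rfl
  refine (congrFun h1 (z, z')).trans ?_
  rw [swapF_one]
  exact congrArg (fun r => f (z, z') + r) (swapF_tau f (z, z'))

theorem uZ_trZ (Z : SS) (n : ℕ) (y : (F (ZMod 2) (Z.prod Z)).H n) :
    uZ Z n ((trZ (ZMod 2) Z).mapH n y) = 0 := by
  rw [uZ_apply, trZ, Hom.mapH_comp, mapH_toHG_ofHG, uH_tr, map_zero]

theorem upZ_add (Z : SS) (j q d : ℕ) (e : j + 2 * q = d) (hj : 1 ≤ j)
    (x y : (F (ZMod 2) Z).H q) :
    upZ Z j q d e (x + y) = upZ Z j q d e x + upZ Z j q d e y := by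
  unfold upZ
  rw [uP_add _ _ _ _ _ _ _ hj, map_add]

theorem upZ_add_zero (Z : SS) (q d : ℕ) (e : 0 + 2 * q = d) (e' : d = q + q)
    (x y : (F (ZMod 2) Z).H q) :
    upZ Z 0 q d e (x + y) = upZ Z 0 q d e x + upZ Z 0 q d e y +
      (trZ (ZMod 2) Z).mapH d ((muF (ZMod 2) Z Z).cupH e' x y) := by
  unfold upZ
  rw [uP_add_zero _ _ _ _ _ _ e', map_add, map_add, trZ, Hom.mapH_comp]

/-- **`H^*(D2 Z)` is spanned by the transfers and the `u^j P(x)`.** -/
theorem span_D2 (Z : SS) (K : KunB (muF (ZMod 2) Z Z)) (d : ℕ) (w : (F (ZMod 2) (D2 Z)).H d) :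
    ∃ (y : (F (ZMod 2) (Z.prod Z)).H d) (x : ∀ q, (F (ZMod 2) Z).H q),
      w - ∑ i : Fin (d / 2 + 1), upZ Z (d - 2 * i) i d (by have := i.2; omega) (x i) =
        (trZ (ZMod 2) Z).mapH d y := by
  obtain ⟨y, x, h⟩ := nak_span (muF_sym (ZMod 2) Z) K d ((toHG Z).mapH d w)
  refine ⟨y, x, ?_⟩
  have h1 := congrArg ((ofHG Z).mapH d) h
  rw [map_sub, map_sum, mapH_ofHG_toHG, ← Hom.mapH_comp] at h1
  exact h1

/-- multiples of `u` -/
theorem uZ_span (Z : SS) (K : KunB (muF (ZMod 2) Z Z)) (d : ℕ) (w : (F (ZMod 2) (D2 Z)).H d) :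
    ∃ x : ∀ q, (F (ZMod 2) Z).H q, uZ Z d w = ∑ i : Fin (d / 2 + 1),
      upZ Z (d + 1 - 2 * i) i (d + 1) (by have := i.2; omega) (x i) := by
  obtain ⟨x, h⟩ := nak_u (muF_sym (ZMod 2) Z) K d ((toHG Z).mapH d w)
  refine ⟨x, ?_⟩
  rw [uZ_apply, h, map_sum]
  rfl

end SS

end Vale.Agent.P263.E
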