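import Mathlib

/-!
P263, block E6 (helper512): the first Lannes-Zarati formula `LZ_1`, formal part.

All modules are total modules (products over all degrees), so that exponents are natural numbers and
nothing is dependent.

* `UExp E H` : `H = E[u]` (expansions in powers of `u`), `coef k : H →+ E` the coefficient of `u^k`.
* `LZData` : the exact sequences of block `[E]` around `K`, `KK`, `F_2^W`, `F_2^(W~)`.
* `LZData.coef_eq` : if `i y = u^r P` then the coefficient of `u^(r-1-j)` in `y` is `D (uW^j z)`, where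
  `z` has the same image as `P` in `H_(Z/2)(F_2^(W~))`, for every `j < r`.
-/

namespace Vale.Agent.P263.E

/-- `H` is the module of expansions in powers of `u` with coefficients in `E`. -/
structure UExp (E H : Type*) [AddCommGroup E] [AddCommGroup H] where
  /-- multiplication by `u` -/
  u : H →+ H
  /-- the constants -/
  infl : E →+ H
  /-- the constant term -/
  res : H →+ E
  /-- the part divisible by `u`, divided by `u` -/
  down : H →+ H
  res_infl : ∀ e, res (infl e) = e
  res_u : ∀ y, res (u y) = 0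
  down_u : ∀ y, down (u y) = y
  down_infl : ∀ e, down (infl e) = 0

namespace UExp

variable {E H : Type*} [AddCommGroup E] [AddCommGroup H] (U : UExp E H)

/-- The coefficient of `u^k`. -/
def coef (k : ℕ) : H →+ E where
  toFun y := U.res (U.down^[k] y)
  map_zero' := by rw [iterate_map_zero, map_zero]
  map_add' x y := by rw [iterate_map_add, map_add]

lemma coef_apply (k : ℕ) (y : H) : U.coef k y = U.res (U.down^[k] y) := rfl

@[simp] lemma coef_zero (y : H) : U.coef 0 y = U.res y := rfl

@[simp] lemma coef_succ_u (k : ℕ) (y : H) : U.coef (k + 1) (U.u y) = U.coef k y := by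
  rw [coef_apply, Function.iterate_succ_apply, U.down_u, ← coef_apply]

@[simp] lemma coef_zero_u (y : H) : U.coef 0 (U.u y) = 0 := U.res_u y

@[simp] lemma coef_zero_infl (e : E) : U.coef 0 (U.infl e) = e := U.res_infl e

@[simp] lemma coef_succ_infl (k : ℕ) (e : E) : U.coef (k + 1) (U.infl e) = 0 := by
  rw [coef_apply, Function.iterate_succ_apply, U.down_infl, iterate_map_zero, map_zero]

lemma coef_add_u (k n : ℕ) (y : H) : U.coef (k + n) (U.u^[n] y) = U.coef k y := by
  induction n generalizing y with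
  | zero => rfl
  | succ n ih => rw [Function.iterate_succ_apply', ← add_assoc, coef_succ_u, ih]

lemma coef_lt_u {k n : ℕ} (h : k < n) (y : H) : U.coef k (U.u^[n] y) = 0 := by
  induction n generalizing k y with
  | zero => omega
  | succ n ih =>
    rw [Function.iterate_succ_apply']
    rcases k with _ | k
    · exact U.coef_zero_u _
    · rw [coef_succ_u]; exact ih (by omega) y

lemma coef_u_infl (k n : ℕ) (e : E) : U.coef k (U.u^[n] (U.infl e)) = if k = n then e else 0 := by
  rcases lt_trichotomy k n with h | h | h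
  · rw [U.coef_lt_u h, if_neg h.ne]
  · subst h
    have h1 := U.coef_add_u 0 k (U.infl e)
    rw [zero_add] at h1
    rw [h1, coef_zero_infl, if_pos rfl]
  · obtain ⟨m, rfl⟩ : ∃ m, k = m + 1 + n := ⟨k - n - 1, by omega⟩
    rw [U.coef_add_u, coef_succ_infl, if_neg (by omega)]

end UExp

/-- The data of block `[E]` which enter `LZ_1`: `E = H(K)`, `HK = H_(Z/2)(K) = E[u]`,
`HKK = H_(Z/2)(KK)`, `W = H(F_2^W)`, `HW = W[u]`, `T = H_(Z/2)(F_2^(W~))`. -/
structure LZData (E HK HKK W HW T : Type*) [AddCommGroup E] [AddCommGroup HK] [AddCommGroup HKK]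
    [AddCommGroup W] [AddCommGroup HW] [AddCommGroup T] where
  UK : UExp E HK
  UW : UExp W HW
  /-- multiplication by `u` on `HKK` -/
  uKK : HKK →+ HKK
  i : HK →+ HKK
  i_u : ∀ y, i (UK.u y) = uKK (i y)
  i_inj : Function.Injective i
  j : HW →+ HKK
  j_u : ∀ y, j (UW.u y) = uKK (j y)
  /-- restriction to the off-diagonal part -/
  q : HKK →+ T
  exact : ∀ P, q P = 0 → ∃ y, i y = P
  /-- multiplication by the class of the double covering `W~ → W` -/
  uW : W →+ W
  /-- `∂ ∘ tr_W` -/
  D : W →+ E
  two : ∀ P : HKK, P + P = 0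
  /-- `(★)` : `j ((u + u_W) g) = i (∂ tr g)` -/
  star : ∀ g, j (UW.u (UW.infl g)) + j (UW.infl (uW g)) = i (UK.infl (D g))

namespace LZData

variable {E HK HKK W HW T : Type*} [AddCommGroup E] [AddCommGroup HK] [AddCommGroup HKK]
    [AddCommGroup W] [AddCommGroup HW] [AddCommGroup T] (d : LZData E HK HKK W HW T)

lemma i_u_iterate (n : ℕ) (y : HK) : d.i (d.UK.u^[n] y) = d.uKK^[n] (d.i y) := by
  induction n generalizing y with
  | zero => rfl
  | succ n ih => rw [Function.iterate_succ_apply, ih, d.i_u, Function.iterate_succ_apply]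

lemma j_u_iterate (n : ℕ) (y : HW) : d.j (d.UW.u^[n] y) = d.uKK^[n] (d.j y) := by
  induction n generalizing y with
  | zero => rfl
  | succ n ih => rw [Function.iterate_succ_apply, ih, d.j_u, Function.iterate_succ_apply]

/-- `j (u^n z) = i (Σ_(l<n) u^(n-1-l) ∂ tr (u_W^l z)) + j (u_W^n z)`. -/
lemma u_iterate_j (n : ℕ) (z : W) : d.uKK^[n] (d.j (d.UW.infl z)) =
    d.i (∑ l ∈ Finset.range n, d.UK.u^[n - 1 - l] (d.UK.infl (d.D (d.uW^[l] z)))) +
      d.j (d.UW.infl (d.uW^[n] z)) := by
  induction n with
  | zero => simp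
  | succ n ih =>
    have h1 : d.uKK (d.j (d.UW.infl (d.uW^[n] z))) =
        d.i (d.UK.infl (d.D (d.uW^[n] z))) + d.j (d.UW.infl (d.uW^[n + 1] z)) := by
      have h2 := d.star (d.uW^[n] z)
      rw [Function.iterate_succ_apply', ← h2, add_assoc, d.two, add_zero, d.j_u]
    rw [Function.iterate_succ_apply', ih, map_add, h1, ← add_assoc, ← d.i_u, ← map_add,
      Finset.sum_range_succ, map_sum]
    congr 3
    · refine Finset.sum_congr rfl fun l hl => ?_
      have hl' := Finset.mem_range.mp hl
      rw [show n + 1 - 1 - l = (n - 1 - l) + 1 by omega, Function.iterate_succ_apply']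
    · rw [show n + 1 - 1 - n = 0 by omega]; rfl

/-- **LZ_1, formal form.** -/
theorem coef_eq {P : HKK} {z : W} (hz : d.q P = d.q (d.j (d.UW.infl z))) {r : ℕ}
    (hr : d.uW^[r] z = 0) {y : HK} (hy : d.i y = d.uKK^[r] P) {l : ℕ} (hl : l < r) :
    d.UK.coef (r - 1 - l) y = d.D (d.uW^[l] z) := by
  obtain ⟨y', hy'⟩ := d.exact (P - d.j (d.UW.infl z)) (by rw [map_sub, hz, sub_self])
  have h1 : P = d.i y' + d.j (d.UW.infl z) := by rw [hy', sub_add_cancel]
  have h2 : y = d.UK.u^[r] y' +
      ∑ l ∈ Finset.range r, d.UK.u^[r - 1 - l] (d.UK.infl (d.D (d.uW^[l] z))) := by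
    apply d.i_inj
    rw [hy, h1, iterate_map_add, d.u_iterate_j, hr, map_zero, map_zero, add_zero, map_add,
      d.i_u_iterate]
  rw [h2, map_add, d.UK.coef_lt_u (by omega), zero_add, map_sum, Finset.sum_eq_single l]
  · rw [d.UK.coef_u_infl, if_pos rfl]
  · intro b hb hbl
    have := Finset.mem_range.mp hb
    rw [d.UK.coef_u_infl, if_neg (by omega)]
  · intro h; exact absurd (Finset.mem_range.mpr hl) h

end LZData

end Vale.Agent.P263.E
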