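import Vale.Agent.P263.S.Pow
import Vale.Agent.P263.S.Gys
import Vale.Agent.P263.E.Cl
import Vale.Agent.P263.E.UW

/-!
# P263, block E6: the bridge between `[E]` and `[H]` (helper14)

`Y : Cov B`, `cl : Y.tot → Z'`, `D : Y.PLab`, `a` the action on `F R (Y.nc C2).tot`.

* `ext2B` : the pairing `F Y × F Y → F (W~)`, `(f, g) ↦ f(y) g(y')`, symmetric (`sym_ext2B`);
* `clH_P` : `clH (P x) = P (cl^* x)`;
* `pT_P` : for a module `K` with a pairing into `KK` and `KK → F(W~)`, the image of `P x` in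
  `H(hG F(W~))` is `clH (P (w x))`;
* `clH_U` : `clH` commutes with the multiplication by `u`;
* `toHF_zcl` : `z = cl2^* (P w)` is the class of the unordered pairs of LZ_1, and
  `uW_pow_zcl` : `uW^l z = cl2^* (u^l P w)`.
-/

noncomputable section

namespace Vale.Agent.P263.E

open Vale.Agent.P263.S SS

variable {R : Type} [CommRing R]

/-- the pairing `F Z × F Z → F (Z × Z)` is symmetric -/
theorem SS.sym_muF (Z : SS) : Sym (SS.muF R Z Z) (swapF R Z) := by
  intro p x y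
  funext z
  exact (swapF_tau _ z).trans (mul_comm _ _)

namespace Cov

variable {B : SS} (Y : Cov B) {Z' : SS}

/-- the labelled ordered pairs have the unordered pairs as quotient -/
theorem PLab.isQuo {Y : Cov B} (D : Y.PLab) : D.toLab.IsQuo Y.toSub where
  surj w := Y.toSub_surj w
  inv g p x := by
    rcases C2_cases g with rfl | rfl
    · rw [PLab.toLab_t, Y.ncAct_one]
    · rw [PLab.toLab_t, Y.ncAct_tau, Y.toSub_swap]
  orb x y h := by
    rcases Y.toSub_eq_iff.1 h with rfl | rfl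
    · exact ⟨1, by rw [PLab.toLab_t, Y.ncAct_one]⟩
    · exact ⟨tau, by rw [PLab.toLab_t, Y.ncAct_tau, Y.swap_swap]⟩

/-- the exterior product of two functions on the ordered pairs, as a pairing -/
def ext2B (R : Type) [CommRing R] : Bil (F R Y.tot) (F R Y.tot) (F R (Y.nc C2).tot) where
  app p := LinearMap.mk₂ R (fun f g => Y.ext2 f g)
    (fun f f' g => by funext x; exact add_mul _ _ _)
    (fun c f g => by funext x; exact mul_assoc _ _ _)
    (fun f g g' => by funext x; exact mul_add _ _ _)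
    (fun c f g => by funext x; exact mul_left_comm _ _ _)
  nat _ _ _ := rfl

@[simp] theorem ext2B_app {p : ℕ} (f g : (F R Y.tot).obj p) :
    (Y.ext2B R).app p f g = Y.ext2 f g := rfl

variable {D : Y.PLab} {a : Act C2 (F R (Y.nc C2).tot)} (ha : D.toLab.Acts a)

include ha in
theorem sym_ext2B : Sym (Y.ext2B R) a := by
  intro p f g
  funext x
  refine (Y.acts_tau ha _ x).trans ?_
  exact mul_comm _ _

theorem toHF_eq : Y.toHF ha = Lab.iotaW ha D.isQuo := rfl

/-- `clH (P x) = P (cl^* x)` -/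
theorem clH_P (cl : SS.Map Y.tot Z') {n : ℕ} [Inv R n] (x : (F R Z').H n) :
    (Y.clH ha cl).mapH (n + n) (P (SS.muF R Z' Z') (swapF R Z') (SS.sym_muF Z') x) =
      P (Y.ext2B R) a (Y.sym_ext2B ha) ((cl.pull).mapH n x) :=
  (P_nat (SS.muF R Z' Z') (swapF R Z') (SS.sym_muF Z') (Y.ext2B R) a (Y.sym_ext2B ha)
    cl.pull ((Y.clP cl).pull) (Y.clP_equivariant ha cl) (fun _ _ _ => rfl) x).symm

/-- **The external square in the module of pairs**: if `x ↦ w x ∈ F(Y)` and the pairing of `K`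
with values in `KK` restricts to `ext2` on the ordered pairs, then the image of `P x` is
`P (w x)`. -/
theorem pT_P {K KK : CosMod R} (c : Act C2 KK) (μ : Bil K K KK) (hμ : Sym μ c)
    (w : Hom K (F R Y.tot)) (q : Hom KK (F R (Y.nc C2).tot))
    (hq : ∀ p (g : C2) (x : KK.obj p), q.app p (c.act p g x) = a.act p g (q.app p x))
    (hw : ∀ p x y, q.app p (μ.app p x y) = Y.ext2 (w.app p x) (w.app p y))
    {n : ℕ} [Inv R n] (x : K.H n) :
    (hG.mapHom c a q hq).mapH (n + n) (P μ c hμ x) =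
      P (Y.ext2B R) a (Y.sym_ext2B ha) (w.mapH n x) :=
  (P_nat μ c hμ (Y.ext2B R) a (Y.sym_ext2B ha) w q hq hw x).symm

/-- the same, in terms of the classifying map -/
theorem pT_P_cl {K KK : CosMod R} (c : Act C2 KK) (μ : Bil K K KK) (hμ : Sym μ c)
    (w : Hom K (F R Y.tot)) (q : Hom KK (F R (Y.nc C2).tot))
    (hq : ∀ p (g : C2) (x : KK.obj p), q.app p (c.act p g x) = a.act p g (q.app p x))
    (hw : ∀ p x y, q.app p (μ.app p x y) = Y.ext2 (w.app p x) (w.app p y))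
    (cl : SS.Map Y.tot Z') {n : ℕ} [Inv R n] (x : K.H n) (v : (F R Z').H n)
    (hv : w.mapH n x = (cl.pull).mapH n v) :
    (hG.mapHom c a q hq).mapH (n + n) (P μ c hμ x) =
      (Y.clH ha cl).mapH (n + n) (P (SS.muF R Z' Z') (swapF R Z') (SS.sym_muF Z') v) := by
  rw [Y.pT_P ha c μ hμ w q hq hw x, hv, Y.clH_P ha cl v]

/-- the class of the unordered pairs given by an equivariant class on `Z' × Z'` -/
def cl2H (D : Y.PLab) (cl : SS.Map Y.tot Z') (n : ℕ) :
    (hG (swapF R Z')).H n →ₗ[R] (F R (Y.ksub 2).tot).H n :=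
  (((Y.cl2 D cl).pull (R := R)).mapH n).comp ((ofHG Z').mapH n)

theorem cl2H_apply (cl : SS.Map Y.tot Z') {n : ℕ} (y : (hG (swapF R Z')).H n) :
    Y.cl2H D cl n y = ((Y.cl2 D cl).pull).mapH n ((ofHG Z').mapH n y) := rfl

/-- the class of the unordered pairs, seen in `H(hG F(W~))` -/
theorem toHF_cl2H (cl : SS.Map Y.tot Z') {n : ℕ} (y : (hG (swapF R Z')).H n) :
    (Y.toHF ha).mapH n (Y.cl2H D cl n y) = (Y.clH ha cl).mapH n y := by
  rw [cl2H_apply, Y.mapH_cl2 ha cl, ← Hom.mapH_comp (toHG Z') (ofHG Z')]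
  have h : (toHG (R := R) Z').comp (ofHG Z') = Hom.id _ := Hom.ext fun p f => toHG_ofHG f
  rw [h, Hom.mapH_id]

end Cov

/-! ### the multiplication by `u` -/

/-- the multiplication by `u` as an operator of degree one -/
def uDeg {B : CosMod (ZMod 2)} (a : Act C2 B) : Deg1 (hG a) (hG a) where
  app p := uc idC a p
  app_d p x := d_uc idC a p x

theorem uDeg_isU {X : SS} (a : Act C2 (SS.F (ZMod 2) X)) : Lab.IsU (uDeg a) := fun _ _ _ => rfl

theorem uDeg_mapH {B : CosMod (ZMod 2)} (a : Act C2 B) (n : ℕ) (x : (hG a).H n) :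
    (uDeg a).mapH n x = uH idC a n x := rfl

theorem uDeg_pow {B : CosMod (ZMod 2)} (a : Act C2 B) (l n : ℕ) (x : (hG a).H n) :
    (uDeg a).pow l n x = (guHG idC a).upow l n x := by
  induction l with
  | zero => rfl
  | succ l ih =>
    rw [Deg1.pow_succ, ih]
    rfl

namespace Cov

variable {B : SS} (Y : Cov B) {Z' : SS} {D : Y.PLab} {a : Act C2 (F (ZMod 2) (Y.nc C2).tot)}
  (ha : D.toLab.Acts a)

theorem two_eq_zero' : (2 : ZMod 2) = 0 := rfl

/-- **the multiplication with the class of the double covering** on `H(F(W))` -/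
def uWd (D : Y.PLab) : Deg1 (F (ZMod 2) (Y.ksub 2).tot) (F (ZMod 2) (Y.ksub 2).tot) :=
  Lab.uWq D.isQuo two_eq_zero'

/-- the formula for the multiplication with the class of the double covering -/
theorem pull_uWd {p : ℕ} (f : (F (ZMod 2) (Y.ksub 2).tot).obj p) (x : (Y.nc C2).tot.obj (p + 1)) :
    (Y.toSub.pull).app (p + 1) ((Y.uWd D).app p f) x = if D.toLab.lab x 0 = D.toLab.lab x 1 then 0
      else (Y.toSub.pull).app p f ((Y.nc C2).tot.map (dl p 0) x) := by
  show (Y.uWd D).app p f (Y.toSub.app x) = _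
  refine (Lab.uWq_app D.isQuo two_eq_zero' f x).trans ?_
  unfold Lab.eps Lab.ne01
  rw [← Y.toSub.nat]
  split_ifs
  · rw [zero_mul]
  · rw [one_mul]
    rfl

/-- `u (toHF z) = toHF (uW z)` -/
theorem uH_toHF {n : ℕ} (z : (F (ZMod 2) (Y.ksub 2).tot).H n) :
    uH idC a n ((Y.toHF ha).mapH n z) = (Y.toHF ha).mapH (n + 1) ((Y.uWd D).mapH n z) :=
  Lab.U_iotaW ha (uDeg_isU a) D.isQuo two_eq_zero' z

/-- `u^l (toHF z) = toHF (uW^l z)` -/
theorem upow_toHF (l : ℕ) {n : ℕ} (z : (F (ZMod 2) (Y.ksub 2).tot).H n) :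
    (guHG idC a).upow l n ((Y.toHF ha).mapH n z) =
      (Y.toHF ha).mapH (n + l) ((Y.uWd D).pow l n z) := by
  rw [← uDeg_pow]
  exact (Deg1.pow_nat (U := Y.uWd D) (V := uDeg a) (Y.toHF ha)
    (fun n x => (Y.uH_toHF ha x).symm) l n z).symm

/-- `clH (u y) = u (clH y)` -/
theorem clH_uH (cl : SS.Map Y.tot Z') {n : ℕ} (y : (hG (swapF (ZMod 2) Z')).H n) :
    (Y.clH ha cl).mapH (n + 1) (uH idC (swapF (ZMod 2) Z') n y) =
      uH idC a n ((Y.clH ha cl).mapH n y) :=
  uH_mapHom idC (swapF (ZMod 2) Z') a ((Y.clP cl).pull) (Y.clP_equivariant ha cl) y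

/-- `clH (u^l y) = u^l (clH y)` -/
theorem clH_upow (cl : SS.Map Y.tot Z') (l : ℕ) {n : ℕ} (y : (hG (swapF (ZMod 2) Z')).H n) :
    (Y.clH ha cl).mapH (n + l) ((guHG idC (swapF (ZMod 2) Z')).upow l n y) =
      (guHG idC a).upow l n ((Y.clH ha cl).mapH n y) := by
  rw [← uDeg_pow, ← uDeg_pow]
  exact Deg1.pow_nat (U := uDeg (swapF (ZMod 2) Z')) (V := uDeg a) (Y.clH ha cl)
    (fun n x => Y.clH_uH ha cl x) l n y

include ha in
/-- **The powers of the class of the double covering**: `uW^l (cl2^* y) = cl2^* (u^l y)`. -/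
theorem uWd_pow_cl2H (cl : SS.Map Y.tot Z') (l : ℕ) {n : ℕ} (y : (hG (swapF (ZMod 2) Z')).H n) :
    (Y.uWd D).pow l n (Y.cl2H D cl n y) =
      Y.cl2H D cl (n + l) ((guHG idC (swapF (ZMod 2) Z')).upow l n y) := by
  apply (Y.mapH_toHF_bijective ha (n + l)).1
  refine (Y.upow_toHF ha l (Y.cl2H D cl n y)).symm.trans ?_
  rw [Y.toHF_cl2H ha]
  refine (Y.clH_upow ha cl l y).symm.trans ?_
  exact (Y.toHF_cl2H ha cl (n := n + l) ((guHG idC (swapF (ZMod 2) Z')).upow l n y)).symm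

include ha in
/-- if `u^l = 0` on `H(hG F(W~))` then `uW^l = 0` -/
theorem uWd_pow_eq_zero {l n : ℕ} (h : ∀ x : (hG a).H n, (guHG idC a).upow l n x = 0)
    (z : (F (ZMod 2) (Y.ksub 2).tot).H n) : (Y.uWd D).pow l n z = 0 := by
  apply (Y.mapH_toHF_bijective ha (n + l)).1
  refine (Y.upow_toHF ha l z).symm.trans ((h _).trans ?_)
  exact (map_zero _).symm

/-- **The class `z` of the unordered pairs of LZ_1** : if `x ∈ H^n(K)` has the component
`w x = cl^* v` then the image of `P x` in `H(hG F(W~))` is the image of `cl2^* (P v)`. -/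
theorem pT_P_zcl {K KK : CosMod (ZMod 2)} (c : Act C2 KK) (μ : Bil K K KK) (hμ : Sym μ c)
    (w : Hom K (F (ZMod 2) Y.tot)) (q : Hom KK (F (ZMod 2) (Y.nc C2).tot))
    (hq : ∀ p (g : C2) (x : KK.obj p), q.app p (c.act p g x) = a.act p g (q.app p x))
    (hw : ∀ p x y, q.app p (μ.app p x y) = Y.ext2 (w.app p x) (w.app p y))
    (cl : SS.Map Y.tot Z') {n : ℕ} (x : K.H n) (v : (F (ZMod 2) Z').H n)
    (hv : w.mapH n x = (cl.pull).mapH n v) :
    (Y.toHF ha).mapH (n + n) (Y.cl2H D cl (n + n)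
        (P (SS.muF (ZMod 2) Z' Z') (swapF (ZMod 2) Z') (SS.sym_muF Z') v)) =
      (hG.mapHom c a q hq).mapH (n + n) (P μ c hμ x) := by
  rw [Y.toHF_cl2H ha, Y.pT_P_cl ha c μ hμ w q hq hw cl x v hv]

end Cov

end Vale.Agent.P263.E
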