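import Vale.Agent.P263.E.LZMain
import Vale.Agent.P263.E.SqInst

/-!
# P263, block E6 (helper512): LZ_1 for the standard actions and products

`D.pwLZ P R nil : D.LZIn` : the standard input; its `PowIn` is `D.pw R nil` of block E4.
`D.lzSt P R nil : ((D.pw R nil).st).LZ`.
`D.lz_pw` : `Sq^(q+l+1) x = ∂ (tr (cl2^* (u^l P v)))` in `H^(2q+l+1)(K)`, for `x ∈ H^q(K)` whose
component in `H^q(F(Y))` is `cl^* v`.
-/

noncomputable section

namespace Vale.Agent.P263.E

open Vale.Agent.P263.S SS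

namespace Dat

variable {B : SS} {Y : Cov B} (D : Dat (ZMod 2) Y) (PL : Y.PLab) (R : ℕ)
  (nil : ∀ n (x : (guHG idC (Y.actNC (ZMod 2) C2 C2)).H n),
    (guHG idC (Y.actNC (ZMod 2) C2 C2)).upow R n x = 0)

/-- the standard input of LZ_1 -/
def pwLZ : D.LZIn where
  PL := PL
  a := Y.actNC (ZMod 2) C2 C2
  ha := PL.acts
  aK := D.actT C2 C2
  zc_act _ _ _ := rfl
  wc_act _ _ _ := rfl
  pT_act p g x := D.pT_equiv C2 C2 p g x
  mul := D.mul0
  sym := D.sym_mul0
  pT_mul _ _ _ := rfl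
  R := R
  nil := nil

theorem pwLZ_powIn : (D.pwLZ PL R nil).powIn = D.pw R nil := rfl

theorem pwLZ_su : (D.pwLZ PL R nil).su = (D.pw R nil).st := rfl

/-- the input of LZ_1 for the standard squares -/
def lzSt : (D.pw R nil).st.LZ := (D.pwLZ PL R nil).lzSetup

/-- **LZ_1 for the standard squares.** -/
theorem lz_pw {Z' : SS} (cl : SS.Map Y.tot Z') {q : ℕ} (x : D.K.H q) (v : (F (ZMod 2) Z').H q)
    (hv : (LZIn.wY D).mapH q x = (cl.pull).mapH q v) (l : ℕ) :
    (D.pw R nil).st.Sq q (q + q + l + 1) x = D.s1.conn (q + q + l) ((Y.ksub 2).tr.mapH (q + q + l)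
      (Y.cl2H PL cl (q + q + l) ((guHG idC (swapF (ZMod 2) Z')).upow l (q + q)
        (P (SS.muF (ZMod 2) Z' Z') (swapF (ZMod 2) Z') (SS.sym_muF Z') v)))) :=
  (D.pwLZ PL R nil).lz cl x v hv l

end Dat

end Vale.Agent.P263.E
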