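import Vale.Agent.P263.E.SqAlg
import Vale.Agent.P263.S.PowAdd
import Vale.Agent.P263.S.HGses
import Vale.Agent.P263.S.GysTriv

/-!
# P263, block E4 (helper659): the squares of the cofibre

`guMap` : functoriality of the graded `F_2[u]`-module `guHG idC b = H(hG b)`.

`PowIn` : a short exact sequence `0 → K → KK → W → 0` of cosimplicial `F_2`-modules with `C2`-action
(trivial on `K`), a symmetric pairing `K × K → KK`, and nilpotency of `u` on `H(hG W)`.
`X.setup fr : Setup (fun q => q + q)` is the input of `SqAlg`, so `(X.setup fr).Sq q j` is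
`Sq^(j-q) : H^q(K) → H^j(K)`; `Sq_map` is the comparison with the squares of a commutative algebra.
-/

noncomputable section

namespace Vale.Agent.P263.E

open Vale.Agent.P263.S

/-- The map of graded `F_2[u]`-modules of an equivariant map. -/
def guMap {B C : CosMod (ZMod 2)} (b : Act C2 B) (c : Act C2 C) (f : Hom B C)
    (hf : ∀ p (g : C2) (x : B.obj p), f.app p (b.act p g x) = c.act p g (f.app p x)) :
    GU.Hom (guHG idC b) (guHG idC c) where
  f n := (hG.mapHom b c f hf).mapH n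
  comm n x := uH_mapHom idC b c f hf x

@[simp] theorem guMap_f {B C : CosMod (ZMod 2)} (b : Act C2 B) (c : Act C2 C) (f : Hom B C)
    (hf : ∀ p (g : C2) (x : B.obj p), f.app p (b.act p g x) = c.act p g (f.app p x)) (n : ℕ) :
    (guMap b c f hf).f n = (hG.mapHom b c f hf).mapH n := rfl

/-- The square of the sum, multiplied with `u`. -/
theorem uH_P_add {A C : CosMod (ZMod 2)} (μ : Bil A A C) (c : Act C2 C) (h : Sym μ c) (n : ℕ)
    (x y : A.H n) : uH idC c (n + n) (P μ c h (x + y)) =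
      uH idC c (n + n) (P μ c h x) + uH idC c (n + n) (P μ c h y) := by
  rw [P_add, map_add, map_add, uH_tr, add_zero]

/-- The input for the squares on `H(K)`. -/
structure PowIn where
  /-- the cofibre -/
  K : CosMod (ZMod 2)
  /-- the target of the products -/
  KK : CosMod (ZMod 2)
  /-- the quotient -/
  W : CosMod (ZMod 2)
  /-- the swap on `KK` -/
  c : Act C2 KK
  /-- the swap on `W` -/
  w : Act C2 W
  /-- `0 → K → KK → W → 0` -/
  S : SES K KK W
  hi : ∀ p (g : C2) (x : K.obj p),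
    S.i.app p ((Act.triv C2 K).act p g x) = c.act p g (S.i.app p x)
  hp : ∀ p (g : C2) (x : KK.obj p), S.p.app p (c.act p g x) = w.act p g (S.p.app p x)
  /-- the product -/
  mul : Bil K K KK
  sym : Sym mul c
  /-- `u^R = 0` on `H(hG W)` -/
  R : ℕ
  nil : ∀ n (x : (guHG idC w).H n), (guHG idC w).upow R n x = 0

namespace PowIn

variable (X : PowIn) (fr : GU.Free (guHG idC (Act.triv C2 X.K)) X.K.H)

/-- The input of `SqAlg`. -/
def setup : Setup.{0} (fun q => q + q) where
  K := guHG idC (Act.triv C2 X.K)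
  KK := guHG idC X.c
  W := guHG idC X.w
  E := X.K.H
  fr := fr
  i := guMap (Act.triv C2 X.K) X.c X.S.i X.hi
  r := guMap X.c X.w X.S.p X.hp
  δ n := (hG.ses X.S (Act.triv C2 X.K) X.c X.w X.hi X.hp).conn n
  δ_u n x := uH_conn idC X.S (Act.triv C2 X.K) X.c X.w X.hi X.hp n x
  exact_KK n x h := ((hG.ses X.S (Act.triv C2 X.K) X.c X.w X.hi X.hp).exact_B n x).1 h
  exact_K n x h := ((hG.ses X.S (Act.triv C2 X.K) X.c X.w X.hi X.hp).exact_A n x).1 h
  inj_zero x h := (hG.ses X.S (Act.triv C2 X.K) X.c X.w X.hi X.hp).inj_zero x h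
  R := X.R
  nil := X.nil
  Pt _ x := P X.mul X.c X.sym x
  Pt_add q x y := uH_P_add X.mul X.c X.sym q x y

/-- `r i = 0` -/
theorem r_i (n : ℕ) (x : (X.setup fr).K.H n) :
    (X.setup fr).r.f n ((X.setup fr).i.f n x) = 0 :=
  ((hG.ses X.S (Act.triv C2 X.K) X.c X.w X.hi X.hp).exact_B n _).2 ⟨x, rfl⟩

/-- Comparison with the squares of a commutative algebra `Z`, along `e : KK → Z`. -/
theorem Sq_map {Z : CosMod (ZMod 2)} (mz : Bil Z Z Z) (hz : Sym mz (Act.triv C2 Z))
    (frZ : GU.Free (guHG idC (Act.triv C2 Z)) Z.H) (e : Hom X.KK Z) (k : Hom X.K Z)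
    (hk : ∀ p x, e.app p (X.S.i.app p x) = k.app p x)
    (he : ∀ p (g : C2) (x : X.KK.obj p), e.app p (X.c.act p g x) =
      (Act.triv C2 Z).act p g (e.app p x))
    (hm : ∀ p a b, e.app p (X.mul.app p a b) = mz.app p (k.app p a) (k.app p b))
    (hcf : ∀ n j (x : (hG (Act.triv C2 X.K)).H n), frZ.cf n j
      ((hG.mapHom (Act.triv C2 X.K) (Act.triv C2 Z) k (fun _ _ _ => rfl)).mapH n x) =
        k.mapH j (fr.cf n j x)) (q j : ℕ) (x : X.K.H q) :
    k.mapH j ((X.setup fr).Sq q j x) =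
      frZ.cf (q + q) j (P mz (Act.triv C2 Z) hz (k.mapH q x)) := by
  have h1 := (X.setup fr).Sq_out frZ (fun j => k.mapH j) (guMap X.c (Act.triv C2 Z) e he) (by
    intro n j x
    refine Eq.trans ?_ (hcf n j x)
    congr 1
    show (hG.mapHom X.c (Act.triv C2 Z) e he).mapH n
      ((hG.mapHom (Act.triv C2 X.K) X.c X.S.i X.hi).mapH n x) =
      (hG.mapHom (Act.triv C2 X.K) (Act.triv C2 Z) k (fun _ _ _ => rfl)).mapH n x
    have h2 : (hG.mapHom X.c (Act.triv C2 Z) e he).comp
        (hG.mapHom (Act.triv C2 X.K) X.c X.S.i X.hi) =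
        hG.mapHom (Act.triv C2 X.K) (Act.triv C2 Z) k (fun _ _ _ => rfl) := by
      apply Hom.ext
      intro p y
      exact hG.ext fun s => hk p _
    rw [← h2]
    exact (Hom.mapH_comp _ _ n x).symm) q j x
  refine h1.trans ?_
  congr 1
  exact (P_nat X.mul X.c X.sym mz (Act.triv C2 Z) hz k e he hm x).symm

/-- The input of `SqAlg`, with the standard form of `H(hG K) = H(K)[u]`. -/
def st : Setup.{0} (fun q => q + q) := X.setup (freeTriv X.K)

/-- Comparison with the squares of a commutative algebra `Z`, along `e : KK → Z`. -/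
theorem st_Sq_map {Z : CosMod (ZMod 2)} (mz : Bil Z Z Z) (hz : Sym mz (Act.triv C2 Z))
    (e : Hom X.KK Z) (k : Hom X.K Z)
    (hk : ∀ p x, e.app p (X.S.i.app p x) = k.app p x)
    (he : ∀ p (g : C2) (x : X.KK.obj p), e.app p (X.c.act p g x) =
      (Act.triv C2 Z).act p g (e.app p x))
    (hm : ∀ p a b, e.app p (X.mul.app p a b) = mz.app p (k.app p a) (k.app p b))
    (q j : ℕ) (x : X.K.H q) :
    k.mapH j (X.st.Sq q j x) = cf Z (q + q) j (P mz (Act.triv C2 Z) hz (k.mapH q x)) :=
  X.Sq_map (freeTriv X.K) mz hz (freeTriv Z) e k hk he hm (fun n j x => cf_nat k n j x) q j x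

end PowIn

end Vale.Agent.P263.E
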