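import Vale.Agent.P263.E.LZSetup
import Vale.Agent.P263.E.LZCl
import Vale.Agent.P263.E.SqE
import Vale.Agent.P263.S.GysTriv

/-!
# P263, block E6 (helper512): LZ_1

`Dat.lz` : `Sq^(q+l+1) x = ∂ (tr_W (cl2^* (u^l P v)))` for `x ∈ H^q(K)` with the component
`rho (kw x) = cl^* v` in `H^q(F(Y))`.
-/

noncomputable section

namespace Vale.Agent.P263.E

open Vale.Agent.P263.S SS

namespace Dat

variable {B : SS} {Y : Cov B} (D : Dat (ZMod 2) Y)

/-- The input for LZ_1 at `KT C2`: the actions, the labelling, the product `K × K → KT C2` and the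
nilpotency of `u` on the ordered pairs. -/
structure LZIn where
  /-- the labelling -/
  PL : Y.PLab
  /-- the action on the functions on the ordered pairs -/
  a : Act C2 (F (ZMod 2) (Y.nc C2).tot)
  ha : PL.toLab.Acts a
  /-- the action on `KT C2` -/
  aK : Act C2 (D.KT C2)
  zc_act : ∀ p g (x : (D.KT C2).obj p), D.zc (aK.act p g x) = D.zc x
  wc_act : ∀ p g (x : (D.KT C2).obj p), D.wc (aK.act p g x) = D.wc x
  pT_act : ∀ p g (x : (D.KT C2).obj p), (D.pT C2).app p (aK.act p g x) =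
    a.act p g ((D.pT C2).app p x)
  /-- the product -/
  mul : Bil D.K D.K (D.KT C2)
  sym : Sym mul aK
  pT_mul : ∀ p (x y : D.K.obj p), (D.pT C2).app p (mul.app p x y) =
    Y.ext2 (D.rho.app p (D.kw.app p x)) (D.rho.app p (D.kw.app p y))
  /-- `u^R = 0` on `H(hG F(W~))` -/
  R : ℕ
  nil : ∀ n (x : (guHG idC a).H n), (guHG idC a).upow R n x = 0

variable {D} (X : D.LZIn)

namespace LZIn

/-- the data of `(★)` -/
def swp : D.Swp where
  L := X.PL.toLab
  hL _ := rfl
  a := X.a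
  ha := X.ha
  aK := X.aK
  zc_act := X.zc_act
  wc_act := X.wc_act
  pT_act := X.pT_act

/-- the input of block E4 -/
def powIn : PowIn where
  K := D.K
  KK := D.KT C2
  W := F (ZMod 2) (Y.nc C2).tot
  c := X.aK
  w := X.a
  S := D.s2 C2
  hi := iT_eqv X.swp
  hp := X.pT_act
  mul := X.mul
  sym := X.sym
  R := X.R
  nil := X.nil

/-- the squares on `H(K)` -/
def su : Setup.{0} (fun q => q + q) := X.powIn.setup (freeTriv D.K)

/-- **The instance of the input of LZ_1.** -/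
def lzSetup : X.su.LZ where
  Wd n := (F (ZMod 2) (Y.ksub 2).tot).H n
  J n := ((JG X.swp).mapH n).toAddMonoidHom
  uW n := ((Y.uWd X.PL).mapH n).toAddMonoidHom
  D n := (DH (D := D) n).toAddMonoidHom
  infl n := ((hG.pstar C2 D.K).mapH n).toAddMonoidHom
  cf_infl n e := cf_pstar_self D.K n e
  cf_infl_ne _ _ e h := cf_pstar_ne D.K (Ne.symm h) e
  star n z := star X.swp n z

theorem lzSetup_upow (l n : ℕ) (z : (F (ZMod 2) (Y.ksub 2).tot).H n) :
    X.lzSetup.upow l n z = (Y.uWd X.PL).pow l n z := by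
  induction l with
  | zero => rfl
  | succ l ih =>
    rw [Deg1.pow_succ, ← ih]
    rfl

/-- the restriction of `K` to the functions on `Y` -/
def wY (D : Dat (ZMod 2) Y) : Hom D.K (F (ZMod 2) Y.tot) := D.rho.comp D.kw

/-- **LZ_1.** -/
theorem lz {Z' : SS} (cl : SS.Map Y.tot Z') {q : ℕ} (x : D.K.H q) (v : (F (ZMod 2) Z').H q)
    (hv : (wY D).mapH q x = (cl.pull).mapH q v) (l : ℕ) :
    X.su.Sq q (q + q + l + 1) x = D.s1.conn (q + q + l) ((Y.ksub 2).tr.mapH (q + q + l)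
      (Y.cl2H X.PL cl (q + q + l) ((guHG idC (swapF (ZMod 2) Z')).upow l (q + q)
        (P (SS.muF (ZMod 2) Z' Z') (swapF (ZMod 2) Z') (SS.sym_muF Z') v)))) := by
  set z := Y.cl2H X.PL cl (q + q)
    (P (SS.muF (ZMod 2) Z' Z') (swapF (ZMod 2) Z') (SS.sym_muF Z') v) with hz
  have h1 : X.su.r.f (q + q) (X.lzSetup.J (q + q) z) = X.su.r.f (q + q) (X.su.Pt q x) := by
    have h2 := Y.pT_P_zcl X.ha X.aK X.mul X.sym (wY D) (D.pT C2) X.pT_act X.pT_mul cl x v hv
    refine Eq.trans ?_ h2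
    exact qH_JG X.swp (q + q) z
  have h3 : ∀ l, X.lzSetup.upow l (q + q) z = (Y.uWd X.PL).pow l (q + q) z :=
    fun l => X.lzSetup_upow l (q + q) z
  have h4 := X.lzSetup.main h1 ⟨X.R, by
    rw [h3]
    exact Y.uWd_pow_eq_zero X.ha (fun x => X.nil _ x) z⟩ l
  refine h4.trans ?_
  rw [h3, hz, Y.uWd_pow_cl2H X.ha]
  rfl

end LZIn

end Dat

end Vale.Agent.P263.E
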