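import Vale.Agent.P263.E.LZInst
import Vale.Agent.P263.S.Gys

/-!
# P263, block E6 (helper512): `(★)` with the multiplication by `u` of block S3b

Coefficients `ZMod 2`.  `uD a : Deg1 (hG a) (hG a)` is the cochain operator of `uH idC a`.
`Dat.star` : for `z ∈ H^n(F(W))`
`u (J z) + J (uW z) = i (p^* (∂ (tr z)))` in `H^(n+1)(hG (KT C2))`.
-/

noncomputable section

namespace Vale.Agent.P263.E

open Vale.Agent.P263.S SS

/-- the cochain operator of the multiplication by `u` -/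
def uD {B : CosMod (ZMod 2)} (a : Act C2 B) : Deg1 (hG a) (hG a) where
  app p := uc idC a p
  app_d p f := d_uc idC a p f

theorem uD_isU {B : CosMod (ZMod 2)} (a : Act C2 B) : Lab.IsU (uD a) := fun _ _ _ => rfl

theorem uD_mapH {B : CosMod (ZMod 2)} (a : Act C2 B) (n : ℕ) (x : (hG a).H n) :
    (uD a).mapH n x = uH idC a n x := by
  induction x using CosMod.H_ind with
  | h z => rfl

theorem two_zero : (2 : ZMod 2) = 0 := rfl

namespace Dat

variable {B : SS} {Y : Cov B} {D : Dat (ZMod 2) Y} (s : D.Swp)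

/-- the equivariance of `i : K → KT C2` -/
theorem iT_eqv (p : ℕ) (g : C2) (x : D.K.obj p) :
    (D.iT C2).app p ((Act.triv C2 D.K).act p g x) = s.aK.act p g ((D.iT C2).app p x) :=
  ((pairs two_zero s).i_act p g x).symm

/-- `i` on homotopy fixed points -/
def iH : Hom (hG (Act.triv C2 D.K)) (hG s.aK) :=
  hG.mapHom (Act.triv C2 D.K) s.aK (D.iT C2) (iT_eqv s)

/-- `pT` on homotopy fixed points -/
def qH : Hom (hG s.aK) (hG s.a) := hG.mapHom s.aK s.a (D.pT C2) s.pT_act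

/-- `f ↦ (0, 0, f)` with values in the homotopy fixed points -/
def JG : Hom (F (ZMod 2) (Y.ksub 2).tot) (hG s.aK) := (pairs two_zero s).jG

/-- the class of the double covering -/
def uWD : Deg1 (F (ZMod 2) (Y.ksub 2).tot) (F (ZMod 2) (Y.ksub 2).tot) :=
  Lab.uWq (D := s.L) (isQuo s.hL) two_zero

/-- `∂ ∘ tr` -/
def DH (n : ℕ) : (F (ZMod 2) (Y.ksub 2).tot).H n →ₗ[ZMod 2] D.K.H (n + 1) :=
  (D.s1.conn n).comp ((Y.ksub 2).tr.mapH n)

theorem DH_apply (n : ℕ) (z : (F (ZMod 2) (Y.ksub 2).tot).H n) :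
    DH n z = D.s1.conn n ((Y.ksub 2).tr.mapH n z) := rfl

/-- **`(★)`** -/
theorem star (n : ℕ) (z : (F (ZMod 2) (Y.ksub 2).tot).H n) :
    uH idC s.aK n ((JG s).mapH n z) + (JG s).mapH (n + 1) ((uWD s).mapH n z) =
      (iH s).mapH (n + 1) ((hG.pstar C2 D.K).mapH (n + 1) (DH n z)) := by
  have h := (pairs two_zero s).star_H two_zero (uD_isU s.aK) (uWD s) (fun _ _ => rfl) z
  have h1 : (uD s.aK).mapH n ((JG s).mapH n z) = uH idC s.aK n ((JG s).mapH n z) :=
    uD_mapH s.aK n _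
  rw [← h1]
  refine h.trans ?_
  exact Hom.mapH_comp (iH s) (hG.pstar C2 D.K) (n + 1) (DH n z)

/-- `J z` restricts to `z` -/
theorem qH_JG (n : ℕ) (z : (F (ZMod 2) (Y.ksub 2).tot).H n) :
    (qH s).mapH n ((JG s).mapH n z) = (Lab.iotaW s.ha (isQuo s.hL)).mapH n z := by
  rw [← Hom.mapH_comp]
  have h : (qH s).comp (JG s) = Lab.iotaW s.ha (isQuo s.hL) :=
    Hom.ext fun p f => hG.ext fun t => D.pT_jWf two_zero f
  rw [h]

end Dat

end Vale.Agent.P263.E
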