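import Vale.Agent.P263.S.LES

/-!
# P263, block E8 (helper302): the cohomology of the cone `K` (abstract part)

`0 → K → K₀ → Q → 0` and `0 → F → K₀ → C → 0` with `H^j(F) = 0` for `j ≤ D` and `H^j(Q) = 0` for
`j < d`, `j = d + 1`, and the map `H^d(K₀) → H^d(Q)` zero.  Then the edge map `H^j(K) → H^j(C)` is
bijective for `j ≤ d` and onto for `j = d + 1`, with kernel `∂ H^d(Q)`, and `∂` is injective on
`H^d(Q)`.
-/

namespace Vale.Agent.P263.E

open Vale.Agent.P263.S

variable {R : Type} [CommRing R]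

/-- The two short exact sequences around `K₀`. -/
structure Edge (K K₀ F C Q : CosMod R) (d D : ℕ) where
  /-- `0 → K → K₀ → Q → 0` -/
  s1 : SES K K₀ Q
  /-- `0 → F → K₀ → C → 0` -/
  s2 : SES F K₀ C
  hD : d + 2 ≤ D
  F0 : ∀ j, j ≤ D → ∀ x : F.H j, x = 0
  Q0 : ∀ j, j < d → ∀ x : Q.H j, x = 0
  Q1 : ∀ x : Q.H (d + 1), x = 0
  min : ∀ x : K₀.H d, s1.p.mapH d x = 0

namespace Edge

variable {K K₀ F C Q : CosMod R} {d D : ℕ} (e : Edge K K₀ F C Q d D)

include e in
theorem p2_inj {j : ℕ} (hj : j ≤ D) : Function.Injective (e.s2.p.mapH j) := by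
  rw [injective_iff_map_eq_zero]
  intro x hx
  obtain ⟨y, rfl⟩ := (e.s2.exact_B j x).1 hx
  rw [e.F0 j hj y, map_zero]

include e in
theorem p2_surj {j : ℕ} (hj : j + 1 ≤ D) : Function.Surjective (e.s2.p.mapH j) := fun x =>
  (e.s2.exact_C j x).1 (e.F0 _ hj _)

include e in
theorem i1_inj {j : ℕ} (hj : j ≤ d) : Function.Injective (e.s1.i.mapH j) := by
  rw [injective_iff_map_eq_zero]
  intro x hx
  cases j with
  | zero => exact e.s1.inj_zero x hx
  | succ j =>
    obtain ⟨y, rfl⟩ := (e.s1.exact_A j x).1 hx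
    rw [e.Q0 j (by omega) y, map_zero]

include e in
theorem i1_surj {j : ℕ} (hj : j ≤ d + 1) : Function.Surjective (e.s1.i.mapH j) := by
  intro x
  refine (e.s1.exact_B j x).1 ?_
  rcases Nat.lt_trichotomy j d with h | h | h
  · exact e.Q0 j h _
  · subst h; exact e.min x
  · have h' : j = d + 1 := by omega
    subst h'; exact e.Q1 _

/-- the edge map `H^j(K) → H^j(C)` -/
noncomputable def edge (j : ℕ) : K.H j →ₗ[R] C.H j := (e.s2.p.mapH j).comp (e.s1.i.mapH j)

theorem edge_apply (j : ℕ) (x : K.H j) : e.edge j x = e.s2.p.mapH j (e.s1.i.mapH j x) := rfl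

/-- the edge map is the map on cohomology of the composite `K → K₀ → C` -/
theorem edge_eq (j : ℕ) (x : K.H j) : e.edge j x = (e.s2.p.comp e.s1.i).mapH j x := by
  rw [Hom.mapH_comp]; rfl

theorem edge_bij {j : ℕ} (hj : j ≤ d) : Function.Bijective (e.edge j) := by
  have hD := e.hD
  exact ⟨(e.p2_inj (by omega)).comp (e.i1_inj hj), (e.p2_surj (by omega)).comp (e.i1_surj (by omega))⟩

theorem edge_surj {j : ℕ} (hj : j ≤ d + 1) : Function.Surjective (e.edge j) := by
  have hD := e.hD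
  exact (e.p2_surj (by omega)).comp (e.i1_surj (by omega))

/-- the connecting map `H^d(Q) → H^(d+1)(K)` is injective -/
theorem conn_inj : Function.Injective (e.s1.conn d) := by
  rw [injective_iff_map_eq_zero]
  intro x hx
  obtain ⟨y, rfl⟩ := (e.s1.exact_C d x).1 hx
  exact e.min y

theorem edge_conn (x : Q.H d) : e.edge (d + 1) (e.s1.conn d x) = 0 := by
  rw [edge_apply, (e.s1.exact_A d _).2 ⟨x, rfl⟩, map_zero]

theorem edge_ker {x : K.H (d + 1)} (hx : e.edge (d + 1) x = 0) : ∃ y, e.s1.conn d y = x := by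
  have hD := e.hD
  refine (e.s1.exact_A d x).1 (e.p2_inj (by omega) ?_)
  rw [map_zero]; exact hx

/-- everything is zero on `H^s(Q)` for `s < d` -/
theorem conn_low {s : ℕ} (hs : s < d) (x : Q.H s) : e.s1.conn s x = 0 := by
  rw [e.Q0 s hs x, map_zero]

end Edge

end Vale.Agent.P263.E
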