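import Vale.Agent.P263.S.Defs

/-!
# P263, block E8: the cohomology of `K` for a triple `(Z, B, A)`, abstract form (helper784)

Data `Tri`: cosimplicial modules `FZ, FB, FA, C, K`, maps `b : FZ → FB`, `a : FZ → FA` which are
levelwise jointly onto, `t : C → FB` (transfer of the restriction), and
`K = {(z, w) ∈ FZ × C : b z = t w, a z = 0}` in the form of the structure fields.

`FA` is meant to be `F(A) / constants`, so that `H^j(FA)` is the reduced cohomology of the sphere.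

Results, under `RangeIso D` (`H^j(b)` bijective for `j ≤ D`) and `Vanish d D`
(`H^j(FA) = 0`, `j ≤ D`, `j ≠ d`):
* `w_injective` : `H^q(K) → H^q(C)` is injective for `q ≤ D`, `q ≠ d + 1`;
* `w_surjective` : onto for `q + 1 ≤ D`, `q ≠ d`;
* `w_range` : the range in degree `d` is the kernel of `hB ∘ t`;
* `w_ker` : the kernel in degree `d + 1` is the range of `cA`;
* `cA_eq_zero_iff` : `cA v = 0` iff `v` is in the range of `hB ∘ t`;
* `conn_s1` : the connecting map of `0 → K → ker a × C → FB → 0` is `- cA ∘ hB`.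
-/

namespace Vale.Agent.P263.E

open Vale.Agent.P263.S
open Vale.Agent.P263.S.CosMod

variable {R : Type} [CommRing R]

/-- The product of two cosimplicial modules. -/
def prodC (A B : CosMod R) : CosMod R where
  obj p := A.obj p × B.obj p
  map φ := (A.map φ).prodMap (B.map φ)
  map_id {p} := by
    refine LinearMap.ext fun x => ?_
    exact Prod.ext (A.map_id_apply x.1) (B.map_id_apply x.2)
  map_comp g f := by
    refine LinearMap.ext fun x => ?_
    exact Prod.ext (A.map_map g f x.1).symm (B.map_map g f x.2).symm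

/-- the first projection -/
def prodC.fst (A B : CosMod R) : Hom (prodC A B) A where
  app p := LinearMap.fst R (A.obj p) (B.obj p)
  nat _ _ := rfl

/-- the second projection -/
def prodC.snd (A B : CosMod R) : Hom (prodC A B) B where
  app p := LinearMap.snd R (A.obj p) (B.obj p)
  nat _ _ := rfl

@[simp] theorem prodC.fst_app (A B : CosMod R) (p : ℕ) (x : (prodC A B).obj p) :
    (prodC.fst A B).app p x = x.1 := rfl

@[simp] theorem prodC.snd_app (A B : CosMod R) (p : ℕ) (x : (prodC A B).obj p) :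
    (prodC.snd A B).app p x = x.2 := rfl

theorem prodC.ext {A B : CosMod R} {p : ℕ} {x y : (prodC A B).obj p}
    (h1 : (prodC.fst A B).app p x = (prodC.fst A B).app p y)
    (h2 : (prodC.snd A B).app p x = (prodC.snd A B).app p y) : x = y := Prod.ext h1 h2

theorem prodC.d_fst (A B : CosMod R) (p : ℕ) (x : (prodC A B).obj p) :
    ((prodC A B).d p x).1 = A.d p x.1 := (prodC.fst A B).app_d p x

theorem prodC.d_snd (A B : CosMod R) (p : ℕ) (x : (prodC A B).obj p) :
    ((prodC A B).d p x).2 = B.d p x.2 := (prodC.snd A B).app_d p x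

/-- The kernel of a map. -/
def kerC {A B : CosMod R} (f : Hom A B) : CosMod R :=
  sub A (fun p => LinearMap.ker (f.app p)) (by
    intro p q φ x hx
    rw [LinearMap.mem_ker] at *
    rw [f.nat, hx, map_zero])

/-- the inclusion of the kernel -/
def kerC.incl {A B : CosMod R} (f : Hom A B) : Hom (kerC f) A :=
  subHom A (fun p => LinearMap.ker (f.app p)) (by
    intro p q φ x hx
    rw [LinearMap.mem_ker] at *
    rw [f.nat, hx, map_zero])

@[simp] theorem kerC.incl_app {A B : CosMod R} (f : Hom A B) (p : ℕ) (x : (kerC f).obj p) :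
    (kerC.incl f).app p x = x.1 := rfl

theorem kerC.prop {A B : CosMod R} (f : Hom A B) {p : ℕ} (x : (kerC f).obj p) :
    f.app p x.1 = 0 := x.2

theorem kerC.d_coe {A B : CosMod R} (f : Hom A B) (p : ℕ) (x : (kerC f).obj p) :
    ((kerC f).d p x).1 = A.d p x.1 := (kerC.incl f).app_d p x

/-- A levelwise surjective map gives a short exact sequence with its kernel. -/
def kerC.ses {A B : CosMod R} (f : Hom A B) (hf : ∀ p, Function.Surjective (f.app p)) :
    SES (kerC f) A B where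
  i := kerC.incl f
  p := f
  inj n := Subtype.val_injective
  surj := hf
  pi n x := x.2
  ex n x hx := ⟨⟨x, hx⟩, rfl⟩

/-- If a levelwise surjective map is bijective in cohomology up to degree `D`, then its kernel has
no cohomology up to degree `D`. -/
theorem kerC.H_eq_zero {A B : CosMod R} (f : Hom A B) (hf : ∀ p, Function.Surjective (f.app p))
    {D : ℕ} (h : ∀ j, j ≤ D → Function.Bijective (f.mapH j)) {j : ℕ} (hj : j ≤ D)
    (x : (kerC f).H j) : x = 0 := by
  have S := kerC.ses f hf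
  have hS : ((kerC.ses f hf).p : Hom A B) = f := rfl
  have h1 : (kerC.ses f hf).i.mapH j x = 0 := by
    apply (h j hj).1
    rw [map_zero]
    exact ((kerC.ses f hf).exact_B j _).2 ⟨x, rfl⟩
  cases j with
  | zero => exact (kerC.ses f hf).inj_zero x h1
  | succ j =>
    obtain ⟨y, rfl⟩ := ((kerC.ses f hf).exact_A j x).1 h1
    obtain ⟨y', rfl⟩ := (h j (by omega)).2 y
    exact ((kerC.ses f hf).exact_C j _).2 ⟨y', rfl⟩

/-- The data of a triple, see the head of the file. -/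
structure Tri (R : Type) [CommRing R] where
  /-- cochains of `Z` -/
  FZ : CosMod R
  /-- cochains of `B` -/
  FB : CosMod R
  /-- cochains of `A` modulo constants -/
  FA : CosMod R
  /-- cochains of `Z'` -/
  C : CosMod R
  /-- the extension -/
  K : CosMod R
  /-- restriction to `B` -/
  b : Hom FZ FB
  /-- restriction to `A` -/
  a : Hom FZ FA
  /-- transfer of the restriction to the covering -/
  t : Hom C FB
  /-- first component -/
  z : Hom K FZ
  /-- second component -/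
  w : Hom K C
  onto : ∀ (p : ℕ) (y : FB.obj p) (x : FA.obj p), ∃ v, b.app p v = y ∧ a.app p v = x
  bz : ∀ (p : ℕ) (k : K.obj p), b.app p (z.app p k) = t.app p (w.app p k)
  az : ∀ (p : ℕ) (k : K.obj p), a.app p (z.app p k) = 0
  ext : ∀ (p : ℕ) (k : K.obj p), z.app p k = 0 → w.app p k = 0 → k = 0
  mk' : ∀ (p : ℕ) (x : FZ.obj p) (y : C.obj p), b.app p x = t.app p y → a.app p x = 0 →
    ∃ k, z.app p k = x ∧ w.app p k = y

namespace Tri

variable (T : Tri R)

theorem b_surj (p : ℕ) : Function.Surjective (T.b.app p) := fun y =>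
  let ⟨v, h, _⟩ := T.onto p y 0
  ⟨v, h⟩

theorem a_surj (p : ℕ) : Function.Surjective (T.a.app p) := fun y =>
  let ⟨v, _, h⟩ := T.onto p 0 y
  ⟨v, h⟩

/-- the difference `FZ × C → FB`, `(x, y) ↦ b x - t y` -/
def dif : Hom (prodC T.FZ T.C) T.FB where
  app p := (T.b.app p).comp (LinearMap.fst R _ _) - (T.t.app p).comp (LinearMap.snd R _ _)
  nat φ x := by
    change T.b.app _ (T.FZ.map φ x.1) - T.t.app _ (T.C.map φ x.2) =
      T.FB.map φ (T.b.app _ x.1 - T.t.app _ x.2)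
    rw [map_sub, T.b.nat, T.t.nat]

theorem dif_app (p : ℕ) (x : (prodC T.FZ T.C).obj p) :
    T.dif.app p x = T.b.app p x.1 - T.t.app p x.2 := rfl

/-- `K0 = {(z, w) : b z = t w}`. -/
def K0 : CosMod R := kerC T.dif

/-- elements of `K0` -/
def mk0 {p : ℕ} (x : T.FZ.obj p) (y : T.C.obj p) (h : T.b.app p x = T.t.app p y) : T.K0.obj p :=
  ⟨(x, y), sub_eq_zero.2 h⟩

/-- first component -/
def z0 : Hom T.K0 T.FZ := (prodC.fst _ _).comp (kerC.incl T.dif)

/-- second component -/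
def w0 : Hom T.K0 T.C := (prodC.snd _ _).comp (kerC.incl T.dif)

@[simp] theorem z0_mk0 {p : ℕ} (x : T.FZ.obj p) (y : T.C.obj p) (h) :
    T.z0.app p (T.mk0 x y h) = x := rfl

@[simp] theorem w0_mk0 {p : ℕ} (x : T.FZ.obj p) (y : T.C.obj p) (h) :
    T.w0.app p (T.mk0 x y h) = y := rfl

theorem K0_ext {p : ℕ} {x y : T.K0.obj p} (h1 : T.z0.app p x = T.z0.app p y)
    (h2 : T.w0.app p x = T.w0.app p y) : x = y :=
  Subtype.ext (Prod.ext h1 h2)

theorem b_z0 {p : ℕ} (x : T.K0.obj p) : T.b.app p (T.z0.app p x) = T.t.app p (T.w0.app p x) :=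
  sub_eq_zero.1 x.2

/-- `K → K0` -/
def iK : Hom T.K T.K0 where
  app p :=
    { toFun := fun k => T.mk0 (T.z.app p k) (T.w.app p k) (T.bz p k)
      map_add' := fun x y => T.K0_ext (by
          rw [z0_mk0, map_add, map_add, z0_mk0, z0_mk0]) (by
          rw [w0_mk0, map_add, map_add, w0_mk0, w0_mk0])
      map_smul' := fun r x => T.K0_ext (by
          rw [z0_mk0, map_smul, map_smul, z0_mk0]; rfl) (by
          rw [w0_mk0, map_smul, map_smul, w0_mk0]; rfl) }
  nat φ x := T.K0_ext (by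
      rw [T.z0.nat]
      exact T.z.nat φ x) (by
      rw [T.w0.nat]
      exact T.w.nat φ x)

@[simp] theorem z0_iK {p : ℕ} (k : T.K.obj p) : T.z0.app p (T.iK.app p k) = T.z.app p k := rfl

@[simp] theorem w0_iK {p : ℕ} (k : T.K.obj p) : T.w0.app p (T.iK.app p k) = T.w.app p k := rfl

/-- `K0 → FA` -/
def a0 : Hom T.K0 T.FA := T.a.comp T.z0

/-- `0 → K → K0 → FA → 0` -/
def sesA : SES T.K T.K0 T.FA where
  i := T.iK
  p := T.a0
  inj n := by
    rw [injective_iff_map_eq_zero]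
    intro k hk
    apply T.ext
    · rw [← z0_iK, hk, map_zero]
    · rw [← w0_iK, hk, map_zero]
  surj n x := by
    obtain ⟨v, h1, h2⟩ := T.onto n 0 x
    exact ⟨T.mk0 v 0 (by rw [h1, map_zero]), h2⟩
  pi n x := T.az n x
  ex n x hx := by
    obtain ⟨k, h1, h2⟩ := T.mk' n (T.z0.app n x) (T.w0.app n x) (T.b_z0 x) hx
    exact ⟨k, T.K0_ext h1 h2⟩

/-- `0 → ker b → K0 → C → 0` -/
def sesC : SES (kerC T.b) T.K0 T.C where
  i :=
    { app := fun p =>
        { toFun := fun x => T.mk0 x.1 0 (by rw [kerC.prop, map_zero])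
          map_add' := fun x y => T.K0_ext (by rw [map_add]; rfl) (by
            rw [map_add]
            exact (add_zero (0 : T.C.obj p)).symm)
          map_smul' := fun r x => T.K0_ext (by rw [map_smul]; rfl) (by
            rw [map_smul]
            exact (smul_zero r).symm) }
      nat := fun φ x => T.K0_ext (by rw [T.z0.nat]; rfl) (by
        rw [T.w0.nat]
        exact (map_zero (T.C.map φ)).symm) }
  p := T.w0
  inj n x y h := Subtype.ext (congrArg (T.z0.app n) h)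
  surj n y := by
    obtain ⟨v, h⟩ := T.b_surj n (T.t.app n y)
    exact ⟨T.mk0 v y h, rfl⟩
  pi n x := rfl
  ex n x hx := by
    have h0 : T.b.app n (T.z0.app n x) = 0 := by rw [T.b_z0, hx, map_zero]
    exact ⟨⟨T.z0.app n x, h0⟩, T.K0_ext rfl hx.symm⟩

/-- The connecting map `H^q(FA) → H^(q+1)(K)`. -/
noncomputable def cA (q : ℕ) : T.FA.H q →ₗ[R] T.K.H (q + 1) := T.sesA.conn q

/-- zig-zags compute `cA` -/
theorem cA_cls {q : ℕ} {v : T.FA.Z q} {k : T.K.Z (q + 1)} (x : T.FZ.obj q) (y : T.C.obj q)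
    (hxy : T.b.app q x = T.t.app q y) (hv : T.a.app q x = v)
    (hz : T.z.app (q + 1) k = T.FZ.d q x) (hw : T.w.app (q + 1) k = T.C.d q y) :
    T.cA q (T.FA.cls q v) = T.K.cls (q + 1) k := by
  refine T.sesA.conn_cls (b := T.mk0 x y hxy) hv ?_
  apply T.K0_ext
  · rw [T.z0.app_d]; exact hz
  · rw [T.w0.app_d]; exact hw

/-- `H^j(b)` is bijective for `j ≤ D` -/
def RangeIso (D : ℕ) : Prop := ∀ j, j ≤ D → Function.Bijective (T.b.mapH j)

/-- `H^j(FA) = 0` for `j ≤ D`, `j ≠ d` -/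
def Vanish (d D : ℕ) : Prop := ∀ j, j ≤ D → j ≠ d → ∀ x : T.FA.H j, x = 0

variable {T} {d D : ℕ} (hb : T.RangeIso D) (hA : T.Vanish d D)

include hb in
theorem w0_injective {q : ℕ} (hq : q ≤ D) : Function.Injective (T.w0.mapH q) := by
  rw [injective_iff_map_eq_zero]
  intro x hx
  obtain ⟨y, rfl⟩ := (T.sesC.exact_B q x).1 hx
  rw [kerC.H_eq_zero T.b T.b_surj hb hq y, map_zero]

include hb in
theorem w0_surjective {q : ℕ} (hq : q + 1 ≤ D) : Function.Surjective (T.w0.mapH q) := by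
  intro x
  exact (T.sesC.exact_C q x).1 (kerC.H_eq_zero T.b T.b_surj hb hq _)

theorem w_eq (q : ℕ) (x : T.K.H q) : T.w.mapH q x = T.w0.mapH q (T.iK.mapH q x) := by
  rw [← Hom.mapH_comp]; rfl

include hA in
theorem iK_injective {q : ℕ} (hq : q ≤ D) (hd : q ≠ d + 1) : Function.Injective (T.iK.mapH q) := by
  rw [injective_iff_map_eq_zero]
  intro x hx
  cases q with
  | zero => exact T.sesA.inj_zero x hx
  | succ q =>
    obtain ⟨y, rfl⟩ := (T.sesA.exact_A q x).1 hx
    rw [hA q (by omega) (by omega) y, map_zero]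

include hA in
theorem iK_surjective {q : ℕ} (hq : q ≤ D) (hd : q ≠ d) : Function.Surjective (T.iK.mapH q) := by
  intro x
  exact (T.sesA.exact_B q x).1 (hA q hq hd _)

include hb hA in
/-- `H^q(K) → H^q(C)` is injective for `q ≤ D`, `q ≠ d + 1`. -/
theorem w_injective {q : ℕ} (hq : q ≤ D) (hd : q ≠ d + 1) : Function.Injective (T.w.mapH q) := by
  intro x y h
  rw [w_eq, w_eq] at h
  exact iK_injective hA hq hd (w0_injective hb hq h)

include hb hA in
/-- `H^q(K) → H^q(C)` is onto for `q + 1 ≤ D`, `q ≠ d`. -/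
theorem w_surjective {q : ℕ} (hq : q + 1 ≤ D) (hd : q ≠ d) :
    Function.Surjective (T.w.mapH q) := by
  intro x
  obtain ⟨y, rfl⟩ := w0_surjective hb hq x
  obtain ⟨k, rfl⟩ := iK_surjective hA (by omega) hd y
  exact ⟨k, w_eq q k⟩

/-- The inverse of `H^q(b)`. -/
noncomputable def bInv (hb : T.RangeIso D) {q : ℕ} (hq : q ≤ D) : T.FB.H q →ₗ[R] T.FZ.H q :=
  (LinearEquiv.ofBijective (T.b.mapH q) (hb q hq)).symm

theorem b_bInv {q : ℕ} (hq : q ≤ D) (y : T.FB.H q) : T.b.mapH q (bInv hb hq y) = y :=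
  (LinearEquiv.ofBijective (T.b.mapH q) (hb q hq)).apply_symm_apply y

theorem bInv_b {q : ℕ} (hq : q ≤ D) (y : T.FZ.H q) : bInv hb hq (T.b.mapH q y) = y :=
  (LinearEquiv.ofBijective (T.b.mapH q) (hb q hq)).symm_apply_apply y

/-- The functional `H^q(FB) ≅ H^q(FZ) → H^q(FA)`. -/
noncomputable def hB (hb : T.RangeIso D) {q : ℕ} (hq : q ≤ D) : T.FB.H q →ₗ[R] T.FA.H q :=
  (T.a.mapH q).comp (bInv hb hq)

/-- `hB` of the restriction of a class of `Z` -/
theorem hB_b {q : ℕ} (hq : q ≤ D) (x : T.FZ.H q) : hB hb hq (T.b.mapH q x) = T.a.mapH q x := by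
  rw [hB, LinearMap.comp_apply, bInv_b]

/-- every cocycle of `FB` of degree `≤ D` is the restriction of a cocycle -/
theorem exists_ext {q : ℕ} (hb : Function.Surjective (T.b.mapH q)) {y : T.FB.obj q}
    (hy : y ∈ T.FB.Z q) : ∃ x ∈ T.FZ.Z q, T.b.app q x = y := by
  obtain ⟨x, hx⟩ := hb (T.FB.cls q ⟨y, hy⟩)
  induction x using H_ind with
  | h x =>
    rw [Hom.mapH_cls, cls_eq_iff] at hx
    cases q with
    | zero =>
      rw [mem_Bd_zero] at hx
      exact ⟨x, x.2, sub_eq_zero.1 hx⟩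
    | succ q =>
      obtain ⟨c, hc⟩ := hx
      obtain ⟨v, rfl⟩ := T.b_surj q c
      refine ⟨x - T.FZ.d q v, ?_, ?_⟩
      · rw [mem_Z, map_sub, T.FZ.d_d, sub_zero]
        exact x.2
      · rw [map_sub, T.b.app_d, hc]
        exact sub_sub_cancel _ _

/-- `hB` on cocycles -/
theorem hB_cls {q : ℕ} (hq : q ≤ D) {y : T.FB.Z q} (x : T.FZ.Z q) (h : T.b.app q x = y) :
    hB hb hq (T.FB.cls q y) = T.FA.cls q (T.a.mapZ q x) := by
  have h1 : T.FB.cls q y = T.b.mapH q (T.FZ.cls q x) := by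
    rw [Hom.mapH_cls]
    congr 1
    exact Subtype.ext h.symm
  rw [h1, hB_b, Hom.mapH_cls]

/-- the functional `H^q(C) → H^q(FA)`, `hB ∘ t` -/
noncomputable def hC (hb : T.RangeIso D) {q : ℕ} (hq : q ≤ D) : T.C.H q →ₗ[R] T.FA.H q :=
  (hB hb hq).comp (T.t.mapH q)

theorem hC_apply {q : ℕ} (hq : q ≤ D) (x : T.C.H q) :
    hC hb hq x = hB hb hq (T.t.mapH q x) := rfl

/-- `a0` on `K0` is `hC` of the second component -/
theorem a0_eq {q : ℕ} (hq : q ≤ D) (x : T.K0.H q) :
    T.a0.mapH q x = hC hb hq (T.w0.mapH q x) := by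
  rw [hC_apply]
  have h1 : T.t.mapH q (T.w0.mapH q x) = T.b.mapH q (T.z0.mapH q x) := by
    rw [← Hom.mapH_comp, ← Hom.mapH_comp]
    congr 1
    congr 1
    apply Hom.ext
    intro p y
    exact (T.b_z0 y).symm
  rw [h1, hB_b, ← Hom.mapH_comp]
  rfl

/-- The range of `H^q(K) → H^q(C)` is the kernel of `hC` (`q + 1 ≤ D`). -/
theorem w_range {q : ℕ} (hq : q + 1 ≤ D) (x : T.C.H q) :
    (∃ k, T.w.mapH q k = x) ↔ hC hb (show q ≤ D by omega) x = 0 := by
  constructor
  · rintro ⟨k, rfl⟩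
    rw [w_eq, ← a0_eq]
    exact (T.sesA.exact_B q _).2 ⟨k, rfl⟩
  · intro h
    obtain ⟨y, rfl⟩ := w0_surjective hb hq x
    rw [← a0_eq] at h
    obtain ⟨k, rfl⟩ := (T.sesA.exact_B q _).1 h
    exact ⟨k, w_eq q k⟩

include hb in
/-- The kernel of `H^(q+1)(K) → H^(q+1)(C)` is the range of `cA` (`q + 1 ≤ D`). -/
theorem w_ker {q : ℕ} (hq : q + 1 ≤ D) (k : T.K.H (q + 1)) :
    T.w.mapH (q + 1) k = 0 ↔ ∃ v, T.cA q v = k := by
  rw [w_eq]
  constructor
  · intro h
    have h1 : T.iK.mapH (q + 1) k = 0 := w0_injective hb hq (by rw [h, map_zero])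
    exact (T.sesA.exact_A q k).1 h1
  · intro h
    have h1 : T.iK.mapH (q + 1) k = 0 := (T.sesA.exact_A q k).2 h
    rw [h1, map_zero]

theorem w_cA (q : ℕ) (v : T.FA.H q) : T.w.mapH (q + 1) (T.cA q v) = 0 := by
  have h1 : T.iK.mapH (q + 1) (T.cA q v) = 0 := (T.sesA.exact_A q _).2 ⟨v, rfl⟩
  rw [w_eq, h1, map_zero]

/-- `cA v = 0` iff `v` is in the range of `hC`. -/
theorem cA_eq_zero_iff {q : ℕ} (hq : q + 1 ≤ D) (v : T.FA.H q) :
    T.cA q v = 0 ↔ ∃ x, hC hb (show q ≤ D by omega) x = v := by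
  rw [cA, T.sesA.exact_C q v]
  constructor
  · rintro ⟨y, rfl⟩
    exact ⟨T.w0.mapH q y, (a0_eq hb _ y).symm⟩
  · rintro ⟨x, rfl⟩
    obtain ⟨y, rfl⟩ := w0_surjective hb hq x
    exact ⟨y, a0_eq hb _ y⟩

/-- if `hC = 0` then `cA` is injective -/
theorem cA_injective {q : ℕ} (hq : q + 1 ≤ D)
    (h : ∀ x, hC hb (show q ≤ D by omega) x = 0) : Function.Injective (T.cA q) := by
  rw [injective_iff_map_eq_zero]
  intro v hv
  obtain ⟨x, rfl⟩ := (cA_eq_zero_iff hb hq v).1 hv
  exact h x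

/-- The connecting map of `0 → K → ker a × C → FB → 0` (in elementwise form): if `y` is a cocycle of
`FB`, `y = b x0 - t c0` with `a x0 = 0` and `k = d (x0, c0)`, then `[k] = - cA (hB [y])`. -/
theorem conn_s1 {q : ℕ} (hq : q ≤ D) {y : T.FB.Z q} {k : T.K.Z (q + 1)} (x0 : T.FZ.obj q)
    (c0 : T.C.obj q) (ha : T.a.app q x0 = 0) (hy : T.b.app q x0 - T.t.app q c0 = y)
    (hz : T.z.app (q + 1) k = T.FZ.d q x0) (hw : T.w.app (q + 1) k = T.C.d q c0) :
    T.K.cls (q + 1) k = - T.cA q (hB hb hq (T.FB.cls q y)) := by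
  obtain ⟨x, hx, hxy⟩ := exists_ext (T := T) (hb q hq).2 y.2
  rw [hB_cls hb hq ⟨x, hx⟩ hxy, T.cA_cls (k := -k) (x - x0) (-c0), map_neg, neg_neg]
  · rw [map_sub, map_neg, hxy, ← hy]
    abel
  · rw [map_sub, ha, sub_zero]
    rfl
  · rw [Submodule.coe_neg, map_neg, hz, map_sub, mem_Z.1 hx, zero_sub]
  · rw [Submodule.coe_neg, map_neg, hw, map_neg]

/-- the same for a short exact sequence `0 → K → L → FB → 0` with `L ⊆ ker a × C` -/
theorem conn_s1_ses {L : CosMod R} (S : SES T.K L T.FB) (x : Hom L T.FZ) (c : Hom L T.C)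
    (hx : ∀ p l, T.a.app p (x.app p l) = 0)
    (hp : ∀ p l, S.p.app p l = T.b.app p (x.app p l) - T.t.app p (c.app p l))
    (hz : ∀ p k, x.app p (S.i.app p k) = T.z.app p k)
    (hw : ∀ p k, c.app p (S.i.app p k) = T.w.app p k) {q : ℕ} (hq : q ≤ D) (y : T.FB.H q) :
    S.conn q y = - T.cA q (hB hb hq y) := by
  induction y using H_ind with
  | h y =>
    obtain ⟨l, k, h1, h2, h3⟩ := S.conn_exists q y
    rw [h3]
    refine conn_s1 hb hq (x.app q l) (c.app q l) (hx q l) ?_ ?_ ?_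
    · rw [← hp, h1]
    · rw [← hz, h2, x.app_d]
    · rw [← hw, h2, c.app_d]

/-! ### naturality -/

/-- A morphism of triples (over the same ring). -/
structure Mor (T T' : Tri R) where
  fZ : Hom T.FZ T'.FZ
  fB : Hom T.FB T'.FB
  fA : Hom T.FA T'.FA
  fC : Hom T.C T'.C
  fK : Hom T.K T'.K
  hb : ∀ p x, fB.app p (T.b.app p x) = T'.b.app p (fZ.app p x)
  ha : ∀ p x, fA.app p (T.a.app p x) = T'.a.app p (fZ.app p x)
  ht : ∀ p x, fB.app p (T.t.app p x) = T'.t.app p (fC.app p x)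
  hz : ∀ p x, fZ.app p (T.z.app p x) = T'.z.app p (fK.app p x)
  hw : ∀ p x, fC.app p (T.w.app p x) = T'.w.app p (fK.app p x)

theorem Mor.cA {T T' : Tri R} (m : Mor T T') (q : ℕ) (v : T.FA.H q) :
    m.fK.mapH (q + 1) (T.cA q v) = T'.cA q (m.fA.mapH q v) := by
  induction v using H_ind with
  | h v =>
    obtain ⟨x, k, h1, h2, h3⟩ := T.sesA.conn_exists q v
    rw [Tri.cA, h3, Hom.mapH_cls, Hom.mapH_cls]
    symm
    refine T'.cA_cls (m.fZ.app q (T.z0.app q x)) (m.fC.app q (T.w0.app q x)) ?_ ?_ ?_ ?_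
    · rw [← m.hb, ← m.ht, T.b_z0]
    · rw [← m.ha, ← Hom.comp_app]
      exact congrArg (m.fA.app q) h1
    · rw [Hom.coe_mapZ, ← m.hz, ← m.fZ.app_d, ← T.z0.app_d, ← h2]
      rfl
    · rw [Hom.coe_mapZ, ← m.hw, ← m.fC.app_d, ← T.w0.app_d, ← h2]
      rfl

end Tri

end Vale.Agent.P263.E
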