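import Vale.Agent.P263.E.LZFin
import Vale.Agent.P263.E.KunF
import Vale.Agent.P263.E.BMAlg
import Vale.Agent.P263.S.SqCf
import Vale.Agent.P263.TI.OfE
import Vale.Agent.P263.TOP.H.PhiSq

/-!
# P263, block E: the output

`MIn Y Z' d` : the data of the blocks E1-E8 for a covering `Y → B` with a classifying map
`cl : Y → Z'`.  `K` is the cofibre, `proj q : H^q(K) → H^q(Z')`, `Sq q j : H^q(K) → H^j(K)`.

* `proj_bij` : bijective for `q ≤ d`;
* `proj_Sq` : the squares of `K` project to the squares `sqc` of `H(Z')`;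
* `Sq_neg` : `Sq q j = 0` for `j < q ≤ d + 1`;
* `bm` : the Bullett-Macdonald relations;
* `lz` : `Sq^(q+l+1) x = phi (tr (cl2^* (u^l P x))) ι`;
* `toEData` : the input of section I.
-/

noncomputable section

namespace Vale.Agent.P263.E

open Vale.Agent.P263.S SS Finset Polynomial Vale.Agent.P263.EX
open Vale.Agent.P263.TOP.H (sqc)

theorem mul_self_zmod2 {X : SS} {p : ℕ} (f : (F (ZMod 2) X).obj p) :
    (mulF (ZMod 2) X).app p f f = f := by
  funext x
  have h : ∀ a : ZMod 2, a * a = a := by decide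
  exact h (f x)

theorem sqc_lt (X : SS) {q j : ℕ} (h : j < q) (v : (F (ZMod 2) X).H q) : sqc X q j v = 0 :=
  cf_P_of_lt (mulF (ZMod 2) X) (sym_mulF (ZMod 2) X) v j h

theorem sqc_self (X : SS) (q : ℕ) (v : (F (ZMod 2) X).H q) : sqc X q q v = v := by
  refine (cf_P_bool (mulF (ZMod 2) X) (sym_mulF (ZMod 2) X) (Hom.id _)
    (fun p x => mul_self_zmod2 x) v).trans ?_
  rw [Hom.mapH_id]

/-- **The data of block E.** -/
structure MIn {B : SS} (Y : Cov B) (Z' : SS) (d : ℕ) where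
  /-- the data of block E2 -/
  D : Dat (ZMod 2) Y
  /-- the classifying map -/
  cl : SS.Map Y.tot Z'
  /-- comparison of `Z'` with the algebra `D.Z` -/
  ζ : Hom (F (ZMod 2) Z') D.Z
  ζ_bij : ∀ j, Function.Bijective (ζ.mapH j)
  ζ_mul : ∀ p x y, ζ.app p ((mulF (ZMod 2) Z').app p x y) = D.aZ.mul.app p (ζ.app p x) (ζ.app p y)
  rho_ζ : D.rho.comp ζ = cl.pull
  /-- the labelling of the ordered pairs -/
  PL : Y.PLab
  /-- `u^R = 0` on the ordered pairs -/
  R : ℕ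
  nil : ∀ n (x : (guHG idC (Y.actNC (ZMod 2) C2 C2)).H n),
    (guHG idC (Y.actNC (ZMod 2) C2 C2)).upow R n x = 0
  /-- the data of block E5 -/
  S2 : Setup2 (D.pw R nil).st
  /-- block E8 -/
  kw_bij : ∀ q, q ≤ d → Function.Bijective (D.kw.mapH q)
  /-- the class `ι` -/
  iota : D.K.H (d + 1)
  iota_ne : iota ≠ 0
  /-- the functional of the class of `A` on `H^d(B)` -/
  phi : (F (ZMod 2) B).H d →ₗ[ZMod 2] ZMod 2
  conn : ∀ x, D.s1.conn d x = phi x • iota

namespace MIn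

variable {B : SS} {Y : Cov B} {Z' : SS} {d : ℕ} (M : MIn Y Z' d)

/-- the squares on `H(K)` -/
abbrev st : Setup.{0} (fun q => q + q) := (M.D.pw M.R M.nil).st

/-- the square `Sq^(j-q)` on `H(K)` -/
def Sq (q j : ℕ) : M.D.K.H q →ₗ[ZMod 2] M.D.K.H j := M.st.Sq q j

/-- `H^q(Z') = H^q(D.Z)` -/
def ζe (q : ℕ) : (F (ZMod 2) Z').H q ≃ₗ[ZMod 2] M.D.Z.H q :=
  LinearEquiv.ofBijective (M.ζ.mapH q) (M.ζ_bij q)

@[simp] theorem ζe_apply (q : ℕ) (v : (F (ZMod 2) Z').H q) : M.ζe q v = M.ζ.mapH q v := rfl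

/-- the projection `H^q(K) → H^q(Z')` -/
def proj (q : ℕ) : M.D.K.H q →ₗ[ZMod 2] (F (ZMod 2) Z').H q :=
  (M.ζe q).symm.toLinearMap.comp (M.D.kw.mapH q)

theorem ζ_proj (q : ℕ) (x : M.D.K.H q) : M.ζ.mapH q (M.proj q x) = M.D.kw.mapH q x :=
  (M.ζe q).apply_symm_apply _

theorem proj_bij {q : ℕ} (hq : q ≤ d) : Function.Bijective (M.proj q) :=
  (M.ζe q).symm.bijective.comp (M.kw_bij q hq)

theorem proj_Sq (q j : ℕ) (x : M.D.K.H q) :
    M.proj j (M.Sq q j x) = sqc Z' q j (M.proj q x) := by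
  apply (M.ζ_bij j).1
  refine (M.ζ_proj j _).trans ((M.D.kw_Sq M.R M.nil q j x).trans ?_)
  rw [← M.ζ_proj]
  refine Eq.trans ?_ (cf_nat M.ζ (q + q) j _)
  refine congrArg _ ?_
  exact P_nat (mulF (ZMod 2) Z') (Act.triv C2 _) (sym_mulF (ZMod 2) Z') M.D.aZ.mul
    (Act.triv C2 M.D.Z) M.D.sym_aZ M.ζ M.ζ (fun _ _ _ => rfl) M.ζ_mul (M.proj q x)

theorem Sq_neg {q j : ℕ} (h : j < q) (hq : q ≤ d + 1) (x : M.D.K.H q) : M.Sq q j x = 0 := by
  apply (M.proj_bij (q := j) (by omega)).1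
  rw [M.proj_Sq, sqc_lt Z' h, map_zero]

theorem proj_Sq_self (q : ℕ) (x : M.D.K.H q) : M.proj q (M.Sq q q x) = M.proj q x := by
  rw [M.proj_Sq, sqc_self]

/-- the Bullett-Macdonald relations -/
theorem bm (q N m e : ℕ) (hm : q + N = m) (hq : q ≤ d + 1) (x : M.D.K.H q) :
    ∑ a ∈ range (N + 1), (BM.wt (ZMod 2) a (N - a)).coeff e •
      M.Sq (q + (N - a)) m (M.Sq q (q + (N - a)) x) = 0 := by
  subst hm
  refine Eq.trans ?_ (M.S2.bm_vec q N e x (fun j hj => M.Sq_neg hj hq x))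
  refine Eq.trans ?_ (Finset.sum_range_reflect (fun a => (BM.wt (ZMod 2) (N - a) a).coeff e •
      M.Sq (q + a) (q + N) (M.Sq q (q + a) x)) (N + 1))
  refine Finset.sum_congr rfl fun a ha => ?_
  have ha' : a ≤ N := by
    have := Finset.mem_range.1 ha
    omega
  have h1 : N + 1 - 1 - a = N - a := by omega
  have h2 : N - (N - a) = a := by omega
  rw [h1, h2]

/-- the two forms of `u^l` -/
theorem uPow_eq_upow {C : CosMod (ZMod 2)} (a : Act C2 C) {n : ℕ} (l : ℕ) (x : (hG a).H n) :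
    uPow a l (n + l) rfl x = (guHG idC a).upow l n x := by
  induction l with
  | zero => rfl
  | succ l ih =>
    refine (uPow_succ a (rfl : n + l = n + l) rfl x).trans ?_
    exact congrArg (uH idC a (n + l)) ih

/-- **LZ_1** -/
theorem lz {j q : ℕ} (h : j + 2 * q = d) (x : M.D.K.H q) :
    M.Sq q (d + 1) x = M.phi ((Y.ksub 2).tr.mapH d
      (((Y.cl2 M.PL M.cl).pull).mapH d (upZ Z' j q d h (M.proj q x)))) • M.iota := by
  obtain rfl : d = q + q + j := by omega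
  rw [← M.conn]
  have h1 : ((M.cl.pull (R := ZMod 2)).mapH q (M.proj q x)) =
      M.D.rho.mapH q (M.ζ.mapH q (M.proj q x)) := by
    rw [← M.rho_ζ, Hom.mapH_comp]
  refine (M.D.lz_pw M.PL M.R M.nil M.cl x (M.proj q x) ?_ j).trans ?_
  · rw [h1, M.ζ_proj]
    exact Hom.mapH_comp _ _ _ _
  · refine congrArg (fun w => M.D.s1.conn (q + q + j) ((Y.ksub 2).tr.mapH (q + q + j)
      (((Y.cl2 M.PL M.cl).pull).mapH (q + q + j) ((ofHG Z').mapH (q + q + j) w)))) ?_
    exact (uPow_eq_upow (swapF (ZMod 2) Z') j _).symm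

/-- **The output of block E in the form of section I.** -/
def toEData (T : TI.Tower) (n : ℕ) (e : ∀ q, T.H n q ≃ₗ[ZMod 2] (F (ZMod 2) Z').H q)
    (he : ∀ (a q q' : ℕ) (h : q + a = q') (y : T.H n q),
      e q' (T.sq n a q q' h y) = sqc Z' q q' (e q y)) : TI.EData T n d where
  E := M.D.K.H
  Sq := M.Sq
  p q := (e q).symm.toLinearMap.comp (M.proj q)
  p_surj q hq := (e q).symm.surjective.comp (M.proj_bij hq).2
  p_sq a q q' h x _ := by
    show (e q').symm (M.proj q' (M.Sq q q' x)) = T.sq n a q q' h ((e q).symm (M.proj q x))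
    rw [LinearEquiv.symm_apply_eq, he, LinearEquiv.apply_symm_apply, M.proj_Sq]
  sq_self q x _ := by
    show (e q).symm (M.proj q (M.Sq q q x)) = (e q).symm (M.proj q x)
    rw [M.proj_Sq_self]
  sq_ker q x hq hx := by
    have h1 : M.proj q x = 0 := by
      have h2 : (e q).symm (M.proj q x) = 0 := hx
      rwa [LinearEquiv.map_eq_zero_iff] at h2
    have h3 : x = 0 := (M.proj_bij hq).1 (h1.trans (map_zero _).symm)
    rw [h3, map_zero]
  bm q N h x k _ := M.bm q N (d + 1) k h (by omega) x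

/-- **The output of block E**: the cocycle `Psi` and the functional `Phi` of section I. -/
theorem ext (T : TI.Tower) (n : ℕ) (e : ∀ q, T.H n q ≃ₗ[ZMod 2] (F (ZMod 2) Z').H q)
    (he : ∀ (a q q' : ℕ) (h : q + a = q') (y : T.H n q),
      e q' (T.sq n a q q' h y) = sqc Z' q q' (e q y))
    (phi : T.H (n + 1) d →ₗ[ZMod 2] ZMod 2)
    (hphi : ∀ (j q : ℕ) (h : j + 2 * q = d) (y : T.H n q), phi (T.up n j q d h y) =
      M.phi ((Y.ksub 2).tr.mapH d
        (((Y.cl2 M.PL M.cl).pull).mapH d (upZ Z' j q d h (e q y))))) :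
    ∃ (P : TI.Psi T n (d + 1)) (F : TI.Phi T n d P), F.phi = phi := by
  refine (M.toEData T n e he).exists_psi_phi phi M.iota M.iota_ne fun j q h x => ?_
  refine (M.lz h x).trans ?_
  rw [hphi]
  refine congrArg (fun w => M.phi ((Y.ksub 2).tr.mapH d
    (((Y.cl2 M.PL M.cl).pull).mapH d (upZ Z' j q d h w))) • M.iota) ?_
  exact ((e q).apply_symm_apply _).symm

end MIn

end Vale.Agent.P263.E
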