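import Vale.Agent.P263.S.Defs
import Vale.Agent.P263.E.Simp
import Vale.Agent.P263.E.Free

/-!
# P263, block E3: nilpotency of the classes of `H^1(BG)` on simplicial sets without fixed points

`SS.md al f = (d al) ∪ f` for a vertex function `al`; on a simplicial set all of whose
`(D+1)`-simplices are degenerate the `(D+1)`-fold product with `d al` is zero on cochains.
If `T` has a vertex function `c` with `c (g x) = c x + l g` then the product with the class `l` of
`H^1(BG; F_2)` is homotopic on `hG (F T)` to the product with `d c`, hence its `(D+1)`-st power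
is zero on cohomology.
-/

namespace Vale.Agent.P263.E

open Vale.Agent.P263.S

variable {R : Type} [CommRing R]

namespace SS

/-- the product of a vertex function with a cochain -/
def mv {X : SS} (al : X.obj 0 → R) (p : ℕ) : (F R X).obj p →ₗ[R] (F R X).obj p where
  toFun f x := al (X.map (vx p 0) x) * f x
  map_add' f g := by
    funext x
    exact mul_add _ _ _
  map_smul' r f := by
    funext x
    exact mul_left_comm _ _ _

/-- the product `(d al) ∪ f` -/
def md {X : SS} (al : X.obj 0 → R) (p : ℕ) : (F R X).obj p →ₗ[R] (F R X).obj (p + 1) where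
  toFun f x := (al (X.map (vx (p + 1) 1) x) - al (X.map (vx (p + 1) 0) x)) * f (X.map (dl p 0) x)
  map_add' f g := by
    funext x
    exact mul_add _ _ _
  map_smul' r f := by
    funext x
    exact mul_left_comm _ _ _

theorem mv_apply {X : SS} (al : X.obj 0 → R) (p : ℕ) (f : (F R X).obj p) (x : X.obj p) :
    mv al p f x = al (X.map (vx p 0) x) * f x := rfl

theorem md_apply {X : SS} (al : X.obj 0 → R) (p : ℕ) (f : (F R X).obj p) (x : X.obj (p + 1)) :
    md al p f x =
      (al (X.map (vx (p + 1) 1) x) - al (X.map (vx (p + 1) 0) x)) * f (X.map (dl p 0) x) := rfl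

theorem sn_mul (k : ℕ) (a b : R) : sn k (a * b) = a * sn k b := by
  rw [sn, sn, mul_smul_comm]

/-- the Leibniz rule for a vertex function -/
theorem d_mv {X : SS} (al : X.obj 0 → R) (p : ℕ) (f : (F R X).obj p) :
    (F R X).d p (mv al p f) = mv al (p + 1) ((F R X).d p f) + md al p f := by
  funext x
  show (F R X).d p (mv al p f) x = mv al (p + 1) ((F R X).d p f) x + md al p f x
  rw [mv_apply, F_d, F_d, md_apply, Finset.sum_range_succ', Finset.sum_range_succ' _ (p + 1)]
  have h0 : ∀ i : ℕ, (dl p (i + 1)).comp (vx p 0) = vx (p + 1) 0 := by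
    intro i
    rw [comp_vx]
    congr 1
  have h1 : (dl p 0).comp (vx p 0) = vx (p + 1) 1 := by
    rw [comp_vx]
    congr 1
  simp only [mv_apply, ← X.map_comp, h0, h1]
  have e : ∑ k ∈ Finset.range (p + 1), sn (k + 1)
        (al (X.map (vx (p + 1) 0) x) * f (X.map (dl p (k + 1)) x)) =
      al (X.map (vx (p + 1) 0) x) *
        ∑ k ∈ Finset.range (p + 1), sn (k + 1) (f (X.map (dl p (k + 1)) x)) := by
    rw [Finset.mul_sum]
    exact Finset.sum_congr rfl fun k _ => sn_mul _ _ _
  rw [e]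
  simp only [sn, pow_zero, one_smul]
  ring

theorem d_md {X : SS} (al : X.obj 0 → R) (p : ℕ) (f : (F R X).obj p) :
    (F R X).d (p + 1) (md al p f) = - md al (p + 1) ((F R X).d p f) := by
  have h1 := congrArg ((F R X).d (p + 1)) (d_mv al p f)
  rw [CosMod.d_d, map_add, d_mv, CosMod.d_d, map_zero, zero_add] at h1
  exact eq_neg_of_add_eq_zero_right h1.symm

theorem md_add {X : SS} (al be : X.obj 0 → R) (p : ℕ) (f : (F R X).obj p) :
    md (fun x => al x + be x) p f = md al p f + md be p f := by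
  funext x
  show _ = md al p f x + md be p f x
  rw [md_apply, md_apply, md_apply]
  ring

end SS

/-! ### `EG` and the operators on `hG` -/

/-- `EG` as a simplicial set. -/
def EGs (G : Type) : SS where
  obj p := Fin (p + 1) → G
  map φ s := s ∘ φ
  map_id _ := rfl
  map_comp _ _ _ := rfl

variable {G : Type} [Group G]

/-- the product with a homogeneous 1-cochain of `EG` on `hG` -/
def mulc {B : CosMod R} (a : Act G B) (k : G → G → R) (hk : ∀ g s t, k (g * s) (g * t) = k s t)
    (p : ℕ) : (hG a).obj p →ₗ[R] (hG a).obj (p + 1) where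
  toFun f := hG.mk a (fun s => k (s 0) (s 1) • B.map (dl p 0) (hG.fn f (s ∘ dl p 0))) (by
    intro g s
    have h1 : hG.fn f ((fun i => g * s i) ∘ dl p 0) = a.act p g (hG.fn f (s ∘ dl p 0)) :=
      hG.fn_mul f g _
    rw [hk, h1, map_smul, a.nat])
  map_add' f g := hG.ext fun s => by simp
  map_smul' r f := hG.ext fun s => by
    show k (s 0) (s 1) • B.map (dl p 0) (r • hG.fn f (s ∘ dl p 0)) =
      r • k (s 0) (s 1) • B.map (dl p 0) (hG.fn f (s ∘ dl p 0))
    rw [map_smul, smul_comm]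

@[simp] theorem mulc_fn {B : CosMod R} (a : Act G B) (k : G → G → R)
    (hk : ∀ g s t, k (g * s) (g * t) = k s t) (p : ℕ) (f : (hG a).obj p) (s : Fin (p + 2) → G) :
    hG.fn (mulc a k hk p f) s = k (s 0) (s 1) • B.map (dl p 0) (hG.fn f (s ∘ dl p 0)) := rfl

/-- the 1-cochain of an additive function on `G` -/
def kl (l : G → R) (s t : G) : R := l t - l s

theorem kl_inv {l : G → R} (hl : ∀ g s, l (g * s) = l g + l s) (g s t : G) :
    kl l (g * s) (g * t) = kl l s t := by
  rw [kl, kl, hl, hl]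
  ring

section

variable {T : SS} (a : Act G (SS.F R T))

/-- elements of `hG (F T)` as functions on `EG × T` -/
def unc : Hom (hG a) (SS.F R ((EGs G).prod T)) where
  app _p :=
    { toFun := fun f x => hG.fn f x.1 x.2
      map_add' := fun _ _ => rfl
      map_smul' := fun _ _ => rfl }
  nat _ _ := rfl

theorem unc_apply {p : ℕ} (f : (hG a).obj p) (x : ((EGs G).prod T).obj p) :
    (unc a).app p f x = hG.fn f x.1 x.2 := rfl

theorem unc_inj {p : ℕ} {f g : (hG a).obj p} (h : (unc a).app p f = (unc a).app p g) : f = g := by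
  refine hG.ext fun s => ?_
  funext x
  exact congrFun h (s, x)

variable {ρ : G → T.Map T}
  (ha : ∀ (p : ℕ) (g : G) (f : (SS.F R T).obj p) (x : T.obj p), a.act p g f x = f ((ρ g).app x))
  {l : G → R} (hl : ∀ g s, l (g * s) = l g + l s)
  {c : T.obj 0 → R} (hc : ∀ (g : G) (x : T.obj 0), c ((ρ g).app x) = c x + l g)

/-- the product with the invariant vertex function `l + c` -/
def hmul (p : ℕ) : (hG a).obj p →ₗ[R] (hG a).obj p where
  toFun f := hG.mk a (fun s x => (l (s 0) + c (T.map (vx p 0) x)) * hG.fn f s x) (by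
    intro g s
    funext x
    refine Eq.trans ?_ (ha p g _ x).symm
    have h1 : hG.fn f (fun i => g * s i) x = hG.fn f s ((ρ g).app x) :=
      (congrFun (hG.fn_mul f g s) x).trans (ha p g _ x)
    show (l (g * s 0) + c (T.map (vx p 0) x)) * hG.fn f (fun i => g * s i) x =
      (l (s 0) + c (T.map (vx p 0) ((ρ g).app x))) * hG.fn f s ((ρ g).app x)
    rw [h1, hl, ← (ρ g).nat, hc]
    ring)
  map_add' f g := hG.ext fun s => by
    funext x
    exact mul_add _ _ _
  map_smul' r f := hG.ext fun s => by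
    funext x
    exact mul_left_comm _ _ _

/-- the product with `d c` -/
def wmul (p : ℕ) : (hG a).obj p →ₗ[R] (hG a).obj (p + 1) where
  toFun f := hG.mk a (fun s x => (c (T.map (vx (p + 1) 1) x) - c (T.map (vx (p + 1) 0) x)) *
      hG.fn f (s ∘ dl p 0) (T.map (dl p 0) x)) (by
    intro g s
    funext x
    refine Eq.trans ?_ (ha (p + 1) g _ x).symm
    have h1 : hG.fn f ((fun i => g * s i) ∘ dl p 0) (T.map (dl p 0) x) =
        hG.fn f (s ∘ dl p 0) ((ρ g).app (T.map (dl p 0) x)) :=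
      (congrFun (hG.fn_mul f g (s ∘ dl p 0)) _).trans (ha p g _ _)
    show (c (T.map (vx (p + 1) 1) x) - c (T.map (vx (p + 1) 0) x)) *
        hG.fn f ((fun i => g * s i) ∘ dl p 0) (T.map (dl p 0) x) =
      (c (T.map (vx (p + 1) 1) ((ρ g).app x)) - c (T.map (vx (p + 1) 0) ((ρ g).app x))) *
        hG.fn f (s ∘ dl p 0) (T.map (dl p 0) ((ρ g).app x))
    rw [h1, ← (ρ g).nat, ← (ρ g).nat, ← (ρ g).nat, hc, hc]
    ring)
  map_add' f g := hG.ext fun s => by
    funext x
    exact mul_add _ _ _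
  map_smul' r f := hG.ext fun s => by
    funext x
    exact mul_left_comm _ _ _

theorem unc_mulc (p : ℕ) (f : (hG a).obj p) :
    (unc a).app (p + 1) (mulc a (kl l) (kl_inv hl) p f) =
      SS.md (X := (EGs G).prod T) (fun x => l (x.1 0)) p ((unc a).app p f) := rfl

theorem unc_hmul (p : ℕ) (f : (hG a).obj p) :
    (unc a).app p (hmul a ha hl hc p f) =
      SS.mv (X := (EGs G).prod T) (fun x => l (x.1 0) + c x.2) p ((unc a).app p f) := rfl

theorem unc_wmul (p : ℕ) (f : (hG a).obj p) :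
    (unc a).app (p + 1) (wmul a ha hc p f) =
      SS.md (X := (EGs G).prod T) (fun x => c x.2) p ((unc a).app p f) := rfl

theorem d_hmul (p : ℕ) (f : (hG a).obj p) :
    (hG a).d p (hmul a ha hl hc p f) = hmul a ha hl hc (p + 1) ((hG a).d p f) +
      (mulc a (kl l) (kl_inv hl) p f + wmul a ha hc p f) := by
  apply unc_inj a
  rw [(unc a).app_d, unc_hmul, SS.d_mv, map_add, map_add, unc_hmul, (unc a).app_d, unc_mulc a hl,
    unc_wmul, SS.md_add (X := (EGs G).prod T) (fun x => l (x.1 0)) (fun x => c x.2)]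

theorem d_mulc (p : ℕ) (f : (hG a).obj p) :
    (hG a).d (p + 1) (mulc a (kl l) (kl_inv hl) p f) =
      - mulc a (kl l) (kl_inv hl) (p + 1) ((hG a).d p f) := by
  apply unc_inj a
  rw [(unc a).app_d, unc_mulc a hl, SS.d_md, map_neg, unc_mulc a hl, (unc a).app_d]

theorem d_wmul (p : ℕ) (f : (hG a).obj p) :
    (hG a).d (p + 1) (wmul a ha hc p f) = - wmul a ha hc (p + 1) ((hG a).d p f) := by
  apply unc_inj a
  rw [(unc a).app_d, unc_wmul, SS.d_md, map_neg, unc_wmul, (unc a).app_d]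

end

/-! ### iterates -/

/-- iterates of an operator of degree one -/
def iter {B : CosMod R} (U : ∀ p, B.obj p →ₗ[R] B.obj (p + 1)) (p : ℕ) :
    ∀ n, B.obj p →ₗ[R] B.obj (p + n)
  | 0 => LinearMap.id
  | n + 1 => (U (p + n)).comp (iter U p n)

theorem iter_succ {B : CosMod R} (U : ∀ p, B.obj p →ₗ[R] B.obj (p + 1)) (p n : ℕ) (x : B.obj p) :
    iter U p (n + 1) x = U (p + n) (iter U p n x) := rfl

section

variable {B : CosMod R} {U W : ∀ p, B.obj p →ₗ[R] B.obj (p + 1)}

theorem op_mem_Z (dU : ∀ p f, B.d (p + 1) (U p f) = - U (p + 1) (B.d p f)) {p : ℕ} {x : B.obj p}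
    (hx : x ∈ B.Z p) : U p x ∈ B.Z (p + 1) := by
  rw [CosMod.mem_Z] at *
  rw [dU, hx, map_zero, neg_zero]

theorem op_mem_Bd (dU : ∀ p f, B.d (p + 1) (U p f) = - U (p + 1) (B.d p f)) {p : ℕ} {x : B.obj p}
    (hx : x ∈ B.Bd p) : U p x ∈ B.Bd (p + 1) := by
  cases p with
  | zero =>
    rw [CosMod.mem_Bd_zero] at hx
    rw [hx, map_zero]
    exact zero_mem _
  | succ p =>
    obtain ⟨y, rfl⟩ := hx
    refine ⟨- U p y, ?_⟩
    rw [map_neg, dU, neg_neg]

/-- the operator on cohomology -/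
def opH (U : ∀ p, B.obj p →ₗ[R] B.obj (p + 1))
    (dU : ∀ p f, B.d (p + 1) (U p f) = - U (p + 1) (B.d p f)) (p : ℕ) :
    B.H p →ₗ[R] B.H (p + 1) :=
  Submodule.mapQ _ _ ((U p).restrict fun _ hx => op_mem_Z dU hx) fun _ hx => op_mem_Bd dU hx

theorem opH_cls (dU : ∀ p f, B.d (p + 1) (U p f) = - U (p + 1) (B.d p f)) (p : ℕ) (x : B.Z p) :
    opH U dU p (B.cls p x) = B.cls (p + 1) ⟨U p x, op_mem_Z dU x.2⟩ := rfl

/-- iterates on cohomology -/
def iterH {H : ℕ → Type*} [∀ n, AddCommGroup (H n)] [∀ n, Module R (H n)]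
    (V : ∀ p, H p →ₗ[R] H (p + 1)) (p : ℕ) : ∀ n, H p →ₗ[R] H (p + n)
  | 0 => LinearMap.id
  | n + 1 => (V (p + n)).comp (iterH V p n)

theorem iterH_succ {H : ℕ → Type*} [∀ n, AddCommGroup (H n)] [∀ n, Module R (H n)]
    (V : ∀ p, H p →ₗ[R] H (p + 1)) (p n : ℕ) (x : H p) :
    iterH V p (n + 1) x = V (p + n) (iterH V p n x) := rfl

theorem iter_mem_Z (dU : ∀ p f, B.d (p + 1) (U p f) = - U (p + 1) (B.d p f)) {p : ℕ}
    {x : B.obj p} (hx : x ∈ B.Z p) (n : ℕ) : iter U p n x ∈ B.Z (p + n) := by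
  induction n with
  | zero => exact hx
  | succ n ih => exact op_mem_Z dU ih

theorem iterH_cls (dU : ∀ p f, B.d (p + 1) (U p f) = - U (p + 1) (B.d p f)) {p : ℕ}
    (x : B.Z p) (n : ℕ) :
    iterH (opH U dU) p n (B.cls p x) = B.cls (p + n) ⟨iter U p n x, iter_mem_Z dU x.2 n⟩ := by
  induction n with
  | zero => rfl
  | succ n ih => rw [iterH_succ, ih, opH_cls]; rfl

/-- On cocycles the iterates of `U` and of `-W` agree up to coboundaries. -/
theorem iter_cmp {h : ∀ p, B.obj p →ₗ[R] B.obj p}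
    (hd : ∀ p f, B.d p (h p f) = h (p + 1) (B.d p f) + (U p f + W p f))
    (dU : ∀ p f, B.d (p + 1) (U p f) = - U (p + 1) (B.d p f))
    (dW : ∀ p f, B.d (p + 1) (W p f) = - W (p + 1) (B.d p f)) {p : ℕ} {f : B.obj p}
    (hf : f ∈ B.Z p) (n : ℕ) : iter U p n f - sn n (iter W p n f) ∈ B.Bd (p + n) := by
  induction n with
  | zero =>
    have : iter U p 0 f - sn 0 (iter W p 0 f) = 0 := by
      simp [sn, iter]
    rw [this]
    exact zero_mem _
  | succ n ih =>
    have h1 := op_mem_Bd dU ih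
    have hw : B.d (p + n) (iter W p n f) = 0 := CosMod.mem_Z.1 (iter_mem_Z dW hf n)
    have h2 := hd (p + n) (iter W p n f)
    rw [hw, map_zero, zero_add] at h2
    have h3 : iter U p (n + 1) f - sn (n + 1) (iter W p (n + 1) f) =
        U (p + n) (iter U p n f - sn n (iter W p n f)) +
          sn n (B.d (p + n) (h (p + n) (iter W p n f))) := by
      rw [h2, iter_succ, iter_succ, map_sub, CosMod.sn_lin, sn_add, sn_succ]
      abel
    rw [h3]
    refine add_mem h1 ?_
    have h4 : sn n (B.d (p + n) (h (p + n) (iter W p n f))) =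
        B.d (p + n) (sn n (h (p + n) (iter W p n f))) := (CosMod.sn_lin _ _ _).symm
    rw [h4]
    exact B.d_mem_Bd _

end

section

variable {T : SS} (a : Act G (SS.F R T)) {ρ : G → T.Map T}
  (ha : ∀ (p : ℕ) (g : G) (f : (SS.F R T).obj p) (x : T.obj p), a.act p g f x = f ((ρ g).app x))
  {l : G → R} (hl : ∀ g s, l (g * s) = l g + l s)
  {c : T.obj 0 → R} (hc : ∀ (g : G) (x : T.obj 0), c ((ρ g).app x) = c x + l g)

/-- the iterates of `wmul` vanish on simplices with a repeated vertex in front -/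
theorem iter_wmul_zero (p : ℕ) (f : (hG a).obj p) : ∀ (n i : ℕ) (hi : i < n)
    (s : Fin (p + n + 1) → G) (x : T.obj (p + n)),
    T.map (vx (p + n) ⟨i, by omega⟩) x = T.map (vx (p + n) ⟨i + 1, by omega⟩) x →
    hG.fn (iter (wmul a ha hc) p n f) s x = 0 := by
  intro n
  induction n with
  | zero => intro i hi; omega
  | succ n ih =>
    intro i hi s x hx
    show (c (T.map (vx (p + n + 1) 1) x) - c (T.map (vx (p + n + 1) 0) x)) *
      hG.fn (iter (wmul a ha hc) p n f) (s ∘ dl (p + n) 0) (T.map (dl (p + n) 0) x) = 0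
    rcases i with _ | i
    · have h0 : (⟨0, by omega⟩ : Fin (p + (n + 1) + 1)) = (0 : Fin (p + n + 1 + 1)) := rfl
      have h1 : (⟨0 + 1, by omega⟩ : Fin (p + (n + 1) + 1)) = (1 : Fin (p + n + 1 + 1)) :=
        Fin.ext (by rw [Fin.val_one])
      have h2 : T.map (vx (p + n + 1) 0) x = T.map (vx (p + n + 1) 1) x := by
        have := hx
        rw [h1] at this
        exact this
      rw [h2, sub_self, zero_mul]
    · have h3 := ih i (by omega) (s ∘ dl (p + n) 0) (T.map (dl (p + n) 0) x) (by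
        rw [← T.map_comp, ← T.map_comp, comp_vx, comp_vx]
        have e1 : dl (p + n) 0 ⟨i, by omega⟩ = (⟨i + 1, by omega⟩ : Fin (p + n + 2)) :=
          Fin.ext (by rw [dl_val]; simp)
        have e2 : dl (p + n) 0 ⟨i + 1, by omega⟩ = (⟨i + 1 + 1, by omega⟩ : Fin (p + n + 2)) :=
          Fin.ext (by rw [dl_val]; simp)
        rw [e1, e2]
        exact hx)
      rw [h3, mul_zero]

/-- `T` has dimension at most `D`: all `(D+1)`-simplices are degenerate. -/
def SS.DimLE (T : SS) (D : ℕ) : Prop :=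
  ∀ y : T.obj (D + 1), ∃ i, i ≤ D ∧ ∃ y' : T.obj D, T.map (sg D i) y' = y

theorem iter_wmul_nil {D : ℕ} (hD : T.DimLE D) (p : ℕ) (f : (hG a).obj p) :
    iter (wmul a ha hc) p (D + 1) f = 0 := by
  refine hG.ext fun s => ?_
  funext x
  obtain ⟨i, hi, y', hy⟩ := hD (T.map (⟨fun j => ⟨j.1, by omega⟩, fun j k h => h⟩ :
    Op (D + 1) (p + (D + 1))) x)
  refine iter_wmul_zero a ha hc p f (D + 1) i (by omega) s x ?_
  have e : ∀ j : Fin (D + 2), T.map (vx (p + (D + 1)) ⟨j.1, by omega⟩) x =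
      T.map (vx D (sg D i j)) y' := by
    intro j
    have h1 := congrArg (T.map (vx (D + 1) j)) hy
    rw [← T.map_comp, ← T.map_comp, comp_vx, comp_vx] at h1
    exact h1.symm
  have e1 := e ⟨i, by omega⟩
  have e2 := e ⟨i + 1, by omega⟩
  have e3 : sg D i ⟨i, by omega⟩ = sg D i ⟨i + 1, by omega⟩ := by
    apply Fin.ext
    rw [sg_val, sg_val]
    simp
    omega
  rw [e3] at e1
  exact e1.trans e2.symm

include ha hc in
/-- **Nilpotency.** -/
theorem iter_mulc_nil {D : ℕ} (hD : T.DimLE D) (p : ℕ) (f : (hG a).obj p) (hf : f ∈ (hG a).Z p) :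
    iter (mulc a (kl l) (kl_inv hl)) p (D + 1) f ∈ (hG a).Bd (p + (D + 1)) := by
  have h := iter_cmp (U := mulc a (kl l) (kl_inv hl)) (W := wmul a ha hc)
    (h := hmul a ha hl hc) (d_hmul a ha hl hc) (d_mulc a hl) (d_wmul a ha hc) hf (D + 1)
  rw [iter_wmul_nil a ha hc hD p f, sn_zero_val, sub_zero] at h
  exact h

include ha hc in
/-- **Nilpotency on cohomology.** -/
theorem iterH_mulc_nil {D : ℕ} (hD : T.DimLE D) (p : ℕ) (z : (hG a).H p) :
    iterH (opH (mulc a (kl l) (kl_inv hl)) (d_mulc a hl)) p (D + 1) z = 0 := by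
  obtain ⟨z, rfl⟩ := (hG a).cls_surjective p z
  rw [iterH_cls, CosMod.cls_eq_zero_iff]
  exact iter_mulc_nil a ha hl hc hD p z z.2

end

end Vale.Agent.P263.E
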