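import Vale.Agent.P263.E.Nil

/-!
# P263, block E3: nilpotency for a group acting with several stabiliser types (helper307)

`T` is a simplicial set with an action `ρ` of `G` whose stabilisers are the same for a simplex and
for its images under the simplicial operators (for instance tuples in the fibres of a covering).
If every stabiliser is killed by one of three additive functions `l1, l2, l3 : G → R` then
`l3^(D+1) l2^(D+1) l1^(D+1) = 0` on `H (hG (F T))` (`D` = dimension of `T`), with no use of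
commutation of the three operators (`nil3`).
-/

namespace Vale.Agent.P263.E

open Vale.Agent.P263.S

variable {R : Type} [CommRing R] {G : Type} [Group G]

/-! ### `mulc` and equivariant maps -/

theorem mapHom_mulc {B C : CosMod R} (a : Act G B) (b : Act G C) (f : Hom B C)
    (hf : ∀ p (g : G) (x : B.obj p), f.app p (a.act p g x) = b.act p g (f.app p x))
    (k : G → G → R) (hk : ∀ g s t, k (g * s) (g * t) = k s t) (p : ℕ) (x : (hG a).obj p) :
    (hG.mapHom a b f hf).app (p + 1) (mulc a k hk p x) =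
      mulc b k hk p ((hG.mapHom a b f hf).app p x) := by
  refine hG.ext fun s => ?_
  show f.app (p + 1) (k (s 0) (s 1) • B.map (dl p 0) (hG.fn x (s ∘ dl p 0))) =
    k (s 0) (s 1) • C.map (dl p 0) (f.app p (hG.fn x (s ∘ dl p 0)))
  rw [map_smul, f.nat]

theorem mapH_opH {B C : CosMod R} (f : Hom B C) {U : ∀ p, B.obj p →ₗ[R] B.obj (p + 1)}
    {W : ∀ p, C.obj p →ₗ[R] C.obj (p + 1)}
    (dU : ∀ p f, B.d (p + 1) (U p f) = - U (p + 1) (B.d p f))
    (dW : ∀ p f, C.d (p + 1) (W p f) = - W (p + 1) (C.d p f))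
    (h : ∀ p x, f.app (p + 1) (U p x) = W p (f.app p x)) (p : ℕ) (z : B.H p) :
    f.mapH (p + 1) (opH U dU p z) = opH W dW p (f.mapH p z) := by
  obtain ⟨z, rfl⟩ := B.cls_surjective p z
  rw [opH_cls, Hom.mapH_cls, Hom.mapH_cls, opH_cls]
  congr 1
  exact Subtype.ext (h p z.1)

theorem mapH_iterH {B C : CosMod R} (f : Hom B C) {U : ∀ p, B.obj p →ₗ[R] B.obj (p + 1)}
    {W : ∀ p, C.obj p →ₗ[R] C.obj (p + 1)}
    (dU : ∀ p f, B.d (p + 1) (U p f) = - U (p + 1) (B.d p f))
    (dW : ∀ p f, C.d (p + 1) (W p f) = - W (p + 1) (C.d p f))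
    (h : ∀ p x, f.app (p + 1) (U p x) = W p (f.app p x)) (p n : ℕ) (z : B.H p) :
    f.mapH (p + n) (iterH (opH U dU) p n z) = iterH (opH W dW) p n (f.mapH p z) := by
  induction n with
  | zero => rfl
  | succ n ih =>
    rw [iterH_succ, iterH_succ, ← ih]
    exact mapH_opH f dU dW h (p + n) _

/-! ### unions of components -/

namespace SS

section cpt

variable {T : SS} (P : ∀ p : ℕ, T.obj p → Prop)
  (hP : ∀ {p q : ℕ} (θ : Op p q) (x : T.obj q), P p (T.map θ x) ↔ P q x)

/-- the simplices with an invariant property -/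
def cpt : SS where
  obj p := {x : T.obj p // P p x}
  map θ x := ⟨T.map θ x.1, (hP θ x.1).2 x.2⟩
  map_id x := Subtype.ext (T.map_id x.1)
  map_comp f g x := Subtype.ext (T.map_comp f g x.1)

/-- the inclusion -/
def cptIncl : Map (cpt P hP) T := ⟨fun x => x.1, fun _ _ => rfl⟩

open Classical in
/-- extension by zero of a function -/
noncomputable def zx {p : ℕ} (f : {x : T.obj p // P p x} → R) (x : T.obj p) : R :=
  if h : P p x then f ⟨x, h⟩ else 0

variable {P} in
theorem zx_pos {p : ℕ} (f : {x : T.obj p // P p x} → R) {x : T.obj p} (h : P p x) :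
    zx P f x = f ⟨x, h⟩ := dif_pos h

variable {P} in
theorem zx_neg {p : ℕ} (f : {x : T.obj p // P p x} → R) {x : T.obj p} (h : ¬ P p x) :
    zx P f x = 0 := dif_neg h

variable {P} in
theorem zx_add {p : ℕ} (f g : {x : T.obj p // P p x} → R) :
    zx P (fun y => f y + g y) = fun x => zx P f x + zx P g x := by
  funext x
  by_cases h : P p x
  · rw [zx_pos _ h, zx_pos _ h, zx_pos _ h]
  · rw [zx_neg _ h, zx_neg _ h, zx_neg _ h, add_zero]

variable {P} in
theorem zx_smul {p : ℕ} (r : R) (f : {x : T.obj p // P p x} → R) :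
    zx P (fun y => r * f y) = fun x => r * zx P f x := by
  funext x
  by_cases h : P p x
  · rw [zx_pos _ h, zx_pos _ h]
  · rw [zx_neg _ h, zx_neg _ h, mul_zero]

variable {P} in
theorem zx_comp {p q : ℕ} (φ : T.obj q → T.obj p) (hφ : ∀ x, P p (φ x) ↔ P q x)
    (f : {x : T.obj p // P p x} → R) :
    zx P (fun y : {x : T.obj q // P q x} => f ⟨φ y.1, (hφ y.1).2 y.2⟩) =
      fun x => zx P f (φ x) := by
  funext x
  by_cases h : P q x
  · rw [zx_pos _ h, zx_pos _ ((hφ x).2 h)]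
  · rw [zx_neg _ h, zx_neg _ fun h' => h ((hφ x).1 h')]

/-- extension of functions by zero -/
noncomputable def ext0 : Hom (F R (cpt P hP)) (F R T) where
  app _p :=
    { toFun := fun f => zx P f
      map_add' := fun f g => zx_add f g
      map_smul' := fun r f => zx_smul r f }
  nat θ f := zx_comp (T.map θ) (hP θ) f

theorem ext0_app {p : ℕ} (f : (F R (cpt P hP)).obj p) (x : T.obj p) :
    (ext0 P hP).app p f x = zx P f x := rfl

theorem cpt_dimLE {D : ℕ} (hD : T.DimLE D) : (cpt P hP).DimLE D := by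
  intro y
  obtain ⟨i, hi, y', hy⟩ := hD y.1
  have h : P D y' := by
    rw [← hP (sg D i), hy]
    exact y.2
  exact ⟨i, hi, ⟨y', h⟩, Subtype.ext hy⟩

end cpt

end SS

/-! ### existence of vertex functions -/

section

variable {T : SS} {ρ : G → T.Map T}
  (h1 : ∀ {p : ℕ} (x : T.obj p), (ρ 1).app x = x)
  (hm : ∀ (g h : G) {p : ℕ} (x : T.obj p), (ρ (g * h)).app x = (ρ h).app ((ρ g).app x))

include h1 hm in
theorem rho_inv (g : G) {p : ℕ} (x : T.obj p) : (ρ g⁻¹).app ((ρ g).app x) = x := by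
  rw [← hm, mul_inv_cancel, h1]

include h1 hm in
theorem rho_inv' (g : G) {p : ℕ} (x : T.obj p) : (ρ g).app ((ρ g⁻¹).app x) = x := by
  rw [← hm, inv_mul_cancel, h1]

variable {l : G → R} (hl : ∀ g s, l (g * s) = l g + l s)

include hl in
theorem addf_one : l 1 = 0 := by
  have := hl 1 1
  rw [mul_one] at this
  exact left_eq_add.1 this

include hl in
theorem addf_inv (g : G) : l g⁻¹ = - l g := by
  have := hl g g⁻¹
  rw [mul_inv_cancel, addf_one hl] at this
  exact eq_neg_of_add_eq_zero_right this.symm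

include h1 hm hl in
/-- existence of the vertex function if `l` kills the stabilisers of the vertices -/
theorem exists_vertex (hS : ∀ (x : T.obj 0) (g : G), (ρ g).app x = x → l g = 0) :
    ∃ c : T.obj 0 → R, ∀ (g : G) (x : T.obj 0), c ((ρ g).app x) = c x + l g := by
  classical
  let s : Setoid (T.obj 0) :=
    { r := fun x y => ∃ g, (ρ g).app x = y
      iseqv :=
        { refl := fun x => ⟨1, h1 x⟩
          symm := fun {x y} ⟨g, hg⟩ => ⟨g⁻¹, by rw [← hg]; exact rho_inv h1 hm g x⟩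
          trans := fun {x y z} ⟨g, hg⟩ ⟨h, hh⟩ => ⟨g * h, by rw [hm, hg, hh]⟩ } }
  let rep : T.obj 0 → T.obj 0 := fun x => (Quotient.mk s x).out
  have hrep : ∀ x, ∃ g, (ρ g).app (rep x) = x := fun x => Quotient.mk_out (s := s) x
  choose k hk using hrep
  refine ⟨fun x => l (k x), fun g x => ?_⟩
  have e : rep ((ρ g).app x) = rep x := by
    have : Quotient.mk s ((ρ g).app x) = Quotient.mk s x := Quotient.sound ((s.symm ⟨g, rfl⟩))
    show (Quotient.mk s ((ρ g).app x)).out = (Quotient.mk s x).out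
    rw [this]
  have h2 := hk ((ρ g).app x)
  rw [e] at h2
  have h3 : (ρ (k x * g * (k ((ρ g).app x))⁻¹)).app (rep x) = rep x := by
    have h5 := rho_inv h1 hm (k ((ρ g).app x)) (rep x)
    rw [h2] at h5
    rw [hm, hm, hk x]
    exact h5
  have h4 := hS _ _ h3
  rw [hl, hl, addf_inv hl] at h4
  exact (sub_eq_zero.1 (by rw [sub_eq_add_neg]; exact h4)).symm

end

/-! ### the strata -/

section

variable {T : SS} {ρ : G → T.Map T}
  (h1 : ∀ {p : ℕ} (x : T.obj p), (ρ 1).app x = x)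
  (hm : ∀ (g h : G) {p : ℕ} (x : T.obj p), (ρ (g * h)).app x = (ρ h).app ((ρ g).app x))
  (P : ∀ p : ℕ, T.obj p → Prop)
  (hP : ∀ {p q : ℕ} (θ : Op p q) (x : T.obj q), P p (T.map θ x) ↔ P q x)
  (hPg : ∀ (g : G) {p : ℕ} (x : T.obj p), P p ((ρ g).app x) ↔ P p x)

/-- the action on a union of components -/
def cptAct (g : G) : (SS.cpt P hP).Map (SS.cpt P hP) :=
  ⟨fun x => ⟨(ρ g).app x.1, (hPg g x.1).2 x.2⟩, fun θ x => Subtype.ext ((ρ g).nat θ x.1)⟩

/-- the action on the functions on a union of components -/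
def actP : Act G (SS.F R (SS.cpt P hP)) where
  act p :=
    { toFun := fun g => ((cptAct (ρ := ρ) P hP hPg g).pull).app p
      map_one' := by
        refine LinearMap.ext fun f => ?_
        funext x
        exact congrArg f (Subtype.ext (h1 x.1))
      map_mul' := fun g h => by
        refine LinearMap.ext fun f => ?_
        funext x
        exact congrArg f (Subtype.ext (hm g h x.1)) }
  nat θ g f := ((cptAct (ρ := ρ) P hP hPg g).pull).nat θ f

variable (a : Act G (SS.F R T))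
  (ha : ∀ (p : ℕ) (g : G) (f : (SS.F R T).obj p) (x : T.obj p), a.act p g f x = f ((ρ g).app x))

/-- restriction to a union of components -/
def rP : Hom (hG a) (hG (actP (R := R) h1 hm P hP hPg)) :=
  hG.mapHom a _ (SS.cptIncl P hP).pull fun p g f => by
    funext x
    exact ha p g f x.1

/-- extension by zero from a union of components -/
noncomputable def xP : Hom (hG (actP (R := R) h1 hm P hP hPg)) (hG a) :=
  hG.mapHom _ a (SS.ext0 P hP) fun p g f => by
    funext x
    refine Eq.trans ?_ (ha p g _ x).symm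
    exact congrFun (SS.zx_comp (fun x => (ρ g).app x) (fun x => hPg g x) f) x

/-- the projection to a union of components, on cohomology -/
noncomputable def eP (p : ℕ) : (hG a).H p →ₗ[R] (hG a).H p :=
  ((xP h1 hm P hP hPg a ha).mapH p).comp ((rP h1 hm P hP hPg a ha).mapH p)

variable {l : G → R} (hl : ∀ g s, l (g * s) = l g + l s)

theorem rP_iterH (p n : ℕ) (z : (hG a).H p) :
    (rP h1 hm P hP hPg a ha).mapH (p + n)
        (iterH (opH (mulc a (kl l) (kl_inv hl)) (d_mulc a hl)) p n z) =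
      iterH (opH (mulc (actP (R := R) h1 hm P hP hPg) (kl l) (kl_inv hl))
        (d_mulc (actP (R := R) h1 hm P hP hPg) hl)) p n ((rP h1 hm P hP hPg a ha).mapH p z) :=
  mapH_iterH (rP h1 hm P hP hPg a ha) (d_mulc a hl)
    (d_mulc (actP (R := R) h1 hm P hP hPg) hl)
    (fun p x => mapHom_mulc a (actP (R := R) h1 hm P hP hPg) _ _ _ _ p x) p n z

theorem xP_iterH (p n : ℕ) (z : (hG (actP (R := R) h1 hm P hP hPg)).H p) :
    (xP h1 hm P hP hPg a ha).mapH (p + n)
        (iterH (opH (mulc (actP (R := R) h1 hm P hP hPg) (kl l) (kl_inv hl))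
        (d_mulc (actP (R := R) h1 hm P hP hPg) hl)) p n z) =
      iterH (opH (mulc a (kl l) (kl_inv hl)) (d_mulc a hl)) p n
        ((xP h1 hm P hP hPg a ha).mapH p z) :=
  mapH_iterH (xP h1 hm P hP hPg a ha) (d_mulc (actP (R := R) h1 hm P hP hPg) hl)
    (d_mulc a hl)
    (fun p x => mapHom_mulc (actP (R := R) h1 hm P hP hPg) a _ _ _ _ p x) p n z

theorem eP_apply (p : ℕ) (z : (hG a).H p) :
    eP h1 hm P hP hPg a ha p z =
      (xP h1 hm P hP hPg a ha).mapH p ((rP h1 hm P hP hPg a ha).mapH p z) := rfl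

theorem eP_iterH (p n : ℕ) (z : (hG a).H p) :
    eP h1 hm P hP hPg a ha (p + n) (iterH (opH (mulc a (kl l) (kl_inv hl)) (d_mulc a hl)) p n z) =
      iterH (opH (mulc a (kl l) (kl_inv hl)) (d_mulc a hl)) p n (eP h1 hm P hP hPg a ha p z) := by
  rw [eP_apply, eP_apply, rP_iterH (hl := hl), xP_iterH (hl := hl)]

/-- nilpotency on a union of components whose stabilisers are killed by `l` -/
theorem eP_nil (hS : ∀ (x : T.obj 0), P 0 x → ∀ g : G, (ρ g).app x = x → l g = 0) {D : ℕ}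
    (hD : T.DimLE D) (p : ℕ) (z : (hG a).H p) :
    iterH (opH (mulc a (kl l) (kl_inv hl)) (d_mulc a hl)) p (D + 1) (eP h1 hm P hP hPg a ha p z) =
      0 := by
  obtain ⟨c, hc⟩ := exists_vertex (T := SS.cpt P hP) (ρ := cptAct (ρ := ρ) P hP hPg)
    (fun x => Subtype.ext (h1 x.1)) (fun g h p x => Subtype.ext (hm g h x.1)) hl
    (fun x g hx => hS x.1 x.2 g (congrArg Subtype.val hx))
  rw [eP_apply, ← xP_iterH (hl := hl), iterH_mulc_nil (actP (R := R) h1 hm P hP hPg)
    (fun _ _ _ _ => rfl) hl hc (SS.cpt_dimLE P hP hD), map_zero]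

end

/-! ### three types of stabilisers -/

section

variable {T : SS} {ρ : G → T.Map T}
  (h1 : ∀ {p : ℕ} (x : T.obj p), (ρ 1).app x = x)
  (hm : ∀ (g h : G) {p : ℕ} (x : T.obj p), (ρ (g * h)).app x = (ρ h).app ((ρ g).app x))
  (hst : ∀ (g : G) {p q : ℕ} (θ : Op p q) (x : T.obj q),
    (ρ g).app (T.map θ x) = T.map θ x → (ρ g).app x = x)

/-- the stabiliser of `x` is killed by `l` -/
def Kill (ρ : G → T.Map T) (l : G → R) {p : ℕ} (x : T.obj p) : Prop :=
  ∀ g : G, (ρ g).app x = x → l g = 0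

omit [Group G] in
include hst in
theorem kill_map (l : G → R) {p q : ℕ} (θ : Op p q) (x : T.obj q) :
    Kill ρ l (T.map θ x) ↔ Kill ρ l x := by
  constructor
  · intro h g hg
    exact h g (by rw [(ρ g).nat, hg])
  · intro h g hg
    exact h g (hst g θ x hg)

include h1 hm in
theorem kill_act {l : G → R} (hl : ∀ g s, l (g * s) = l g + l s) (g : G) {p : ℕ} (x : T.obj p) :
    Kill ρ l ((ρ g).app x) ↔ Kill ρ l x := by
  have key : ∀ (g : G) (x : T.obj p), Kill ρ l x → Kill ρ l ((ρ g).app x) := by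
    intro g x h k hk
    have := h (g * k * g⁻¹) (by rw [hm, hm, hk]; exact rho_inv h1 hm g x)
    rw [hl, hl, addf_inv hl] at this
    linear_combination this
  refine ⟨fun h => ?_, key g x⟩
  have := key g⁻¹ _ h
  rwa [rho_inv h1 hm] at this

variable (a : Act G (SS.F R T))
  (ha : ∀ (p : ℕ) (g : G) (f : (SS.F R T).obj p) (x : T.obj p), a.act p g f x = f ((ρ g).app x))
  {l1 l2 l3 : G → R} (hl1 : ∀ g s, l1 (g * s) = l1 g + l1 s)
  (hl2 : ∀ g s, l2 (g * s) = l2 g + l2 s) (hl3 : ∀ g s, l3 (g * s) = l3 g + l3 s)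

include h1 hm hst ha in
/-- **Nilpotency for three types of stabilisers.** -/
theorem nil3 (hS : ∀ x : T.obj 0, Kill ρ l1 x ∨ Kill ρ l2 x ∨ Kill ρ l3 x) {D : ℕ}
    (hD : T.DimLE D) (p : ℕ) (z : (hG a).H p) :
    iterH (opH (mulc a (kl l3) (kl_inv hl3)) (d_mulc a hl3)) (p + (D + 1) + (D + 1)) (D + 1)
      (iterH (opH (mulc a (kl l2) (kl_inv hl2)) (d_mulc a hl2)) (p + (D + 1)) (D + 1)
        (iterH (opH (mulc a (kl l1) (kl_inv hl1)) (d_mulc a hl1)) p (D + 1) z)) = 0 := by
  classical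
  -- the strata
  let P1 : ∀ p : ℕ, T.obj p → Prop := fun _ x => Kill ρ l1 x
  let P2 : ∀ p : ℕ, T.obj p → Prop := fun _ x => ¬ Kill ρ l1 x ∧ Kill ρ l2 x
  let P3 : ∀ p : ℕ, T.obj p → Prop := fun _ x => ¬ Kill ρ l1 x ∧ ¬ Kill ρ l2 x
  have hP1 : ∀ {p q : ℕ} (θ : Op p q) (x : T.obj q), P1 p (T.map θ x) ↔ P1 q x :=
    fun θ x => kill_map hst l1 θ x
  have hP2 : ∀ {p q : ℕ} (θ : Op p q) (x : T.obj q), P2 p (T.map θ x) ↔ P2 q x :=
    fun θ x => and_congr (not_congr (kill_map hst l1 θ x)) (kill_map hst l2 θ x)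
  have hP3 : ∀ {p q : ℕ} (θ : Op p q) (x : T.obj q), P3 p (T.map θ x) ↔ P3 q x :=
    fun θ x => and_congr (not_congr (kill_map hst l1 θ x)) (not_congr (kill_map hst l2 θ x))
  have hg1 : ∀ (g : G) {p : ℕ} (x : T.obj p), P1 p ((ρ g).app x) ↔ P1 p x :=
    fun g _ x => kill_act h1 hm hl1 g x
  have hg2 : ∀ (g : G) {p : ℕ} (x : T.obj p), P2 p ((ρ g).app x) ↔ P2 p x :=
    fun g _ x => and_congr (not_congr (kill_act h1 hm hl1 g x)) (kill_act h1 hm hl2 g x)
  have hg3 : ∀ (g : G) {p : ℕ} (x : T.obj p), P3 p ((ρ g).app x) ↔ P3 p x :=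
    fun g _ x => and_congr (not_congr (kill_act h1 hm hl1 g x))
      (not_congr (kill_act h1 hm hl2 g x))
  have hsum : z = eP h1 hm P1 hP1 hg1 a ha p z + eP h1 hm P2 hP2 hg2 a ha p z +
      eP h1 hm P3 hP3 hg3 a ha p z := by
    obtain ⟨z, rfl⟩ := (hG a).cls_surjective p z
    show (hG a).cls p z = (hG a).cls p _ + (hG a).cls p _ + (hG a).cls p _
    rw [← map_add, ← map_add]
    congr 1
    apply Subtype.ext
    refine hG.ext fun s => ?_
    funext x
    show (hG.fn z.1 s x : R) = SS.zx P1 (fun y => hG.fn z.1 s y.1) x +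
      SS.zx P2 (fun y => hG.fn z.1 s y.1) x + SS.zx P3 (fun y => hG.fn z.1 s y.1) x
    by_cases k1 : Kill ρ l1 x
    · rw [SS.zx_pos (P := P1) _ k1, SS.zx_neg (P := P2) _ (fun h => h.1 k1),
        SS.zx_neg (P := P3) _ (fun h => h.1 k1), add_zero, add_zero]
    · by_cases k2 : Kill ρ l2 x
      · rw [SS.zx_neg (P := P1) _ k1, SS.zx_pos (P := P2) _ ⟨k1, k2⟩,
          SS.zx_neg (P := P3) _ (fun h => h.2 k2), add_zero, zero_add]
      · rw [SS.zx_neg (P := P1) _ k1, SS.zx_neg (P := P2) _ (fun h => k2 h.2),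
          SS.zx_pos (P := P3) _ ⟨k1, k2⟩, add_zero, zero_add]
  rw [hsum]
  simp only [map_add]
  rw [eP_nil h1 hm P1 hP1 hg1 a ha hl1 (fun x hx => hx) hD, map_zero, map_zero, zero_add,
    ← eP_iterH h1 hm P2 hP2 hg2 a ha hl1,
    eP_nil h1 hm P2 hP2 hg2 a ha hl2 (fun x hx => hx.2) hD, map_zero, zero_add,
    ← eP_iterH h1 hm P3 hP3 hg3 a ha hl1, ← eP_iterH h1 hm P3 hP3 hg3 a ha hl2,
    eP_nil h1 hm P3 hP3 hg3 a ha hl3 (fun x hx => ?_) hD]
  rcases hS x with h | h | h
  · exact absurd h hx.1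
  · exact absurd h hx.2
  · exact h

end

end Vale.Agent.P263.E
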