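import Vale.Agent.P263.E.Triple
import Vale.Agent.P263.S.Htpy
import Vale.Agent.P263.S.Defs

/-!
# P263, block E/H (helper720): products and cohomology in a range

* `S.desc` : every cosimplicial module `M` with `H^0(M) = 0` embeds into a contractible one
  (`S.dcone M`), functorially enough to be applied to functions on a simplicial set;
* `E.fnS Y M` : functions on the simplicial set `Y` with values in `M` (the diagonal), and
  `E.fnS_zero` : if `H^j(M) = 0` for `j ≤ D` then `H^j(fnS Y M) = 0` for `j ≤ D`;
* `E.prod_res_bijective` : if `Z ⊇ B` induces isomorphisms on `H^j`, `j ≤ D`, then so does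
  `Z × Z ⊇ B × B` for `j < D`.
-/

namespace Vale.Agent.P263.S

variable {R : Type} [CommRing R]

/-! ### monotone maps -/

/-- constant maps with value `0` -/
def Op.cz (p q : ℕ) : Op p q := ⟨fun _ => 0, fun _ _ _ => le_rfl⟩

/-- the inclusion `i ↦ i + 1` -/
def Op.suc (p : ℕ) : Op p (p + 1) := ⟨Fin.succ, fun _ _ h => Fin.succ_le_succ_iff.2 h⟩

/-- the extension by `0 ↦ 0` -/
def Op.ex {p q : ℕ} (f : Op p q) : Op (p + 1) (q + 1) where
  toFun := Fin.cases 0 (fun i => (f i).succ)
  monotone' x y h := by
    induction x using Fin.cases with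
    | zero => exact Fin.zero_le _
    | succ x =>
      induction y using Fin.cases with
      | zero => exact absurd h (by simp)
      | succ y => exact Fin.succ_le_succ_iff.2 (f.monotone (Fin.succ_le_succ_iff.1 h))

@[simp] theorem Op.ex_zero {p q : ℕ} (f : Op p q) : Op.ex f 0 = 0 := rfl

@[simp] theorem Op.ex_succ {p q : ℕ} (f : Op p q) (i : Fin (p + 1)) :
    Op.ex f i.succ = (f i).succ := rfl

theorem Op.ex_id (p : ℕ) : Op.ex (OrderHom.id : Op p p) = OrderHom.id := by
  apply OrderHom.ext
  funext x
  induction x using Fin.cases <;> rfl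

theorem Op.ex_comp {p q r : ℕ} (f : Op q r) (g : Op p q) :
    Op.ex (f.comp g) = (Op.ex f).comp (Op.ex g) := by
  apply OrderHom.ext
  funext x
  induction x using Fin.cases <;> rfl

theorem Op.ex_suc {p q : ℕ} (f : Op p q) : (Op.ex f).comp (Op.suc p) = (Op.suc q).comp f := rfl

theorem Op.ex_cz {p q r : ℕ} (f : Op p q) : (Op.ex f).comp (Op.cz r (p + 1)) = Op.cz r (q + 1) := rfl

/-- cut off: `0 ↦ 0`, `i + 1 ↦ 0` if `θ i = 0` and `i + 1 ↦ i + 1` otherwise -/
def Op.ct {p : ℕ} (t : Op p 1) : Op (p + 1) (p + 1) where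
  toFun := Fin.cases 0 (fun i => if t i = 0 then 0 else i.succ)
  monotone' x y h := by
    induction x using Fin.cases with
    | zero => exact Fin.zero_le _
    | succ x =>
      induction y using Fin.cases with
      | zero => exact absurd h (by simp)
      | succ y =>
        have hxy := Fin.succ_le_succ_iff.1 h
        have h1 := t.monotone hxy
        show (if t x = 0 then (0 : Fin (p + 2)) else x.succ) ≤ if t y = 0 then 0 else y.succ
        split_ifs with h2 h3 h3
        · exact le_rfl
        · exact Fin.zero_le _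
        · exact absurd (Fin.le_zero_iff.1 (h3 ▸ h1)) h2
        · exact h

theorem Op.ct_succ {p : ℕ} (t : Op p 1) (i : Fin (p + 1)) :
    Op.ct t i.succ = if t i = 0 then 0 else i.succ := rfl

theorem Op.ct_c1 (p : ℕ) : Op.ct (c1 p) = OrderHom.id := by
  apply OrderHom.ext
  funext x
  induction x using Fin.cases with
  | zero => rfl
  | succ x =>
    rw [Op.ct_succ, c1_val, if_neg (by decide)]
    rfl

theorem Op.ct_c0 (p : ℕ) : Op.ct (c0 p) = Op.cz (p + 1) (p + 1) := by
  apply OrderHom.ext
  funext x
  induction x using Fin.cases with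
  | zero => rfl
  | succ x =>
    rw [Op.ct_succ, c0_val, if_pos rfl]
    rfl

theorem Op.ct_ex {p q : ℕ} (f : Op p q) (t : Op q 1) :
    (Op.ct t).comp (Op.ex f) = (Op.ex f).comp (Op.ct (t.comp f)) := by
  apply OrderHom.ext
  funext x
  induction x using Fin.cases with
  | zero => rfl
  | succ x =>
    show Op.ct t (Op.ex f x.succ) = Op.ex f (Op.ct (t.comp f) x.succ)
    rw [Op.ex_succ, Op.ct_succ, Op.ct_succ]
    show (if t (f x) = 0 then 0 else (f x).succ) = Op.ex f (if t (f x) = 0 then 0 else x.succ)
    split_ifs <;> rfl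

/-! ### the dcone -/

/-- the elements of `M^{p+1}` which vanish in `M^0` -/
def dconeS (M : CosMod R) (p : ℕ) : Submodule R (M.obj (p + 1)) :=
  LinearMap.ker (M.map (Op.cz (p + 1) 0))

theorem mem_dconeS {M : CosMod R} {p : ℕ} {x : M.obj (p + 1)} :
    x ∈ dconeS M p ↔ M.map (Op.cz (p + 1) 0) x = 0 := Iff.rfl

/-- the cone: a contractible cosimplicial module -/
def dcone (M : CosMod R) : CosMod R where
  obj p := dconeS M p
  map {p q} f := (M.map (Op.ex f)).restrict (p := dconeS M p) (q := dconeS M q) (fun x hx => by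
    rw [mem_dconeS] at hx ⊢
    rw [M.map_map]
    exact hx)
  map_id := by
    intro p
    refine LinearMap.ext fun x => Subtype.ext ?_
    show M.map (Op.ex OrderHom.id) (x : M.obj (p + 1)) = x
    rw [Op.ex_id, M.map_id_apply]
  map_comp f g := by
    refine LinearMap.ext fun x => Subtype.ext ?_
    show M.map (Op.ex (f.comp g)) (x : M.obj _) = M.map (Op.ex f) (M.map (Op.ex g) (x : M.obj _))
    rw [Op.ex_comp, M.map_map]

/-- the elements of the dcone as elements of `M` -/
def dcone.val {M : CosMod R} {p : ℕ} : (dcone M).obj p →ₗ[R] M.obj (p + 1) := Submodule.subtype _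

/-- elements of the dcone -/
def dcone.mk {M : CosMod R} {p : ℕ} (x : M.obj (p + 1)) (hx : x ∈ dconeS M p) : (dcone M).obj p :=
  ⟨x, hx⟩

theorem dcone.val_mk {M : CosMod R} {p : ℕ} (x : M.obj (p + 1)) (hx : x ∈ dconeS M p) :
    dcone.val (dcone.mk x hx) = x := rfl

theorem dcone.ext {M : CosMod R} {p : ℕ} {x y : (dcone M).obj p} (h : dcone.val x = dcone.val y) :
    x = y := Subtype.ext h

theorem dcone.val_map {M : CosMod R} {p q : ℕ} (f : Op p q) (x : (dcone M).obj p) :
    dcone.val ((dcone M).map f x) = M.map (Op.ex f) (dcone.val x) := rfl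

theorem dcone.val_mem {M : CosMod R} {p : ℕ} (x : (dcone M).obj p) : dcone.val x ∈ dconeS M p := x.2

theorem dcone_cz {M : CosMod R} {p : ℕ} (x : (dcone M).obj p) (r : ℕ) :
    M.map (Op.cz (p + 1) r) (dcone.val x) = 0 := by
  have h := congrArg (M.map (Op.cz 0 r)) (mem_dconeS.1 (dcone.val_mem x))
  rw [M.map_map, map_zero] at h
  exact h

/-- the dcone contracts -/
def dconePrism (M : CosMod R) : Prism (dcone M) (dcone M) where
  h p t := (M.map (Op.ct t)).restrict (p := dconeS M p) (q := dconeS M p) (fun x hx => by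
    rw [mem_dconeS] at hx ⊢
    rw [M.map_map]
    exact hx)
  nat {p q} f t x := by
    apply dcone.ext
    change M.map (Op.ct t) (M.map (Op.ex f) (dcone.val x)) =
      M.map (Op.ex f) (M.map (Op.ct (t.comp f)) (dcone.val x))
    rw [M.map_map, M.map_map, Op.ct_ex]

theorem dconePrism_c1 (M : CosMod R) (p : ℕ) (x : (dcone M).obj p) :
    (dconePrism M).h p (c1 p) x = x := by
  apply dcone.ext
  change M.map (Op.ct (c1 p)) (dcone.val x) = dcone.val x
  rw [Op.ct_c1, M.map_id_apply]

theorem dconePrism_c0 (M : CosMod R) (p : ℕ) (x : (dcone M).obj p) :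
    (dconePrism M).h p (c0 p) x = 0 := by
  apply dcone.ext
  change M.map (Op.ct (c0 p)) (dcone.val x) = 0
  rw [Op.ct_c0, dcone_cz]

/-- the map to the dcone -/
def toDcone (M : CosMod R) : Hom M (dcone M) where
  app p :=
    { toFun := fun x => dcone.mk (M.map (Op.suc p) x - M.map (Op.cz p (p + 1)) x) (by
        rw [mem_dconeS, map_sub, M.map_map, M.map_map]
        exact sub_self _)
      map_add' := fun x y => dcone.ext (by
        change M.map (Op.suc p) (x + y) - M.map (Op.cz p (p + 1)) (x + y) =
          (M.map (Op.suc p) x - M.map (Op.cz p (p + 1)) x) +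
            (M.map (Op.suc p) y - M.map (Op.cz p (p + 1)) y)
        rw [map_add, map_add]; abel)
      map_smul' := fun r x => dcone.ext (by
        change M.map (Op.suc p) (r • x) - M.map (Op.cz p (p + 1)) (r • x) =
          r • (M.map (Op.suc p) x - M.map (Op.cz p (p + 1)) x)
        rw [map_smul, map_smul, smul_sub]) }
  nat {p q} f x := by
    apply dcone.ext
    change M.map (Op.suc q) (M.map f x) - M.map (Op.cz q (q + 1)) (M.map f x) =
      M.map (Op.ex f) (M.map (Op.suc p) x - M.map (Op.cz p (p + 1)) x)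
    rw [map_sub, M.map_map, M.map_map, M.map_map, M.map_map, Op.ex_suc, Op.ex_cz]
    rfl

theorem toDcone_val {M : CosMod R} {p : ℕ} (x : M.obj p) :
    dcone.val ((toDcone M).app p x) = M.map (Op.suc p) x - M.map (Op.cz p (p + 1)) x := rfl

/-- the indicator of `0` -/
def Op.gt (p : ℕ) : Op (p + 1) 1 where
  toFun := Fin.cases 0 (fun _ => 1)
  monotone' x y h := by
    induction x using Fin.cases with
    | zero => exact Fin.zero_le _
    | succ x =>
      induction y using Fin.cases with
      | zero => exact absurd h (by simp)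
      | succ y => exact le_rfl

theorem d_zero_apply (M : CosMod R) (x : M.obj 0) :
    M.d 0 x = M.map (dl 0 0) x - M.map (dl 0 1) x := by
  rw [CosMod.d_apply]
  simp only [zero_add, Finset.sum_range_succ, Finset.sum_range_zero]
  simp [sn, sub_eq_add_neg]

theorem toDcone_injective {M : CosMod R} (h0 : ∀ x ∈ M.Z 0, x = 0) (p : ℕ) :
    Function.Injective ((toDcone M).app p) := by
  rw [injective_iff_map_eq_zero]
  intro x hx
  have e : M.map (Op.suc p) x = M.map (Op.cz p (p + 1)) x :=
    sub_eq_zero.1 (congrArg dcone.val hx)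
  have hm : M.map (Op.cz p 0) x = 0 := by
    apply h0
    rw [CosMod.mem_Z, d_zero_apply, M.map_map, M.map_map]
    have e2 := congrArg (M.map (Op.gt p)) e
    rw [M.map_map, M.map_map] at e2
    have e3 : (Op.gt p).comp (Op.suc p) = (dl 0 0).comp (Op.cz p 0) := by
      apply OrderHom.ext; funext x; rfl
    have e4 : (Op.gt p).comp (Op.cz p (p + 1)) = (dl 0 1).comp (Op.cz p 0) := by
      apply OrderHom.ext; funext x; rfl
    rw [e3, e4] at e2
    rw [e2, sub_self]
  have h1 : M.map (Op.cz p (p + 1)) x = 0 := by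
    have := congrArg (M.map (Op.cz 0 (p + 1))) hm
    rw [M.map_map, map_zero] at this
    exact this
  rw [h1] at e
  have h2 := congrArg (M.map (sg p 0)) e
  rw [M.map_map, map_zero] at h2
  have h3 : (sg p 0).comp (Op.suc p) = OrderHom.id := by
    apply OrderHom.ext
    funext y
    apply Fin.ext
    show (sg p 0 y.succ).1 = y.1
    rw [sg_val]
    simp
  rw [h3, M.map_id_apply] at h2
  exact h2

theorem toDcone_range (M : CosMod R) {p q : ℕ} (f : Op p q) (x : (dcone M).obj p)
    (hx : x ∈ LinearMap.range ((toDcone M).app p)) :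
    (dcone M).map f x ∈ LinearMap.range ((toDcone M).app q) := by
  obtain ⟨x, rfl⟩ := hx
  exact ⟨M.map f x, (toDcone M).nat f x⟩

/-- the quotient of the dcone -/
def dconeQ (M : CosMod R) : CosMod R :=
  quot (dcone M) (fun p => LinearMap.range ((toDcone M).app p)) (toDcone_range M)

/-- `0 → M → dcone M → dcone M / M → 0` -/
def dconeSES {M : CosMod R} (h0 : ∀ x ∈ M.Z 0, x = 0) : SES M (dcone M) (dconeQ M) where
  i := toDcone M
  p := quotHom _ _ (toDcone_range M)
  inj := toDcone_injective h0
  surj _ := Submodule.mkQ_surjective _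
  pi p x := (Submodule.Quotient.mk_eq_zero _).2 ⟨x, rfl⟩
  ex p x hx := (Submodule.Quotient.mk_eq_zero _).1 hx

end Vale.Agent.P263.S

namespace Vale.Agent.P263.E

open Vale.Agent.P263.S

variable {R : Type} [CommRing R]

/-! ### functions on a simplicial set with values in a cosimplicial module -/

/-- functions on `Y` with values in `M` -/
def fnS (Y : SS) (M : CosMod R) : CosMod R where
  obj p := Y.obj p → M.obj p
  map f :=
    { toFun := fun F y => M.map f (F (Y.map f y))
      map_add' := fun F G => by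
        funext y
        show M.map f (F _ + G _) = _
        rw [map_add]; rfl
      map_smul' := fun r F => by
        funext y
        show M.map f (r • F _) = _
        rw [map_smul]; rfl }
  map_id := by
    intro p
    refine LinearMap.ext fun F => ?_
    funext y
    show M.map OrderHom.id (F (Y.map OrderHom.id y)) = F y
    rw [Y.map_id, M.map_id_apply]
  map_comp f g := by
    refine LinearMap.ext fun F => ?_
    funext y
    show M.map (f.comp g) (F (Y.map (f.comp g) y)) = M.map f (M.map g (F (Y.map g (Y.map f y))))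
    rw [Y.map_comp, M.map_map]

theorem fnS_map {Y : SS} {M : CosMod R} {p q : ℕ} (f : Op p q) (F : (fnS Y M).obj p)
    (y : Y.obj q) : (fnS Y M).map f F y = M.map f (F (Y.map f y)) := rfl

/-- functoriality in the values -/
def fnS.mapHom (Y : SS) {M N : CosMod R} (φ : Hom M N) : Hom (fnS Y M) (fnS Y N) where
  app p :=
    { toFun := fun F y => φ.app p (F y)
      map_add' := fun F G => by funext y; exact map_add _ _ _
      map_smul' := fun r F => by funext y; exact map_smul _ _ _ }
  nat f F := by funext y; exact φ.nat f _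

/-- exactness -/
def fnS.ses (Y : SS) {A B C : CosMod R} (S : SES A B C) : SES (fnS Y A) (fnS Y B) (fnS Y C) where
  i := fnS.mapHom Y S.i
  p := fnS.mapHom Y S.p
  inj p F G h := funext fun y => S.inj p (congrFun h y)
  surj p F := ⟨fun y => (S.surj p (F y)).choose, funext fun y => (S.surj p (F y)).choose_spec⟩
  pi p F := funext fun y => S.pi p (F y)
  ex p F hF := ⟨fun y => (S.ex p (F y) (congrFun hF y)).choose,
    funext fun y => (S.ex p (F y) (congrFun hF y)).choose_spec⟩

/-- functoriality of prisms -/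
def fnS.prism (Y : SS) {A B : CosMod R} (P : Prism A B) : Prism (fnS Y A) (fnS Y B) where
  h p t :=
    { toFun := fun F y => P.h p t (F y)
      map_add' := fun F G => by funext y; exact map_add _ _ _
      map_smul' := fun r F => by funext y; exact map_smul _ _ _ }
  nat f t F := by funext y; exact P.nat f t _

theorem fnS_zero_zero (Y : SS) {M : CosMod R} (h : ∀ x ∈ M.Z 0, x = 0) :
    ∀ F ∈ (fnS Y M).Z 0, F = 0 := by
  intro F hF
  funext y
  apply h
  rw [CosMod.mem_Z, d_zero_apply] at hF ⊢
  have h1 := congrFun hF (Y.map (Op.cz 1 0) y)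
  change M.map (dl 0 0) (F (Y.map (dl 0 0) (Y.map (Op.cz 1 0) y))) -
    M.map (dl 0 1) (F (Y.map (dl 0 1) (Y.map (Op.cz 1 0) y))) = 0 at h1
  have e : ∀ (f : Op 0 1), Y.map f (Y.map (Op.cz 1 0) y) = y := by
    intro f
    rw [← Y.map_comp]
    have : (Op.cz 1 0).comp f = OrderHom.id := by
      apply OrderHom.ext; funext x
      exact Subsingleton.elim (α := Fin 1) _ _
    rw [this, Y.map_id]
  rw [e, e] at h1
  exact h1

/-- **vanishing in a range passes to functions on a simplicial set** -/
theorem fnS_zero (Y : SS) (D : ℕ) : ∀ (M : CosMod R), (∀ j, j ≤ D → ∀ x : M.H j, x = 0) →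
    ∀ j, j ≤ D → ∀ x : (fnS Y M).H j, x = 0 := by
  induction D with
  | zero =>
    intro M hM j hj
    obtain rfl : j = 0 := by omega
    have h0 : ∀ x ∈ M.Z 0, x = 0 := CosMod.H_eq_zero_iff.1 (hM 0 le_rfl)
    exact CosMod.H_eq_zero_iff.2 fun F hF => CosMod.mem_Bd_zero.2 (fnS_zero_zero Y h0 F hF)
  | succ D ih =>
    intro M hM
    have h0 : ∀ x ∈ M.Z 0, x = 0 := CosMod.H_eq_zero_iff.1 (hM 0 (Nat.zero_le _))
    have hC : ∀ j, ∀ x : (dcone M).H j, x = 0 := fun j => CosMod.H_eq_zero_iff.2
      (CosMod.Z_le_Bd_of_prism (dconePrism M) (dconePrism_c1 M) (dconePrism_c0 M) j)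
    have hC' : ∀ j, ∀ x : (fnS Y (dcone M)).H j, x = 0 := fun j => CosMod.H_eq_zero_iff.2
      (CosMod.Z_le_Bd_of_prism (fnS.prism Y (dconePrism M))
        (fun p F => funext fun y => dconePrism_c1 M p (F y))
        (fun p F => funext fun y => dconePrism_c0 M p (F y)) j)
    have hQ : ∀ j, j ≤ D → ∀ x : (dconeQ M).H j, x = 0 := by
      intro j hj x
      obtain ⟨y, rfl⟩ := ((dconeSES h0).exact_C j x).1 (hM (j + 1) (by omega) _)
      rw [hC j y, map_zero]
    have hQ' := ih (dconeQ M) hQ
    intro j hj
    cases j with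
    | zero => exact CosMod.H_eq_zero_iff.2 fun F hF => CosMod.mem_Bd_zero.2 (fnS_zero_zero Y h0 F hF)
    | succ j =>
      intro x
      obtain ⟨y, rfl⟩ := ((fnS.ses Y (dconeSES h0)).exact_A j x).1 (hC' (j + 1) _)
      rw [hQ' j (by omega) y, map_zero]

end Vale.Agent.P263.E
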