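import Vale.Agent.P263.E.ProdIso
import Vale.Agent.P263.E.Cofree

/-!
# P263, block E/H (helper720): products and cohomology in a range

* `SS.times_mapH_injective`, `SS.times_mapH_surjective` : if `c : B → Z` induces isomorphisms on
  `H^j` for `j ≤ D`, then `c × id : B × Y → Z × Y` is injective on `H^j` for `j ≤ D` and onto for
  `j < D`; `SS.square_mapH_surjective` : so is `c × c : B × B → Z × Z`, `j < D`;
* `fnS_inj` : if `H^j(M) = 0` for `j < d` and `Y` is connected then `H^d(fnS Y M) → H^d(M)` is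
  injective;
* `SphLike.axes` : on `A × A`, `A` a cohomology `d`-sphere, `Δ^* = i₁^* + i₂^*` on `H^d`.
-/

namespace Vale.Agent.P263.E

open Vale.Agent.P263.S

variable {R : Type} [CommRing R]

namespace SS

/-- the product of two maps -/
def times {X Y X' Y' : SS} (f : Map X X') (g : Map Y Y') : Map (X.prod Y) (X'.prod Y') :=
  ⟨fun x => (f.app x.1, g.app x.2), fun a x => Prod.ext (f.nat a x.1) (g.nat a x.2)⟩

theorem mapH_pull_comp {X Y W : SS} (g : Map Y W) (f : Map X Y) (p : ℕ) (x : (F R W).H p) :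
    ((g.comp f).pull (R := R)).mapH p x = (f.pull (R := R)).mapH p ((g.pull (R := R)).mapH p x) := by
  rw [← Hom.mapH_comp]
  rfl

/-- the exchange of the factors -/
def swp (X Y : SS) : Map (X.prod Y) (Y.prod X) := ⟨fun x => (x.2, x.1), fun _ _ => rfl⟩

theorem swp_mapH_bijective (X Y : SS) (p : ℕ) :
    Function.Bijective (((swp X Y).pull (R := R)).mapH p) :=
  Hom.mapH_bijective_of_inverse _ ((swp Y X).pull (R := R)) (fun _ _ => rfl) (fun _ _ => rfl) p

/-- relative functions on a product -/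
def relToFn {B Z : SS} (b : Map B Z) (Y : SS) :
    Hom (relCos R (times b (Map.id Y))) (fnS Y (relCos R b)) where
  app p :=
    { toFun := fun f y => ⟨fun z => f.1 (z, y), funext fun x => congrFun f.2 (x, y)⟩
      map_add' := fun _ _ => rfl
      map_smul' := fun _ _ => rfl }
  nat _ _ := rfl

theorem relToFn_bijective {B Z : SS} (b : Map B Z) (Y : SS) (p : ℕ) :
    Function.Bijective ((relToFn (R := R) b Y).app p) := by
  constructor
  · intro f g h
    apply Subtype.ext
    funext x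
    exact congrArg (fun u : (relCos R b).obj p => u.1 x.1) (congrFun h x.2)
  · intro F
    exact ⟨⟨fun x => (F x.2).1 x.1, funext fun x => congrFun (F x.2).2 x.1⟩, rfl⟩

theorem rel_times_zero {B Z : SS} (b : Map B Z) (Y : SS) {D : ℕ}
    (h : ∀ j, j ≤ D → ∀ x : (relCos R b).H j, x = 0) (j : ℕ) (hj : j ≤ D)
    (x : (relCos R (times b (Map.id Y))).H j) : x = 0 := by
  apply ((relToFn (R := R) b Y).mapH_bijective (relToFn_bijective b Y) j).1
  rw [map_zero]
  exact fnS_zero Y D _ h j hj _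

theorem times_inj {B Z : SS} {b : Map B Z} (hb : b.Inj) (Y : SS) : (times b (Map.id Y)).Inj := by
  rintro p ⟨x1, x2⟩ ⟨y1, y2⟩ h
  have h1 : b.app x1 = b.app y1 := congrArg Prod.fst h
  have h2 : x2 = y2 := congrArg Prod.snd h
  rw [hb p h1, h2]

theorem times_inj_mapH_injective {B Z : SS} {b : Map B Z} (hb : b.Inj) (Y : SS) {D : ℕ}
    (h : ∀ j, j ≤ D → Function.Bijective ((b.pull (R := R)).mapH j)) {j : ℕ} (hj : j ≤ D) :
    Function.Injective (((times b (Map.id Y)).pull (R := R)).mapH j) := by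
  rw [injective_iff_map_eq_zero]
  intro x hx
  obtain ⟨y, rfl⟩ := ((relSES R _ (times_inj hb Y)).exact_B j x).1 hx
  rw [rel_times_zero b Y (fun j hj x => rel_zero hb h j hj x) j hj y, map_zero]

theorem times_inj_mapH_surjective {B Z : SS} {b : Map B Z} (hb : b.Inj) (Y : SS) {D : ℕ}
    (h : ∀ j, j ≤ D → Function.Bijective ((b.pull (R := R)).mapH j)) {j : ℕ} (hj : j < D) :
    Function.Surjective (((times b (Map.id Y)).pull (R := R)).mapH j) := by
  intro x
  exact ((relSES R _ (times_inj hb Y)).exact_C j x).1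
    (rel_times_zero b Y (fun j hj x => rel_zero hb h j hj x) (j + 1) (by omega) _)

/-! ### homotopies and products -/

/-- the product of a homotopy with an identity -/
def Htp.times {Y X : SS} (K : Htp Y X) (W : SS) : Htp (Y.prod W) (X.prod W) where
  h p χ x := (K.h p χ x.1, x.2)
  nat f χ x := Prod.ext (K.nat f χ x.1) rfl

theorem fst_times_mapH_bijective {X : SS} (Q : SS) (b : ∀ n, X.obj n) (Y : SS) (p : ℕ) :
    Function.Bijective (((times (fst Q (cofree X)) (Map.id Y)).pull (R := R)).mapH p) := by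
  have h0 : ((secHtp Q b).times Y).e0 =
      (times (sec Q b) (Map.id Y)).comp (times (fst Q (cofree X)) (Map.id Y)) := by
    apply Map.ext
    intro p x
    exact Prod.ext (congrArg (fun f : Map (Q.prod (cofree X)) (Q.prod (cofree X)) => f.app x.1)
      (secHtp_e0 Q b)) rfl
  have h1 : ((secHtp Q b).times Y).e1 = Map.id _ := by
    apply Map.ext
    intro p x
    exact Prod.ext (congrArg (fun f : Map (Q.prod (cofree X)) (Q.prod (cofree X)) => f.app x.1)
      (secHtp_e1 Q b)) rfl
  constructor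
  · intro x y h
    have e := congrArg (((times (sec Q b) (Map.id Y)).pull (R := R)).mapH p) h
    rwa [← Hom.mapH_comp, ← Hom.mapH_comp, ← Map.pull_comp,
      show (times (fst Q (cofree X)) (Map.id Y)).comp (times (sec Q b) (Map.id Y)) = Map.id _ from rfl,
      Map.pull_id, Hom.mapH_id, Hom.mapH_id] at e
  · intro x
    refine ⟨((times (sec Q b) (Map.id Y)).pull (R := R)).mapH p x, ?_⟩
    rw [← Hom.mapH_comp, ← Map.pull_comp, ← h0, ← Htp.mapH_eq, h1, Map.pull_id, Hom.mapH_id]

section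

variable {B Z : SS} {c : Map B Z} (v : B.obj 0) {D : ℕ}
  (h : ∀ j, j ≤ D → Function.Bijective ((c.pull (R := R)).mapH j))

include v h

theorem thick_mapH_bijective (j : ℕ) (hj : j ≤ D) :
    Function.Bijective (((thick c).pull (R := R)).mapH j) := by
  have h1 := mapH_fst_bijective (R := R) Z (cst B v) j
  have h2 : ∀ x, ((thick c).pull (R := R)).mapH j
      (((fst Z (cofree B)).pull (R := R)).mapH j x) = (c.pull (R := R)).mapH j x := by
    intro x
    rw [← Hom.mapH_comp, ← Map.pull_comp, fst_thick]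
  constructor
  · intro x y e
    obtain ⟨x, rfl⟩ := h1.2 x
    obtain ⟨y, rfl⟩ := h1.2 y
    rw [h2, h2] at e
    rw [(h j hj).1 e]
  · intro y
    obtain ⟨x, rfl⟩ := (h j hj).2 y
    exact ⟨_, h2 x⟩

theorem times_mapH_injective (Y : SS) {j : ℕ} (hj : j ≤ D) :
    Function.Injective (((times c (Map.id Y)).pull (R := R)).mapH j) := by
  have e : (times c (Map.id Y)) =
    (times (fst Z (cofree B)) (Map.id Y)).comp (times (thick c) (Map.id Y)) := rfl
  intro x y hxy
  rw [e, Map.pull_comp, Hom.mapH_comp, Hom.mapH_comp] at hxy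
  exact (fst_times_mapH_bijective Z (cst B v) Y j).1
    (times_inj_mapH_injective (thick_inj c) Y (thick_mapH_bijective v h) hj hxy)

theorem times_mapH_surjective (Y : SS) {j : ℕ} (hj : j < D) :
    Function.Surjective (((times c (Map.id Y)).pull (R := R)).mapH j) := by
  have e : (times c (Map.id Y)) =
    (times (fst Z (cofree B)) (Map.id Y)).comp (times (thick c) (Map.id Y)) := rfl
  intro y
  obtain ⟨x, rfl⟩ := times_inj_mapH_surjective (thick_inj c) Y (thick_mapH_bijective v h) hj y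
  obtain ⟨x, rfl⟩ := (fst_times_mapH_bijective (R := R) Z (cst B v) Y j).2 x
  exact ⟨x, by rw [e, Map.pull_comp, Hom.mapH_comp]⟩

/-- **`c × c` is onto in cohomology in the range** -/
theorem square_mapH_surjective {j : ℕ} (hj : j < D) :
    Function.Surjective (((times c c).pull (R := R)).mapH j) := by
  have e : times c c = (times c (Map.id Z)).comp
      ((swp Z B).comp ((times c (Map.id B)).comp (swp B B))) := rfl
  intro y
  obtain ⟨x, rfl⟩ := (swp_mapH_bijective (R := R) B B j).2 y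
  obtain ⟨x, rfl⟩ := times_mapH_surjective v h B hj x
  obtain ⟨x, rfl⟩ := (swp_mapH_bijective (R := R) Z B j).2 x
  obtain ⟨x, rfl⟩ := times_mapH_surjective v h Z hj x
  exact ⟨x, by rw [e, Map.pull_comp, Map.pull_comp, Map.pull_comp, Hom.mapH_comp, Hom.mapH_comp,
    Hom.mapH_comp]⟩

end

end SS

/-! ### the lowest degree -/

/-- `Y` is connected -/
def Conn0 (Y : SS) : Prop :=
  ∀ S : Y.obj 0 → Prop, (∀ e : Y.obj 1, S (Y.map (dl 0 0) e) ↔ S (Y.map (dl 0 1) e)) →
    ∀ x y, S x → S y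

theorem cst_map {Y : SS} (v : Y.obj 0) {p q : ℕ} (f : Op p q) :
    Y.map f (SS.cst Y v q) = SS.cst Y v p := by
  rw [SS.cst, ← Y.map_comp]
  rfl

/-- evaluation at a vertex -/
def fnS.ev {Y : SS} (v : Y.obj 0) (M : CosMod R) : Hom (fnS Y M) M where
  app p := LinearMap.proj (SS.cst Y v p)
  nat {p q} f F := by
    show M.map f (F (Y.map f (SS.cst Y v q))) = M.map f (F (SS.cst Y v p))
    rw [cst_map]

theorem cst_zero {Y : SS} (v : Y.obj 0) : SS.cst Y v 0 = v := by
  rw [SS.cst]
  have : (⟨fun _ => 0, fun _ _ _ => le_rfl⟩ : Op 0 0) = OrderHom.id := by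
    apply OrderHom.ext; funext x
    exact Subsingleton.elim (α := Fin 1) _ _
  exact (congrArg (fun f => Y.map f v) this).trans (Y.map_id v)

theorem dl_inj {M : CosMod R} {x y : M.obj 0} (h : M.map (dl 0 1) x = M.map (dl 0 1) y) :
    x = y := by
  have h2 := congrArg (M.map (Op.cz 1 0)) h
  have e : (Op.cz 1 0).comp (dl 0 1) = OrderHom.id := by
    apply OrderHom.ext; funext x
    exact Subsingleton.elim (α := Fin 1) _ _
  rwa [M.map_map, M.map_map, e, M.map_id_apply, M.map_id_apply] at h2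

theorem fnS_ev_zero {Y : SS} (v : Y.obj 0) (hY : Conn0 Y) {M : CosMod R}
    {F : (fnS Y M).obj 0} (hF : F ∈ (fnS Y M).Z 0) (h0 : F v = 0) : F = 0 := by
  have hM : ∀ y, F y ∈ M.Z 0 := by
    intro y
    rw [CosMod.mem_Z, d_zero_apply] at hF ⊢
    have h1 := congrFun hF (Y.map (Op.cz 1 0) y)
    change M.map (dl 0 0) (F (Y.map (dl 0 0) (Y.map (Op.cz 1 0) y))) -
      M.map (dl 0 1) (F (Y.map (dl 0 1) (Y.map (Op.cz 1 0) y))) = 0 at h1
    have e : ∀ (f : Op 0 1), Y.map f (Y.map (Op.cz 1 0) y) = y := by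
      intro f
      rw [← Y.map_comp]
      have : (Op.cz 1 0).comp f = OrderHom.id := by
        apply OrderHom.ext; funext x
        exact Subsingleton.elim (α := Fin 1) _ _
      rw [this, Y.map_id]
    rw [e, e] at h1
    exact h1
  have key : ∀ e : Y.obj 1, F (Y.map (dl 0 0) e) = F (Y.map (dl 0 1) e) := by
    intro e
    apply dl_inj
    rw [CosMod.mem_Z, d_zero_apply] at hF
    have h1 := congrFun hF e
    change M.map (dl 0 0) (F (Y.map (dl 0 0) e)) - M.map (dl 0 1) (F (Y.map (dl 0 1) e)) = 0 at h1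
    have h2 := hM (Y.map (dl 0 0) e)
    rw [CosMod.mem_Z, d_zero_apply, sub_eq_zero] at h2
    rw [← h2, sub_eq_zero.1 h1]
  funext y
  exact hY (fun y => F y = 0) (fun e => by rw [key]) v y h0

/-- **evaluation at a vertex is injective in the lowest degree** -/
theorem fnS_inj {Y : SS} (v : Y.obj 0) (hY : Conn0 Y) (d : ℕ) : ∀ (M : CosMod R),
    (∀ j, j < d → ∀ x : M.H j, x = 0) → ∀ x : (fnS Y M).H d, (fnS.ev v M).mapH d x = 0 → x = 0 := by
  induction d with
  | zero =>
    intro M _ x hx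
    induction x using CosMod.H_ind with
    | h F =>
      rw [Hom.mapH_cls, CosMod.cls_eq_zero_iff, CosMod.mem_Bd_zero] at hx
      rw [CosMod.cls_eq_zero_iff, CosMod.mem_Bd_zero]
      refine fnS_ev_zero v hY F.2 ?_
      have h1 : (F : (fnS Y M).obj 0) (SS.cst Y v 0) = 0 := hx
      rwa [cst_zero] at h1
  | succ d ih =>
    intro M hM x hx
    have h0 : ∀ x ∈ M.Z 0, x = 0 := CosMod.H_eq_zero_iff.1 (hM 0 (Nat.succ_pos _))
    have hC : ∀ j, ∀ x : (dcone M).H j, x = 0 := fun j => CosMod.H_eq_zero_iff.2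
      (CosMod.Z_le_Bd_of_prism (dconePrism M) (dconePrism_c1 M) (dconePrism_c0 M) j)
    have hC' : ∀ j, ∀ x : (fnS Y (dcone M)).H j, x = 0 := fun j => CosMod.H_eq_zero_iff.2
      (CosMod.Z_le_Bd_of_prism (fnS.prism Y (dconePrism M))
        (fun p F => funext fun y => dconePrism_c1 M p (F y))
        (fun p F => funext fun y => dconePrism_c0 M p (F y)) j)
    have hQ : ∀ j, j < d → ∀ x : (dconeQ M).H j, x = 0 := by
      intro j hj x
      obtain ⟨y, rfl⟩ := ((dconeSES h0).exact_C j x).1 (hM (j + 1) (by omega) _)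
      rw [hC j y, map_zero]
    obtain ⟨y, rfl⟩ := ((fnS.ses Y (dconeSES h0)).exact_A d x).1 (hC' (d + 1) _)
    have h1 : (fnS.ev v M).mapH (d + 1) ((fnS.ses Y (dconeSES h0)).conn d y) =
        (dconeSES h0).conn d ((fnS.ev v (dconeQ M)).mapH d y) :=
      SES.conn_nat _ (dconeSES h0) (fnS.ev v M) (fnS.ev v (dcone M)) (fnS.ev v (dconeQ M))
        (fun _ _ => rfl) (fun _ _ => rfl) d y
    rw [h1] at hx
    obtain ⟨z, hz⟩ := ((dconeSES h0).exact_C d _).1 hx
    have h2 : (fnS.ev v (dconeQ M)).mapH d y = 0 := by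
      rw [← hz, hC d z, map_zero]
    rw [ih (dconeQ M) hQ y h2, map_zero]

/-! ### the square of a sphere -/

/-- functions on a product as functions with values in functions -/
def toFnF (X Y : SS) : Hom (SS.F R (X.prod Y)) (fnS Y (SS.F R X)) where
  app p :=
    { toFun := fun f y x => f (x, y)
      map_add' := fun _ _ => rfl
      map_smul' := fun _ _ => rfl }
  nat _ _ := rfl

theorem toFnF_bijective (X Y : SS) (p : ℕ) : Function.Bijective ((toFnF (R := R) X Y).app p) :=
  ⟨fun _ _ h => funext fun x => congrFun (congrFun h x.2) x.1, fun F => ⟨fun x => F x.2 x.1, rfl⟩⟩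

/-- the constant map to a vertex -/
def SS.cstMap (X : SS) {Y : SS} (v : Y.obj 0) : SS.Map X Y where
  app {p} _ := SS.cst Y v p
  nat f _ := (cst_map v f).symm

theorem cstMap_mapH {X Y : SS} (v : Y.obj 0) {d : ℕ} (hd : 0 < d) (x : (SS.F R Y).H d) :
    ((SS.cstMap X v).pull (R := R)).mapH d x = 0 := by
  have e : SS.cstMap X v = (SS.cstMap SS.pt v).comp (SS.toPt X) := rfl
  rw [e, SS.Map.pull_comp, Hom.mapH_comp]
  have h : ∀ x : (SS.F R SS.pt).H d, x = 0 := by
    let φ : Hom (SS.F R SS.pt) (Vale.Agent.P263.E.cst R) :=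
      { app := fun p => LinearMap.proj (R := R) (φ := fun _ : Unit => R) ()
        nat := fun _ _ => rfl }
    intro x
    apply (φ.mapH_bijective (fun p => ⟨fun f g h => funext fun _ => h, fun r => ⟨fun _ => r, rfl⟩⟩)
      d).1
    rw [map_zero]
    exact cst_H d hd _
  exact (congrArg _ (h _)).trans (map_zero _)

namespace SphLike

variable {A : SS} {d : ℕ} (h : SphLike R A d)

include h

theorem conn0 [Nontrivial R] : Conn0 A := by
  classical
  intro S hS x y hx
  let f : (SS.F R A).obj 0 := fun z => if S z then (1 : R) else 0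
  have hf : f ∈ (SS.F R A).Z 0 := by
    rw [CosMod.mem_Z, d_zero_apply]
    funext e
    show (if S (A.map (dl 0 0) e) then (1 : R) else 0) -
      (if S (A.map (dl 0 1) e) then (1 : R) else 0) = 0
    simp only [hS e, sub_self]
  have h1 := h.zero _ hf x y
  change (if S x then (1 : R) else 0) = if S y then (1 : R) else 0 at h1
  rw [if_pos hx] at h1
  by_contra hy
  rw [if_neg hy] at h1
  exact one_ne_zero h1

/-- a class on `A × A` which vanishes on both axes vanishes -/
theorem eq_zero_of_axes [Nontrivial R] (v : A.obj 0) (y : (SS.F R (A.prod A)).H d)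
    (h1 : ((SS.pair (SS.Map.id A) (SS.cstMap A v)).pull (R := R)).mapH d y = 0)
    (h2 : ((SS.pair (SS.cstMap A v) (SS.Map.id A)).pull (R := R)).mapH d y = 0) : y = 0 := by
  have e1 : (fnS.mapHom A (toFQ R A)).mapH d ((toFnF A A).mapH d y) = 0 := by
    apply fnS_inj v h.conn0 d (FQ R A) (fun j hj x => h.Q0 hj x)
    rw [← Hom.mapH_comp, ← Hom.mapH_comp]
    have e : ((fnS.ev v (FQ R A)).comp (fnS.mapHom A (toFQ R A))).comp (toFnF A A) =
      (toFQ R A).comp ((SS.pair (SS.Map.id A) (SS.cstMap A v)).pull (R := R)) := rfl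
    rw [e, Hom.mapH_comp, h1, map_zero]
  obtain ⟨z, hz⟩ := ((fnS.ses A (cstSES R A h.ne)).exact_B d _).1 e1
  let ψ : Hom (fnS A (Vale.Agent.P263.E.cst R)) (SS.F R A) :=
    { app := fun p => LinearMap.id (R := R) (M := A.obj p → R)
      nat := fun _ _ => rfl }
  have e3 : y = ((SS.snd A A).pull (R := R)).mapH d (ψ.mapH d z) := by
    apply ((toFnF (R := R) A A).mapH_bijective (toFnF_bijective A A) d).1
    rw [← hz, ← Hom.mapH_comp, ← Hom.mapH_comp]
    rfl
  have e4 : ((SS.pair (SS.cstMap A v) (SS.Map.id A)).pull (R := R)).mapH d y = ψ.mapH d z := by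
    rw [e3, ← Hom.mapH_comp, ← SS.Map.pull_comp]
    exact Hom.mapH_id _ _
  rw [e3, ← e4, h2, map_zero]

/-- **on the square of a sphere the diagonal is the sum of the axes** -/
theorem axes [Nontrivial R] (v : A.obj 0) (y : (SS.F R (A.prod A)).H d) :
    ((SS.pair (SS.Map.id A) (SS.Map.id A)).pull (R := R)).mapH d y =
      ((SS.pair (SS.Map.id A) (SS.cstMap A v)).pull (R := R)).mapH d y +
        ((SS.pair (SS.cstMap A v) (SS.Map.id A)).pull (R := R)).mapH d y := by
  generalize hy1 : ((SS.pair (SS.Map.id A) (SS.cstMap A v)).pull (R := R)).mapH d y = y1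
  generalize hy2 : ((SS.pair (SS.cstMap A v) (SS.Map.id A)).pull (R := R)).mapH d y = y2
  have p1 : ((SS.pair (SS.Map.id A) (SS.cstMap A v)).pull (R := R)).mapH d
      (((SS.fst A A).pull (R := R)).mapH d y1) = y1 := by
    rw [← SS.mapH_pull_comp]
    exact Hom.mapH_id _ _
  have p2 : ((SS.pair (SS.Map.id A) (SS.cstMap A v)).pull (R := R)).mapH d
      (((SS.snd A A).pull (R := R)).mapH d y2) = 0 := by
    rw [← SS.mapH_pull_comp]
    exact cstMap_mapH v h.dpos y2
  have p3 : ((SS.pair (SS.cstMap A v) (SS.Map.id A)).pull (R := R)).mapH d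
      (((SS.fst A A).pull (R := R)).mapH d y1) = 0 := by
    rw [← SS.mapH_pull_comp]
    exact cstMap_mapH v h.dpos y1
  have p4 : ((SS.pair (SS.cstMap A v) (SS.Map.id A)).pull (R := R)).mapH d
      (((SS.snd A A).pull (R := R)).mapH d y2) = y2 := by
    rw [← SS.mapH_pull_comp]
    exact Hom.mapH_id _ _
  have p5 : ((SS.pair (SS.Map.id A) (SS.Map.id A)).pull (R := R)).mapH d
      (((SS.fst A A).pull (R := R)).mapH d y1) = y1 := by
    rw [← SS.mapH_pull_comp]
    exact Hom.mapH_id _ _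
  have p6 : ((SS.pair (SS.Map.id A) (SS.Map.id A)).pull (R := R)).mapH d
      (((SS.snd A A).pull (R := R)).mapH d y2) = y2 := by
    rw [← SS.mapH_pull_comp]
    exact Hom.mapH_id _ _
  have key : y - (((SS.fst A A).pull (R := R)).mapH d y1 +
      ((SS.snd A A).pull (R := R)).mapH d y2) = 0 := by
    apply h.eq_zero_of_axes v
    · rw [map_sub, map_add, p1, p2, hy1, add_zero, sub_self]
    · rw [map_sub, map_add, p3, p4, hy2, zero_add, sub_self]
  have h3 : y = ((SS.fst A A).pull (R := R)).mapH d y1 +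
      ((SS.snd A A).pull (R := R)).mapH d y2 := sub_eq_zero.1 key
  rw [h3, map_add, p5, p6]

end SphLike

/-! ### change of the base point -/

/-- the homotopy of the axes along an edge -/
def SS.edgeHtp (X : SS) {Y : SS} (e : Y.obj 1) : SS.Htp X (X.prod Y) where
  h p χ x := (x, Y.map χ e)
  nat f χ x := Prod.ext rfl (Y.map_comp χ f e)

/-- the homotopy of the other axes along an edge -/
def SS.edgeHtp' (X : SS) {Y : SS} (e : Y.obj 1) : SS.Htp X (Y.prod X) where
  h p χ x := (Y.map χ e, x)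
  nat f χ x := Prod.ext (Y.map_comp χ f e) rfl

theorem map_c0 {Y : SS} (e : Y.obj 1) (p : ℕ) :
    Y.map (c0 p) e = SS.cst Y (Y.map (dl 0 1) e) p := by
  rw [SS.cst, ← Y.map_comp]
  have h : c0 p = (dl 0 1).comp (⟨fun _ => 0, fun _ _ _ => le_rfl⟩ : Op p 0) := by
    apply OrderHom.ext
    funext x
    rw [c0_val]
    rfl
  rw [h]

theorem map_c1 {Y : SS} (e : Y.obj 1) (p : ℕ) :
    Y.map (c1 p) e = SS.cst Y (Y.map (dl 0 0) e) p := by
  rw [SS.cst, ← Y.map_comp]
  have h : c1 p = (dl 0 0).comp (⟨fun _ => 0, fun _ _ _ => le_rfl⟩ : Op p 0) := by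
    apply OrderHom.ext
    funext x
    rw [c1_val]
    rfl
  rw [h]

/-- the class of an axis does not depend on the base point -/
theorem axis_eq {X Y : SS} (hY : Conn0 Y) (v w : Y.obj 0) {d : ℕ}
    (y : (SS.F R (X.prod Y)).H d) :
    ((SS.pair (SS.Map.id X) (SS.cstMap X v)).pull (R := R)).mapH d y =
      ((SS.pair (SS.Map.id X) (SS.cstMap X w)).pull (R := R)).mapH d y := by
  refine hY (fun u => ((SS.pair (SS.Map.id X) (SS.cstMap X v)).pull (R := R)).mapH d y =
      ((SS.pair (SS.Map.id X) (SS.cstMap X u)).pull (R := R)).mapH d y) ?_ v w rfl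
  intro e
  have h0 : (SS.edgeHtp X e).e0 = SS.pair (SS.Map.id X) (SS.cstMap X (Y.map (dl 0 1) e)) :=
    SS.Map.ext fun p x => Prod.ext rfl (map_c0 e p)
  have h1 : (SS.edgeHtp X e).e1 = SS.pair (SS.Map.id X) (SS.cstMap X (Y.map (dl 0 0) e)) :=
    SS.Map.ext fun p x => Prod.ext rfl (map_c1 e p)
  have := (SS.edgeHtp X e).mapH_eq (R := R) d y
  rw [h0, h1] at this
  rw [this]

theorem axis_eq' {X Y : SS} (hY : Conn0 Y) (v w : Y.obj 0) {d : ℕ}
    (y : (SS.F R (Y.prod X)).H d) :
    ((SS.pair (SS.cstMap X v) (SS.Map.id X)).pull (R := R)).mapH d y =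
      ((SS.pair (SS.cstMap X w) (SS.Map.id X)).pull (R := R)).mapH d y := by
  refine hY (fun u => ((SS.pair (SS.cstMap X v) (SS.Map.id X)).pull (R := R)).mapH d y =
      ((SS.pair (SS.cstMap X u) (SS.Map.id X)).pull (R := R)).mapH d y) ?_ v w rfl
  intro e
  have h0 : (SS.edgeHtp' X e).e0 = SS.pair (SS.cstMap X (Y.map (dl 0 1) e)) (SS.Map.id X) :=
    SS.Map.ext fun p x => Prod.ext (map_c0 e p) rfl
  have h1 : (SS.edgeHtp' X e).e1 = SS.pair (SS.cstMap X (Y.map (dl 0 0) e)) (SS.Map.id X) :=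
    SS.Map.ext fun p x => Prod.ext (map_c1 e p) rfl
  have := (SS.edgeHtp' X e).mapH_eq (R := R) d y
  rw [h0, h1] at this
  rw [this]

/-! ### the general statement -/

/-- **Primitivity**, general form: `c : B → Z` an isomorphism on `H^j`, `j ≤ D`, `d < D`,
`a : A → Z` a cohomology `d`-sphere, `B` connected.  Then for every class `y` on `B × B` there is a
class `y'` on `Z × Z` with `(c × c)^* y' = y` and `a^* Δ^* y' = a^* i₁^* y' + a^* i₂^* y'`. -/
theorem prim_general [Nontrivial R] {A B Z : SS} {c : SS.Map B Z} {a : SS.Map A Z} {D d : ℕ}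
    (hD : d < D) (hc : ∀ j, j ≤ D → Function.Bijective ((c.pull (R := R)).mapH j))
    (hA : SphLike R A d) (hZ : Conn0 Z) (v : B.obj 0) (y : (SS.F R (B.prod B)).H d) :
    ∃ y' : (SS.F R (Z.prod Z)).H d, ((SS.times c c).pull (R := R)).mapH d y' = y ∧
      (a.pull (R := R)).mapH d (((SS.pair (SS.Map.id Z) (SS.Map.id Z)).pull (R := R)).mapH d y') =
      (a.pull (R := R)).mapH d
        (((SS.pair (SS.Map.id Z) (SS.cstMap Z (c.app v))).pull (R := R)).mapH d y') +
      (a.pull (R := R)).mapH d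
        (((SS.pair (SS.cstMap Z (c.app v)) (SS.Map.id Z)).pull (R := R)).mapH d y') := by
  obtain ⟨y', hy'⟩ := SS.square_mapH_surjective v hc hD y
  refine ⟨y', hy', ?_⟩
  obtain ⟨w⟩ := hA.ne 0
  rw [axis_eq hZ (c.app v) (a.app w), axis_eq' hZ (c.app v) (a.app w)]
  have e0 : (SS.pair (SS.Map.id Z) (SS.Map.id Z)).comp a =
    (SS.times a a).comp (SS.pair (SS.Map.id A) (SS.Map.id A)) := rfl
  have e1 : (SS.pair (SS.Map.id Z) (SS.cstMap Z (a.app w))).comp a =
      (SS.times a a).comp (SS.pair (SS.Map.id A) (SS.cstMap A w)) :=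
    SS.Map.ext fun p x => Prod.ext rfl (a.nat _ w).symm
  have e2 : (SS.pair (SS.cstMap Z (a.app w)) (SS.Map.id Z)).comp a =
      (SS.times a a).comp (SS.pair (SS.cstMap A w) (SS.Map.id A)) :=
    SS.Map.ext fun p x => Prod.ext (a.nat _ w).symm rfl
  rw [← Hom.mapH_comp, ← Hom.mapH_comp, ← Hom.mapH_comp, ← SS.Map.pull_comp, ← SS.Map.pull_comp,
    ← SS.Map.pull_comp, e0, e1, e2, SS.Map.pull_comp, SS.Map.pull_comp, SS.Map.pull_comp,
    Hom.mapH_comp, Hom.mapH_comp, Hom.mapH_comp]
  exact hA.axes w _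

end Vale.Agent.P263.E
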