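import Vale.Agent.P263.S.HGses
import Vale.Agent.P263.E.Free
import Vale.Agent.P263.E.D2

/-!
# P263, block E6 (helper512): the formula `(★)` on cochains

`gen a ξ` : for an element `ξ` of a cosimplicial module with an action `a` of `C2`, the equivariant
cochain `s ↦ s_0 ξ`.  In characteristic two
`d (gen a ξ) = u (ξ + τ ξ) + (s ↦ s_0 (d ξ))` on the nose (`d_gen`), where `u` is the operator
`(u f) s = [s_0 ≠ s_1] f(s_1, …)` (`uF`).

`Pairs` : the module `KK` of the pairs `(α, g)`, `α ∈ A`, `g ∈ F(X)`, `φ α = T g`, `X` with a free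
involution; `K = ker φ`; `V` the functions on the quotient of `X`.
`Pairs.star_cochain` : if `f` is a cocycle of `V`, `φ α = tr f` and `κ = d α ∈ K`, then
`u (j f) + j (uW f) + i κ` is the coboundary of an explicit cochain.
-/

noncomputable section

namespace Vale.Agent.P263.E

open Vale.Agent.P263.S

variable {R : Type} [CommRing R]

/-! ### the operator `u` on cochains -/

section uF

variable {B : CosMod R} (a : Act C2 B)

/-- The multiplication by `u` on equivariant cochains. -/
def uF (p : ℕ) : (hG a).obj p →ₗ[R] (hG a).obj (p + 1) where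
  toFun f := hG.mk a (fun s => if s 0 = s 1 then 0 else B.map (dl p 0) (hG.fn f (s ∘ dl p 0)))
    (fun g s => by
      by_cases h : s 0 = s 1
      · rw [if_pos h, if_pos (congrArg (g * ·) h), map_zero]
      · rw [if_neg h, if_neg (fun h' => h (mul_left_cancel h')), a.nat]
        exact congrArg (B.map (dl p 0)) (hG.fn_mul f g (s ∘ dl p 0)))
  map_add' f f' := hG.ext fun s => by
    show (if s 0 = s 1 then (0 : B.obj (p + 1)) else _) = (if s 0 = s 1 then 0 else _) +
      (if s 0 = s 1 then 0 else _)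
    split_ifs
    · rw [add_zero]
    · rw [← map_add]; rfl
  map_smul' r f := hG.ext fun s => by
    show (if s 0 = s 1 then (0 : B.obj (p + 1)) else _) = r • (if s 0 = s 1 then (0 : B.obj (p + 1))
      else _)
    split_ifs
    · rw [smul_zero]
    · rw [← map_smul]; rfl

@[simp] theorem uF_fn {p : ℕ} (f : (hG a).obj p) (s : Fin (p + 1 + 1) → C2) :
    hG.fn (uF a p f) s = if s 0 = s 1 then 0 else B.map (dl p 0) (hG.fn f (s ∘ dl p 0)) := rfl

/-- The cochain `s ↦ s_0 ξ`. -/
def gen (p : ℕ) : B.obj p →ₗ[R] (hG a).obj p where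
  toFun ξ := hG.mk a (fun s => a.act p (s 0) ξ) (fun g s => a.act_mul p g (s 0) ξ)
  map_add' _ _ := hG.ext fun _ => map_add _ _ _
  map_smul' _ _ := hG.ext fun _ => map_smul _ _ _

@[simp] theorem gen_fn {p : ℕ} (ξ : B.obj p) (s : Fin (p + 1) → C2) :
    hG.fn (gen a p ξ) s = a.act p (s 0) ξ := rfl

/-- The constant cochains with values in the invariants. -/
def cstInv : Hom a.inv (hG a) where
  app _ :=
    { toFun := fun φ => ⟨fun _ => φ.1, fun g _ => (φ.2 g).symm⟩
      map_add' := fun _ _ => rfl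
      map_smul' := fun _ _ => rfl }
  nat _ _ := rfl

@[simp] theorem cstInv_fn {p : ℕ} (φ : a.inv.obj p) (s : Fin (p + 1) → C2) :
    hG.fn ((cstInv a).app p φ) s = φ.1 := rfl

private theorem d_fn_aux {p : ℕ} (f : (hG a).obj p) (s : Fin (p + 2) → C2) :
    hG.fn ((hG a).d p f) s =
      ∑ i ∈ Finset.range (p + 2), sn i (B.map (dl p i) (hG.fn f (s ∘ dl p i))) := by
  rw [CosMod.d_apply]
  have key : ∀ (t : Finset ℕ), hG.fn (∑ i ∈ t, sn i ((hG a).map (dl p i) f)) s =
      ∑ i ∈ t, sn i (B.map (dl p i) (hG.fn f (s ∘ dl p i))) := by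
    intro t
    induction t using Finset.cons_induction with
    | empty => rfl
    | cons i t hi ih =>
      rw [Finset.sum_cons, Finset.sum_cons, hG.fn_add, ih]
      rfl
  exact key _

/-- **The basic identity**: `d (s ↦ s_0 ξ) = u (ξ + τ ξ) + (s ↦ s_0 (d ξ))`. -/
theorem d_gen (h2 : (2 : R) = 0) {p : ℕ} (ξ : B.obj p) (η : a.inv.obj p)
    (hη : η.1 = ξ + a.act p tau ξ) :
    (hG a).d p (gen a p ξ) = uF a p ((cstInv a).app p η) + gen a (p + 1) (B.d p ξ) := by
  refine hG.ext fun s => ?_
  rw [d_fn_aux, hG.fn_add, uF_fn, gen_fn, cstInv_fn, Finset.sum_range_succ', CosMod.d_apply, map_sum,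
    Finset.sum_range_succ' (fun i => a.act (p + 1) (s 0) (sn i (B.map (dl p i) ξ)))]
  have e1 : ∀ i, sn (i + 1) (B.map (dl p (i + 1)) (hG.fn (gen a p ξ) (s ∘ dl p (i + 1)))) =
      a.act (p + 1) (s 0) (sn (i + 1) (B.map (dl p (i + 1)) ξ)) := by
    intro i
    rw [gen_fn, CosMod.sn_lin, a.nat]
    rfl
  rw [Finset.sum_congr rfl fun i _ => e1 i]
  have e0 : sn 0 (B.map (dl p 0) (hG.fn (gen a p ξ) (s ∘ dl p 0))) =
      B.map (dl p 0) (a.act p (s 1) ξ) := by
    rw [gen_fn]
    show ((-1 : ℤ) ^ 0) • _ = _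
    rw [pow_zero, one_smul]
    rfl
  have e2 : a.act (p + 1) (s 0) (sn 0 (B.map (dl p 0) ξ)) = B.map (dl p 0) (a.act p (s 0) ξ) := by
    rw [← a.nat]
    congr 1
    show ((-1 : ℤ) ^ 0) • _ = _
    rw [pow_zero, one_smul]
  rw [e0, e2]
  have two : ∀ x : B.obj (p + 1), x + x = 0 := fun x => by
    rw [← two_smul R x, h2, zero_smul]
  have key : B.map (dl p 0) (a.act p (s 1) ξ) =
      (if s 0 = s 1 then 0 else B.map (dl p 0) η.1) + B.map (dl p 0) (a.act p (s 0) ξ) := by
    by_cases h : s 0 = s 1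
    · rw [if_pos h, h, zero_add]
    · rw [if_neg h, hη, map_add]
      rcases C2_cases (s 0) with h0 | h0
      · rcases C2_cases (s 1) with h1 | h1
        · exact absurd (h0.trans h1.symm) h
        · rw [h0, h1, a.act_one, add_comm (B.map (dl p 0) ξ), add_assoc, two, add_zero]
      · rcases C2_cases (s 1) with h1 | h1
        · rw [h0, h1, a.act_one, add_assoc, two, add_zero]
        · exact absurd (h0.trans h1.symm) h
  refine (congrArg (fun t => _ + t) key).trans ?_
  exact add_left_comm _ _ _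

end uF

/-! ### the modules of pairs -/

/-- The data of `(★)`.  In the application `A = I × CZ'`, `C = F(B)`, `X` = ordered pairs of different
points in one fibre, `V = F(W)`, `W` = unordered pairs. -/
structure Pairs (X : SS) (K A C KK V : CosMod R) where
  /-- the labelling of the vertices of `X` -/
  D : Lab C2 X
  /-- the action on the functions on `X` -/
  a : Act C2 (SS.F R X)
  ha : D.Acts a
  /-- `0 → K → A → C → 0` -/
  S1 : SES K A C
  /-- the transfer `F(X) → C` -/
  T : Hom (SS.F R X) C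
  /-- the action on `KK` -/
  aKK : Act C2 KK
  /-- `KK → A` -/
  al : Hom KK A
  /-- `KK → F(X)` -/
  q : Hom KK (SS.F R X)
  jinj : ∀ p (x : KK.obj p), al.app p x = 0 → q.app p x = 0 → x = 0
  ex : ∀ p (α : A.obj p) (g : (SS.F R X).obj p), S1.p.app p α = T.app p g →
    ∃ x, al.app p x = α ∧ q.app p x = g
  al_act : ∀ p g x, al.app p (aKK.act p g x) = al.app p x
  q_act : ∀ p g x, q.app p (aKK.act p g x) = a.act p g (q.app p x)
  /-- `K → KK` -/
  i : Hom K KK
  al_i : ∀ p k, al.app p (i.app p k) = S1.i.app p k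
  q_i : ∀ p k, q.app p (i.app p k) = 0
  /-- the functions on the quotient as functions on `X` -/
  pull : Hom V (SS.F R X)
  pull_act : ∀ p g v, a.act p g (pull.app p v) = pull.app p v
  /-- `V → KK` -/
  j : Hom V KK
  al_j : ∀ p v, al.app p (j.app p v) = 0
  q_j : ∀ p v, q.app p (j.app p v) = pull.app p v
  /-- the transfer `V → C` -/
  tr : Hom V C
  tr_eq : ∀ p (v : V.obj p), T.app p (fun x => if D.lab x 0 = 1 then pull.app p v x else 0) =
    tr.app p v
  /-- the multiplication by the class of the double covering -/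
  uW : ∀ p, V.obj p →ₗ[R] V.obj (p + 1)
  pull_uW : ∀ p v (x : X.obj (p + 1)), pull.app (p + 1) (uW p v) x =
    if D.lab x 0 = D.lab x 1 then 0 else pull.app p v (X.map (dl p 0) x)

namespace Pairs

variable {X : SS} {K A C KK V : CosMod R} (P : Pairs X K A C KK V)

theorem i_act (p : ℕ) (g : C2) (k : K.obj p) : P.aKK.act p g (P.i.app p k) = P.i.app p k := by
  rw [← sub_eq_zero]
  apply P.jinj
  · rw [map_sub, P.al_act, sub_self]
  · rw [map_sub, P.q_act, P.q_i, map_zero, sub_self]

theorem j_act (p : ℕ) (g : C2) (v : V.obj p) : P.aKK.act p g (P.j.app p v) = P.j.app p v := by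
  rw [← sub_eq_zero]
  apply P.jinj
  · rw [map_sub, P.al_act, sub_self]
  · rw [map_sub, P.q_act, P.q_j, P.pull_act, sub_self]

/-- `i` with values in the invariants -/
def iInv : Hom K P.aKK.inv where
  app p := (P.i.app p).codRestrict _ (fun k g => P.i_act p g k)
  nat f x := Subtype.ext (P.i.nat f x)

@[simp] theorem iInv_coe (p : ℕ) (k : K.obj p) : (P.iInv.app p k).1 = P.i.app p k := rfl

/-- `j` with values in the invariants -/
def jInv : Hom V P.aKK.inv where
  app p := (P.j.app p).codRestrict _ (fun k g => P.j_act p g k)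
  nat f x := Subtype.ext (P.j.nat f x)

@[simp] theorem jInv_coe (p : ℕ) (k : V.obj p) : (P.jInv.app p k).1 = P.j.app p k := rfl

/-- `K → hG KK`, constant cochains -/
def iG : Hom K (hG P.aKK) := (cstInv P.aKK).comp P.iInv

/-- `V → hG KK`, constant cochains -/
def jG : Hom V (hG P.aKK) := (cstInv P.aKK).comp P.jInv

@[simp] theorem iG_fn {p : ℕ} (k : K.obj p) (s : Fin (p + 1) → C2) :
    hG.fn (P.iG.app p k) s = P.i.app p k := rfl

@[simp] theorem jG_fn {p : ℕ} (k : V.obj p) (s : Fin (p + 1) → C2) :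
    hG.fn (P.jG.app p k) s = P.j.app p k := rfl

theorem act_tau_apply (p : ℕ) (φ : (SS.F R X).obj p) (x : X.obj p) :
    P.a.act p tau φ x = φ ((P.D.t tau).app x) := by
  have h1 := P.ha p tau φ ((P.D.t tau⁻¹).app x)
  rw [P.D.t_inv] at h1
  exact h1

/-- the half of a function on the quotient: the function on the simplices with first label `1` -/
def half {p : ℕ} (v : V.obj p) : (SS.F R X).obj p :=
  fun x => if P.D.lab x 0 = 1 then P.pull.app p v x else 0

theorem half_add {p : ℕ} (v : V.obj p) :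
    P.half v + P.a.act p tau (P.half v) = P.pull.app p v := by
  funext x
  show P.half v x + P.a.act p tau (P.half v) x = _
  rw [P.act_tau_apply]
  show (if P.D.lab x 0 = 1 then P.pull.app p v x else 0) +
    (if P.D.lab ((P.D.t tau).app x) 0 = 1 then P.pull.app p v ((P.D.t tau).app x) else 0) = _
  have h1 : P.pull.app p v ((P.D.t tau).app x) = P.pull.app p v x :=
    (P.act_tau_apply p _ x).symm.trans (congrFun (P.pull_act p tau v) x)
  have h3 : P.D.lab ((P.D.t tau).app x) 0 = tau * P.D.lab x 0 := by rw [P.D.lab_t]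
  rw [h3, h1]
  rcases C2_cases (P.D.lab x 0) with h | h
  · rw [h, if_pos rfl, if_neg (by decide), add_zero]
  · rw [h, if_neg (by decide), if_pos (by decide), zero_add]

theorem d_half (h2 : (2 : R) = 0) {p : ℕ} {v : V.obj p} (hv : v ∈ V.Z p) :
    (SS.F R X).d p (P.half v) = P.pull.app (p + 1) (P.uW p v) := by
  funext x
  rw [P.pull_uW, SS.F_d, Finset.sum_range_succ']
  have h0 : (SS.F R X).d p (P.pull.app p v) x = 0 := by
    rw [← P.pull.app_d, CosMod.mem_Z.1 hv, map_zero]; rfl
  rw [SS.F_d, Finset.sum_range_succ'] at h0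
  have two : ∀ r : R, r + r = 0 := fun r => by rw [← two_mul, h2, zero_mul]
  have e0 : ∀ r : R, sn 0 r = r := fun r => by
    show ((-1 : ℤ) ^ 0) • r = r
    rw [pow_zero, one_smul]
  rw [e0] at h0 ⊢
  have e1 : ∀ i, P.half v (X.map (dl p (i + 1)) x) =
      if P.D.lab x 0 = 1 then P.pull.app p v (X.map (dl p (i + 1)) x) else 0 := by
    intro i
    show (if P.D.lab (X.map (dl p (i + 1)) x) 0 = 1 then _ else _) = _
    rw [P.D.lab_map]
    rfl
  have e2 : P.half v (X.map (dl p 0) x) =
      if P.D.lab x 1 = 1 then P.pull.app p v (X.map (dl p 0) x) else 0 := by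
    show (if P.D.lab (X.map (dl p 0) x) 0 = 1 then _ else _) = _
    rw [P.D.lab_map]
    rfl
  rw [Finset.sum_congr rfl fun i _ => by rw [e1 i], e2]
  have h3 : ∑ i ∈ Finset.range (p + 1), sn (i + 1) (P.pull.app p v (X.map (dl p (i + 1)) x)) =
      P.pull.app p v (X.map (dl p 0) x) := by
    have h4 := eq_neg_of_add_eq_zero_left h0
    rw [h4]
    exact (eq_neg_of_add_eq_zero_left (two _)).symm
  rcases C2_cases (P.D.lab x 0) with h | h
  · rw [h]
    simp only [if_true]
    rw [h3]
    rcases C2_cases (P.D.lab x 1) with h' | h'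
    · rw [h', if_pos rfl, if_pos rfl, two]
    · rw [h', if_neg (by decide), if_neg (by decide), add_zero]
  · have e3 : ∀ r : R, (if P.D.lab x 0 = 1 then r else 0) = 0 := fun r => by
      rw [h, if_neg (by decide)]
    have e4 : ∑ i ∈ Finset.range (p + 1), sn (i + 1) (if P.D.lab x 0 = 1 then
        P.pull.app p v (X.map (dl p (i + 1)) x) else 0) = 0 :=
      Finset.sum_eq_zero fun i _ => by rw [e3, sn_zero_val]
    rw [e4, zero_add, h]
    rcases C2_cases (P.D.lab x 1) with h' | h'
    · rw [h', if_pos rfl, if_neg (by decide)]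
    · rw [h', if_neg (by decide), if_pos rfl]

/-- **The formula `(★)` on cochains.** -/
theorem star_cochain (h2 : (2 : R) = 0) {p : ℕ} {v : V.obj p} (hv : v ∈ V.Z p) {α : A.obj p}
    (hα : P.S1.p.app p α = P.tr.app p v) {κ : K.obj (p + 1)}
    (hκ : P.S1.i.app (p + 1) κ = A.d p α) :
    ∃ x : (hG P.aKK).obj p, (hG P.aKK).d p x =
      uF P.aKK p (P.jG.app p v) + (P.iG.app (p + 1) κ + P.jG.app (p + 1) (P.uW p v)) := by
  obtain ⟨ξ, h1, h3⟩ := P.ex p α (P.half v) (hα.trans (P.tr_eq p v).symm)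
  have two : ∀ x : A.obj p, x + x = 0 := fun x => by rw [← two_smul R x, h2, zero_smul]
  have e1 : (P.jInv.app p v).1 = ξ + P.aKK.act p tau ξ := by
    rw [jInv_coe, ← sub_eq_zero]
    apply P.jinj
    · rw [map_sub, map_add, P.al_j, P.al_act, two, sub_self]
    · rw [map_sub, map_add, P.q_j, P.q_act, h3, P.half_add, sub_self]
  have e2 : KK.d p ξ = P.i.app (p + 1) κ + P.j.app (p + 1) (P.uW p v) := by
    rw [← sub_eq_zero]
    apply P.jinj
    · rw [map_sub, map_add, P.al.app_d, h1, P.al_i, P.al_j, hκ, add_zero, sub_self]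
    · rw [map_sub, map_add, P.q.app_d, h3, P.q_i, P.q_j, P.d_half h2 hv, zero_add, sub_self]
  refine ⟨gen P.aKK p ξ, (d_gen P.aKK h2 ξ (P.jInv.app p v) e1).trans ?_⟩
  refine congrArg (fun t => _ + t) (hG.ext fun s => ?_)
  rw [gen_fn, e2, hG.fn_add, iG_fn, jG_fn, map_add, P.i_act, P.j_act]

end Pairs

end Vale.Agent.P263.E
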