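import Vale.Agent.P263.E.Triple
import Vale.Agent.P263.E.Cofree

/-!
# P263, block E8 (helper302): the triple of two arbitrary maps `β : B → Q ← A : α`

`Z = Q × cofree (B ⊔ A)`.
-/

namespace Vale.Agent.P263.E

open Vale.Agent.P263.S

variable {R : Type} [CommRing R]

/-- the functions on `Z` which are constant on `A` -/
def cstOn (R : Type) [CommRing R] {A Z : SS} (a : SS.Map A Z) : CosMod R :=
  subCos (SS.F R Z) (fun p =>
    { carrier := {z | ∀ x y : A.obj p, z (a.app x) = z (a.app y)}
      add_mem' := fun {f g} hf hg x y => by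
        show f (a.app x) + g (a.app x) = f (a.app y) + g (a.app y)
        rw [hf x y, hg x y]
      zero_mem' := fun _ _ => rfl
      smul_mem' := fun r f hf x y => by
        show r * f (a.app x) = r * f (a.app y)
        rw [hf x y] })
    (fun {p q} f z hz x y => by
      show z (Z.map f (a.app x)) = z (Z.map f (a.app y))
      rw [← a.nat, ← a.nat]
      exact hz _ _)

/-- the inclusion -/
def cstOnIncl (R : Type) [CommRing R] {A Z : SS} (a : SS.Map A Z) : Hom (cstOn R a) (SS.F R Z) where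
  app _ := Submodule.subtype _
  nat _ _ := rfl

theorem cstOn_prop {A Z : SS} {a : SS.Map A Z} {p : ℕ} (z : (cstOn R a).obj p) (x y : A.obj p) :
    (cstOnIncl R a).app p z (a.app x) = (cstOnIncl R a).app p z (a.app y) := z.2 x y

/-- elements of `cstOn` -/
def cstOnMk {A Z : SS} {a : SS.Map A Z} {p : ℕ} (z : (SS.F R Z).obj p)
    (h : ∀ x y : A.obj p, z (a.app x) = z (a.app y)) : (cstOn R a).obj p := ⟨z, h⟩

@[simp] theorem cstOnIncl_mk {A Z : SS} {a : SS.Map A Z} {p : ℕ} (z : (SS.F R Z).obj p)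
    (h : ∀ x y : A.obj p, z (a.app x) = z (a.app y)) :
    (cstOnIncl R a).app p (cstOnMk z h) = z := rfl

/-- The triple of an injective map `B ⊔ A → Z`. -/
def Trip.mk' {K C : CosMod R} {Z B A : SS} (b : SS.Map B Z) (a : SS.Map A Z)
    (inj : (SS.copair b a).Inj) (t : Hom C (SS.F R B)) (fst : Hom K (cstOn R a)) (snd : Hom K C)
    (pb : IsPB fst snd (b.pull.comp (cstOnIncl R a)) t) : Trip R K (cstOn R a) C Z B A where
  b := b
  a := a
  inj := inj
  t := t
  io := cstOnIncl R a
  io_inj _ := Subtype.val_injective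
  io_cst _ z x y := z.2 x y
  io_ex _ z hz := ⟨cstOnMk z hz, rfl⟩
  fst := fst
  snd := snd
  pb := pb

/-! ### thickening -/

section thick

variable {Q B A : SS} (β : SS.Map B Q) (α : SS.Map A Q)

/-- the thickened target -/
abbrev TZ (Q B A : SS) : SS := Q.prod (SS.cofree (B.sum A))

/-- the inclusion of `B` -/
def thB : SS.Map B (TZ Q B A) := (SS.thick (SS.copair β α)).comp (SS.inl B A)

/-- the inclusion of `A` -/
def thA : SS.Map A (TZ Q B A) := (SS.thick (SS.copair β α)).comp (SS.inr B A)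

theorem copair_th : SS.copair (thB β α) (thA β α) = SS.thick (SS.copair β α) := by
  apply SS.Map.ext
  intro p x
  cases x <;> rfl

theorem th_inj : (SS.copair (thB β α) (thA β α)).Inj := by
  rw [copair_th]
  exact SS.thick_inj _

/-- the projection -/
def thPr (Q B A : SS) : SS.Map (TZ Q B A) Q := SS.fst _ _

theorem thPr_B : (thPr Q B A).comp (thB β α) = β := rfl

theorem thPr_A : (thPr Q B A).comp (thA β α) = α := rfl

theorem thPr_bij (b0 : ∀ n, (B.sum A).obj n) (j : ℕ) :
    Function.Bijective (((thPr Q B A).pull (R := R)).mapH j) := SS.mapH_fst_bijective Q b0 j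

theorem thB_bij (b0 : ∀ n, (B.sum A).obj n) {j : ℕ}
    (h : Function.Bijective ((β.pull (R := R)).mapH j)) :
    Function.Bijective (((thB β α).pull (R := R)).mapH j) := by
  have h1 := thPr_bij (R := R) (Q := Q) (B := B) (A := A) b0 j
  have h2 : ∀ x, ((thB β α).pull (R := R)).mapH j (((thPr Q B A).pull (R := R)).mapH j x) =
      (β.pull (R := R)).mapH j x := fun x => by
    rw [← Hom.mapH_comp, ← SS.Map.pull_comp, thPr_B]
  constructor
  · intro x y hxy
    obtain ⟨x, rfl⟩ := h1.2 x
    obtain ⟨y, rfl⟩ := h1.2 y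
    rw [h2, h2] at hxy
    rw [h.1 hxy]
  · intro x
    obtain ⟨y, rfl⟩ := h.2 x
    exact ⟨_, h2 y⟩

end thick

namespace Trip

variable {K C : CosMod R} {Q B A : SS} (β : SS.Map B Q) (α : SS.Map A Q)
  (t : Hom C (SS.F R B)) (fst : Hom K (cstOn R (thA β α))) (snd : Hom K C)
  (pb : IsPB fst snd ((thB β α).pull.comp (cstOnIncl R (thA β α))) t)

/-- the triple of two arbitrary maps -/
def thick : Trip R K (cstOn R (thA β α)) C (TZ Q B A) B A :=
  Trip.mk' (thB β α) (thA β α) (th_inj β α) t fst snd pb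

theorem thick_base {d D : ℕ} (b0 : ∀ n, (B.sum A).obj n) (hD : d + 2 ≤ D) (hA : SphLike R A d)
    (hB : ∀ j, j ≤ D → Function.Bijective ((β.pull (R := R)).mapH j)) :
    (thick β α t fst snd pb).Base d D where
  hD := hD
  hA := hA
  hB j hj := thB_bij β α b0 (hB j hj)

/-- `ev (β^* x) = α^* x` -/
theorem thick_ev {d D : ℕ} (h : (thick β α t fst snd pb).Base d D) {j : ℕ} (hj : j ≤ D)
    (x : (SS.F R Q).H j) :
    h.ev hj (β.pull.mapH j x) = α.pull.mapH j x := by
  have h1 := h.ev_res hj (((thPr Q B A).pull (R := R)).mapH j x)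
  have h2 : ((thB β α).pull (R := R)).mapH j (((thPr Q B A).pull (R := R)).mapH j x) =
      (β.pull (R := R)).mapH j x := by
    rw [← Hom.mapH_comp, ← SS.Map.pull_comp, thPr_B]
  have h3 : ((thA β α).pull (R := R)).mapH j (((thPr Q B A).pull (R := R)).mapH j x) =
      (α.pull (R := R)).mapH j x := by
    rw [← Hom.mapH_comp, ← SS.Map.pull_comp, thPr_A]
  rw [← h2, ← h3]
  exact h1

end Trip

end Vale.Agent.P263.E
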