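import Vale.Agent.P263.E.Les
import Vale.Agent.P263.E.Simp

/-!
# P263, block E8 (helper302): the triple `(Z, B, A)`

`Z` a simplicial set, `B` and `A` disjoint simplicial subsets, `A` a cohomology `d`-sphere,
`H^j(Z) → H^j(B)` bijective for `j ≤ D`, `t : C → F(B)` the transfer `tr ∘ ρ` and `K` the
pull-back of `t` and `I → F(B)`, where `I` is the algebra of the functions on `Z` which are constant
on `A`.
-/

namespace Vale.Agent.P263.E

open Vale.Agent.P263.S

variable {R : Type} [CommRing R]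

/-! ### sub and quotient objects -/

/-- a cosimplicial submodule -/
def subCos (M : CosMod R) (S : ∀ p, Submodule R (M.obj p))
    (h : ∀ {p q : ℕ} (f : Op p q) (x : M.obj p), x ∈ S p → M.map f x ∈ S q) : CosMod R where
  obj p := S p
  map f := (M.map f).restrict (h f)
  map_id := by
    intro p; apply LinearMap.ext; intro x; apply Subtype.ext
    show M.map OrderHom.id (x : M.obj p) = x
    rw [M.map_id_apply]
  map_comp f g := by
    apply LinearMap.ext; intro x; apply Subtype.ext
    show M.map (f.comp g) (x : M.obj _) = M.map f (M.map g x)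
    rw [M.map_map]

/-- a cosimplicial quotient module -/
def quotCos (M : CosMod R) (S : ∀ p, Submodule R (M.obj p))
    (h : ∀ {p q : ℕ} (f : Op p q) (x : M.obj p), x ∈ S p → M.map f x ∈ S q) : CosMod R where
  obj p := M.obj p ⧸ S p
  map f := Submodule.mapQ _ _ (M.map f) (h f)
  map_id := by
    intro p
    apply LinearMap.ext; intro x
    obtain ⟨x, rfl⟩ := Submodule.mkQ_surjective _ x
    show Submodule.mkQ _ (M.map OrderHom.id x) = Submodule.mkQ _ x
    rw [M.map_id_apply]
  map_comp f g := by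
    apply LinearMap.ext; intro x
    obtain ⟨x, rfl⟩ := Submodule.mkQ_surjective _ x
    show Submodule.mkQ _ (M.map (f.comp g) x) = Submodule.mkQ _ (M.map f (M.map g x))
    rw [M.map_map]

/-- the projection to a cosimplicial quotient module -/
def quotHom (M : CosMod R) (S : ∀ p, Submodule R (M.obj p))
    (h : ∀ {p q : ℕ} (f : Op p q) (x : M.obj p), x ∈ S p → M.map f x ∈ S q) :
    Hom M (quotCos M S h) where
  app _ := Submodule.mkQ _
  nat _ _ := rfl

theorem quotHom_eq_zero {M : CosMod R} {S : ∀ p, Submodule R (M.obj p)}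
    {h : ∀ {p q : ℕ} (f : Op p q) (x : M.obj p), x ∈ S p → M.map f x ∈ S q} {p : ℕ}
    {x : M.obj p} : (quotHom M S h).app p x = 0 ↔ x ∈ S p := Submodule.Quotient.mk_eq_zero _

/-- the pull-back of `r : I → M` and `t : C → M` -/
def pbCos {I C M : CosMod R} (r : Hom I M) (t : Hom C M) : CosMod R where
  obj p := LinearMap.eqLocus ((r.app p).comp (LinearMap.fst R (I.obj p) (C.obj p)))
    ((t.app p).comp (LinearMap.snd R (I.obj p) (C.obj p)))
  map {p q} f := ((I.map f).prodMap (C.map f)).restrict (fun x hx => by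
    have hx' : r.app p x.1 = t.app p x.2 := hx
    show r.app q (I.map f x.1) = t.app q (C.map f x.2)
    rw [r.nat, t.nat, hx'])
  map_id := by
    intro p; apply LinearMap.ext; intro x; apply Subtype.ext
    exact Prod.ext (I.map_id_apply _) (C.map_id_apply _)
  map_comp f g := by
    apply LinearMap.ext; intro x; apply Subtype.ext
    exact Prod.ext (I.map_map _ _ _).symm (C.map_map _ _ _).symm

/-- first projection of the pull-back -/
def pbFst {I C M : CosMod R} (r : Hom I M) (t : Hom C M) : Hom (pbCos r t) I where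
  app p := (LinearMap.fst R (I.obj p) (C.obj p)).comp (Submodule.subtype _)
  nat _ _ := rfl

/-- second projection of the pull-back -/
def pbSnd {I C M : CosMod R} (r : Hom I M) (t : Hom C M) : Hom (pbCos r t) C where
  app p := (LinearMap.snd R (I.obj p) (C.obj p)).comp (Submodule.subtype _)
  nat _ _ := rfl

/-- elements of the pull-back -/
def pbMk {I C M : CosMod R} {r : Hom I M} {t : Hom C M} {p : ℕ} (z : I.obj p) (w : C.obj p)
    (e : r.app p z = t.app p w) : (pbCos r t).obj p := ⟨(z, w), e⟩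

theorem pbFst_mk {I C M : CosMod R} {r : Hom I M} {t : Hom C M} {p : ℕ} (z : I.obj p) (w : C.obj p)
    (e : r.app p z = t.app p w) : (pbFst r t).app p (pbMk z w e) = z := rfl

theorem pbSnd_mk {I C M : CosMod R} {r : Hom I M} {t : Hom C M} {p : ℕ} (z : I.obj p) (w : C.obj p)
    (e : r.app p z = t.app p w) : (pbSnd r t).app p (pbMk z w e) = w := rfl

theorem pb_ext {I C M : CosMod R} {r : Hom I M} {t : Hom C M} {p : ℕ} {x y : (pbCos r t).obj p}
    (h1 : (pbFst r t).app p x = (pbFst r t).app p y)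
    (h2 : (pbSnd r t).app p x = (pbSnd r t).app p y) : x = y :=
  Subtype.ext (Prod.ext h1 h2)

/-- `K` is the pull-back of `r : I → M` and `t : C → M` -/
structure IsPB {K I C M : CosMod R} (a : Hom K I) (c : Hom K C) (r : Hom I M) (t : Hom C M) :
    Prop where
  inj : ∀ p (x : K.obj p), a.app p x = 0 → c.app p x = 0 → x = 0
  comm : ∀ p (x : K.obj p), r.app p (a.app p x) = t.app p (c.app p x)
  ex : ∀ p (z : I.obj p) (w : C.obj p), r.app p z = t.app p w →
    ∃ x, a.app p x = z ∧ c.app p x = w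

theorem isPB_pbCos {I C M : CosMod R} (r : Hom I M) (t : Hom C M) :
    IsPB (pbFst r t) (pbSnd r t) r t where
  inj p x h1 h2 := Subtype.ext (Prod.ext h1 h2)
  comm p x := x.2
  ex p z w h := ⟨⟨(z, w), h⟩, rfl, rfl⟩

namespace IsPB

variable {K I C M : CosMod R} {a : Hom K I} {c : Hom K C} {r : Hom I M} {t : Hom C M}

theorem ext' (h : IsPB a c r t) {p : ℕ} {x y : K.obj p} (h1 : a.app p x = a.app p y)
    (h2 : c.app p x = c.app p y) : x = y := by
  rw [← sub_eq_zero]
  exact h.inj p _ (by rw [map_sub, h1, sub_self]) (by rw [map_sub, h2, sub_self])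

end IsPB

/-! ### the constant cosimplicial module -/

/-- the cosimplicial module of constants -/
def cst (R : Type) [CommRing R] : CosMod R where
  obj _ := R
  map _ := LinearMap.id
  map_id := rfl
  map_comp _ _ := rfl

theorem alt_sum {M : Type*} [AddCommGroup M] (p : ℕ) (x : M) :
    ∑ i ∈ Finset.range (p + 2), sn i x = if p % 2 = 0 then 0 else x := by
  induction p with
  | zero => simp [Finset.sum_range_succ, sn]
  | succ p ih =>
    rw [Finset.sum_range_succ, ih]
    rcases Nat.even_or_odd p with hp | hp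
    · have h1 : p % 2 = 0 := Nat.even_iff.1 hp
      rw [if_pos h1, if_neg (by omega), zero_add]
      have : Even (p + 1 + 1) := by rw [Nat.even_iff]; omega
      simp [sn, this.neg_one_pow]
    · have h1 : p % 2 = 1 := Nat.odd_iff.1 hp
      rw [if_neg (by omega), if_pos (by omega)]
      have : Odd (p + 1 + 1) := by rw [Nat.odd_iff]; omega
      simp [sn, this.neg_one_pow]

theorem cst_d (p : ℕ) (x : (cst R).obj p) :
    (cst R).d p x = ∑ i ∈ Finset.range (p + 2), sn i (x : R) := CosMod.d_apply (cst R) p x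

theorem cst_d_even (p : ℕ) (hp : p % 2 = 0) (x : (cst R).obj p) : (cst R).d p x = 0 :=
  (cst_d p x).trans ((alt_sum p (x : R)).trans (if_pos hp))

theorem cst_d_odd (p : ℕ) (hp : p % 2 = 1) (x : R) :
    (cst R).d p x = x := (cst_d p x).trans ((alt_sum p x).trans (if_neg (by omega)))

theorem cst_H (j : ℕ) (hj : 0 < j) (x : (cst R).H j) : x = 0 := by
  refine CosMod.H_eq_zero_iff.2 ?_ x
  intro x hx
  cases j with
  | zero => omega
  | succ j =>
    have hx' : (cst R).d (j + 1) x = 0 := hx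
    by_cases h : (j + 1) % 2 = 0
    · exact ⟨x, cst_d_odd (R := R) j (by omega) x⟩
    · have h1 : (cst R).d (j + 1) x = x := cst_d_odd (R := R) (j + 1) (by omega) x
      refine ⟨0, ?_⟩
      rw [map_zero]
      exact hx'.symm.trans h1

/-! ### functions modulo constants -/

/-- the constant functions -/
def cstSub (R : Type) [CommRing R] (A : SS) (p : ℕ) : Submodule R ((SS.F R A).obj p) where
  carrier := {f | ∀ x y : A.obj p, f x = f y}
  add_mem' {f g} hf hg x y := by
    show f x + g x = f y + g y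
    rw [hf x y, hg x y]
  zero_mem' _ _ := rfl
  smul_mem' r f hf x y := by
    show r * f x = r * f y
    rw [hf x y]

theorem mem_cstSub {A : SS} {p : ℕ} {f : (SS.F R A).obj p} :
    f ∈ cstSub R A p ↔ ∀ x y : A.obj p, f x = f y := Iff.rfl

/-- `F(A)` modulo the constants -/
def FQ (R : Type) [CommRing R] (A : SS) : CosMod R :=
  quotCos (SS.F R A) (cstSub R A) (fun f _ hx _ _ => hx _ _)

/-- the projection `F(A) → F(A)/constants` -/
def toFQ (R : Type) [CommRing R] (A : SS) : Hom (SS.F R A) (FQ R A) :=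
  quotHom (SS.F R A) (cstSub R A) (fun f _ hx _ _ => hx _ _)

theorem toFQ_eq_zero {A : SS} {p : ℕ} {x : (SS.F R A).obj p} :
    (toFQ R A).app p x = 0 ↔ ∀ u v : A.obj p, x u = x v := Submodule.Quotient.mk_eq_zero _

/-- the constants as functions -/
def cstF (R : Type) [CommRing R] (A : SS) : Hom (cst R) (SS.F R A) where
  app p :=
    { toFun := fun r _ => r
      map_add' := fun _ _ => rfl
      map_smul' := fun _ _ => rfl }
  nat _ _ := rfl

/-- `0 → R → F(A) → F(A)/R → 0` -/
def cstSES (R : Type) [CommRing R] (A : SS) (hA : ∀ p, Nonempty (A.obj p)) :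
    SES (cst R) (SS.F R A) (FQ R A) where
  i := cstF R A
  p := toFQ R A
  inj p x y h := congrFun h (hA p).some
  surj p := Submodule.mkQ_surjective _
  pi p x := toFQ_eq_zero.2 (fun _ _ => rfl)
  ex p x hx := ⟨x (hA p).some, funext fun y => toFQ_eq_zero.1 hx _ _⟩

/-- the hypotheses on the sphere `A` -/
structure SphLike (R : Type) [CommRing R] (A : SS) (d : ℕ) : Prop where
  dpos : 0 < d
  ne : ∀ p, Nonempty (A.obj p)
  zero : ∀ f ∈ (SS.F R A).Z 0, ∀ x y : A.obj 0, f x = f y
  low : ∀ j, 0 < j → j < d → ∀ x : (SS.F R A).H j, x = 0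
  top : ∀ x : (SS.F R A).H (d + 1), x = 0

namespace SphLike

variable {A : SS} {d : ℕ} (h : SphLike R A d)

include h

theorem lift {j : ℕ} (x : (FQ R A).H j) : ∃ y, (toFQ R A).mapH j y = x :=
  ((cstSES R A h.ne).exact_C j x).1 (cst_H (j + 1) (by omega) _)

theorem Q0 {j : ℕ} (hj : j < d) (x : (FQ R A).H j) : x = 0 := by
  obtain ⟨y, rfl⟩ := h.lift x
  cases j with
  | zero =>
    induction y using CosMod.H_ind with
    | h z =>
      rw [Hom.mapH_cls, CosMod.cls_eq_zero_iff, CosMod.mem_Bd_zero]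
      exact toFQ_eq_zero.2 (h.zero z z.2)
  | succ j => rw [h.low (j + 1) (by omega) hj y, map_zero]

theorem Q1 (x : (FQ R A).H (d + 1)) : x = 0 := by
  obtain ⟨y, rfl⟩ := h.lift x
  rw [h.top y, map_zero]

theorem bij : Function.Bijective ((toFQ R A).mapH d) := by
  refine ⟨?_, fun x => h.lift x⟩
  rw [injective_iff_map_eq_zero]
  intro x hx
  obtain ⟨y, rfl⟩ := ((cstSES R A h.ne).exact_B d x).1 hx
  rw [cst_H d h.dpos y, map_zero]

end SphLike

/-! ### the triple -/

/-- the functions on `Z` which vanish on `B` -/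
def relCos {B Z : SS} (R : Type) [CommRing R] (b : SS.Map B Z) : CosMod R :=
  subCos (SS.F R Z) (fun p => LinearMap.ker ((b.pull (R := R)).app p)) (fun {p q} f x hx => by
    rw [LinearMap.mem_ker] at hx ⊢
    rw [b.pull.nat, hx, map_zero])

/-- `0 → F(Z, B) → F(Z) → F(B) → 0` -/
def relSES {B Z : SS} (R : Type) [CommRing R] (b : SS.Map B Z) (hb : b.Inj) :
    SES (relCos R b) (SS.F R Z) (SS.F R B) where
  i := ⟨fun p => Submodule.subtype _, fun _ _ => rfl⟩
  p := b.pull
  inj p := Subtype.val_injective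
  surj p := hb.pull_surjective p
  pi p x := x.2
  ex p x hx := ⟨⟨x, hx⟩, rfl⟩

theorem rel_zero {B Z : SS} {b : SS.Map B Z} (hb : b.Inj) {D : ℕ}
    (h : ∀ j, j ≤ D → Function.Bijective ((b.pull (R := R)).mapH j)) (j : ℕ) (hj : j ≤ D)
    (x : (relCos R b).H j) : x = 0 := by
  have h1 : (relSES R b hb).i.mapH j x = 0 := by
    apply (h j hj).1
    rw [map_zero]
    exact ((relSES R b hb).exact_B j _).2 ⟨x, rfl⟩
  cases j with
  | zero => exact (relSES R b hb).inj_zero x h1
  | succ j =>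
    obtain ⟨y, rfl⟩ := ((relSES R b hb).exact_A j x).1 h1
    obtain ⟨z, rfl⟩ := (h j (by omega)).2 y
    exact ((relSES R b hb).exact_C j _).2 ⟨z, rfl⟩

/-- The triple `(Z, B, A)` with a transfer `t : C → F(B)` and the cone `K`. -/
structure Trip (R : Type) [CommRing R] (K I C : CosMod R) (Z B A : SS) where
  /-- the inclusion of `B` -/
  b : SS.Map B Z
  /-- the inclusion of `A` -/
  a : SS.Map A Z
  inj : (SS.copair b a).Inj
  /-- the transfer -/
  t : Hom C (SS.F R B)
  /-- the inclusion of the functions constant on `A` -/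
  io : Hom I (SS.F R Z)
  io_inj : ∀ p, Function.Injective (io.app p)
  io_cst : ∀ p (z : I.obj p) (x y : A.obj p), io.app p z (a.app x) = io.app p z (a.app y)
  io_ex : ∀ p (z : (SS.F R Z).obj p), (∀ x y : A.obj p, z (a.app x) = z (a.app y)) →
    ∃ z', io.app p z' = z
  /-- projections of `K` -/
  fst : Hom K I
  /-- projections of `K` -/
  snd : Hom K C
  pb : IsPB fst snd (b.pull.comp io) t

namespace Trip

variable {K I C : CosMod R} {Z B A : SS} (T : Trip R K I C Z B A)

theorem b_inj : T.b.Inj := fun p x y h => by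
  have := T.inj p (a₁ := Sum.inl x) (a₂ := Sum.inl y) h
  exact Sum.inl.inj this

theorem a_inj : T.a.Inj := fun p x y h => by
  have := T.inj p (a₁ := Sum.inr x) (a₂ := Sum.inr y) h
  exact Sum.inr.inj this

/-- extension of functions from `B` and `A` -/
theorem ext_fun {p : ℕ} (β : (SS.F R B).obj p) (α : (SS.F R A).obj p) :
    ∃ z : (SS.F R Z).obj p, T.b.pull.app p z = β ∧ T.a.pull.app p z = α := by
  obtain ⟨z, hz⟩ := T.inj.pull_surjective (R := R) p (Sum.elim β α)
  exact ⟨z, funext fun x => congrFun hz (Sum.inl x), funext fun x => congrFun hz (Sum.inr x)⟩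

/-- `K₀` -/
abbrev K₀ : CosMod R := pbCos (T.b.pull (R := R)) T.t

/-- `K → K₀` -/
def toK₀ : Hom K T.K₀ where
  app p :=
    { toFun := fun x => ⟨(T.io.app p (T.fst.app p x), T.snd.app p x), T.pb.comm p x⟩
      map_add' := fun x y => by
        apply Subtype.ext
        apply Prod.ext
        · show T.io.app p (T.fst.app p (x + y)) = T.io.app p _ + T.io.app p _
          rw [map_add, map_add]
        · exact map_add _ _ _
      map_smul' := fun r x => by
        apply Subtype.ext
        apply Prod.ext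
        · show T.io.app p (T.fst.app p (r • x)) = r • T.io.app p _
          rw [map_smul, map_smul]
        · exact map_smul _ _ _ }
  nat {p q} f x := by
    apply Subtype.ext
    apply Prod.ext
    · show T.io.app q (T.fst.app q (K.map f x)) = (SS.F R Z).map f (T.io.app p (T.fst.app p x))
      rw [T.fst.nat, T.io.nat]
    · exact T.snd.nat f x

/-- `K₀ → F(A)/constants` -/
def K₀Q : Hom T.K₀ (FQ R A) := (toFQ R A).comp (T.a.pull.comp (pbFst _ _))

theorem K₀Q_app {p : ℕ} (x : T.K₀.obj p) :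
    T.K₀Q.app p x = (toFQ R A).app p (T.a.pull.app p x.1.1) := rfl

/-- `0 → K → K₀ → F(A)/constants → 0` -/
def s1 : SES K T.K₀ (FQ R A) where
  i := T.toK₀
  p := T.K₀Q
  inj p := by
    rw [injective_iff_map_eq_zero]
    intro x hx
    have h1 : T.io.app p (T.fst.app p x) = 0 := congrArg (fun y : T.K₀.obj p => y.1.1) hx
    have h2 : T.snd.app p x = 0 := congrArg (fun y : T.K₀.obj p => y.1.2) hx
    refine T.pb.inj p x (T.io_inj p ?_) h2
    rw [h1, map_zero]
  surj p x := by
    obtain ⟨α, rfl⟩ := Submodule.mkQ_surjective _ x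
    obtain ⟨z, hb, ha⟩ := T.ext_fun (0 : (SS.F R B).obj p) α
    have hz : T.b.pull.app p z = T.t.app p 0 := by rw [hb, map_zero]
    refine ⟨⟨(z, 0), hz⟩, ?_⟩
    show Submodule.mkQ _ (T.a.pull.app p z) = _
    rw [ha]
  pi p x := toFQ_eq_zero.2 fun y z => T.io_cst p _ y z
  ex p x hx := by
    have h1 := toFQ_eq_zero.1 hx
    obtain ⟨z', hz'⟩ := T.io_ex p x.1.1 (fun y z => h1 y z)
    obtain ⟨y, hy1, hy2⟩ := T.pb.ex p z' x.1.2 (by
      show T.b.pull.app p (T.io.app p z') = _
      rw [hz']; exact x.2)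
    refine ⟨y, Subtype.ext (Prod.ext ?_ hy2)⟩
    show T.io.app p (T.fst.app p y) = _
    rw [hy1, hz']

/-- `0 → F(Z, B) → K₀ → C → 0` -/
def s2 : SES (relCos R T.b) T.K₀ C where
  i :=
    { app := fun p =>
        { toFun := fun z => ⟨(z.1, 0), by
            show T.b.pull.app p z.1 = T.t.app p 0
            rw [map_zero]; exact z.2⟩
          map_add' := fun x y => Subtype.ext (Prod.ext rfl (add_zero _).symm)
          map_smul' := fun r x => Subtype.ext (Prod.ext rfl (smul_zero _).symm) }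
      nat := fun {p q} f x => Subtype.ext (Prod.ext rfl (map_zero (C.map f)).symm) }
  p := pbSnd _ _
  inj p x y h := Subtype.ext (congrArg (fun z : T.K₀.obj p => z.1.1) h)
  surj p w := by
    obtain ⟨z, hz⟩ := T.b_inj.pull_surjective (R := R) p (T.t.app p w)
    exact ⟨⟨(z, w), hz⟩, rfl⟩
  pi p x := rfl
  ex p x hx := by
    have hx' : x.1.2 = 0 := hx
    refine ⟨⟨x.1.1, ?_⟩, Subtype.ext (Prod.ext rfl hx'.symm)⟩
    rw [LinearMap.mem_ker]
    have h1 : T.b.pull.app p x.1.1 = T.t.app p x.1.2 := x.2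
    rw [h1, hx', map_zero]

/-- the boundary map `H^s(A) → H^(s+1)(K)` -/
noncomputable def dA (s : ℕ) : (SS.F R A).H s →ₗ[R] K.H (s + 1) :=
  (T.s1.conn s).comp ((toFQ R A).mapH s)

theorem dA_apply (s : ℕ) (x : (SS.F R A).H s) : T.dA s x = T.s1.conn s ((toFQ R A).mapH s x) := rfl

/-- the hypotheses which do not involve the minimality -/
structure Base (d D : ℕ) : Prop where
  hD : d + 2 ≤ D
  hA : SphLike R A d
  hB : ∀ j, j ≤ D → Function.Bijective ((T.b.pull (R := R)).mapH j)

namespace Base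

variable {T} {d D : ℕ} (h : T.Base d D)

/-- `H^j(B) → H^j(A)` through `H^j(Z)`, for `j ≤ D` -/
noncomputable def ev {j : ℕ} (hj : j ≤ D) : (SS.F R B).H j →ₗ[R] (SS.F R A).H j :=
  (T.a.pull.mapH j).comp (LinearEquiv.ofBijective (T.b.pull.mapH j) (h.hB j hj)).symm.toLinearMap

theorem ev_res {j : ℕ} (hj : j ≤ D) (z : (SS.F R Z).H j) :
    h.ev hj (T.b.pull.mapH j z) = T.a.pull.mapH j z := by
  show T.a.pull.mapH j ((LinearEquiv.ofBijective (T.b.pull.mapH j) (h.hB j hj)).symm _) = _
  congr 1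
  exact (LinearEquiv.ofBijective (T.b.pull.mapH j) (h.hB j hj)).symm_apply_apply z

include h in
theorem K₀Q_zero_of (hmin : ∀ x : C.H d, h.ev (by have := h.hD; omega) (T.t.mapH d x) = 0)
    (x : T.K₀.H d) : T.s1.p.mapH d x = 0 := by
  induction x using CosMod.H_ind with
  | h x =>
    have hw : x.1.1.2 ∈ C.Z d := (pbSnd T.b.pull T.t).app_mem_Z x.2
    have hz : x.1.1.1 ∈ (SS.F R Z).Z d := (pbFst T.b.pull T.t).app_mem_Z x.2
    have h1 := hmin (C.cls d ⟨_, hw⟩)
    have h2 : T.t.mapH d (C.cls d ⟨_, hw⟩) = T.b.pull.mapH d ((SS.F R Z).cls d ⟨_, hz⟩) := by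
      rw [Hom.mapH_cls, Hom.mapH_cls]
      congr 1
      exact Subtype.ext x.1.2.symm
    rw [h2, h.ev_res] at h1
    have h3 : T.s1.p.mapH d (T.K₀.cls d x) =
        (toFQ R A).mapH d (T.a.pull.mapH d ((SS.F R Z).cls d ⟨_, hz⟩)) := rfl
    rw [h3, h1, map_zero]

/-- the two exact sequences -/
def edge (hmin : ∀ x : C.H d, h.ev (by have := h.hD; omega) (T.t.mapH d x) = 0) :
    Edge K T.K₀ (relCos R T.b) C (FQ R A) d D where
  s1 := T.s1
  s2 := T.s2
  hD := h.hD
  F0 := rel_zero T.b_inj h.hB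
  Q0 _ hj := h.hA.Q0 hj
  Q1 := h.hA.Q1
  min := h.K₀Q_zero_of hmin

include h in
/-- **E8**: `H^j(K) → H^j(C)` is bijective for `j ≤ d`. -/
theorem snd_bij (hmin : ∀ x : C.H d, h.ev (by have := h.hD; omega) (T.t.mapH d x) = 0) {j : ℕ}
    (hj : j ≤ d) : Function.Bijective (T.snd.mapH j) := by
  have h1 := (h.edge hmin).edge_bij hj
  have h2 : ∀ x, (h.edge hmin).edge j x = T.snd.mapH j x := (h.edge hmin).edge_eq j
  have h3 : ⇑((h.edge hmin).edge j) = ⇑(T.snd.mapH j) := funext h2
  rwa [h3] at h1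

include h in
/-- **E8**: `H^(d+1)(K) → H^(d+1)(C)` is onto. -/
theorem snd_surj (hmin : ∀ x : C.H d, h.ev (by have := h.hD; omega) (T.t.mapH d x) = 0) :
    Function.Surjective (T.snd.mapH (d + 1)) := by
  intro x
  obtain ⟨y, rfl⟩ := (h.edge hmin).edge_surj le_rfl x
  exact ⟨y, ((h.edge hmin).edge_eq (d + 1) y).symm⟩

include h in
/-- **E8**: the boundary map of the top class of `A` is injective. -/
theorem dA_inj (hmin : ∀ x : C.H d, h.ev (by have := h.hD; omega) (T.t.mapH d x) = 0) :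
    Function.Injective (T.dA d) :=
  (h.edge hmin).conn_inj.comp h.hA.bij.1

/-- `H^(s+1)(K) → H^(s+1)(C)` kills the boundary of `H^s(A)`. -/
theorem _root_.Vale.Agent.P263.E.Trip.snd_dA (T : Trip R K I C Z B A) (s : ℕ)
    (x : (SS.F R A).H s) : T.snd.mapH (s + 1) (T.dA s x) = 0 := by
  have h1 : T.s1.i.mapH (s + 1) (T.dA s x) = 0 := (T.s1.exact_A s _).2 ⟨_, rfl⟩
  have h2 : T.snd.mapH (s + 1) (T.dA s x) = T.s2.p.mapH (s + 1) (T.s1.i.mapH (s + 1) (T.dA s x)) := by
    rw [← Hom.mapH_comp]; rfl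
  rw [h2, h1, map_zero]

include h in
/-- **E8**: the kernel of `H^(d+1)(K) → H^(d+1)(C)` is the boundary of `H^d(A)`. -/
theorem snd_ker (hmin : ∀ x : C.H d, h.ev (by have := h.hD; omega) (T.t.mapH d x) = 0)
    {x : K.H (d + 1)} (hx : T.snd.mapH (d + 1) x = 0) : ∃ y, T.dA d y = x := by
  obtain ⟨y, rfl⟩ := (h.edge hmin).edge_ker (x := x) (((h.edge hmin).edge_eq (d + 1) x).trans hx)
  obtain ⟨y, rfl⟩ := h.hA.bij.2 y
  exact ⟨y, rfl⟩

include h in
theorem dA_low {s : ℕ} (hs : s < d) (x : (SS.F R A).H s) : T.dA s x = 0 := by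
  rw [dA_apply, h.hA.Q0 hs ((toFQ R A).mapH s x), map_zero]

end Base

/-- The boundary of a class of `B` in `H(K)` is minus the boundary of its value on `A`
(elementwise). -/
theorem cls_eq_neg_dA {s : ℕ} (z : (SS.F R Z).Z s) {i : I.obj s} {w : C.obj s} {k : K.Z (s + 1)}
    (h : T.b.pull.app s (T.io.app s i) = T.b.pull.app s z.1 + T.t.app s w)
    (h1 : T.fst.app (s + 1) k = I.d s i) (h2 : T.snd.app (s + 1) k = C.d s w) :
    K.cls (s + 1) k = - T.dA s ((SS.F R A).cls s (T.a.pull.mapZ s z)) := by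
  have e : T.b.pull.app s (T.io.app s i - z.1) = T.t.app s w := by
    rw [map_sub, h, add_sub_cancel_left]
  have hz : (SS.F R Z).d s z.1 = 0 := z.2
  have hm : (toFQ R A).app s (T.a.pull.app s (T.io.app s i)) = 0 :=
    toFQ_eq_zero.2 fun u v => T.io_cst s i u v
  rw [dA_apply, Hom.mapH_cls, ← map_neg, ← map_neg]
  refine (T.s1.conn_cls (b := pbMk (T.io.app s i - z.1) w e) ?_ ?_).symm
  · show (toFQ R A).app s (T.a.pull.app s (T.io.app s i - z.1)) = _
    rw [map_sub, map_sub, hm, zero_sub]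
    rfl
  · apply pb_ext
    · rw [Hom.app_d, pbFst_mk, map_sub, hz, sub_zero, ← T.io.app_d, ← h1]
      rfl
    · rw [Hom.app_d, pbSnd_mk, ← h2]
      rfl

/-- **E8**: the connecting map of `0 → K → M → F(B) → 0` (`M = I × C`). -/
theorem Base.conn_B {T : Trip R K I C Z B A} {d D : ℕ} (h : T.Base d D) {M : CosMod R}
    (S : SES K M (SS.F R B)) (pi : Hom M I) (pc : Hom M C)
    (hp : ∀ n m, S.p.app n m = T.b.pull.app n (T.io.app n (pi.app n m)) - T.t.app n (pc.app n m))
    (hi : ∀ n k, pi.app n (S.i.app n k) = T.fst.app n k)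
    (hc : ∀ n k, pc.app n (S.i.app n k) = T.snd.app n k) {s : ℕ} (hs : s ≤ D)
    (x : (SS.F R B).H s) : S.conn s x = - T.dA s (h.ev hs x) := by
  obtain ⟨z, rfl⟩ := (h.hB s hs).2 x
  rw [h.ev_res]
  induction z using CosMod.H_ind with
  | h z =>
    obtain ⟨m, k, hm, hk, hconn⟩ := S.conn_exists s (T.b.pull.mapZ s z)
    rw [Hom.mapH_cls, Hom.mapH_cls, hconn]
    refine T.cls_eq_neg_dA z (i := pi.app s m) (w := pc.app s m) ?_ ?_ ?_
    · have h1 := hp s m
      rw [hm] at h1
      have h2 : T.b.pull.app s z.1 = T.b.pull.app s (T.io.app s (pi.app s m)) -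
        T.t.app s (pc.app s m) := h1
      rw [h2, sub_add_cancel]
    · rw [← hi, hk, pi.app_d]
    · rw [← hc, hk, pc.app_d]

theorem Base.conn_B_low {T : Trip R K I C Z B A} {d D : ℕ} (h : T.Base d D) {M : CosMod R}
    (S : SES K M (SS.F R B)) (pi : Hom M I) (pc : Hom M C)
    (hp : ∀ n m, S.p.app n m = T.b.pull.app n (T.io.app n (pi.app n m)) - T.t.app n (pc.app n m))
    (hi : ∀ n k, pi.app n (S.i.app n k) = T.fst.app n k)
    (hc : ∀ n k, pc.app n (S.i.app n k) = T.snd.app n k) {s : ℕ} (hs : s < d)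
    (x : (SS.F R B).H s) : S.conn s x = 0 := by
  rw [h.conn_B S pi pc hp hi hc (by have := h.hD; omega) x, h.dA_low hs, neg_zero]

/-! ### the class `ι` -/

/-- the class `ι ∈ H^(d+1)(K)`; `fund` is evaluation on the fundamental class of `A` -/
noncomputable def iota {d : ℕ} (fund : (SS.F R A).H d ≃ₗ[R] R) : K.H (d + 1) :=
  T.dA d (fund.symm 1)

theorem dA_eq {d : ℕ} (fund : (SS.F R A).H d ≃ₗ[R] R) (x : (SS.F R A).H d) :
    T.dA d x = fund x • T.iota fund := by
  rw [iota, ← map_smul, ← map_smul, smul_eq_mul, mul_one, LinearEquiv.symm_apply_apply]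

theorem snd_iota {d : ℕ} (fund : (SS.F R A).H d ≃ₗ[R] R) : T.snd.mapH (d + 1) (T.iota fund) = 0 :=
  T.snd_dA d _

namespace Base

variable {T} {d D : ℕ} (h : T.Base d D) (fund : (SS.F R A).H d ≃ₗ[R] R)

include h in
theorem smul_iota_inj (hmin : ∀ x : C.H d, h.ev (by have := h.hD; omega) (T.t.mapH d x) = 0)
    {r : R} (hr : r • T.iota fund = 0) : r = 0 := by
  have h1 : T.dA d (fund.symm r) = 0 := by
    rw [T.dA_eq fund, LinearEquiv.apply_symm_apply, hr]
  have h2 := h.dA_inj hmin (h1.trans (map_zero _).symm)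
  rwa [LinearEquiv.map_eq_zero_iff] at h2

include h in
theorem iota_ne [Nontrivial R]
    (hmin : ∀ x : C.H d, h.ev (by have := h.hD; omega) (T.t.mapH d x) = 0) :
    T.iota fund ≠ 0 := fun h0 => one_ne_zero (α := R) (h.smul_iota_inj fund hmin (by
      rw [h0, smul_zero]))

include h in
theorem snd_ker_iota (hmin : ∀ x : C.H d, h.ev (by have := h.hD; omega) (T.t.mapH d x) = 0)
    {x : K.H (d + 1)} (hx : T.snd.mapH (d + 1) x = 0) : ∃ r : R, x = r • T.iota fund := by
  obtain ⟨y, rfl⟩ := h.snd_ker hmin hx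
  exact ⟨_, T.dA_eq fund y⟩

include h in
/-- **E8**: the connecting map `H^d(B) → H^(d+1)(K)` is the evaluation on the class of `A`. -/
theorem conn_B_top {M : CosMod R}
    (S : SES K M (SS.F R B)) (pi : Hom M I) (pc : Hom M C)
    (hp : ∀ n m, S.p.app n m = T.b.pull.app n (T.io.app n (pi.app n m)) - T.t.app n (pc.app n m))
    (hi : ∀ n k, pi.app n (S.i.app n k) = T.fst.app n k)
    (hc : ∀ n k, pc.app n (S.i.app n k) = T.snd.app n k)
    (x : (SS.F R B).H d) :
    S.conn d x = - (fund (h.ev (by have := h.hD; omega) x) • T.iota fund) := by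
  rw [h.conn_B S pi pc hp hi hc (by have := h.hD; omega) x, T.dA_eq fund]

end Base

end Trip

end Vale.Agent.P263.E
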